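import Vale.Agent.P205K.Base

/-! Interface definitions (helper2; split off by helper95): `AOut`, `Met`. -/

open Complex ComplexConjugate
open scoped ContDiff

namespace P205T.K

/-- output of the analysis block: for `k` large and all `κ ∈ (0, C/k]` a family (parameter `A`) of solutions. -/
def AOut (p h : ℝ) (w : ℂ → ℝ) (e : ℝ) (k : ℕ) (κ : ℝ) (α : ℝ → ℂ → ℝ) (Z : ℝ → ℂ → ℂ) (c : ℝ → ℝ) : Prop :=
  ContinuousOn c (Set.Icc (3/4) (9/2)) ∧ ∀ A ∈ Set.Icc (3/4 : ℝ) (9/2),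
    ContDiff ℝ ∞ (α A) ∧ ContDiff ℝ ∞ (Z A) ∧ (∀ z, α A (z + p) = α A z) ∧ (∀ z, α A (sig h z) = α A z) ∧
    (∀ z, Z A (z + p) = Z A z + p) ∧ (∀ z, Z A (sig h z) = - conj (Z A z) + Complex.I * (c A : ℂ)) ∧
    |c A - h| * k ≤ e ∧ (∀ z, |α A z| ≤ 1) ∧
    -- small gradients: everything close to the identity
    (∀ z v, ‖fderiv ℝ (Z A) z v - v‖ ≤ ‖v‖ / 10) ∧
    (∀ z, dlt p k κ A ^ 2 * Real.exp (2 * (lamF p k κ A w (α A) (Z A) z - w z))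
      * (dx (lamF p k κ A w (α A) (Z A)) z ^ 2 + dy (lamF p k κ A w (α A) (Z A)) z ^ 2) ≤ 1/10) ∧
    -- curvature equation up to a constant
    (∃ c₁ : ℝ, ∀ z, E1F (dlt p k κ A ^ 2) w (α A) (lamF p k κ A w (α A) (Z A)) z
      * PX κ A (KK p k * (Z A z).re) ^ 3 = c₁) ∧
    -- conformality: `m` is conformal to `|dZ|²`
    (∃ f : ℂ → ℝ, (∀ z, 0 < f z) ∧ ∀ z (v : ℂ),
      kE (dlt p k κ A ^ 2) w (α A) (lamF p k κ A w (α A) (Z A)) z * v.re ^ 2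
        + 2 * kF (dlt p k κ A ^ 2) w (α A) (lamF p k κ A w (α A) (Z A)) z * v.re * v.im
        + kG (dlt p k κ A ^ 2) w (α A) (lamF p k κ A w (α A) (Z A)) z * v.im ^ 2
        = f z * ‖fderiv ℝ (Z A) z v‖ ^ 2) ∧
    -- normalization: if `m = c₂ |dZ|²` with a constant `c₂` then `c₂ = 1`
    (∀ c₂ : ℝ, (∀ z (v : ℂ),
      kE (dlt p k κ A ^ 2) w (α A) (lamF p k κ A w (α A) (Z A)) z * v.re ^ 2
        + 2 * kF (dlt p k κ A ^ 2) w (α A) (lamF p k κ A w (α A) (Z A)) z * v.re * v.im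
        + kG (dlt p k κ A ^ 2) w (α A) (lamF p k κ A w (α A) (Z A)) z * v.im ^ 2
        = c₂ * ‖fderiv ℝ (Z A) z v‖ ^ 2) → c₂ = 1)

/-- the metric identity `l²|dz|² = dR² + ρ²|dZ|²`, `R = δ exp λ`, `ρ = exp (w + α)` -/
def Met (p : ℝ) (k : ℕ) (κ A : ℝ) (w α : ℂ → ℝ) (Z : ℂ → ℂ) : Prop :=
  ∀ z v : ℂ, Real.exp (2 * w z) * ‖v‖ ^ 2
    = dlt p k κ A ^ 2 * Real.exp (2 * lamF p k κ A w α Z z) * (fderiv ℝ (lamF p k κ A w α Z) z v) ^ 2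
      + Real.exp (2 * (w z + α z)) * ‖fderiv ℝ Z z v‖ ^ 2

end P205T.K
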