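import Vale.Agent.P205K.Ev2
import Vale.Agent.P205K.IDefs

/-! Module ANA: `klein_analysis` (helper2). -/

open Complex ComplexConjugate
open scoped ContDiff

namespace P205T.K

theorem ANA_bb_cont {p : ℝ} {k : ℕ} {κ : ℝ} {q : ℝ → Q} {s : Set ℝ}
    (hr : ∀ A ∈ s, (q A).2.2 = rpar p k κ A) (hc : ContinuousOn (fun A => (q A).1) s) :
    ContinuousOn (fun A => bb (q A)) s := by
  have h1 : Continuous fun c : V => c ((0 : ℤ), (0 : ℤ)) :=
    (continuous_apply ((0 : ℤ), (0 : ℤ))).comp lp.uniformContinuous_coe.continuous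
  have h2 : ContinuousOn (fun A => (√(1 / (k : ℝ))) ^ 2 *
      (((q A).1 1) ((0 : ℤ), (0 : ℤ))).re) s := by
    refine continuousOn_const.mul ?_
    refine Complex.continuous_re.comp_continuousOn ?_
    refine h1.comp_continuousOn ?_
    exact (continuous_apply (1 : Fin 4)).comp_continuousOn hc
  refine h2.congr fun A hA => ?_
  unfold bb ee
  rw [hr A hA]
  simp [rpar]

theorem klein_analysis (p h : ℝ) (hp : 0 < p) (hh : 0 < h) (w : ℂ → ℝ) (hw : ContDiff ℝ ∞ w)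
    (h1 : ∀ z, w (z + p) = w z) (h2 : ∀ z, w (sig h z) = w z) (C e : ℝ) (hC : 0 < C) (he : 0 < e) :
    ∃ k₀ : ℕ, ∀ k : ℕ, k₀ ≤ k → ∀ κ : ℝ, 0 < κ → κ * k ≤ C → ∃ α Z c, AOut p h w e k κ α Z c := by
  obtain ⟨C₁, hC₁, ka, hka⟩ := sol_exists p h hp hh w hw h1 h2 C hC
  obtain ⟨κ₀, hκ₀, hPX⟩ := PX_pos
  obtain ⟨kb, hkb⟩ := small_bounds p h hp hh C₁ e hC₁ he
  refine ⟨max (max ka kb) (⌈C / κ₀⌉₊ + 1), fun k hk κ hκ hκC => ?_⟩
  have hk1 : ka ≤ k := (le_max_left _ _).trans ((le_max_left _ _).trans hk)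
  have hk2 : kb ≤ k := (le_max_right _ _).trans ((le_max_left _ _).trans hk)
  have hk3 : ⌈C / κ₀⌉₊ + 1 ≤ k := (le_max_right _ _).trans hk
  have hκle : κ ≤ κ₀ := by
    have a1 : C / κ₀ ≤ k := (Nat.le_ceil _).trans (by exact_mod_cast (Nat.le_succ _).trans hk3)
    have a2 : (0 : ℝ) < k := by
      have : 0 < k := lt_of_lt_of_le (Nat.succ_pos _) hk3
      exact_mod_cast this
    rw [div_le_iff₀ hκ₀] at a1
    have a3 : κ * k ≤ κ₀ * k := by linarith
    exact le_of_mul_le_mul_right a3 a2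
  obtain ⟨q, hq, hqc⟩ := hka k hk1 κ hκ hκC
  have hP : ∀ A ∈ Set.Icc (3/4 : ℝ) (9/2), ∀ X, 1/2 ≤ PX κ A X := fun A hA X =>
    (hPX κ hκ hκle A hA X).1
  refine ⟨fun A => fal (Lr p h hp hh) (q A), fun A => fZ (Lr p h hp hh) (q A),
    fun A => h * (1 - 2 * bb (q A)), ?_, fun A hA => ?_⟩
  · have := ANA_bb_cont (fun A hA => (hq A hA).r) hqc
    exact continuousOn_const.mul (continuousOn_const.sub (continuousOn_const.mul this))
  · have S := hq A hA
    have hPA := hP A hA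
    obtain ⟨b1, b2, b3, b4, b5⟩ := hkb k hk2 κ A w (q A) hw hPA S
    refine ⟨fal_smooth S, fZ_smooth S, fun z => (fal_per S z).1, fun z => (fal_per S z).2,
      fun z => fZ_per S z, fun z => fZ_sig S z, b1, b2, b3, b5, E1_const S hw hPA,
      ⟨fun z => Real.exp (-2 * fal (Lr p h hp hh) (q A) z) *
        (1 - tauF (dlt p k κ A ^ 2) w (lam p h hp hh k κ A w (q A)) z *
          (dx (lam p h hp hh k κ A w (q A)) z ^ 2 + dy (lam p h hp hh k κ A w (q A)) z ^ 2) / 2) /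
        (‖ev (Lr p h hp hh) z (Zz (Lr p h hp hh) (q A))‖ ^ 2 +
          ‖ev (Lr p h hp hh) z (ee (q A) • (q A).1 1)‖ ^ 2), fun z => ?_, fun z v => ?_⟩, ?_⟩
    · have c1 := b4 z
      have c2 := b5 z
      have c3 : 0 < ‖ev (Lr p h hp hh) z (Zz (Lr p h hp hh) (q A))‖ ^ 2 +
          ‖ev (Lr p h hp hh) z (ee (q A) • (q A).1 1)‖ ^ 2 := by positivity
      refine div_pos (mul_pos (Real.exp_pos _) ?_) c3
      linarith
    · have c1 := b4 z
      have c3 : 0 < ‖ev (Lr p h hp hh) z (Zz (Lr p h hp hh) (q A))‖ ^ 2 +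
          ‖ev (Lr p h hp hh) z (ee (q A) • (q A).1 1)‖ ^ 2 := by positivity
      rw [fZ_fderiv S z v]
      exact conf_alg _ _ _ _ _ _ c3 (conf_eq S hw hPA z) v
    · intro c₂ hc₂
      exact normalization S hw hPA c₂ b4 hc₂

end P205T.K
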