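import Vale.Agent.P205K.PolId

/-! # P205K, block P: the profile (module PROF; statement helper95)

`y = sin² X`, `a = cos X √U(y)`, `b = ν sin X √V(y)`, `ν = √(1-κ)`; `a² = 1 - v`, `b² = ν² v` (`UP_id`, `VP_id`),
`a' = - sin X v'(y) / √U`, `b' = ν cos X v'(y) / √V` (because `((1-y)U)' = - v'`, `(yV)' = v'`);
`a'² + b'² = v'² (y V + ν² (1-y) U) / (U V) = v'² (v + ν² (1 - v)) / (U V)`.
`s(X) = sin X √(κ r / (1 - κ v)) / (U V)`, so `s² = κ y r / ((U V)² (1 - κ v))`;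
`f' = ν v s`, `g' = - (1 - v) s` (`f X = ∫ 0..X`).  Then `ν a² f' + b² g' = 0` and
`a² f'² + b² g'² = ν² v (1 - v) s² = ν² y (1-y) U V s²`;
(P2): `μ² = ν² cA`, `P = 1 - κ v`, `P' = - 2 κ v' sin X cos X`: multiply by `U V P` and use the identity.
`s` is odd and `2π` periodic, `v` even: `f, g` are even, and `2π` periodic because `f(X + 2π) - f(X)` is constant `= 0`
(value at `X = -π`). -/

open scoped ContDiff

namespace P205T.K

theorem prof_int (φ : ℝ → ℝ) (hφ : ContDiff ℝ ∞ φ) (hodd : ∀ x, φ (-x) = - φ x)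
    (hper : ∀ x, φ (x + 2 * Real.pi) = φ x) :
    ∃ f : ℝ → ℝ, ContDiff ℝ ∞ f ∧ (∀ X, deriv f X = φ X) ∧ (∀ X, f (-X) = f X) ∧
      (∀ X, f (X + 2 * Real.pi) = f X) := by
  have hc : Continuous φ := hφ.continuous
  have hd : ∀ X, HasDerivAt (fun X => ∫ t in (0 : ℝ)..X, φ t) (φ X) X := fun X =>
    (hc.integral_hasStrictDerivAt 0 X).hasDerivAt
  have hde : deriv (fun X => ∫ t in (0 : ℝ)..X, φ t) = φ := by
    funext X
    exact (hd X).deriv
  refine ⟨fun X => ∫ t in (0 : ℝ)..X, φ t, ?_, fun X => (hd X).deriv, fun X => ?_, fun X => ?_⟩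
  · rw [contDiff_infty_iff_deriv]
    refine ⟨fun X => (hd X).differentiableAt, ?_⟩
    rw [hde]
    exact hφ
  · have h1 : ∫ t in (0 : ℝ)..X, φ (-t) = ∫ t in (-X)..(-0 : ℝ), φ t :=
      intervalIntegral.integral_comp_neg φ
    have h2 : ∫ t in (0 : ℝ)..X, φ (-t) = - ∫ t in (0 : ℝ)..X, φ t := by
      rw [← intervalIntegral.integral_neg]
      exact intervalIntegral.integral_congr fun t _ => hodd t
    have h3 : ∫ t in (-X)..(0 : ℝ), φ t = - ∫ t in (0 : ℝ)..(-X), φ t :=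
      intervalIntegral.integral_symm 0 (-X)
    rw [h2, neg_zero, h3] at h1
    exact (neg_injective h1).symm
  · have hp : Function.Periodic φ (2 * Real.pi) := hper
    have h1 : ∫ t in X..(X + 2 * Real.pi), φ t = ∫ t in (-Real.pi)..(-Real.pi + 2 * Real.pi), φ t :=
      hp.intervalIntegral_add_eq X (-Real.pi)
    have h2 : ∫ t in (-Real.pi)..Real.pi, φ t = 0 := by
      have e1 : ∫ t in (-Real.pi)..Real.pi, φ (-t) = ∫ t in (-Real.pi)..(-(-Real.pi)), φ t :=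
        intervalIntegral.integral_comp_neg φ
      have e2 : ∫ t in (-Real.pi)..Real.pi, φ (-t) = - ∫ t in (-Real.pi)..Real.pi, φ t := by
        rw [← intervalIntegral.integral_neg]
        exact intervalIntegral.integral_congr fun t _ => hodd t
      rw [e2, neg_neg] at e1
      linarith
    have h3 : -Real.pi + 2 * Real.pi = Real.pi := by ring
    rw [h3, h2] at h1
    change ∫ t in (0 : ℝ)..(X + 2 * Real.pi), φ t = ∫ t in (0 : ℝ)..X, φ t
    rw [← intervalIntegral.integral_add_adjacent_intervals (hc.intervalIntegrable 0 X)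
      (hc.intervalIntegrable X (X + 2 * Real.pi)), h1, add_zero]

theorem prof_UPd (κ A y : ℝ) : HasDerivAt (UP κ A)
    ((1 - cA κ A) + 2 * (1 - cA κ A - cB κ A) * y + 3 * cD κ A * y ^ 2) y := by
  unfold UP
  have h1 := ((hasDerivAt_id y).const_mul (1 - cA κ A))
  have h2 := ((hasDerivAt_pow 2 y).const_mul (1 - cA κ A - cB κ A))
  have h3 := ((hasDerivAt_pow 3 y).const_mul (cD κ A))
  refine (((h1.const_add 1).add h2).add h3).congr_deriv ?_
  push_cast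
  ring

theorem prof_VPd (κ A y : ℝ) : HasDerivAt (VP κ A)
    (cB κ A + 2 * cC κ A * y + 3 * cD κ A * y ^ 2) y := by
  unfold VP
  have h1 := ((hasDerivAt_id y).const_mul (cB κ A))
  have h2 := ((hasDerivAt_pow 2 y).const_mul (cC κ A))
  have h3 := ((hasDerivAt_pow 3 y).const_mul (cD κ A))
  refine (((h1.const_add (cA κ A)).add h2).add h3).congr_deriv ?_
  push_cast
  ring

theorem prof_vPd (κ A y : ℝ) : HasDerivAt (vP κ A) (vP' κ A y) y := by
  unfold vP vP'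
  have h0 := ((hasDerivAt_id y).const_mul (cA κ A))
  have h1 := ((hasDerivAt_pow 2 y).const_mul (cB κ A))
  have h2 := ((hasDerivAt_pow 3 y).const_mul (cC κ A))
  have h3 := ((hasDerivAt_pow 4 y).const_mul (cD κ A))
  refine (((h0.add h1).add h2).add h3).congr_deriv ?_
  push_cast
  ring

theorem prof_sin (X : ℝ) : HasDerivAt (fun X => Real.sin X ^ 2) (2 * Real.sin X * Real.cos X) X := by
  refine ((Real.hasDerivAt_sin X).pow 2).congr_deriv ?_
  push_cast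
  ring

theorem prof_mem (X : ℝ) : Real.sin X ^ 2 ∈ Set.Icc (0 : ℝ) 1 :=
  ⟨sq_nonneg _, Real.sin_sq_le_one X⟩

theorem prof_smooth_sin : ContDiff ℝ ∞ (fun X : ℝ => Real.sin X ^ 2) :=
  (Real.contDiff_sin.of_le le_top).pow 2

theorem prof_U (κ A : ℝ) : ContDiff ℝ ∞ (UP κ A) := by
  unfold UP; fun_prop

theorem prof_V (κ A : ℝ) : ContDiff ℝ ∞ (VP κ A) := by
  unfold VP; fun_prop

theorem prof_v (κ A : ℝ) : ContDiff ℝ ∞ (vP κ A) := by
  unfold vP; fun_prop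

theorem prof_alg (κ v w y U V P r a s2 : ℝ) (hP : P = 1 - κ * v) (hU : (1 - y) * U = 1 - v)
    (hV : y * V = v) (hid : a * U * V * P - w ^ 2 = κ * (y ^ 2 * (1 - y) * r))
    (U0 : U ≠ 0) (V0 : V ≠ 0) (P0 : P ≠ 0) (hs : s2 = y * (κ * r) / (P * (U * V) ^ 2)) :
    y * w ^ 2 / U + (1 - κ) * (1 - y) * w ^ 2 / V + (1 - v) * ((1 - κ) * v ^ 2 * s2) +
      (1 - κ) * v * ((1 - v) ^ 2 * s2) = (1 - κ) * a + κ ^ 2 * w ^ 2 * y * (1 - y) / P := by
  have e1 : (1 - v) * ((1 - κ) * v ^ 2 * s2) + (1 - κ) * v * ((1 - v) ^ 2 * s2) =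
      (1 - κ) * (a * U * V * P - w ^ 2) / (P * U * V) := by
    calc _ = (1 - κ) * v * (1 - v) * s2 := by ring
      _ = (1 - κ) * (y * V) * ((1 - y) * U) * s2 := by rw [hU, hV]
      _ = (1 - κ) * (κ * (y ^ 2 * (1 - y) * r)) / (P * U * V) := by
          rw [hs]; field_simp
      _ = _ := by rw [hid]
  have e2 : y * w ^ 2 / U + (1 - κ) * (1 - y) * w ^ 2 / V +
      (1 - κ) * (a * U * V * P - w ^ 2) / (P * U * V) =
      (1 - κ) * a + κ ^ 2 * w ^ 2 * y * (1 - y) / P := by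
    have key : w ^ 2 * (P * (y * V) + (1 - κ) * P * ((1 - y) * U) - (1 - κ) -
        κ ^ 2 * (y * V) * ((1 - y) * U)) = 0 := by
      rw [hV, hU, hP]; ring
    field_simp
    linear_combination key
  linarith [e1, e2]

theorem prof_exists (κ A : ℝ) (hκ : 0 < κ) (hκ1 : κ ≤ 1 / 2) (hA : A ∈ Set.Icc (3/4 : ℝ) (9/2)) (r : ℝ → ℝ)
    (hr : ContDiff ℝ ⊤ r)
    (hid : ∀ y, cA κ A * UP κ A y * VP κ A y * (1 - κ * vP κ A y) - vP' κ A y ^ 2
      = κ * (y ^ 2 * (1 - y) * r y))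
    (hpos : ∀ y ∈ Set.Icc (0 : ℝ) 1, 0 < UP κ A y ∧ 0 < VP κ A y ∧ 0 < 1 - κ * vP κ A y ∧ 0 < r y) :
    ∃ a b f g : ℝ → ℝ, ContDiff ℝ ∞ a ∧ ContDiff ℝ ∞ b ∧ ContDiff ℝ ∞ f ∧ ContDiff ℝ ∞ g ∧
      (∀ X, a X ^ 2 + b X ^ 2 = PX κ A X) ∧
      (∀ X, (1 - κ) * a X ^ 2 + b X ^ 2 = 1 - κ) ∧
      (∀ X, √(1 - κ) * a X ^ 2 * deriv f X + b X ^ 2 * deriv g X = 0) ∧
      (∀ X, deriv a X ^ 2 + deriv b X ^ 2 + a X ^ 2 * deriv f X ^ 2 + b X ^ 2 * deriv g X ^ 2
        = mu2 κ A + deriv (PX κ A) X ^ 2 / (4 * PX κ A X)) ∧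
      (∀ X, a (-X) = a X) ∧ (∀ X, b (-X) = - b X) ∧ (∀ X, f (-X) = f X) ∧ (∀ X, g (-X) = g X) ∧
      (∀ X, a (X + 2 * Real.pi) = a X) ∧ (∀ X, b (X + 2 * Real.pi) = b X) ∧
      (∀ X, f (X + 2 * Real.pi) = f X) ∧ (∀ X, g (X + 2 * Real.pi) = g X) := by
  set ν : ℝ := √(1 - κ) with hν
  have hν2 : ν ^ 2 = 1 - κ := Real.sq_sqrt (by linarith)
  have hUp : ∀ X, 0 < UP κ A (Real.sin X ^ 2) := fun X => (hpos _ (prof_mem X)).1
  have hVp : ∀ X, 0 < VP κ A (Real.sin X ^ 2) := fun X => (hpos _ (prof_mem X)).2.1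
  have hPp : ∀ X, 0 < 1 - κ * vP κ A (Real.sin X ^ 2) := fun X => (hpos _ (prof_mem X)).2.2.1
  have hrp : ∀ X, 0 < r (Real.sin X ^ 2) := fun X => (hpos _ (prof_mem X)).2.2.2
  have hUs : ContDiff ℝ ∞ (fun X => UP κ A (Real.sin X ^ 2)) := (prof_U κ A).comp prof_smooth_sin
  have hVs : ContDiff ℝ ∞ (fun X => VP κ A (Real.sin X ^ 2)) := (prof_V κ A).comp prof_smooth_sin
  have hvs : ContDiff ℝ ∞ (fun X => vP κ A (Real.sin X ^ 2)) := (prof_v κ A).comp prof_smooth_sin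
  have hrs : ContDiff ℝ ∞ (fun X => r (Real.sin X ^ 2)) :=
    (hr.of_le le_top).comp prof_smooth_sin
  have hPs : ContDiff ℝ ∞ (fun X => 1 - κ * vP κ A (Real.sin X ^ 2)) :=
    contDiff_const.sub (contDiff_const.mul hvs)
  set s : ℝ → ℝ := fun X => Real.sin X *
    (√(κ * r (Real.sin X ^ 2) / (1 - κ * vP κ A (Real.sin X ^ 2))) /
      (UP κ A (Real.sin X ^ 2) * VP κ A (Real.sin X ^ 2))) with hs
  have hss : ContDiff ℝ ∞ s := by
    refine (Real.contDiff_sin.of_le le_top).mul (ContDiff.div (ContDiff.sqrt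
      ((contDiff_const.mul hrs).div hPs fun X => (hPp X).ne') fun X => ?_) (hUs.mul hVs)
      fun X => (mul_pos (hUp X) (hVp X)).ne')
    exact (div_pos (mul_pos hκ (hrp X)) (hPp X)).ne'
  have hs2 : ∀ X, s X ^ 2 = Real.sin X ^ 2 * (κ * r (Real.sin X ^ 2)) /
      ((1 - κ * vP κ A (Real.sin X ^ 2)) *
        (UP κ A (Real.sin X ^ 2) * VP κ A (Real.sin X ^ 2)) ^ 2) := by
    intro X
    simp only [hs]
    rw [mul_pow, div_pow, Real.sq_sqrt (div_pos (mul_pos hκ (hrp X)) (hPp X)).le]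
    have h1 := (hPp X).ne'
    have h2 := (hUp X).ne'
    have h3 := (hVp X).ne'
    field_simp
  have hsodd : ∀ X, s (-X) = - s X := by
    intro X
    simp only [hs, Real.sin_neg, neg_sq]
    ring
  have hsper : ∀ X, s (X + 2 * Real.pi) = s X := by
    intro X
    simp only [hs, Real.sin_add_two_pi]
  obtain ⟨f, hf1, hf2, hf3, hf4⟩ := prof_int (fun X => ν * vP κ A (Real.sin X ^ 2) * s X)
    ((contDiff_const.mul hvs).mul hss)
    (fun X => by simp only [Real.sin_neg, neg_sq, hsodd]; ring)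
    (fun X => by simp only [Real.sin_add_two_pi, hsper])
  obtain ⟨g, hg1, hg2, hg3, hg4⟩ := prof_int (fun X => - (1 - vP κ A (Real.sin X ^ 2)) * s X)
    ((contDiff_const.sub hvs).neg.mul hss)
    (fun X => by simp only [Real.sin_neg, neg_sq, hsodd]; ring)
    (fun X => by simp only [Real.sin_add_two_pi, hsper])
  have ha : ContDiff ℝ ∞ (fun X => Real.cos X * √(UP κ A (Real.sin X ^ 2))) :=
    (Real.contDiff_cos.of_le le_top).mul (hUs.sqrt fun X => (hUp X).ne')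
  have hb : ContDiff ℝ ∞ (fun X => ν * Real.sin X * √(VP κ A (Real.sin X ^ 2))) :=
    (contDiff_const.mul (Real.contDiff_sin.of_le le_top)).mul (hVs.sqrt fun X => (hVp X).ne')
  have hcs : ∀ X, Real.cos X ^ 2 = 1 - Real.sin X ^ 2 := fun X => by
    rw [← Real.sin_sq_add_cos_sq X]; ring
  have ha2 : ∀ X, (Real.cos X * √(UP κ A (Real.sin X ^ 2))) ^ 2 =
      1 - vP κ A (Real.sin X ^ 2) := by
    intro X
    rw [mul_pow, Real.sq_sqrt (hUp X).le, hcs, UP_id]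
  have hb2 : ∀ X, (ν * Real.sin X * √(VP κ A (Real.sin X ^ 2))) ^ 2 =
      (1 - κ) * vP κ A (Real.sin X ^ 2) := by
    intro X
    rw [mul_pow, mul_pow, Real.sq_sqrt (hVp X).le, hν2, mul_assoc, VP_id]
  have hda : ∀ X, deriv (fun X => Real.cos X * √(UP κ A (Real.sin X ^ 2))) X ^ 2 =
      Real.sin X ^ 2 * vP' κ A (Real.sin X ^ 2) ^ 2 / UP κ A (Real.sin X ^ 2) := by
    intro X
    have h1 := (prof_UPd κ A (Real.sin X ^ 2)).comp X (prof_sin X)
    have h2 := (Real.hasDerivAt_cos X).mul (h1.sqrt (hUp X).ne')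
    have h3 : deriv (fun X => Real.cos X * √(UP κ A (Real.sin X ^ 2))) X = _ := h2.deriv
    rw [h3]
    set y := Real.sin X ^ 2 with hy
    set q := √(UP κ A y) with hq
    have hq2 : q ^ 2 = UP κ A y := Real.sq_sqrt (hUp X).le
    have hq0 : q ≠ 0 := (Real.sqrt_pos.mpr (hUp X)).ne'
    have hU0 : UP κ A y ≠ 0 := (hUp X).ne'
    have hid1 : (1 - y) * ((1 - cA κ A) + 2 * (1 - cA κ A - cB κ A) * y + 3 * cD κ A * y ^ 2)
        - UP κ A y = - vP' κ A y := by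
      unfold UP vP' cD cC cB mu2 cA
      ring
    have e1 : -Real.sin X * q + Real.cos X *
        (((1 - cA κ A) + 2 * (1 - cA κ A - cB κ A) * y + 3 * cD κ A * y ^ 2) *
          (2 * Real.sin X * Real.cos X) / (2 * q)) = Real.sin X * (- vP' κ A y) / q := by
      rw [← hid1, ← hq2, hy, ← hcs]
      field_simp
      ring
    calc _ = (Real.sin X * (- vP' κ A y) / q) ^ 2 := by
          rw [← e1]
          rfl
      _ = _ := by
          rw [div_pow, hq2, mul_pow, ← hy]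
          ring
  have hdb : ∀ X, deriv (fun X => ν * Real.sin X * √(VP κ A (Real.sin X ^ 2))) X ^ 2 =
      (1 - κ) * Real.cos X ^ 2 * vP' κ A (Real.sin X ^ 2) ^ 2 / VP κ A (Real.sin X ^ 2) := by
    intro X
    have h1 := (prof_VPd κ A (Real.sin X ^ 2)).comp X (prof_sin X)
    have h2 := ((Real.hasDerivAt_sin X).const_mul ν).mul (h1.sqrt (hVp X).ne')
    have h3 : deriv (fun X => ν * Real.sin X * √(VP κ A (Real.sin X ^ 2))) X = _ := h2.deriv
    rw [h3]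
    set y := Real.sin X ^ 2 with hy
    set q := √(VP κ A y) with hq
    have hq2 : q ^ 2 = VP κ A y := Real.sq_sqrt (hVp X).le
    have hq0 : q ≠ 0 := (Real.sqrt_pos.mpr (hVp X)).ne'
    have hid1 : VP κ A y + y * (cB κ A + 2 * cC κ A * y + 3 * cD κ A * y ^ 2)
        = vP' κ A y := by
      unfold VP vP'
      ring
    have e1 : ν * Real.cos X * q + ν * Real.sin X *
        ((cB κ A + 2 * cC κ A * y + 3 * cD κ A * y ^ 2) *
          (2 * Real.sin X * Real.cos X) / (2 * q)) = ν * Real.cos X * (vP' κ A y) / q := by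
      rw [← hid1, ← hq2, hy]
      field_simp
    calc _ = (ν * Real.cos X * (vP' κ A y) / q) ^ 2 := by
          rw [← e1]
          rfl
      _ = _ := by
          rw [div_pow, hq2, mul_pow, mul_pow, hν2]
  have hdP : ∀ X, deriv (PX κ A) X =
      - (κ * (vP' κ A (Real.sin X ^ 2) * (2 * Real.sin X * Real.cos X))) := by
    intro X
    have h1 := (prof_vPd κ A (Real.sin X ^ 2)).comp X (prof_sin X)
    have h2 : HasDerivAt (PX κ A) _ X := (h1.const_mul κ).const_sub 1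
    exact h2.deriv
  refine ⟨fun X => Real.cos X * √(UP κ A (Real.sin X ^ 2)),
    fun X => ν * Real.sin X * √(VP κ A (Real.sin X ^ 2)), f, g, ha, hb, hf1, hg1, fun X => ?_,
    fun X => ?_, fun X => ?_, fun X => ?_, fun X => ?_, fun X => ?_, hf3, hg3, fun X => ?_,
    fun X => ?_, hf4, hg4⟩
  · rw [ha2, hb2]; unfold PX; ring
  · rw [ha2, hb2]; ring
  · rw [ha2, hb2, hf2, hg2]
    linear_combination (1 - vP κ A (Real.sin X ^ 2)) * vP κ A (Real.sin X ^ 2) * s X * hν2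
  · have h1 := prof_alg κ (vP κ A (Real.sin X ^ 2)) (vP' κ A (Real.sin X ^ 2)) (Real.sin X ^ 2)
      (UP κ A (Real.sin X ^ 2)) (VP κ A (Real.sin X ^ 2)) (1 - κ * vP κ A (Real.sin X ^ 2))
      (r (Real.sin X ^ 2)) (cA κ A) (s X ^ 2) rfl (UP_id _ _ _) (VP_id _ _ _) (hid _)
      (hUp X).ne' (hVp X).ne' (hPp X).ne' (hs2 X)
    have h2 := (hPp X).ne'
    rw [ha2, hb2, hf2, hg2, hda, hdb, hdP, hcs]
    have e3 : (ν * vP κ A (Real.sin X ^ 2) * s X) ^ 2 =
        (1 - κ) * vP κ A (Real.sin X ^ 2) ^ 2 * s X ^ 2 := by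
      rw [mul_pow, mul_pow, hν2]
    have e4 : (- (1 - vP κ A (Real.sin X ^ 2)) * s X) ^ 2 =
        (1 - vP κ A (Real.sin X ^ 2)) ^ 2 * s X ^ 2 := by ring
    have e5 : (- (κ * (vP' κ A (Real.sin X ^ 2) * (2 * Real.sin X * Real.cos X)))) ^ 2 /
        (4 * PX κ A X) = κ ^ 2 * vP' κ A (Real.sin X ^ 2) ^ 2 * Real.sin X ^ 2 *
          (1 - Real.sin X ^ 2) / (1 - κ * vP κ A (Real.sin X ^ 2)) := by
      unfold PX
      rw [← hcs]
      field_simp
      ring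
    rw [e3, e4, e5, h1]
    unfold mu2
    ring
  · simp only [Real.cos_neg, Real.sin_neg, neg_sq]
  · simp only [Real.sin_neg, neg_sq]; ring
  · simp only [Real.cos_add_two_pi, Real.sin_add_two_pi]
  · simp only [Real.sin_add_two_pi]

end P205T.K
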