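import Vale.Agent.P205K.IDefs
import Vale.Agent.P205K.Prof

/-! # P205K, block P: assembly (module ASM; statement helper2, plan helper95)

`κ₀` from `pol_pos_id`, profile from `prof_exists`, `√(1-κ) = m/(m+1)`.  `X = K Re Z`, `φ = (K μ / m) Im Z`, `μ = √(mu2 κ A)`,
`ρ = exp (w + α)`, `δ = dlt p k κ A = 1/(K μ)`; `F₁ = δ ρ a(X) exp (i (m φ + f(X)))`, `F₂ = δ ρ b(X) exp (i (n φ + g(X)))`,
`n = m + 1`, `F = (Re F₁, Im F₁, Re F₂, Im F₂)`.  For real `A, θ`: `|d(A exp(iθ)) v|² = (dA v)² + A² (dθ v)²`, so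
`|dF v|² = δ² [ρ_v² (a²+b²) + 2 ρ ρ_v X_v (a a' + b b') + ρ² X_v² (a'² + b'² + a² f'² + b² g'²)
  + 2 ρ² φ_v X_v (m a² f' + n b² g') + ρ² φ_v² (m² a² + n² b²)]
  = δ² [P ρ_v² + ρ ρ_v X_v P' + ρ² X_v² (μ² + P'²/(4P)) + ρ² m² φ_v²]`,
which is the right side of `Met` (`exp (2λ) = ρ² P`, `λ_v = ρ_v/ρ + P' X_v/(2P)`).
Symmetries: `X(sig z) = - X(z)`, `φ(sig z) = φ(z) + π` (closing condition), `m` even, `n` odd; `X(z+p) = X + 2πk`. -/

open Complex ComplexConjugate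
open scoped ContDiff

namespace P205T.K

/-- pointwise form of the assembly: one angular function -/
theorem asm_polar {R θ : ℂ → ℝ} {z : ℂ} (hR : DifferentiableAt ℝ R z) (hθ : DifferentiableAt ℝ θ z) (v : ℂ) :
    ‖fderiv ℝ (fun z => (R z : ℂ) * Complex.exp (Complex.I * (θ z : ℂ))) z v‖ ^ 2
      = (fderiv ℝ R z v) ^ 2 + R z ^ 2 * (fderiv ℝ θ z v) ^ 2 := by
  have h1 : HasFDerivAt (fun z => (R z : ℂ)) (Complex.ofRealCLM.comp (fderiv ℝ R z)) z :=
    Complex.ofRealCLM.hasFDerivAt.comp z hR.hasFDerivAt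
  have h2 : HasFDerivAt (fun z => (θ z : ℂ)) (Complex.ofRealCLM.comp (fderiv ℝ θ z)) z :=
    Complex.ofRealCLM.hasFDerivAt.comp z hθ.hasFDerivAt
  have h3 := (h2.const_mul Complex.I).cexp
  have h4 := h1.mul h3
  have h5 : fderiv ℝ (fun z => (R z : ℂ) * Complex.exp (Complex.I * (θ z : ℂ))) z v =
      Complex.exp ((θ z : ℂ) * Complex.I) * (((fderiv ℝ R z v : ℝ) : ℂ) +
        (R z : ℂ) * (Complex.I * ((fderiv ℝ θ z v : ℝ) : ℂ))) := by
    have h6 : fderiv ℝ (fun z => (R z : ℂ) * Complex.exp (Complex.I * (θ z : ℂ))) z v =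
        (R z : ℂ) * (Complex.exp (Complex.I * (θ z : ℂ)) * (Complex.I * ((fderiv ℝ θ z v : ℝ) : ℂ))) +
        Complex.exp (Complex.I * (θ z : ℂ)) * ((fderiv ℝ R z v : ℝ) : ℂ) := by
      have h7 := congrArg (fun L => L v) h4.fderiv
      exact h7
    rw [h6, mul_comm Complex.I (θ z : ℂ)]
    ring
  rw [h5, norm_mul, Complex.norm_exp_ofReal_mul_I, one_mul, ← Complex.normSq_eq_norm_sq,
    Complex.normSq_apply]
  simp only [Complex.add_re, Complex.add_im, Complex.mul_re, Complex.mul_im, Complex.ofReal_re,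
    Complex.ofReal_im, Complex.I_re, Complex.I_im]
  ring

/-- the map into `ℝ⁴` -/
noncomputable def asmF (f₁ f₂ : ℂ → ℂ) (z : ℂ) : EuclideanSpace ℝ (Fin 4) :=
  !₂[(f₁ z).re, (f₁ z).im, (f₂ z).re, (f₂ z).im]

theorem asmF_contDiff {f₁ f₂ : ℂ → ℂ} (h1 : ContDiff ℝ ∞ f₁) (h2 : ContDiff ℝ ∞ f₂) :
    ContDiff ℝ ∞ (asmF f₁ f₂) := by
  rw [contDiff_euclidean]
  intro i
  fin_cases i
  · exact Complex.reCLM.contDiff.comp h1
  · exact Complex.imCLM.contDiff.comp h1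
  · exact Complex.reCLM.contDiff.comp h2
  · exact Complex.imCLM.contDiff.comp h2

theorem asmF_norm {f₁ f₂ : ℂ → ℂ} (h1 : ContDiff ℝ ∞ f₁) (h2 : ContDiff ℝ ∞ f₂) (z v : ℂ) :
    ‖fderiv ℝ (asmF f₁ f₂) z v‖ ^ 2 = ‖fderiv ℝ f₁ z v‖ ^ 2 + ‖fderiv ℝ f₂ z v‖ ^ 2 := by
  have hd : HasFDerivAt (asmF f₁ f₂) (fderiv ℝ (asmF f₁ f₂) z) z :=
    ((asmF_contDiff h1 h2).differentiable (by simp) z).hasFDerivAt
  have hd1 : HasFDerivAt f₁ (fderiv ℝ f₁ z) z := (h1.differentiable (by simp) z).hasFDerivAt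
  have hd2 : HasFDerivAt f₂ (fderiv ℝ f₂ z) z := (h2.differentiable (by simp) z).hasFDerivAt
  have hc : ∀ i : Fin 4, HasFDerivAt (fun x => asmF f₁ f₂ x i)
      ((EuclideanSpace.proj i : EuclideanSpace ℝ (Fin 4) →L[ℝ] ℝ).comp (fderiv ℝ (asmF f₁ f₂) z)) z :=
    fun i => (EuclideanSpace.proj i : EuclideanSpace ℝ (Fin 4) →L[ℝ] ℝ).hasFDerivAt.comp z hd
  have c0 : (fderiv ℝ (asmF f₁ f₂) z v) 0 = (fderiv ℝ f₁ z v).re := by
    have e1 := hc 0
    have e2 : HasFDerivAt (fun x => (asmF f₁ f₂ x) 0) (Complex.reCLM.comp (fderiv ℝ f₁ z)) z :=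
      Complex.reCLM.hasFDerivAt.comp z hd1
    have := congrArg (fun A => A v) (e1.unique e2)
    simpa using this
  have c1 : (fderiv ℝ (asmF f₁ f₂) z v) 1 = (fderiv ℝ f₁ z v).im := by
    have e1 := hc 1
    have e2 : HasFDerivAt (fun x => (asmF f₁ f₂ x) 1) (Complex.imCLM.comp (fderiv ℝ f₁ z)) z :=
      Complex.imCLM.hasFDerivAt.comp z hd1
    have := congrArg (fun A => A v) (e1.unique e2)
    simpa using this
  have c2 : (fderiv ℝ (asmF f₁ f₂) z v) 2 = (fderiv ℝ f₂ z v).re := by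
    have e1 := hc 2
    have e2 : HasFDerivAt (fun x => (asmF f₁ f₂ x) 2) (Complex.reCLM.comp (fderiv ℝ f₂ z)) z :=
      Complex.reCLM.hasFDerivAt.comp z hd2
    have := congrArg (fun A => A v) (e1.unique e2)
    simpa using this
  have c3 : (fderiv ℝ (asmF f₁ f₂) z v) 3 = (fderiv ℝ f₂ z v).im := by
    have e1 := hc 3
    have e2 : HasFDerivAt (fun x => (asmF f₁ f₂ x) 3) (Complex.imCLM.comp (fderiv ℝ f₂ z)) z :=
      Complex.imCLM.hasFDerivAt.comp z hd2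
    have := congrArg (fun A => A v) (e1.unique e2)
    simpa using this
  rw [EuclideanSpace.norm_sq_eq, Fin.sum_univ_four, c0, c1, c2, c3]
  simp only [Real.norm_eq_abs, sq_abs, ← Complex.normSq_eq_norm_sq, Complex.normSq_apply]
  ring

/-- one complex component -/
noncomputable def asmC (δ K s : ℝ) (w α : ℂ → ℝ) (Z : ℂ → ℂ) (a f : ℝ → ℝ) (z : ℂ) : ℂ :=
  ((δ * Real.exp (w z + α z) * a (K * (Z z).re) : ℝ) : ℂ) *
    Complex.exp (Complex.I * ((s * (Z z).im + f (K * (Z z).re) : ℝ) : ℂ))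

theorem asmC_contDiff (δ K s : ℝ) {w α : ℂ → ℝ} {Z : ℂ → ℂ} {a f : ℝ → ℝ} (hw : ContDiff ℝ ∞ w)
    (hα : ContDiff ℝ ∞ α) (hZ : ContDiff ℝ ∞ Z) (ha : ContDiff ℝ ∞ a) (hf : ContDiff ℝ ∞ f) :
    ContDiff ℝ ∞ (asmC δ K s w α Z a f) := by
  have hre : ContDiff ℝ ∞ fun z => (Z z).re := Complex.reCLM.contDiff.comp hZ
  have him : ContDiff ℝ ∞ fun z => (Z z).im := Complex.imCLM.contDiff.comp hZ
  have hX : ContDiff ℝ ∞ fun z => K * (Z z).re := contDiff_const.mul hre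
  have h1 : ContDiff ℝ ∞ fun z => δ * Real.exp (w z + α z) * a (K * (Z z).re) :=
    (contDiff_const.mul (Real.contDiff_exp.comp (hw.add hα))).mul (ha.comp hX)
  have h2 : ContDiff ℝ ∞ fun z => s * (Z z).im + f (K * (Z z).re) :=
    (contDiff_const.mul him).add (hf.comp hX)
  have h3 : ContDiff ℝ ∞ fun z => ((δ * Real.exp (w z + α z) * a (K * (Z z).re) : ℝ) : ℂ) :=
    Complex.ofRealCLM.contDiff.comp h1
  have h4 : ContDiff ℝ ∞ fun z => ((s * (Z z).im + f (K * (Z z).re) : ℝ) : ℂ) :=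
    Complex.ofRealCLM.contDiff.comp h2
  exact h3.mul (contDiff_const.mul h4).cexp

theorem asmC_norm (δ K s : ℝ) {w α : ℂ → ℝ} {Z : ℂ → ℂ} {a f : ℝ → ℝ} (hw : ContDiff ℝ ∞ w)
    (hα : ContDiff ℝ ∞ α) (hZ : ContDiff ℝ ∞ Z) (ha : ContDiff ℝ ∞ a) (hf : ContDiff ℝ ∞ f)
    (z v : ℂ) :
    ‖fderiv ℝ (asmC δ K s w α Z a f) z v‖ ^ 2 = (δ * Real.exp (w z + α z)) ^ 2 *
      (((fderiv ℝ w z v + fderiv ℝ α z v) * a (K * (Z z).re) +
          deriv a (K * (Z z).re) * (K * (fderiv ℝ Z z v).re)) ^ 2 +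
        a (K * (Z z).re) ^ 2 * (s * (fderiv ℝ Z z v).im +
          deriv f (K * (Z z).re) * (K * (fderiv ℝ Z z v).re)) ^ 2) := by
  have hwd := (hw.differentiable (by simp) z).hasFDerivAt
  have hαd := (hα.differentiable (by simp) z).hasFDerivAt
  have hZd := (hZ.differentiable (by simp) z).hasFDerivAt
  have hX : HasFDerivAt (fun z => K * (Z z).re) (K • (Complex.reCLM.comp (fderiv ℝ Z z))) z :=
    (Complex.reCLM.hasFDerivAt.comp z hZd).const_mul K
  have hY : HasFDerivAt (fun z => s * (Z z).im) (s • (Complex.imCLM.comp (fderiv ℝ Z z))) z :=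
    (Complex.imCLM.hasFDerivAt.comp z hZd).const_mul s
  have haX : HasFDerivAt (fun z => a (K * (Z z).re))
      (deriv a (K * (Z z).re) • (K • (Complex.reCLM.comp (fderiv ℝ Z z)))) z :=
    ((ha.differentiable (by simp)) (K * (Z z).re)).hasDerivAt.comp_hasFDerivAt z hX
  have hfX : HasFDerivAt (fun z => f (K * (Z z).re))
      (deriv f (K * (Z z).re) • (K • (Complex.reCLM.comp (fderiv ℝ Z z)))) z :=
    ((hf.differentiable (by simp)) (K * (Z z).re)).hasDerivAt.comp_hasFDerivAt z hX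
  have hρ : HasFDerivAt (fun z => Real.exp (w z + α z))
      (Real.exp (w z + α z) • (fderiv ℝ w z + fderiv ℝ α z)) z := (hwd.add hαd).exp
  have hR := (hρ.const_mul δ).mul haX
  have hθ := hY.add hfX
  have h1 : fderiv ℝ (fun z => δ * Real.exp (w z + α z) * a (K * (Z z).re)) z v =
      (δ * Real.exp (w z + α z)) * (deriv a (K * (Z z).re) * (K * (fderiv ℝ Z z v).re)) +
        a (K * (Z z).re) * (δ * (Real.exp (w z + α z) * (fderiv ℝ w z v + fderiv ℝ α z v))) := by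
    have := congrArg (fun L => L v) hR.fderiv
    exact this
  have h2 : fderiv ℝ (fun z => s * (Z z).im + f (K * (Z z).re)) z v =
      s * (fderiv ℝ Z z v).im + deriv f (K * (Z z).re) * (K * (fderiv ℝ Z z v).re) := by
    have := congrArg (fun L => L v) hθ.fderiv
    exact this
  have h3 := asm_polar hR.differentiableAt hθ.differentiableAt v
  have h4 : ‖fderiv ℝ (asmC δ K s w α Z a f) z v‖ ^ 2 =
      (fderiv ℝ (fun z => δ * Real.exp (w z + α z) * a (K * (Z z).re)) z v) ^ 2 +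
      (δ * Real.exp (w z + α z) * a (K * (Z z).re)) ^ 2 *
      (fderiv ℝ (fun z => s * (Z z).im + f (K * (Z z).re)) z v) ^ 2 := h3
  rw [h4, h1, h2]
  ring

theorem asm_algebra {δ ρ K μ s P P' a b a' b' f' g' u X zr zi ν : ℝ} (hK : 0 < K) (hμ : 0 < μ)
    (hδ : δ = 1 / (K * μ)) (hP : 0 < P) (hν : 0 < ν) (hs : s * ν = K * μ)
    (h0 : a ^ 2 + b ^ 2 = P) (h1 : ν ^ 2 * a ^ 2 + b ^ 2 = ν ^ 2)
    (h2 : ν * a ^ 2 * f' + b ^ 2 * g' = 0)
    (h3 : a' ^ 2 + b' ^ 2 + a ^ 2 * f' ^ 2 + b ^ 2 * g' ^ 2 = μ ^ 2 + P' ^ 2 / (4 * P))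
    (h4 : 2 * (a * a' + b * b') = P') (hX : X = K * zr) :
    (δ * ρ) ^ 2 * ((u * a + a' * X) ^ 2 + a ^ 2 * (K * μ * zi + f' * X) ^ 2) +
      (δ * ρ) ^ 2 * ((u * b + b' * X) ^ 2 + b ^ 2 * (s * zi + g' * X) ^ 2) =
    δ ^ 2 * (ρ ^ 2 * P) * (u + P' * X / P / 2) ^ 2 + ρ ^ 2 * (zr ^ 2 + zi ^ 2) := by
  have hν0 : ν ≠ 0 := hν.ne'
  have hs' : s = K * μ / ν := by
    rw [eq_div_iff hν0]
    exact hs
  have hb : b ^ 2 = ν ^ 2 * (1 - a ^ 2) := by linarith
  have e1 : (u * a + a' * X) ^ 2 + a ^ 2 * (K * μ * zi + f' * X) ^ 2 +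
      ((u * b + b' * X) ^ 2 + b ^ 2 * (s * zi + g' * X) ^ 2) =
      u ^ 2 * (a ^ 2 + b ^ 2) + u * X * (2 * (a * a' + b * b')) +
      X ^ 2 * (a' ^ 2 + b' ^ 2 + a ^ 2 * f' ^ 2 + b ^ 2 * g' ^ 2) +
      2 * zi * X * (K * μ * (a ^ 2 * f') + s * (b ^ 2 * g')) +
      zi ^ 2 * ((K * μ) ^ 2 * a ^ 2 + s ^ 2 * b ^ 2) := by ring
  have e2 : K * μ * (a ^ 2 * f') + s * (b ^ 2 * g') = 0 := by
    have : K * μ * (a ^ 2 * f') + s * (b ^ 2 * g') = s * (ν * a ^ 2 * f' + b ^ 2 * g') := by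
      rw [← hs]
      ring
    rw [this, h2, mul_zero]
  have e3 : (K * μ) ^ 2 * a ^ 2 + s ^ 2 * b ^ 2 = (K * μ) ^ 2 := by
    rw [hb, hs']
    field_simp
    ring
  have e4 : (u * a + a' * X) ^ 2 + a ^ 2 * (K * μ * zi + f' * X) ^ 2 +
      ((u * b + b' * X) ^ 2 + b ^ 2 * (s * zi + g' * X) ^ 2) =
      u ^ 2 * P + u * X * P' + X ^ 2 * (μ ^ 2 + P' ^ 2 / (4 * P)) + zi ^ 2 * (K * μ) ^ 2 := by
    rw [e1, h0, h4, h3, e2, e3]
    ring
  rw [← mul_add, e4, hX, hδ]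
  field_simp
  ring

theorem asm_per {q : ℝ → ℝ} (hq : ∀ X, q (X + 2 * Real.pi) = q X) (k : ℕ) (X : ℝ) :
    q (X + 2 * Real.pi * k) = q X := by
  induction k with
  | zero => rw [Nat.cast_zero, mul_zero, add_zero]
  | succ k ih =>
    rw [Nat.cast_succ, mul_add, mul_one, ← add_assoc, hq, ih]

/-- module ASM -/
theorem klein_assemble : ∃ κ₀ > 0, ∀ (p h : ℝ), 0 < p → 0 < h → ∀ (w : ℂ → ℝ), ContDiff ℝ ∞ w →
    (∀ z, w (z + p) = w z) → (∀ z, w (sig h z) = w z) →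
    ∀ (k m : ℕ), 0 < k → 0 < m → Even m → ∀ κ : ℝ, κ = 1 - (m : ℝ) ^ 2 / ((m : ℝ) + 1) ^ 2 → κ ≤ κ₀ →
    ∀ A ∈ Set.Icc (3/4 : ℝ) (9/2), ∀ (α : ℂ → ℝ) (Z : ℂ → ℂ) (c : ℝ), ContDiff ℝ ∞ α → ContDiff ℝ ∞ Z →
    (∀ z, α (z + p) = α z) → (∀ z, α (sig h z) = α z) → (∀ z, Z (z + p) = Z z + p) →
    (∀ z, Z (sig h z) = - conj (Z z) + Complex.I * (c : ℂ)) → Met p k κ A w α Z →
    c * (KK p k * √(mu2 κ A)) = Real.pi * m →
    ∃ F : ℂ → EuclideanSpace ℝ (Fin 4), ContDiff ℝ ∞ F ∧ (∀ z, F (z + p) = F z) ∧ (∀ z, F (sig h z) = F z) ∧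
      ∀ z v, ‖fderiv ℝ F z v‖ ^ 2 = Real.exp (2 * w z) * ‖v‖ ^ 2 := by
  obtain ⟨r, hrid, hrc, κ₀, hκ₀, hκ₀', hpos⟩ := pol_pos_id
  refine ⟨κ₀, hκ₀, ?_⟩
  intro p h hp hh w hw hwp hws k m hk hm hme κ hκ hκκ A hA α Z c hα hZ hαp hαs hZp hZs hMet hc
  have hm0 : (0 : ℝ) < m := by exact_mod_cast hm
  have hn0 : (0 : ℝ) < (m : ℝ) + 1 := by linarith
  have hν : 0 < (m : ℝ) / ((m : ℝ) + 1) := div_pos hm0 hn0
  have hκν : 1 - κ = ((m : ℝ) / ((m : ℝ) + 1)) ^ 2 := by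
    rw [hκ, div_pow]
    ring
  have hκ0 : 0 < κ := by
    have h1 : ((m : ℝ) / ((m : ℝ) + 1)) ^ 2 < 1 := by
      rw [div_pow, div_lt_one (by positivity)]
      nlinarith
    linarith
  have hsq : √(1 - κ) = (m : ℝ) / ((m : ℝ) + 1) := by
    rw [hκν, Real.sqrt_sq hν.le]
  obtain ⟨a, b, f, g, ha, hb, hf, hg, P0, P0', P1, P2, ea, eb, ef, eg, pa, pb, pf, pg⟩ :=
    prof_exists κ A hκ0 (hκκ.trans hκ₀') hA (r κ A) (hrc κ A) (hrid κ A)
      (fun y hy => hpos κ hκ0 hκκ A hA y hy)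
  have hK : 0 < KK p k := by
    have hk0 : (0 : ℝ) < k := by exact_mod_cast hk
    unfold KK
    have := Real.pi_pos
    positivity
  have hcA : 0 < cA κ A := by
    unfold cA
    have : 0 < A := lt_of_lt_of_le (by norm_num) hA.1
    positivity
  have hmu2 : 0 < mu2 κ A := by
    unfold mu2
    rw [hκν]
    positivity
  have hμ : 0 < √(mu2 κ A) := Real.sqrt_pos.2 hmu2
  have hμ2 : √(mu2 κ A) ^ 2 = mu2 κ A := Real.sq_sqrt hmu2.le
  have hPpos : ∀ X, 0 < PX κ A X := by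
    intro X
    unfold PX
    exact (hpos κ hκ0 hκκ A hA (Real.sin X ^ 2)
      ⟨sq_nonneg _, Real.sin_sq_le_one X⟩).2.2.1
  have had : Differentiable ℝ a := ha.differentiable (by simp)
  have hbd : Differentiable ℝ b := hb.differentiable (by simp)
  have hPd : ∀ X, HasDerivAt (PX κ A) (2 * (a X * deriv a X + b X * deriv b X)) X := by
    intro X
    have e : PX κ A = fun X => a X ^ 2 + b X ^ 2 := funext fun X => (P0 X).symm
    rw [e]
    have h1 := ((had X).hasDerivAt.pow 2).add ((hbd X).hasDerivAt.pow 2)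
    refine h1.congr_deriv ?_
    norm_num
    ring
  obtain ⟨s, hs⟩ : ∃ s : ℝ, s = KK p k * √(mu2 κ A) * (((m : ℝ) + 1) / m) := ⟨_, rfl⟩
  have hsν : s * ((m : ℝ) / ((m : ℝ) + 1)) = KK p k * √(mu2 κ A) := by
    rw [hs]
    field_simp
  have C1 := asmC_contDiff (dlt p k κ A) (KK p k) (KK p k * √(mu2 κ A)) hw hα hZ ha hf
  have C2 := asmC_contDiff (dlt p k κ A) (KK p k) s hw hα hZ hb hg
  refine ⟨asmF (asmC (dlt p k κ A) (KK p k) (KK p k * √(mu2 κ A)) w α Z a f)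
    (asmC (dlt p k κ A) (KK p k) s w α Z b g), asmF_contDiff C1 C2, ?_, ?_, ?_⟩
  · intro z
    have hKp : KK p k * p = 2 * Real.pi * k := by
      unfold KK
      field_simp
    have hX : KK p k * (Z (z + p)).re = KK p k * (Z z).re + 2 * Real.pi * k := by
      rw [hZp, Complex.add_re, Complex.ofReal_re, mul_add, hKp]
    have hY : (Z (z + p)).im = (Z z).im := by
      rw [hZp, Complex.add_im, Complex.ofReal_im, add_zero]
    have E1 : asmC (dlt p k κ A) (KK p k) (KK p k * √(mu2 κ A)) w α Z a f (z + p) =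
        asmC (dlt p k κ A) (KK p k) (KK p k * √(mu2 κ A)) w α Z a f z := by
      unfold asmC
      rw [hwp, hαp, hX, hY, asm_per pa, asm_per pf]
    have E2 : asmC (dlt p k κ A) (KK p k) s w α Z b g (z + p) =
        asmC (dlt p k κ A) (KK p k) s w α Z b g z := by
      unfold asmC
      rw [hwp, hαp, hX, hY, asm_per pb, asm_per pg]
    unfold asmF
    rw [E1, E2]
  · intro z
    have hX : KK p k * (Z (sig h z)).re = -(KK p k * (Z z).re) := by
      rw [hZs]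
      simp
    have hY : (Z (sig h z)).im = (Z z).im + c := by
      rw [hZs]
      simp
    have hpi : ∀ j : ℕ, Complex.exp (Complex.I * ((Real.pi * j : ℝ) : ℂ)) = (-1) ^ j := by
      intro j
      have : Complex.I * ((Real.pi * j : ℝ) : ℂ) = (j : ℂ) * ((Real.pi : ℂ) * Complex.I) := by
        push_cast
        ring
      rw [this, Complex.exp_nat_mul, Complex.exp_pi_mul_I]
    have E1 : asmC (dlt p k κ A) (KK p k) (KK p k * √(mu2 κ A)) w α Z a f (sig h z) =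
        asmC (dlt p k κ A) (KK p k) (KK p k * √(mu2 κ A)) w α Z a f z := by
      unfold asmC
      rw [hws, hαs, hX, hY, ea, ef]
      have e1 : KK p k * √(mu2 κ A) * ((Z z).im + c) + f (KK p k * (Z z).re) =
          (KK p k * √(mu2 κ A) * (Z z).im + f (KK p k * (Z z).re)) + Real.pi * m := by
        rw [← hc]
        ring
      rw [e1, Complex.ofReal_add, mul_add, Complex.exp_add, hpi, hme.neg_one_pow, mul_one]
    have E2 : asmC (dlt p k κ A) (KK p k) s w α Z b g (sig h z) =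
        asmC (dlt p k κ A) (KK p k) s w α Z b g z := by
      unfold asmC
      rw [hws, hαs, hX, hY, eb, eg]
      have e1 : s * ((Z z).im + c) + g (KK p k * (Z z).re) =
          (s * (Z z).im + g (KK p k * (Z z).re)) + Real.pi * ((m + 1 : ℕ) : ℝ) := by
        have e2 : s * c = Real.pi * ((m + 1 : ℕ) : ℝ) := by
          rw [hs]
          have e3 : KK p k * √(mu2 κ A) * (((m : ℝ) + 1) / m) * c =
              (c * (KK p k * √(mu2 κ A))) * (((m : ℝ) + 1) / m) := by ring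
          rw [e3, hc]
          push_cast
          field_simp
        rw [mul_add, e2]
        ring
      have e4 : ((-1 : ℂ)) ^ (m + 1) = -1 := by
        rw [pow_succ, hme.neg_one_pow, one_mul]
      rw [e1, Complex.ofReal_add, mul_add, Complex.exp_add, hpi, e4]
      push_cast
      ring
    unfold asmF
    rw [E1, E2]
  · intro z v
    rw [asmF_norm C1 C2, asmC_norm _ _ _ hw hα hZ ha hf, asmC_norm _ _ _ hw hα hZ hb hg, hMet z v]
    have hwd := (hw.differentiable (by simp) z).hasFDerivAt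
    have hαd := (hα.differentiable (by simp) z).hasFDerivAt
    have hZd := (hZ.differentiable (by simp) z).hasFDerivAt
    have hX : HasFDerivAt (fun z => KK p k * (Z z).re)
        (KK p k • (Complex.reCLM.comp (fderiv ℝ Z z))) z :=
      (Complex.reCLM.hasFDerivAt.comp z hZd).const_mul (KK p k)
    have hPX : HasFDerivAt (fun z => PX κ A (KK p k * (Z z).re))
        (deriv (PX κ A) (KK p k * (Z z).re) •
          (KK p k • (Complex.reCLM.comp (fderiv ℝ Z z)))) z := by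
      have := (hPd (KK p k * (Z z).re)).differentiableAt.hasDerivAt
      have h2 := HasDerivAt.comp_hasFDerivAt (h₂ := PX κ A) z this hX
      exact h2
    have hlog := (hPX.log (hPpos _).ne').mul_const (2⁻¹ : ℝ)
    have hlam := (hwd.add hαd).add hlog
    have hdl : fderiv ℝ (lamF p k κ A w α Z) z v = (fderiv ℝ w z v + fderiv ℝ α z v) +
        2⁻¹ * ((PX κ A (KK p k * (Z z).re))⁻¹ * (deriv (PX κ A) (KK p k * (Z z).re) *
          (KK p k * (fderiv ℝ Z z v).re))) := by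
      have e : lamF p k κ A w α Z =
          fun z => w z + α z + Real.log (PX κ A (KK p k * (Z z).re)) * 2⁻¹ := by
        funext z
        unfold lamF
        rw [div_eq_mul_inv]
      rw [e]
      have := congrArg (fun L => L v) hlam.fderiv
      exact this
    have hexp : Real.exp (2 * lamF p k κ A w α Z z) =
        Real.exp (w z + α z) ^ 2 * PX κ A (KK p k * (Z z).re) := by
      unfold lamF
      have e : 2 * (w z + α z + Real.log (PX κ A (KK p k * (Z z).re)) / 2) =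
          (w z + α z) + (w z + α z) + Real.log (PX κ A (KK p k * (Z z).re)) := by ring
      rw [e, Real.exp_add, Real.exp_add, Real.exp_log (hPpos _), sq]
    have hexp2 : Real.exp (2 * (w z + α z)) = Real.exp (w z + α z) ^ 2 := by
      rw [two_mul, Real.exp_add, sq]
    have hnZ : ‖fderiv ℝ Z z v‖ ^ 2 = (fderiv ℝ Z z v).re ^ 2 + (fderiv ℝ Z z v).im ^ 2 := by
      rw [← Complex.normSq_eq_norm_sq, Complex.normSq_apply]
      ring
    rw [hdl, hexp, hexp2, hnZ]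
    have key := asm_algebra (δ := dlt p k κ A) (ρ := Real.exp (w z + α z)) (K := KK p k)
      (μ := √(mu2 κ A)) (s := s) (P := PX κ A (KK p k * (Z z).re))
      (P' := deriv (PX κ A) (KK p k * (Z z).re)) (a := a (KK p k * (Z z).re))
      (b := b (KK p k * (Z z).re)) (a' := deriv a (KK p k * (Z z).re))
      (b' := deriv b (KK p k * (Z z).re)) (f' := deriv f (KK p k * (Z z).re))
      (g' := deriv g (KK p k * (Z z).re)) (u := fderiv ℝ w z v + fderiv ℝ α z v)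
      (X := KK p k * (fderiv ℝ Z z v).re) (zr := (fderiv ℝ Z z v).re)
      (zi := (fderiv ℝ Z z v).im) (ν := (m : ℝ) / ((m : ℝ) + 1)) hK hμ rfl (hPpos _) hν hsν
      (P0 _) (by rw [← hκν]; exact P0' _) (by rw [← hsq]; exact P1 _)
      (by rw [hμ2]; exact P2 _) (hPd _).deriv.symm rfl
    rw [key]
    ring

end P205T.K
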