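import Vale.Agent.P205K.Exp

/-! Module BL1: all first atoms of `VDefs` are in `BL` (unfold; closure lemmas of `BLdef`, `BL_vexp`; the scalar
coefficients `cA, cB, cC, cD` are polynomials in `kap q`, `q.2.2 4`). -/

open Complex ComplexConjugate

namespace P205T.K

theorem BL_eta : BL (fun q : Q => eta q) := BL_r 0
theorem BL_ee : BL (fun q : Q => ee q) := BL.pow (BL_r 0) 2
theorem BL_kap : BL (fun q : Q => kap q) := (BL.pow (BL_r 0) 2).mul (BL_r 2)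
theorem BL_al (L : Lat) : BL (al L) := BL_eta.smul (((BL_U 0).mult _).add ((BL_U 0).mult _))
theorem BL_al1 (L : Lat) : BL (al1 L) := BL_eta.smul ((BL_U 0).mult _)
theorem BL_al2 (L : Lat) : BL (al2 L) := BL_eta.smul ((BL_U 0).mult _)
theorem BL_al11 (L : Lat) : BL (al11 L) := BL_eta.smul ((BL_U 0).mult _)
theorem BL_al12 (L : Lat) : BL (al12 L) := BL_eta.smul ((BL_U 0).mult _)
theorem BL_al22 (L : Lat) : BL (al22 L) := BL_eta.smul ((BL_U 0).mult _)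
theorem BL_q0 (L : Lat) : BL (q0 L) := ((BL_U 1).mult _).re
theorem BL_q1 (L : Lat) : BL (q1 L) := ((BL_U 1).mult _).re
theorem BL_q2 (L : Lat) : BL (q2 L) := ((BL_U 1).mult _).re
theorem BL_q11 (L : Lat) : BL (q11 L) := ((BL_U 2).mult _).re
theorem BL_q12 (L : Lat) : BL (q12 L) := ((BL_U 3).mult _).re
theorem BL_q22 (L : Lat) : BL (q22 L) := ((BL_U 3).mult _).re
theorem BL_Ep (L : Lat) : BL (Ep L) :=
  (BL_W 5).conv (BL_vexp.comp (((BL.const (2 : ℝ)).mul (BL_r 1)).smul ((BL_q0 L).im)))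
theorem BL1_mneg {a : Q → ℝ} (ha : BL a) : BL (fun q => - a q) := ha.neg
theorem BL_Em (L : Lat) : BL (Em L) :=
  (BL_W 6).conv (BL_vexp.comp ((BL1_mneg ((BL.const (2 : ℝ)).mul (BL_r 1))).smul ((BL_q0 L).im)))
theorem BL_c2 (L : Lat) : BL (c2 L) := ((BL_Ep L).add (BL_Em L)).csmul _
theorem BL_s2 (L : Lat) : BL (s2 L) := (((BL_Ep L).sub (BL_Em L)).im).csmul _
theorem BL_yy (L : Lat) : BL (yy L) := ((BL.const one).sub (BL_c2 L)).csmul _
theorem BL1_yy2 (L : Lat) : BL (yy2 L) := (BL_yy L).conv (BL_yy L)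
theorem BL1_yy3 (L : Lat) : BL (yy3 L) := (BL1_yy2 L).conv (BL_yy L)
theorem BL1_yy4 (L : Lat) : BL (yy4 L) := (BL1_yy3 L).conv (BL_yy L)
theorem BL1_cA : BL (fun q : Q => cA (kap q) (q.2.2 4)) := (BL.const (1 : ℝ)).add (BL_kap.mul (BL_r 4))
theorem BL1_mu2 : BL (fun q : Q => mu2 (kap q) (q.2.2 4)) := ((BL.const (1 : ℝ)).sub BL_kap).mul BL1_cA
theorem BL1_cB : BL (fun q : Q => cB (kap q) (q.2.2 4)) := by
  have h : BL (fun q : Q => (cA (kap q) (q.2.2 4) * (1 - cA (kap q) (q.2.2 4) * (1 + kap q))) * (1 / 3 : ℝ)) :=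
    (BL1_cA.mul ((BL.const (1 : ℝ)).sub (BL1_cA.mul ((BL.const (1 : ℝ)).add BL_kap)))).mul (BL.const _)
  have e : (fun q : Q => cB (kap q) (q.2.2 4)) =
      fun q : Q => (cA (kap q) (q.2.2 4) * (1 - cA (kap q) (q.2.2 4) * (1 + kap q))) * (1 / 3 : ℝ) := by
    funext q
    unfold cB
    ring
  rw [e]
  exact h
theorem BL1_cC : BL (fun q : Q => cC (kap q) (q.2.2 4)) :=
  (((BL.const (4 : ℝ)).sub ((BL.const (3 : ℝ)).mul BL1_cA)).sub ((BL.const (2 : ℝ)).mul BL1_cB)).sub BL1_mu2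
theorem BL1_cD : BL (fun q : Q => cD (kap q) (q.2.2 4)) :=
  ((BL1_mu2.add ((BL.const (2 : ℝ)).mul BL1_cA)).add BL1_cB).sub (BL.const (3 : ℝ))
theorem BL_vv (L : Lat) : BL (vv L) :=
  (((BL1_cA.smul (BL_yy L)).add (BL1_cB.smul (BL1_yy2 L))).add (BL1_cC.smul (BL1_yy3 L))).add (BL1_cD.smul (BL1_yy4 L))
theorem BL_vv' (L : Lat) : BL (vv' L) :=
  (((BL1_cA.smul (BL.const one)).add (((BL.const (2 : ℝ)).mul BL1_cB).smul (BL_yy L))).add
    (((BL.const (3 : ℝ)).mul BL1_cC).smul (BL1_yy2 L))).add (((BL.const (4 : ℝ)).mul BL1_cD).smul (BL1_yy3 L))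
theorem BL_vv'' (L : Lat) : BL (vv'' L) :=
  (((((BL.const (2 : ℝ)).mul BL1_cB).smul (BL.const one))).add
    (((BL.const (6 : ℝ)).mul BL1_cC).smul (BL_yy L))).add (((BL.const (12 : ℝ)).mul BL1_cD).smul (BL1_yy2 L))
theorem BL_Pv (L : Lat) : BL (Pv L) := (BL.const one).sub (BL_kap.smul (BL_vv L))
theorem BL_p1 (L : Lat) : BL (p1 L) :=
  (BL1_mneg ((BL_r 1).mul (BL_r 2))).smul ((BL_vv' L).conv (BL_s2 L))
theorem BL_p2 (L : Lat) : BL (p2 L) :=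
  (BL1_mneg (((BL_r 1).pow 2).mul (BL_r 2))).smul
    (((BL_vv'' L).conv ((BL_s2 L).conv (BL_s2 L))).add (((BL_vv' L).conv (BL_c2 L)).csmul (2 : ℝ)))
theorem BL_sx (L : Lat) : BL (sx L) := (BL.const one).add (BL_ee.smul (BL_q1 L))
theorem BL_sy (L : Lat) : BL (sy L) := BL_ee.smul (BL_q2 L)

end P205T.K
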