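import Vale.Agent.P205K.BLall1

/-! Module BL2: the remaining atoms of `VDefs` are in `BL`. -/

open Complex ComplexConjugate

namespace P205T.K

theorem BL_U1 (L : Lat) : BL (U1 L) := (BL_W 0).add (BL_al1 L)
theorem BL_U2 (L : Lat) : BL (U2 L) := (BL_W 1).add (BL_al2 L)
theorem BL_la1 (L : Lat) : BL (la1 L) :=
  ((BL_Pv L).conv (BL_U1 L)).add (((BL_p1 L).conv (BL_sx L)).csmul (1 / 2 : ℝ))
theorem BL_la2 (L : Lat) : BL (la2 L) :=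
  ((BL_Pv L).conv (BL_U2 L)).add (((BL_p1 L).conv (BL_sy L)).csmul (1 / 2 : ℝ))
theorem BL_lx1 (L : Lat) : BL (lx1 L) :=
  (BL_ee.smul (((((BL_p1 L).conv (BL_sx L)).conv (BL_U1 L)).add
    ((BL_Pv L).conv ((BL_W 2).add (BL_al11 L)))).add (((BL_p1 L).conv (BL_q11 L)).csmul (1 / 2 : ℝ)))).add
    ((((BL_p2 L).conv (BL_sx L)).conv (BL_sx L)).csmul (1 / 2 : ℝ))
theorem BL_lx2 (L : Lat) : BL (lx2 L) :=
  (BL_ee.smul (((((BL_p1 L).conv (BL_sx L)).conv (BL_U2 L)).add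
    ((BL_Pv L).conv ((BL_W 3).add (BL_al12 L)))).add (((BL_p1 L).conv (BL_q12 L)).csmul (1 / 2 : ℝ)))).add
    ((((BL_p2 L).conv (BL_sx L)).conv (BL_sy L)).csmul (1 / 2 : ℝ))
theorem BL_ly1 (L : Lat) : BL (ly1 L) :=
  (BL_ee.smul (((((BL_p1 L).conv (BL_sy L)).conv (BL_U1 L)).add
    ((BL_Pv L).conv ((BL_W 3).add (BL_al12 L)))).add (((BL_p1 L).conv (BL_q12 L)).csmul (1 / 2 : ℝ)))).add
    ((((BL_p2 L).conv (BL_sy L)).conv (BL_sx L)).csmul (1 / 2 : ℝ))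
theorem BL_ly2 (L : Lat) : BL (ly2 L) :=
  (BL_ee.smul (((((BL_p1 L).conv (BL_sy L)).conv (BL_U2 L)).add
    ((BL_Pv L).conv ((BL_W 4).add (BL_al22 L)))).add (((BL_p1 L).conv (BL_q22 L)).csmul (1 / 2 : ℝ)))).add
    ((((BL_p2 L).conv (BL_sy L)).conv (BL_sy L)).csmul (1 / 2 : ℝ))
theorem BL_gg (L : Lat) : BL (gg L) := (BL_r 3).smul (BL_vexp.comp ((BL_al L).csmul (2 : ℝ)))
theorem BL_LL (L : Lat) : BL (LL L) := ((BL_la1 L).conv (BL_la1 L)).add ((BL_la2 L).conv (BL_la2 L))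
theorem BL_om (L : Lat) : BL (om L) := (BL_Pv L).sub ((BL_ee.pow 2).smul ((BL_gg L).conv (BL_LL L)))
theorem BL_m11 (L : Lat) : BL (m11 L) :=
  (BL_om L).add ((BL_ee.pow 2).smul ((BL_gg L).conv ((BL_la1 L).conv (BL_la1 L))))
theorem BL_m12 (L : Lat) : BL (m12 L) :=
  (BL_ee.pow 2).smul ((BL_gg L).conv ((BL_la1 L).conv (BL_la2 L)))
theorem BL_m22 (L : Lat) : BL (m22 L) :=
  (BL_om L).add ((BL_ee.pow 2).smul ((BL_gg L).conv ((BL_la2 L).conv (BL_la2 L))))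
theorem BL_h11 (L : Lat) : BL (h11 L) := by
  have hPP := (BL_Pv L).conv (BL_Pv L)
  have t1 := hPP.conv ((BL_W 2).add (BL_al11 L))
  have t2 := ((((BL_Pv L).conv (BL_p1 L)).conv (BL_q11 L)).sub
    (((BL_p1 L).conv (BL_p1 L)).conv ((BL_sx L).conv (BL_sx L)))).csmul (1 / 2 : ℝ)
  have t3 := (BL_Pv L).conv (((BL_W 0).conv (BL_la1 L)).sub ((BL_W 1).conv (BL_la2 L)))
  have t4 := (BL_la1 L).conv (BL_la1 L)
  have t5 := (((BL_Pv L).conv (BL_p2 L)).conv ((BL_sx L).conv (BL_sx L))).csmul (1 / 2 : ℝ)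
  exact (BL_ee.smul (((t1.add t2).sub t3).add t4)).add t5
theorem BL_H12 (L : Lat) : BL (H12 L) := by
  have hPP := (BL_Pv L).conv (BL_Pv L)
  have t1 := hPP.conv ((BL_W 3).add (BL_al12 L))
  have t2 := (((((BL_Pv L).conv (BL_p2 L)).conv ((BL_sx L).conv (BL_q2 L))).sub
    (BL_ee.smul (((BL_p1 L).conv (BL_p1 L)).conv ((BL_sx L).conv (BL_q2 L))))).add
    (((BL_Pv L).conv (BL_p1 L)).conv (BL_q12 L))).csmul (1 / 2 : ℝ)
  have t3 := (BL_Pv L).conv (((BL_W 0).conv (BL_la2 L)).add ((BL_W 1).conv (BL_la1 L)))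
  have t4 := (BL_la1 L).conv (BL_la2 L)
  exact ((t1.add t2).sub t3).add t4
theorem BL_H22 (L : Lat) : BL (H22 L) := by
  have hPP := (BL_Pv L).conv (BL_Pv L)
  have t1 := hPP.conv ((BL_W 4).add (BL_al22 L))
  have t2 := (((BL_ee.smul (((BL_Pv L).conv (BL_p2 L)).conv ((BL_q2 L).conv (BL_q2 L)))).sub
    ((BL_ee.pow 2).smul (((BL_p1 L).conv (BL_p1 L)).conv ((BL_q2 L).conv (BL_q2 L))))).add
    (((BL_Pv L).conv (BL_p1 L)).conv (BL_q22 L))).csmul (1 / 2 : ℝ)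
  have t3 := (BL_Pv L).conv (((BL_W 1).conv (BL_la2 L)).sub ((BL_W 0).conv (BL_la1 L)))
  have t4 := (BL_la2 L).conv (BL_la2 L)
  exact ((t1.add t2).sub t3).add t4
theorem BL_U11 (L : Lat) : BL (U11 L) :=
  ((((BL_W 2).add (BL_al11 L)).sub ((BL_W 0).conv (BL_U1 L))).add ((BL_W 1).conv (BL_U2 L)))
theorem BL_U12 (L : Lat) : BL (U12 L) :=
  ((((BL_W 3).add (BL_al12 L)).sub ((BL_W 0).conv (BL_U2 L))).sub ((BL_W 1).conv (BL_U1 L)))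
theorem BL_U22 (L : Lat) : BL (U22 L) :=
  ((((BL_W 4).add (BL_al22 L)).add ((BL_W 0).conv (BL_U1 L))).sub ((BL_W 1).conv (BL_U2 L)))
theorem BL_r0 (L : Lat) : BL (r0 L) := ((BL_U 1).mult _).sub (((BL_U 1).mult _).re)
theorem BL_Zz (L : Lat) : BL (Zz L) := (BL.const one).add (BL_ee.smul (BL_r0 L))
theorem BL2_vec {a b c : Q → V} (ha : BL a) (hb : BL b) (hc : BL c) : BL (fun q => (![a q, b q, c q] : Jt)) := by
  refine BL.pi ?_
  intro i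
  fin_cases i
  · exact ha
  · exact hb
  · exact hc
theorem BL_jc {a b : Q → Jt} (ha : BL a) (hb : BL b) : BL (fun q => jc (a q) (b q)) :=
  BL2_vec ((ha.apply 0).conv (hb.apply 0))
    (((ha.apply 1).conv (hb.apply 0)).add ((ha.apply 0).conv (hb.apply 1)))
    (((ha.apply 2).conv (hb.apply 0)).add ((ha.apply 0).conv (hb.apply 2)))
theorem BL_jJ {a : Q → Jt} (ha : BL a) : BL (fun q => jJ (a q)) :=
  BL.pi (fun i => (ha.apply i).J)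
theorem BL_jy : BL jy := BL2_vec (BL_U 1) (BL_U 2) (BL_U 3)
theorem BL_jP (L : Lat) : BL (jP L) :=
  BL2_vec (BL_Pv L) (BL_ee.smul ((BL_p1 L).conv (BL_sx L))) (BL_ee.smul ((BL_p1 L).conv (BL_sy L)))
theorem BL_jg (L : Lat) : BL (jg L) :=
  BL2_vec (BL_gg L) (((BL.const (2 : ℝ)).mul BL_ee).smul ((BL_al1 L).conv (BL_gg L)))
    (((BL.const (2 : ℝ)).mul BL_ee).smul ((BL_al2 L).conv (BL_gg L)))
theorem BL_jl1 (L : Lat) : BL (jl1 L) := BL2_vec (BL_la1 L) (BL_lx1 L) (BL_ly1 L)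
theorem BL_jl2 (L : Lat) : BL (jl2 L) := BL2_vec (BL_la2 L) (BL_lx2 L) (BL_ly2 L)
theorem BL_jlz (L : Lat) : BL (jlz L) :=
  BL.pi (fun i => (((BL_jl1 L).apply i).add ((BL_jl2 L).apply i).im).csmul (1 / 2 : ℝ))
theorem BL_jZ (L : Lat) : BL (jZ L) :=
  BL2_vec (BL_Zz L) (BL_ee.smul ((BL_U 2).mult _)) (BL_ee.smul ((BL_U 3).mult _))
theorem BL2_half {a : Q → ℝ} (ha : BL a) : BL (fun q => a q / 2) := by
  have h : BL (fun q => a q * (1 / 2 : ℝ)) := ha.mul (BL.const _)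
  have e : (fun q => a q / 2) = fun q => a q * (1 / 2 : ℝ) := by
    funext q
    ring
  rw [e]
  exact h
theorem BL_jT (L : Lat) : BL (jT L) :=
  BL_jc (BL_jJ (BL_jZ L)) ((BL_jP L).sub ((BL2_half (BL_ee.pow 2)).smul
    (BL_jc (BL_jg L) ((BL_jc (BL_jl1 L) (BL_jl1 L)).add (BL_jc (BL_jl2 L) (BL_jl2 L))))))

end P205T.K
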