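import Vale.Agent.P205K.VDefs
import Vale.Agent.P205T.WApi1
import Vale.Agent.P205T.WApi2
import Vale.Agent.P205T.WMult

/-! Module BLD: the class `BL` (bounded and Lipschitz on bounded sets) and its closure properties. -/

open Complex ComplexConjugate

namespace P205T.K

def BL {E F : Type*} [NormedAddCommGroup E] [NormedAddCommGroup F] (f : E → F) : Prop :=
  ∀ M : ℝ, ∃ C : ℝ, 0 ≤ C ∧ ∀ x y, ‖x‖ ≤ M → ‖y‖ ≤ M → ‖f x‖ ≤ C ∧ ‖f x - f y‖ ≤ C * ‖x - y‖

section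
variable {E F G : Type*} [NormedAddCommGroup E] [NormedAddCommGroup F] [NormedAddCommGroup G]
  [NormedSpace ℝ E] [NormedSpace ℝ F]

omit [NormedSpace ℝ E] [NormedSpace ℝ F] in
theorem BL.const (c : F) : BL (fun _ : E => c) := by
  intro M
  refine ⟨‖c‖, norm_nonneg _, fun x y _ _ => ⟨le_rfl, ?_⟩⟩
  rw [sub_self, norm_zero]
  positivity

theorem BL.clm (f : E →L[ℝ] F) : BL (fun x => f x) := by
  intro M
  refine ⟨‖f‖ * (|M| + 1), by positivity, fun x y hx _ => ⟨?_, ?_⟩⟩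
  · refine (f.le_opNorm x).trans (mul_le_mul_of_nonneg_left ?_ (norm_nonneg _))
    have := le_abs_self M
    linarith
  · rw [← map_sub]
    refine (f.le_opNorm _).trans (mul_le_mul_of_nonneg_right ?_ (norm_nonneg _))
    have h1 := abs_nonneg M
    have h2 := norm_nonneg f
    nlinarith

omit [NormedSpace ℝ E] [NormedSpace ℝ F] in
theorem BL.comp {g : F → G} {f : E → F} (hg : BL g) (hf : BL f) : BL (fun x => g (f x)) := by
  intro M
  obtain ⟨C, hC, h⟩ := hf M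
  obtain ⟨D, hD, k⟩ := hg C
  refine ⟨D + D * C, by positivity, fun x y hx hy => ?_⟩
  have h1 := h x y hx hy
  have h2 := h y x hy hx
  have k1 := k (f x) (f y) h1.1 h2.1
  refine ⟨k1.1.trans (le_add_of_nonneg_right (by positivity)), k1.2.trans ?_⟩
  calc D * ‖f x - f y‖ ≤ D * (C * ‖x - y‖) := mul_le_mul_of_nonneg_left h1.2 hD
    _ = D * C * ‖x - y‖ := by ring
    _ ≤ (D + D * C) * ‖x - y‖ :=
      mul_le_mul_of_nonneg_right (le_add_of_nonneg_left hD) (norm_nonneg _)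

omit [NormedSpace ℝ E] [NormedSpace ℝ F] in
theorem BL.add {f g : E → F} (hf : BL f) (hg : BL g) : BL (fun x => f x + g x) := by
  intro M
  obtain ⟨C, hC, h⟩ := hf M
  obtain ⟨D, hD, k⟩ := hg M
  refine ⟨C + D, by positivity, fun x y hx hy => ⟨?_, ?_⟩⟩
  · exact (norm_add_le _ _).trans (add_le_add (h x y hx hy).1 (k x y hx hy).1)
  · rw [add_sub_add_comm, add_mul]
    exact (norm_add_le _ _).trans (add_le_add (h x y hx hy).2 (k x y hx hy).2)

omit [NormedSpace ℝ E] [NormedSpace ℝ F] in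
theorem BL.neg {f : E → F} (hf : BL f) : BL (fun x => - f x) := by
  intro M
  obtain ⟨C, hC, h⟩ := hf M
  refine ⟨C, hC, fun x y hx hy => ⟨?_, ?_⟩⟩
  · rw [norm_neg]
    exact (h x y hx hy).1
  · rw [neg_sub_neg, norm_sub_rev]
    exact (h x y hx hy).2

omit [NormedSpace ℝ E] [NormedSpace ℝ F] in
theorem BL.sub {f g : E → F} (hf : BL f) (hg : BL g) : BL (fun x => f x - g x) := by
  simp only [sub_eq_add_neg]
  exact hf.add hg.neg

omit [NormedSpace ℝ E] [NormedSpace ℝ F] in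
private theorem bld_bilin {F1 F2 G : Type*} [NormedAddCommGroup F1] [NormedAddCommGroup F2]
    [NormedAddCommGroup G] [NormedSpace ℝ F1] [NormedSpace ℝ F2] [NormedSpace ℝ G]
    (B : F1 →L[ℝ] F2 →L[ℝ] G) {a : E → F1} {b : E → F2} (ha : BL a) (hb : BL b) :
    BL (fun x => B (a x) (b x)) := by
  intro M
  obtain ⟨C, hC, h⟩ := ha M
  obtain ⟨D, hD, k⟩ := hb M
  refine ⟨2 * ‖B‖ * C * D, by positivity, fun x y hx hy => ⟨?_, ?_⟩⟩
  · have h1 : ‖B (a x) (b x)‖ ≤ ‖B‖ * ‖a x‖ * ‖b x‖ := B.le_opNorm₂ _ _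
    have h2 : ‖B‖ * ‖a x‖ * ‖b x‖ ≤ ‖B‖ * C * D := by
      have := (h x y hx hy).1
      have := (k x y hx hy).1
      gcongr
    have h3 : 0 ≤ ‖B‖ * C * D := by positivity
    linarith
  · have e : B (a x) (b x) - B (a y) (b y) = B (a x - a y) (b x) + B (a y) (b x - b y) := by
      rw [map_sub, map_sub, _root_.sub_apply]
      abel
    rw [e]
    refine (norm_add_le _ _).trans ?_
    have h1 : ‖B (a x - a y) (b x)‖ ≤ ‖B‖ * (C * ‖x - y‖) * D := by
      refine (B.le_opNorm₂ _ _).trans ?_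
      have := (h x y hx hy).2
      have := (k x y hx hy).1
      gcongr
    have h2 : ‖B (a y) (b x - b y)‖ ≤ ‖B‖ * C * (D * ‖x - y‖) := by
      refine (B.le_opNorm₂ _ _).trans ?_
      have := (h y x hy hx).1
      have := (k x y hx hy).2
      gcongr
    calc _ ≤ ‖B‖ * (C * ‖x - y‖) * D + ‖B‖ * C * (D * ‖x - y‖) := add_le_add h1 h2
      _ = 2 * ‖B‖ * C * D * ‖x - y‖ := by ring

omit [NormedSpace ℝ E] in
theorem BL.smul {a : E → ℝ} {f : E → F} (ha : BL a) (hf : BL f) : BL (fun x => a x • f x) :=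
  bld_bilin (ContinuousLinearMap.lsmul ℝ ℝ) ha hf

omit [NormedSpace ℝ E] in
theorem BL.csmul (c : ℝ) {f : E → F} (hf : BL f) : BL (fun x => c • f x) :=
  (BL.const c).smul hf

omit [NormedSpace ℝ E] [NormedSpace ℝ F] in
theorem BL.mul {a b : E → ℝ} (ha : BL a) (hb : BL b) : BL (fun x => a x * b x) :=
  bld_bilin (ContinuousLinearMap.mul ℝ ℝ) ha hb

omit [NormedSpace ℝ E] [NormedSpace ℝ F] in
theorem BL.pow {a : E → ℝ} (ha : BL a) (n : ℕ) : BL (fun x => a x ^ n) := by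
  induction n with
  | zero => simpa only [pow_zero] using BL.const (1 : ℝ)
  | succ n ih => simpa only [pow_succ] using ih.mul ha

omit [NormedSpace ℝ E] [NormedSpace ℝ F] in
theorem BL.conv {a b : E → V} (ha : BL a) (hb : BL b) : BL (fun x => conv (a x) (b x)) :=
  bld_bilin P205T.conv ha hb

omit [NormedSpace ℝ E] [NormedSpace ℝ F] in
theorem BL.mult (m : ℤ × ℤ → ℂ) {a : E → V} (ha : BL a) : BL (fun x => mult m (a x)) :=
  (BL.clm (P205T.mult m)).comp ha

omit [NormedSpace ℝ E] [NormedSpace ℝ F] in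
theorem BL.J {a : E → V} (ha : BL a) : BL (fun x => J (a x)) :=
  (BL.clm P205T.J).comp ha

omit [NormedSpace ℝ E] [NormedSpace ℝ F] in
theorem BL.im {a : E → V} (ha : BL a) : BL (fun x => im (a x)) :=
  (BL.clm P205T.K.im).comp ha

omit [NormedSpace ℝ E] [NormedSpace ℝ F] in
theorem BL.re {a : E → V} (ha : BL a) : BL (fun x => re (a x)) :=
  BL.csmul (1 / 2) (ha.add ha.J)

omit [NormedSpace ℝ E] [NormedSpace ℝ F] in
theorem BL.pi {n : ℕ} {f : E → Fin n → F} (hf : ∀ i, BL (fun x => f x i)) : BL f := by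
  intro M
  choose C hC h using fun i => hf i M
  have hle : ∀ i, C i ≤ ∑ j, C j := fun i =>
    Finset.single_le_sum (fun j _ => hC j) (Finset.mem_univ i)
  have h0 : 0 ≤ ∑ j, C j := Finset.sum_nonneg fun j _ => hC j
  refine ⟨∑ i, C i, h0, fun x y hx hy => ⟨?_, ?_⟩⟩
  · rw [pi_norm_le_iff_of_nonneg h0]
    exact fun i => ((h i x y hx hy).1).trans (hle i)
  · rw [pi_norm_le_iff_of_nonneg (by positivity)]
    exact fun i => ((h i x y hx hy).2).trans
      (mul_le_mul_of_nonneg_right (hle i) (norm_nonneg _))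

omit [NormedSpace ℝ E] [NormedSpace ℝ F] in
theorem BL.apply {n : ℕ} {f : E → Fin n → F} (hf : BL f) (i : Fin n) : BL (fun x => f x i) := by
  intro M
  obtain ⟨C, hC, h⟩ := hf M
  refine ⟨C, hC, fun x y hx hy => ⟨?_, ?_⟩⟩
  · exact (norm_le_pi_norm (f x) i).trans (h x y hx hy).1
  · exact (norm_le_pi_norm (f x - f y) i).trans (h x y hx hy).2
end

theorem BL_U (i : Fin 4) : BL (fun q : Q => q.1 i) :=
  BL.apply (BL.clm (ContinuousLinearMap.fst ℝ (Fin 4 → V) ((Fin 7 → V) × (Fin 5 → ℝ)))) i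

theorem BL_W (i : Fin 7) : BL (fun q : Q => q.2.1 i) :=
  BL.apply (BL.clm ((ContinuousLinearMap.fst ℝ (Fin 7 → V) (Fin 5 → ℝ)).comp
    (ContinuousLinearMap.snd ℝ (Fin 4 → V) ((Fin 7 → V) × (Fin 5 → ℝ))))) i

theorem BL_r (i : Fin 5) : BL (fun q : Q => q.2.2 i) :=
  BL.apply (BL.clm ((ContinuousLinearMap.snd ℝ (Fin 7 → V) (Fin 5 → ℝ)).comp
    (ContinuousLinearMap.snd ℝ (Fin 4 → V) ((Fin 7 → V) × (Fin 5 → ℝ))))) i

end P205T.K
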