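import Vale.Agent.P205T.Defs

/-!
# P205, Klein bottle: base definitions (helper2)

Klein bottle = `ℂ/⟨τ, σ⟩`, `τ z = z + p`, `σ z = -conj z + i h` (`p, h > 0`), so `σσ z = z + 2ih`; lattice `⟨p, 2ih⟩`.
Metric `l² |dz|²`, `l = exp w`, `w∘τ = w∘σ = w`.
Profile: `m` even, `n = m + 1`, `κ = 1 - m²/n²`, parameter `A ∈ [3/4, 9/2]`, `A₀ = 1 + κ A`, `μ² = (1-κ) A₀`,
`y = sin² X`, `v(y) = A₀ y + B y² + C₃ y³ + C₄ y⁴ = y V(y)`, `1 - v = (1-y) U(y)`, `v(0)=0, v(1)=1, v'(1)=μ²`.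
`sin θ = sin X √V`, `cos θ = cos X √U`, `P(X) = 1 - κ v(sin² X)`.
Immersion: `X = K Re Z`, `K = 2πk/p`, `δ = 1/(Kμ)`, `φ = (Kμ/m) Im Z`, `ρ = l exp α`,
`F₁ = δ ρ cos X √U exp(i(m φ + f(X)))`, `F₂ = δ ρ (m/n) sin X √V exp(i(n φ + g(X)))`,
`f' = (m/n) v s`, `g' = -(1-v) s`, `s(X) = sin X √(q/((1-κ)(1-κ v)))/(V U)`,
where `q` is the polynomial with `μ² V U (1-κv) + v'² (κ² y(1-y) V U - (1-κ+κv)(1-κv)) = y²(1-y) q`.
-/

open Complex ComplexConjugate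
open scoped ContDiff

namespace P205T.K

noncomputable def sig (h : ℝ) (z : ℂ) : ℂ := - conj z + Complex.I * (h : ℂ)

/-- coefficients of the profile polynomial -/
noncomputable def cA (κ A : ℝ) : ℝ := 1 + κ * A
noncomputable def mu2 (κ A : ℝ) : ℝ := (1 - κ) * cA κ A
noncomputable def cB (κ A : ℝ) : ℝ := cA κ A * (1 - cA κ A * (1 + κ)) / 3
noncomputable def cC (κ A : ℝ) : ℝ := 4 - 3 * cA κ A - 2 * cB κ A - mu2 κ A
noncomputable def cD (κ A : ℝ) : ℝ := mu2 κ A + 2 * cA κ A + cB κ A - 3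

noncomputable def vP (κ A y : ℝ) : ℝ := cA κ A * y + cB κ A * y ^ 2 + cC κ A * y ^ 3 + cD κ A * y ^ 4
noncomputable def vP' (κ A y : ℝ) : ℝ := cA κ A + 2 * cB κ A * y + 3 * cC κ A * y ^ 2 + 4 * cD κ A * y ^ 3
noncomputable def VP (κ A y : ℝ) : ℝ := cA κ A + cB κ A * y + cC κ A * y ^ 2 + cD κ A * y ^ 3
noncomputable def UP (κ A y : ℝ) : ℝ :=
  1 + (1 - cA κ A) * y + (1 - cA κ A - cB κ A) * y ^ 2 + cD κ A * y ^ 3

/-- `P(X) = 1 - κ v(sin² X)` -/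
noncomputable def PX (κ A X : ℝ) : ℝ := 1 - κ * vP κ A (Real.sin X ^ 2)

/-- `K = 2πk/p`, `δ = 1/(K μ)` -/
noncomputable def KK (p : ℝ) (k : ℕ) : ℝ := 2 * Real.pi * k / p
noncomputable def dlt (p : ℝ) (k : ℕ) (κ A : ℝ) : ℝ := 1 / (KK p k * √(mu2 κ A))

/-- `λ = w + α + ½ log P(K Re Z)`; then `R = δ exp λ` -/
noncomputable def lamF (p : ℝ) (k : ℕ) (κ A : ℝ) (w α : ℂ → ℝ) (Z : ℂ → ℂ) (z : ℂ) : ℝ :=
  w z + α z + Real.log (PX κ A (KK p k * (Z z).re)) / 2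

/-- pointwise curvature expression `E1`; `K(m) √(det m) = E1 / W³` for `m = exp(-2α) (|dz|² - τ dλ²)`,
`τ = D exp(2(λ - w))`, `W² = 1 - τ |∇λ|²`. Arguments: jets of `w, α, λ` and `τ`. -/
noncomputable def E1 {R : Type*} [CommRing R] (τ w1 w2 w11 w12 w22 a1 a2 a11 a12 a22 l1 l2 l11 l12 l22 : R) : R :=
  let W2 := 1 - τ * (l1 ^ 2 + l2 ^ 2);
  let H11 := l11 - w1 * l1 + w2 * l2 + l1 ^ 2;
  let H12 := l12 - w1 * l2 - w2 * l1 + l1 * l2;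
  let H22 := l22 + w1 * l1 - w2 * l2 + l2 ^ 2;
  let U1 := w1 + a1;
  let U2 := w2 + a2;
  let U11 := w11 + a11 - w1 * U1 + w2 * U2;
  let U12 := w12 + a12 - w1 * U2 - w2 * U1;
  let U22 := w22 + a22 + w1 * U1 - w2 * U2;
  let M11 := W2 + τ * l1 ^ 2;
  let M12 := τ * (l1 * l2);
  let M22 := W2 + τ * l2 ^ 2;
  W2 * (M11 * U11 + M12 * U12 + M12 * U12 + M22 * U22)
    + τ * (M11 * H11 + M12 * H12 + M12 * H12 + M22 * H22) * (l1 * U1 + l2 * U2)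
    - W2 * (w11 + w22) - τ * (H11 * H22 - H12 ^ 2)

noncomputable def tauF (D : ℝ) (w l : ℂ → ℝ) (z : ℂ) : ℝ := D * Real.exp (2 * (l z - w z))

noncomputable def E1F (D : ℝ) (w a l : ℂ → ℝ) (z : ℂ) : ℝ :=
  E1 (tauF D w l z) (dx w z) (dy w z) (dx (dx w) z) (dx (dy w) z) (dy (dy w) z)
    (dx a z) (dy a z) (dx (dx a) z) (dx (dy a) z) (dy (dy a) z)
    (dx l z) (dy l z) (dx (dx l) z) (dx (dy l) z) (dy (dy l) z)

/-- the metric `m = exp(-2α)(|dz|² - τ dλ²)` -/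
noncomputable def kE (D : ℝ) (w a l : ℂ → ℝ) (z : ℂ) : ℝ := Real.exp (-2 * a z) * (1 - tauF D w l z * dx l z ^ 2)
noncomputable def kF (D : ℝ) (w a l : ℂ → ℝ) (z : ℂ) : ℝ := Real.exp (-2 * a z) * (- (tauF D w l z * dx l z * dy l z))
noncomputable def kG (D : ℝ) (w a l : ℂ → ℝ) (z : ℂ) : ℝ := Real.exp (-2 * a z) * (1 - tauF D w l z * dy l z ^ 2)

end P205T.K
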