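import Vale.Agent.P205K.Exp

/-! Module CMP, preparation: the commutative ring `V` and derivations. -/

open Complex ComplexConjugate

namespace P205T.K

/-- `V` with the convolution product, as a type of its own -/
def CMPR : Type := V

noncomputable def CMPf : V → CMPR := fun a => a

noncomputable instance CMP_ring : CommRing CMPR where
  __ := (inferInstance : AddCommGroup V)
  mul a b := conv (show V from a) (show V from b)
  one := (one : V)
  mul_assoc a b c := conv_assoc a b c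
  mul_comm a b := conv_comm a b
  one_mul a := one_conv a
  mul_one a := conv_one a
  left_distrib a b c := map_add (conv (show V from a)) (show V from b) (show V from c)
  right_distrib a b c := by
    show conv ((show V from a) + (show V from b)) (show V from c) =
      conv (show V from a) (show V from c) + conv (show V from b) (show V from c)
    rw [map_add]; rfl
  zero_mul a := by
    show conv (0 : V) (show V from a) = (0 : V)
    rw [map_zero]; rfl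
  mul_zero a := map_zero (conv (show V from a))

theorem CMPf_conv (a b : V) : CMPf (conv a b) = CMPf a * CMPf b := rfl
theorem CMPf_add (a b : V) : CMPf (a + b) = CMPf a + CMPf b := rfl
theorem CMPf_sub (a b : V) : CMPf (a - b) = CMPf a - CMPf b := rfl
theorem CMPf_neg (a : V) : CMPf (-a) = - CMPf a := rfl
theorem CMPf_zero : CMPf 0 = 0 := rfl
theorem CMPf_one : CMPf one = 1 := rfl
theorem CMPf_inj {a b : V} (h : CMPf a = CMPf b) : a = b := h

/-- scalars -/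
noncomputable def CMPs : ℝ →+* CMPR where
  toFun r := CMPf (r • one)
  map_one' := by rw [one_smul]; rfl
  map_zero' := by rw [zero_smul]; rfl
  map_add' r s := by rw [add_smul]; rfl
  map_mul' r s := by
    rw [← CMPf_conv]
    congr 1
    rw [map_smul, conv_one, smul_smul, mul_comm]

theorem CMPf_smul (r : ℝ) (a : V) : CMPf (r • a) = CMPs r * CMPf a := by
  show CMPf (r • a) = CMPf (r • one) * CMPf a
  rw [← CMPf_conv]
  congr 1
  rw [map_smul, smul_apply, one_conv]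

theorem CMP_bddI : Bdd (fun _ : ℤ × ℤ => Complex.I) := ⟨1, fun _ => by simp⟩

theorem CMP_im_apply (a : V) (n : ℤ × ℤ) : im a n = Complex.I * a n := mult_apply CMP_bddI a n

theorem CMP_im_conv (a b : V) : im (conv a b) = conv (im a) b := by
  ext n
  rw [CMP_im_apply, conv_apply, conv_apply, ← tsum_mul_left]
  congr 1
  ext m
  rw [CMP_im_apply]
  ring

/-- the imaginary unit -/
noncomputable def CMPi : CMPR := CMPf (im one)

theorem CMPf_im (a : V) : CMPf (im a) = CMPi * CMPf a := by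
  unfold CMPi
  rw [← CMPf_conv, ← CMP_im_conv, one_conv]

theorem CMPi_sq : CMPi * CMPi = -1 := by
  unfold CMPi
  rw [← CMPf_conv, ← CMP_im_conv, one_conv, ← CMPf_one, ← CMPf_neg]
  congr 1
  ext n
  rw [CMP_im_apply, CMP_im_apply, ← mul_assoc, Complex.I_mul_I]
  simp

theorem CMP_hh : (2 : CMPR) * CMPs (1 / 2) = 1 := by
  rw [← map_ofNat CMPs 2, ← map_mul]
  norm_num

theorem CMP_dk {κ : ℤ × ℤ → ℝ} {a b b' : V} (h : Dk κ a b) (e : CMPf b = CMPf b') : Dk κ a b' := by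
  have : b = b' := CMPf_inj e
  rw [← this]; exact h

/-! multipliers -/

theorem CMP_bdd {m m' : ℤ × ℤ → ℂ} (h : Bdd m) (h' : Bdd m') (c d : ℂ) :
    Bdd (fun n => c * m n + d * m' n) := by
  obtain ⟨K, hK⟩ := h
  obtain ⟨K', hK'⟩ := h'
  refine ⟨‖c‖ * K + ‖d‖ * K', fun n => ?_⟩
  refine (norm_add_le _ _).trans ?_
  rw [norm_mul, norm_mul]
  exact add_le_add (mul_le_mul_of_nonneg_left (hK n) (norm_nonneg _))
    (mul_le_mul_of_nonneg_left (hK' n) (norm_nonneg _))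

theorem CMP_N0 (L : Lat) (n : ℤ × ℤ) : N0 L n = 2 * M1 L n + (-2 * Complex.I) * M2 L n := by
  by_cases hn : n = 0
  · rw [hn]
    simp [N0, M1, M2, M0]
  · have hk := kk_pos L hn
    have h1 : ((kx L n ^ 2 + ky L n ^ 2 : ℝ) : ℂ) ≠ 0 := by
      exact_mod_cast hk.ne'
    have h2 : ((kx L n : ℂ) + Complex.I * (ky L n : ℂ)) * ((kx L n : ℂ) - Complex.I * (ky L n : ℂ)) =
        ((kx L n ^ 2 + ky L n ^ 2 : ℝ) : ℂ) := by
      push_cast
      linear_combination (-(ky L n : ℂ) ^ 2) * Complex.I_sq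
    have h3 : ((kx L n : ℂ) + Complex.I * (ky L n : ℂ)) ≠ 0 := by
      intro h
      rw [h, zero_mul] at h2
      exact h1 h2.symm
    unfold M1 M2
    rw [WM_M0_ne L hn]
    unfold N0
    rw [if_neg hn, div_eq_iff (mul_ne_zero Complex.I_ne_zero h3), Complex.ofReal_div]
    rw [← h2]
    have h4 : ((kx L n : ℂ) - Complex.I * (ky L n : ℂ)) ≠ 0 := by
      intro h
      rw [h, mul_zero] at h2
      exact h1 h2.symm
    push_cast
    field_simp
    linear_combination ((kx L n : ℂ) - Complex.I * (ky L n : ℂ)) * Complex.I_sq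

theorem CMP_bddN0 (L : Lat) : Bdd (N0 L) := by
  have : N0 L = fun n => 2 * M1 L n + (-2 * Complex.I) * M2 L n := funext (CMP_N0 L)
  rw [this]
  exact CMP_bdd (bdd_M1 L) (bdd_M2 L) _ _

theorem CMP_bddN1 (L : Lat) : Bdd (N1 L) := by
  have : N1 L = fun n => 2 * M11 L n + (-2 * Complex.I) * M12 L n := by
    funext n
    unfold N1 M11 M12
    rw [CMP_N0]
    ring
  rw [this]
  exact CMP_bdd (bdd_M11 L) (bdd_M12 L) _ _

theorem CMP_bddN2 (L : Lat) : Bdd (N2 L) := by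
  have : N2 L = fun n => 2 * M12 L n + (-2 * Complex.I) * M22 L n := by
    funext n
    unfold N2 M12 M22
    rw [CMP_N0]
    unfold M1 M2
    ring
  rw [this]
  exact CMP_bdd (bdd_M12 L) (bdd_M22 L) _ _

theorem CMP_bddSm (L : Lat) : Bdd (Sm L) := by
  have : Sm L = fun n => (1 / 2) * N1 L n + (-Complex.I / 2) * N2 L n := by
    funext n
    unfold Sm
    ring
  rw [this]
  exact CMP_bdd (CMP_bddN1 L) (CMP_bddN2 L) _ _

/-! derivatives of multipliers -/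

theorem CMP_dmult {κ : ℤ × ℤ → ℝ} {m m' : ℤ × ℤ → ℂ} (hm : Bdd m) (hm' : Bdd m')
    (h : ∀ n, m' n = Complex.I * (κ n : ℂ) * m n) (c : V) : Dk κ (mult m c) (mult m' c) := by
  intro n
  rw [mult_apply hm, mult_apply hm', h]
  ring

theorem CMP_kx0 (L : Lat) : kx L 0 = 0 := by
  unfold kx; simp
theorem CMP_ky0 (L : Lat) : ky L 0 = 0 := by
  unfold ky; simp

theorem CMP_dZ0 {κ : ℤ × ℤ → ℝ} (h0 : κ 0 = 0) (c : V) : Dk κ (mult Z0 c) 0 := by
  intro n
  rw [mult_apply bdd_Z0]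
  unfold Z0
  by_cases hn : n = 0
  · rw [hn, h0]; simp
  · rw [if_neg hn]; simp

/-! the phase -/

theorem CMP_phase {κ : ℤ × ℤ → ℝ} (hκ : Ad κ) {W q0 Qs : V} {b c : ℝ} (hW : Dk κ W (c • im W))
    (hq : Dk κ q0 Qs) : Dk κ (conv W (vexp (b • im q0)))
      (im (conv (c • one + b • Qs) (conv W (vexp (b • im q0))))) := by
  refine CMP_dk (Dk.conv hκ hW (Dk.vexp hκ ((Dk.im hq).smul b))) ?_
  simp only [CMPf_conv, CMPf_add, CMPf_smul, CMPf_im, CMPf_one]
  ring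

section
variable (L : Lat) (q : Q)

/-- data of a direction -/
structure CMPD (κ : ℤ × ℤ → ℝ) (S : V) : Prop where
  ad : Ad κ
  ep : Dk κ (Ep L q) ((2 * q.2.2 1) • im (conv S (Ep L q)))
  em : Dk κ (Em L q) ((-(2 * q.2.2 1)) • im (conv S (Em L q)))

variable {L q} {κ : ℤ × ℤ → ℝ} {S : V}

theorem CMPD_c2 (h : CMPD L q κ S) : Dk κ (c2 L q) ((-(2 * q.2.2 1)) • conv S (s2 L q)) := by
  refine CMP_dk ((h.ep.add h.em).smul (1 / 2)) ?_
  unfold s2
  simp only [CMPf_conv, CMPf_add, CMPf_sub, CMPf_smul, CMPf_im, CMPf_one, map_neg, map_mul, map_ofNat]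
  ring

theorem CMPD_s2 (h : CMPD L q κ S) : Dk κ (s2 L q) ((2 * q.2.2 1) • conv S (c2 L q)) := by
  refine CMP_dk (((h.ep.sub h.em).im).smul (-(1 / 2))) ?_
  unfold c2
  simp only [CMPf_conv, CMPf_add, CMPf_sub, CMPf_smul, CMPf_im, CMPf_one, map_neg, map_mul, map_ofNat]
  linear_combination (-(CMPs (1 / 2) * 2 * CMPs (q.2.2 1) * CMPf S * (CMPf (Ep L q) + CMPf (Em L q)))) *
    CMPi_sq

theorem CMPD_yy (h : CMPD L q κ S) : Dk κ (yy L q) (q.2.2 1 • conv S (s2 L q)) := by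
  refine CMP_dk (((Dk.one h.ad).sub (CMPD_c2 h)).smul (1 / 2)) ?_
  simp only [CMPf_conv, CMPf_add, CMPf_sub, CMPf_smul, CMPf_im, CMPf_one, CMPf_zero, map_neg, map_mul, map_ofNat]
  linear_combination (CMPs (q.2.2 1) * CMPf S * CMPf (s2 L q)) * CMP_hh

theorem CMPD_yy2 (h : CMPD L q κ S) :
    Dk κ (yy2 L q) ((2 * q.2.2 1) • conv (yy L q) (conv S (s2 L q))) := by
  refine CMP_dk (Dk.conv h.ad (CMPD_yy h) (CMPD_yy h)) ?_
  simp only [CMPf_conv, CMPf_add, CMPf_smul, map_mul, map_ofNat]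
  ring

theorem CMPD_yy3 (h : CMPD L q κ S) :
    Dk κ (yy3 L q) ((3 * q.2.2 1) • conv (yy2 L q) (conv S (s2 L q))) := by
  refine CMP_dk (Dk.conv h.ad (CMPD_yy2 h) (CMPD_yy h)) ?_
  unfold yy2
  simp only [CMPf_conv, CMPf_add, CMPf_smul, map_mul, map_ofNat]
  ring

theorem CMPD_yy4 (h : CMPD L q κ S) :
    Dk κ (yy4 L q) ((4 * q.2.2 1) • conv (yy3 L q) (conv S (s2 L q))) := by
  refine CMP_dk (Dk.conv h.ad (CMPD_yy3 h) (CMPD_yy h)) ?_
  unfold yy3
  simp only [CMPf_conv, CMPf_add, CMPf_smul, map_mul, map_ofNat]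
  ring

theorem CMPD_vv (h : CMPD L q κ S) :
    Dk κ (vv L q) (q.2.2 1 • conv (vv' L q) (conv S (s2 L q))) := by
  refine CMP_dk ((((CMPD_yy h).smul (cA (kap q) (q.2.2 4))).add
    ((CMPD_yy2 h).smul (cB (kap q) (q.2.2 4)))).add
    ((CMPD_yy3 h).smul (cC (kap q) (q.2.2 4))) |>.add
    ((CMPD_yy4 h).smul (cD (kap q) (q.2.2 4)))) ?_
  unfold vv'
  simp only [CMPf_conv, CMPf_add, CMPf_smul, CMPf_one, map_mul, map_ofNat]
  ring

theorem CMPD_vv' (h : CMPD L q κ S) :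
    Dk κ (vv' L q) (q.2.2 1 • conv (vv'' L q) (conv S (s2 L q))) := by
  refine CMP_dk ((((Dk.one h.ad).smul (cA (kap q) (q.2.2 4))).add
    ((CMPD_yy h).smul (2 * cB (kap q) (q.2.2 4)))).add
    ((CMPD_yy2 h).smul (3 * cC (kap q) (q.2.2 4))) |>.add
    ((CMPD_yy3 h).smul (4 * cD (kap q) (q.2.2 4)))) ?_
  unfold vv''
  simp only [CMPf_conv, CMPf_add, CMPf_smul, CMPf_one, CMPf_zero, map_mul, map_ofNat]
  ring

theorem CMPD_P (h : CMPD L q κ S) : Dk κ (Pv L q) (conv (p1 L q) (ee q • S)) := by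
  refine CMP_dk ((Dk.one h.ad).sub ((CMPD_vv h).smul (kap q))) ?_
  unfold p1
  have e1 : kap q = ee q * q.2.2 2 := rfl
  rw [e1]
  simp only [CMPf_conv, CMPf_sub, CMPf_smul, CMPf_zero, map_mul, map_neg]
  ring

theorem CMPD_p1 (h : CMPD L q κ S) : Dk κ (p1 L q) (conv S (p2 L q)) := by
  refine CMP_dk ((Dk.conv h.ad (CMPD_vv' h) (CMPD_s2 h)).smul (-(q.2.2 1 * q.2.2 2))) ?_
  unfold p2
  simp only [CMPf_conv, CMPf_add, CMPf_smul, map_mul, map_neg, map_pow, map_ofNat]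
  ring

/-- general form of the derivative of `la1`, `la2` -/
theorem CMPD_la (h : CMPD L q κ S) {U U' s A : V} (hU : Dk κ U U') (hs : Dk κ s (ee q • A)) :
    Dk κ (conv (Pv L q) U + (1 / 2 : ℝ) • conv (p1 L q) s)
      (conv (conv (p1 L q) (ee q • S)) U + conv (Pv L q) U' +
        (1 / 2 : ℝ) • (conv (conv S (p2 L q)) s + conv (p1 L q) (ee q • A))) :=
  (Dk.conv h.ad (CMPD_P h) hU).add ((Dk.conv h.ad (CMPD_p1 h) hs).smul _)

/-- `Jok` from `Dk` -/
theorem CMP_jok {e : ℝ} {a : Jt} {A B : V} (hA : Dk (kx L) (a 0) A) (hB : Dk (ky L) (a 0) B)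
    (h1 : CMPf (e • A) = CMPf (a 1)) (h2 : CMPf (e • B) = CMPf (a 2)) : Jok L e a := by
  have h1' : e • A = a 1 := CMPf_inj h1
  have h2' : e • B = a 2 := CMPf_inj h2
  constructor
  · intro n
    rw [← h1', lp.coeFn_smul, Pi.smul_apply, hA n, Complex.real_smul]
    ring
  · intro n
    rw [← h2', lp.coeFn_smul, Pi.smul_apply, hB n, Complex.real_smul]
    ring

/-! directions -/

theorem CMP_q0x (L : Lat) (q : Q) : Dk (kx L) (q0 L q) (q1 L q) :=
  Dk.re (Ad_kx L) (CMP_dmult (CMP_bddN0 L) (CMP_bddN1 L) (fun _ => rfl) _)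

theorem CMP_q0y (L : Lat) (q : Q) : Dk (ky L) (q0 L q) (q2 L q) :=
  Dk.re (Ad_ky L) (CMP_dmult (CMP_bddN0 L) (CMP_bddN2 L) (fun _ => rfl) _)

theorem CMP_x {k : ℝ} (h5 : Dk (kx L) (q.2.1 5) ((2 * q.2.2 1 * k) • im (q.2.1 5)))
    (h6 : Dk (kx L) (q.2.1 6) ((-(2 * q.2.2 1 * k)) • im (q.2.1 6))) :
    CMPD L q (kx L) (k • one + q1 L q) where
  ad := Ad_kx L
  ep := by
    refine CMP_dk (CMP_phase (b := 2 * q.2.2 1) (Ad_kx L) h5 (CMP_q0x L q)) ?_
    unfold Ep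
    simp only [CMPf_conv, CMPf_add, CMPf_smul, CMPf_im, CMPf_one, map_mul, map_ofNat]
    ring
  em := by
    refine CMP_dk (CMP_phase (b := -(2 * q.2.2 1)) (Ad_kx L) h6 (CMP_q0x L q)) ?_
    unfold Em
    simp only [CMPf_conv, CMPf_add, CMPf_smul, CMPf_im, CMPf_one, map_mul, map_ofNat, map_neg]
    ring

theorem CMP_y (h5 : Dk (ky L) (q.2.1 5) 0) (h6 : Dk (ky L) (q.2.1 6) 0) :
    CMPD L q (ky L) (q2 L q) where
  ad := Ad_ky L
  ep := by
    have h5' : Dk (ky L) (q.2.1 5) ((0 : ℝ) • im (q.2.1 5)) := by rw [zero_smul]; exact h5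
    refine CMP_dk (CMP_phase (b := 2 * q.2.2 1) (Ad_ky L) h5' (CMP_q0y L q)) ?_
    unfold Ep
    simp only [CMPf_conv, CMPf_add, CMPf_smul, CMPf_im, CMPf_one, map_mul, map_ofNat, map_zero]
    ring
  em := by
    have h6' : Dk (ky L) (q.2.1 6) ((0 : ℝ) • im (q.2.1 6)) := by rw [zero_smul]; exact h6
    refine CMP_dk (CMP_phase (b := -(2 * q.2.2 1)) (Ad_ky L) h6' (CMP_q0y L q)) ?_
    unfold Em
    simp only [CMPf_conv, CMPf_add, CMPf_smul, CMPf_im, CMPf_one, map_mul, map_ofNat, map_neg,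
      map_zero]
    ring

theorem CMP_Sx {k : ℝ} (he : ee q * k = 1) : ee q • (k • one + q1 L q) = sx L q := by
  apply CMPf_inj
  unfold sx
  have h1 : CMPs (ee q) * CMPs k = 1 := by rw [← map_mul, he, map_one]
  simp only [CMPf_add, CMPf_smul, CMPf_one]
  linear_combination h1

/-! `al` -/

theorem CMP_alx (L : Lat) (q : Q) : Dk (kx L) (al L q) (al1 L q) := by
  have h := ((CMP_dmult (bdd_M0 L) (bdd_M1 L) (fun _ => rfl) (q.1 0)).add
    (CMP_dZ0 (CMP_kx0 L) (q.1 0))).smul (eta q)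
  rw [add_zero] at h
  exact h

theorem CMP_aly (L : Lat) (q : Q) : Dk (ky L) (al L q) (al2 L q) := by
  have h := ((CMP_dmult (bdd_M0 L) (bdd_M2 L) (fun _ => rfl) (q.1 0)).add
    (CMP_dZ0 (CMP_ky0 L) (q.1 0))).smul (eta q)
  rw [add_zero] at h
  exact h

theorem CMP_al1x (L : Lat) (q : Q) : Dk (kx L) (al1 L q) (al11 L q) :=
  (CMP_dmult (bdd_M1 L) (bdd_M11 L) (fun _ => rfl) (q.1 0)).smul (eta q)

theorem CMP_al1y (L : Lat) (q : Q) : Dk (ky L) (al1 L q) (al12 L q) :=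
  (CMP_dmult (bdd_M1 L) (bdd_M12 L) (fun n => by unfold M12 M1 M2; ring) (q.1 0)).smul (eta q)

theorem CMP_al2x (L : Lat) (q : Q) : Dk (kx L) (al2 L q) (al12 L q) :=
  (CMP_dmult (bdd_M2 L) (bdd_M12 L) (fun _ => rfl) (q.1 0)).smul (eta q)

theorem CMP_al2y (L : Lat) (q : Q) : Dk (ky L) (al2 L q) (al22 L q) :=
  (CMP_dmult (bdd_M2 L) (bdd_M22 L) (fun _ => rfl) (q.1 0)).smul (eta q)

theorem CMP_g {κ : ℤ × ℤ → ℝ} (hκ : Ad κ) {A : V} (hA : Dk κ (al L q) A) :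
    Dk κ (gg L q) ((2 : ℝ) • conv A (gg L q)) := by
  refine CMP_dk ((Dk.vexp hκ (hA.smul 2)).smul (q.2.2 3)) ?_
  unfold gg
  simp only [CMPf_conv, CMPf_smul]
  ring

/-! the jet `jy` -/

theorem CMP_Y (he : ee q ≠ 0) (hc : Jok L (ee q) (jy q)) :
    (Dk (kx L) (q.1 1) ((ee q)⁻¹ • q.1 2) ∧ ee q • ((ee q)⁻¹ • q.1 2) = q.1 2) ∧
    (Dk (ky L) (q.1 1) ((ee q)⁻¹ • q.1 3) ∧ ee q • ((ee q)⁻¹ • q.1 3) = q.1 3) := by
  have hec : (ee q : ℂ) ≠ 0 := by exact_mod_cast he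
  refine ⟨⟨fun n => ?_, smul_inv_smul₀ he _⟩, ⟨fun n => ?_, smul_inv_smul₀ he _⟩⟩
  · have h : q.1 2 n = (ee q : ℂ) * (Complex.I * (kx L n : ℂ)) * q.1 1 n := hc.1 n
    rw [lp.coeFn_smul, Pi.smul_apply, h, Complex.real_smul]
    push_cast
    field_simp
  · have h : q.1 3 n = (ee q : ℂ) * (Complex.I * (ky L n : ℂ)) * q.1 1 n := hc.2 n
    rw [lp.coeFn_smul, Pi.smul_apply, h, Complex.real_smul]
    push_cast
    field_simp

theorem CMP_re_smul (r : ℝ) (c : V) : re (r • c) = r • re c := by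
  unfold re
  rw [map_smul, ← smul_add, smul_comm]

theorem CMP_N12 {Y1 Y2 : V} (h1 : Dk (kx L) (q.1 1) Y1) (h2 : Dk (ky L) (q.1 1) Y2) :
    mult (N2 L) Y1 = mult (N1 L) Y2 := by
  ext n
  rw [mult_apply (CMP_bddN2 L), mult_apply (CMP_bddN1 L), h1 n, h2 n]
  unfold N1 N2
  ring

theorem CMP_im_jok {e : ℝ} {a : Jt} (h : Jok L e a) : Jok L e (fun i => im (a i)) := by
  constructor
  · intro n
    show im (a 1) n = _ * im (a 0) n
    rw [CMP_im_apply, CMP_im_apply, h.1 n]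
    ring
  · intro n
    show im (a 2) n = _ * im (a 0) n
    rw [CMP_im_apply, CMP_im_apply, h.2 n]
    ring

end

end P205T.K
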