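import Vale.Agent.P205K.Exp

/-! Parameters (helper2; definitions split off from Par by helper95): `Lr`, `Par`, `ParS`, `SU`. -/

open Complex ComplexConjugate
open scoped ContDiff

namespace P205T.K

/-- the rectangular lattice `⟨p, 2ih⟩` -/
noncomputable def Lr (p h : ℝ) (hp : 0 < p) (hh : 0 < h) : Lat where
  ω₁ := (p : ℂ)
  ω₂ := 2 * Complex.I * (h : ℂ)
  h := by
    simp only [Complex.conj_ofReal, Complex.mul_im, Complex.ofReal_re, Complex.ofReal_im, Complex.mul_re, Complex.I_re,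
      Complex.I_im, Complex.re_ofNat, Complex.im_ofNat]
    have : 0 < p * h := mul_pos hp hh
    ring_nf
    positivity

/-- relations between the parameters -/
structure Par (L : Lat) (k : ℕ) (x : (Fin 7 → V) × (Fin 5 → ℝ)) : Prop where
  hk : 0 < k
  h0 : 0 < x.2 0
  he : x.2 0 ^ 2 * k = 1
  d02 : Dk (kx L) (x.1 0) (x.1 2)
  d03 : Dk (ky L) (x.1 0) (x.1 3)
  d13 : Dk (kx L) (x.1 1) (x.1 3)
  d14 : Dk (ky L) (x.1 1) (x.1 4)
  d5x : Dk (kx L) (x.1 5) ((2 * x.2 1 * k) • im (x.1 5))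
  d5y : Dk (ky L) (x.1 5) 0
  d6x : Dk (kx L) (x.1 6) ((-(2 * x.2 1 * k)) • im (x.1 6))
  d6y : Dk (ky L) (x.1 6) 0
  J0 : J (x.1 0) = x.1 0
  J1 : J (x.1 1) = x.1 1
  J2 : J (x.1 2) = x.1 2
  J3 : J (x.1 3) = x.1 3
  J4 : J (x.1 4) = x.1 4
  J5 : J (x.1 5) = x.1 6
  ev5 : ∀ z : ℂ, ev L z (x.1 5) = Complex.exp (Complex.I * ((2 * x.2 1 * k * z.re : ℝ) : ℂ))

/-- symmetry of the coefficients under `sig h` -/
structure ParS (x : (Fin 7 → V) × (Fin 5 → ℝ)) : Prop where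
  S0 : Sg (x.1 0) = - x.1 0
  S1 : Sg (x.1 1) = x.1 1
  S2 : Sg (x.1 2) = x.1 2
  S3 : Sg (x.1 3) = - x.1 3
  S4 : Sg (x.1 4) = x.1 4
  S5 : Sg (x.1 5) = x.1 6

/-- symmetry of the unknowns -/
structure SU (U : Fin 4 → V) : Prop where
  s0 : Sg (U 0) = U 0
  s1 : Sg (U 1) = J (U 1)
  s2 : Sg (U 2) = - J (U 2)
  s3 : Sg (U 3) = J (U 3)

end P205T.K
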