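import Vale.Agent.P205K.Cmp
import Vale.Agent.P205K.ParDefs

/-! Module CMP: the compatibility `jy` is a jet is preserved. -/

open Complex ComplexConjugate
open scoped ContDiff

namespace P205T.K

/-- common data -/
structure CMPA (L : Lat) (q : Q) (Sx Y1 Y2 : V) : Prop where
  X : CMPD L q (kx L) Sx
  Y : CMPD L q (ky L) (q2 L q)
  hSx : ee q • Sx = sx L q
  dY1 : Dk (kx L) (q.1 1) Y1
  eY1 : ee q • Y1 = q.1 2
  dY2 : Dk (ky L) (q.1 1) Y2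
  eY2 : ee q • Y2 = q.1 3

theorem CMP_all (L : Lat) (k : ℕ) (q : Q) (hq : Par L k q.2) (hc : Jok L (ee q) (jy q)) :
    ∃ Sx Y1 Y2 : V, CMPA L q Sx Y1 Y2 := by
  have he : ee q * (k : ℝ) = 1 := hq.he
  have he0 : ee q ≠ 0 := by
    intro h
    rw [h, zero_mul] at he
    exact zero_ne_one he
  obtain ⟨⟨a1, a2⟩, a3, a4⟩ := CMP_Y he0 hc
  exact ⟨_, _, _, CMP_x hq.d5x hq.d6x, CMP_y hq.d5y hq.d6y, CMP_Sx he, a1, a2, a3, a4⟩

section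
variable {L : Lat} {q : Q} {Sx Y1 Y2 : V}

theorem CMPA.qx1 (h : CMPA L q Sx Y1 Y2) : Dk (kx L) (q1 L q) (re (mult (N1 L) Y1)) :=
  Dk.re (Ad_kx L) (Dk.mult (CMP_bddN1 L) h.dY1)
theorem CMPA.qy1 (h : CMPA L q Sx Y1 Y2) : Dk (ky L) (q1 L q) (re (mult (N1 L) Y2)) :=
  Dk.re (Ad_ky L) (Dk.mult (CMP_bddN1 L) h.dY2)
theorem CMPA.qx2 (h : CMPA L q Sx Y1 Y2) : Dk (kx L) (q2 L q) (re (mult (N1 L) Y2)) := by
  rw [← CMP_N12 h.dY1 h.dY2]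
  exact Dk.re (Ad_kx L) (Dk.mult (CMP_bddN2 L) h.dY1)
theorem CMPA.qy2 (h : CMPA L q Sx Y1 Y2) : Dk (ky L) (q2 L q) (re (mult (N2 L) Y2)) :=
  Dk.re (Ad_ky L) (Dk.mult (CMP_bddN2 L) h.dY2)

theorem CMPA.e11 (h : CMPA L q Sx Y1 Y2) : ee q • re (mult (N1 L) Y1) = q11 L q := by
  unfold q11; rw [← h.eY1, map_smul, CMP_re_smul]
theorem CMPA.e12 (h : CMPA L q Sx Y1 Y2) : ee q • re (mult (N1 L) Y2) = q12 L q := by
  unfold q12; rw [← h.eY2, map_smul, CMP_re_smul]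
theorem CMPA.e22 (h : CMPA L q Sx Y1 Y2) : ee q • re (mult (N2 L) Y2) = q22 L q := by
  unfold q22; rw [← h.eY2, map_smul, CMP_re_smul]

theorem CMPA.sxx (h : CMPA L q Sx Y1 Y2) : Dk (kx L) (sx L q) (ee q • re (mult (N1 L) Y1)) := by
  have k := (Dk.one (Ad_kx L)).add ((h.qx1).smul (ee q))
  rw [zero_add] at k
  exact k
theorem CMPA.sxy (h : CMPA L q Sx Y1 Y2) : Dk (ky L) (sx L q) (ee q • re (mult (N1 L) Y2)) := by
  have k := (Dk.one (Ad_ky L)).add ((h.qy1).smul (ee q))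
  rw [zero_add] at k
  exact k
theorem CMPA.syx (h : CMPA L q Sx Y1 Y2) : Dk (kx L) (sy L q) (ee q • re (mult (N1 L) Y2)) :=
  (h.qx2).smul (ee q)
theorem CMPA.syy (h : CMPA L q Sx Y1 Y2) : Dk (ky L) (sy L q) (ee q • re (mult (N2 L) Y2)) :=
  (h.qy2).smul (ee q)

theorem CMPA.rS (h : CMPA L q Sx Y1 Y2) : CMPs (ee q) * CMPf Sx = CMPf (sx L q) := by
  rw [← CMPf_smul, h.hSx]
theorem CMPA.rS' (L : Lat) (q : Q) : CMPs (ee q) * CMPf (q2 L q) = CMPf (sy L q) := by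
  rw [← CMPf_smul]; rfl
theorem CMPA.r11 (h : CMPA L q Sx Y1 Y2) :
    CMPs (ee q) * CMPf (re (mult (N1 L) Y1)) = CMPf (q11 L q) := by
  rw [← CMPf_smul, h.e11]
theorem CMPA.r12 (h : CMPA L q Sx Y1 Y2) :
    CMPs (ee q) * CMPf (re (mult (N1 L) Y2)) = CMPf (q12 L q) := by
  rw [← CMPf_smul, h.e12]
theorem CMPA.r22 (h : CMPA L q Sx Y1 Y2) :
    CMPs (ee q) * CMPf (re (mult (N2 L) Y2)) = CMPf (q22 L q) := by
  rw [← CMPf_smul, h.e22]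

end

theorem cmp_jl1 (L : Lat) (k : ℕ) (q : Q) (hq : Par L k q.2) (hc : Jok L (ee q) (jy q)) : Jok L (ee q) (jl1 L q) := by
  obtain ⟨Sx, Y1, Y2, h⟩ := CMP_all L k q hq hc
  have u1 : Dk (kx L) (U1 L q) (q.2.1 2 + al11 L q) := hq.d02.add (CMP_al1x L q)
  have u2 : Dk (ky L) (U1 L q) (q.2.1 3 + al12 L q) := hq.d03.add (CMP_al1y L q)
  refine CMP_jok (CMPD_la h.X u1 h.sxx) (CMPD_la h.Y u2 h.sxy) ?_ ?_
  · show _ = CMPf (lx1 L q)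
    unfold lx1
    simp only [CMPf_conv, CMPf_add, CMPf_smul]
    linear_combination (CMPs (ee q) * CMPf (p1 L q) * CMPf (U1 L q) +
      CMPs (1 / 2) * CMPf (p2 L q) * CMPf (sx L q)) * h.rS +
      (CMPs (1 / 2) * CMPs (ee q) * CMPf (p1 L q)) * h.r11
  · show _ = CMPf (ly1 L q)
    unfold ly1
    simp only [CMPf_conv, CMPf_add, CMPf_smul]
    linear_combination (CMPs (ee q) * CMPf (p1 L q) * CMPf (U1 L q) +
      CMPs (1 / 2) * CMPf (p2 L q) * CMPf (sx L q)) * CMPA.rS' L q +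
      (CMPs (1 / 2) * CMPs (ee q) * CMPf (p1 L q)) * h.r12

theorem cmp_jl2 (L : Lat) (k : ℕ) (q : Q) (hq : Par L k q.2) (hc : Jok L (ee q) (jy q)) : Jok L (ee q) (jl2 L q) := by
  obtain ⟨Sx, Y1, Y2, h⟩ := CMP_all L k q hq hc
  have u1 : Dk (kx L) (U2 L q) (q.2.1 3 + al12 L q) := hq.d13.add (CMP_al2x L q)
  have u2 : Dk (ky L) (U2 L q) (q.2.1 4 + al22 L q) := hq.d14.add (CMP_al2y L q)
  refine CMP_jok (CMPD_la h.X u1 h.syx) (CMPD_la h.Y u2 h.syy) ?_ ?_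
  · show _ = CMPf (lx2 L q)
    unfold lx2
    simp only [CMPf_conv, CMPf_add, CMPf_smul]
    linear_combination (CMPs (ee q) * CMPf (p1 L q) * CMPf (U2 L q) +
      CMPs (1 / 2) * CMPf (p2 L q) * CMPf (sy L q)) * h.rS +
      (CMPs (1 / 2) * CMPs (ee q) * CMPf (p1 L q)) * h.r12
  · show _ = CMPf (ly2 L q)
    unfold ly2
    simp only [CMPf_conv, CMPf_add, CMPf_smul]
    linear_combination (CMPs (ee q) * CMPf (p1 L q) * CMPf (U2 L q) +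
      CMPs (1 / 2) * CMPf (p2 L q) * CMPf (sy L q)) * CMPA.rS' L q +
      (CMPs (1 / 2) * CMPs (ee q) * CMPf (p1 L q)) * h.r22

theorem cmp_jP (L : Lat) (k : ℕ) (q : Q) (hq : Par L k q.2) (hc : Jok L (ee q) (jy q)) : Jok L (ee q) (jP L q) := by
  obtain ⟨Sx, Y1, Y2, h⟩ := CMP_all L k q hq hc
  refine CMP_jok (CMPD_P h.X) (CMPD_P h.Y) ?_ ?_
  · show _ = CMPf (ee q • conv (p1 L q) (sx L q))
    rw [h.hSx]
  · rfl

theorem cmp_jg (L : Lat) (k : ℕ) (q : Q) (hq : Par L k q.2) (hc : Jok L (ee q) (jy q)) : Jok L (ee q) (jg L q) := by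
  refine CMP_jok (CMP_g (Ad_kx L) (CMP_alx L q)) (CMP_g (Ad_ky L) (CMP_aly L q)) ?_ ?_
  · show _ = CMPf ((2 * ee q) • conv (al1 L q) (gg L q))
    simp only [CMPf_conv, CMPf_smul, map_mul, map_ofNat]
    ring
  · show _ = CMPf ((2 * ee q) • conv (al2 L q) (gg L q))
    simp only [CMPf_conv, CMPf_smul, map_mul, map_ofNat]
    ring

theorem cmp_jZ (L : Lat) (k : ℕ) (q : Q) (hq : Par L k q.2) (hc : Jok L (ee q) (jy q)) : Jok L (ee q) (jZ L q) := by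
  obtain ⟨Sx, Y1, Y2, h⟩ := CMP_all L k q hq hc
  have r0' : re (0 : V) = 0 := by unfold re; simp
  have hx : Dk (kx L) (Zz L q) (ee q • mult (Sm L) Y1) := by
    have k1 := (Dk.one (Ad_kx L)).add ((((Dk.mult (CMP_bddSm L) h.dY1).sub
      (Dk.re (Ad_kx L) (CMP_dZ0 (CMP_kx0 L) (q.1 1)))).smul (ee q)))
    rw [zero_add, r0', sub_zero] at k1
    exact k1
  have hy : Dk (ky L) (Zz L q) (ee q • mult (Sm L) Y2) := by
    have k1 := (Dk.one (Ad_ky L)).add ((((Dk.mult (CMP_bddSm L) h.dY2).sub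
      (Dk.re (Ad_ky L) (CMP_dZ0 (CMP_ky0 L) (q.1 1)))).smul (ee q)))
    rw [zero_add, r0', sub_zero] at k1
    exact k1
  refine CMP_jok hx hy ?_ ?_
  · show _ = CMPf (ee q • mult (Sm L) (q.1 2))
    rw [← h.eY1, map_smul]
  · show _ = CMPf (ee q • mult (Sm L) (q.1 3))
    rw [← h.eY2, map_smul]

theorem cmp_jR (L : Lat) (k : ℕ) (q : Q) (hq : Par L k q.2) (hc : Jok L (ee q) (jy q)) : Jok L (ee q) (jR L q) := by
  have l1 := cmp_jl1 L k q hq hc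
  have l2 := cmp_jl2 L k q hq hc
  have P := cmp_jP L k q hq hc
  have g := cmp_jg L k q hq hc
  have Z := cmp_jZ L k q hq hc
  have lz : Jok L (ee q) (jlz L q) := Jok.smul (1 / 2) (Jok.add l1 (CMP_im_jok l2))
  have T : Jok L (ee q) (jT L q) :=
    Jok.jc (Jok.jJ Z) (Jok.sub P (Jok.smul _ (Jok.jc g (Jok.add (Jok.jc l1 l1) (Jok.jc l2 l2)))))
  exact Jok.sub (Jok.neg (Jok.smul _ (Jok.jc (Jok.jc g (Jok.jc lz lz))
    (Jok.add (Jok.jc Z (Jok.jJ Z)) (Jok.smul _ (Jok.jc hc (Jok.jJ hc)))))))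
    (Jok.jc hc (Jok.sub T Jok.jone))

end P205T.K
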