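import Vale.Agent.P205K.Base

/-! # P205K, block M: matching (helper95)

`c(A) K μ = π m` reads `x √(1 + κ A) = m + 1`, `x = 2 k c(A) / p`, `|x - T| ≤ 1/8`, `T = 2 k h / p`,
`m` even in `[T, T + 2)`; `κ = (2m+1)/(m+1)² < 2/(m+1)`. -/

namespace P205T.K

theorem M_kap (m : ℝ) (hm : 0 < m) : 1 - m ^ 2 / (m + 1) ^ 2 = (2 * m + 1) / (m + 1) ^ 2 := by
  field_simp
  ring

theorem M_kap_lt (m : ℝ) (hm : 0 < m) : (2 * m + 1) / (m + 1) ^ 2 < 2 / (m + 1) := by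
  rw [div_lt_div_iff₀ (by positivity) (by positivity)]
  nlinarith

/-- upper end -/
theorem M_low {m x κ : ℝ} (hm : 0 < m) (hκ0 : 0 < κ) (hκ : κ < 2 / (m + 1))
    (hx : x ≤ m + 1 / 8) : x * √(1 + κ * (3 / 4)) ≤ m + 1 := by
  have h1 : √(1 + κ * (3 / 4)) ≤ 1 + κ * (3 / 8) := by
    rw [Real.sqrt_le_left (by positivity)]
    nlinarith [sq_nonneg κ]
  have h2 : κ * (m + 1) < 2 := by
    rwa [lt_div_iff₀ (by positivity)] at hκ
  calc x * √(1 + κ * (3 / 4)) ≤ (m + 1 / 8) * (1 + κ * (3 / 8)) := by gcongr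
    _ ≤ m + 1 := by nlinarith

theorem M_high {m x : ℝ} (hm : 20 ≤ m) (hx : m - 17 / 8 ≤ x) :
    m + 1 ≤ x * √(1 + (2 * m + 1) / (m + 1) ^ 2 * (9 / 2)) := by
  have hm0 : 0 < m + 1 := by linarith
  have hx0 : 0 ≤ m - 17 / 8 := by linarith
  have h1 : (m + 1) / (m - 17 / 8) ≤ √(1 + (2 * m + 1) / (m + 1) ^ 2 * (9 / 2)) := by
    apply Real.le_sqrt_of_sq_le
    have h2 : 0 < m - 17 / 8 := by linarith
    rw [div_pow]
    have h3 : 1 + (2 * m + 1) / (m + 1) ^ 2 * (9 / 2) =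
        ((m + 1) ^ 2 + (2 * m + 1) * (9 / 2)) / (m + 1) ^ 2 := by
      field_simp
    rw [h3, div_le_div_iff₀ (by positivity) (by positivity)]
    obtain ⟨s, hs, rfl⟩ : ∃ s : ℝ, 0 ≤ s ∧ m = 20 + s := ⟨m - 20, by linarith, by ring⟩
    nlinarith [pow_nonneg hs 2, pow_nonneg hs 3, pow_nonneg hs 4]
  have h2 : 0 < m - 17 / 8 := by linarith
  have hx1 : 0 ≤ x := hx0.trans hx
  calc m + 1 = (m - 17 / 8) * ((m + 1) / (m - 17 / 8)) := by
        rw [mul_div_assoc', mul_comm, mul_div_assoc, div_self h2.ne', mul_one]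
    _ ≤ x * √(1 + (2 * m + 1) / (m + 1) ^ 2 * (9 / 2)) := by gcongr

/-- block M: matching. -/
theorem klein_match' (p h : ℝ) (hp : 0 < p) (hh : 0 < h) :
    ∃ C > 0, ∃ e > 0, ∀ κ₀ > 0, ∃ k₁ : ℕ, ∀ k ≥ k₁, ∃ m : ℕ, 0 < m ∧ Even m ∧
      (1 - (m : ℝ) ^ 2 / ((m : ℝ) + 1) ^ 2) * k ≤ C ∧ 1 - (m : ℝ) ^ 2 / ((m : ℝ) + 1) ^ 2 ≤ κ₀ ∧
      ∀ c : ℝ → ℝ, ContinuousOn c (Set.Icc (3/4) (9/2)) → (∀ A ∈ Set.Icc (3/4 : ℝ) (9/2), |c A - h| * k ≤ e) →
        ∃ A ∈ Set.Icc (3/4 : ℝ) (9/2),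
          c A * (KK p k * √(mu2 (1 - (m : ℝ) ^ 2 / ((m : ℝ) + 1) ^ 2) A)) = Real.pi * m := by
  refine ⟨p / h, by positivity, p / 16, by positivity, fun κ₀ hκ₀ => ?_⟩
  refine ⟨⌈(max 20 (2 / κ₀)) * p / (2 * h)⌉₊ + 1, fun k hk => ?_⟩
  have hkR : (max 20 (2 / κ₀)) * p / (2 * h) ≤ (k : ℝ) := by
    have h1 := Nat.le_ceil ((max 20 (2 / κ₀)) * p / (2 * h))
    have h2 : ((⌈(max 20 (2 / κ₀)) * p / (2 * h)⌉₊ + 1 : ℕ) : ℝ) ≤ k := by exact_mod_cast hk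
    push_cast at h2
    linarith
  have hk0 : (0 : ℝ) < k := by
    have h2 : 1 ≤ k := le_trans (Nat.le_add_left 1 _) hk
    exact_mod_cast h2
  set T : ℝ := 2 * k * h / p with hT
  have hTpos : 0 < T := by positivity
  have hTmax : max 20 (2 / κ₀) ≤ T := by
    rw [hT, le_div_iff₀ hp]
    rw [div_le_iff₀ (by positivity)] at hkR
    linarith
  set m : ℕ := 2 * ⌈T / 2⌉₊ with hm
  have hmT : T ≤ m := by
    have := Nat.le_ceil (T / 2)
    rw [hm]; push_cast; linarith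
  have hmT2 : (m : ℝ) < T + 2 := by
    have := Nat.ceil_lt_add_one (show 0 ≤ T / 2 by positivity)
    rw [hm]; push_cast; linarith
  have hm20 : (20 : ℝ) ≤ m := (le_max_left _ _).trans (hTmax.trans hmT)
  have hmpos : (0 : ℝ) < m := by linarith
  have hkap := M_kap m hmpos
  have hkapl := M_kap_lt m hmpos
  have hkap0 : 0 < (2 * (m : ℝ) + 1) / (m + 1) ^ 2 := by positivity
  refine ⟨m, by exact_mod_cast hmpos, ⟨⌈T / 2⌉₊, by rw [hm]; ring⟩, ?_, ?_, ?_⟩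
  · rw [hkap]
    calc (2 * (m : ℝ) + 1) / (m + 1) ^ 2 * k ≤ 2 / (m + 1) * k := by gcongr
      _ ≤ 2 / T * k := by gcongr; linarith
      _ = p / h := by rw [hT]; field_simp
  · rw [hkap]
    have h1 : 2 / κ₀ ≤ (m : ℝ) + 1 := by
      have := (le_max_right (20 : ℝ) (2 / κ₀)).trans (hTmax.trans hmT)
      linarith
    have h2 : 2 / ((m : ℝ) + 1) ≤ κ₀ := by
      rw [div_le_iff₀ (by positivity)]
      rw [div_le_iff₀ hκ₀] at h1
      linarith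
    linarith
  · intro c hc hce
    rw [hkap]
    set κ : ℝ := (2 * (m : ℝ) + 1) / (m + 1) ^ 2 with hκ
    have h1κ : 1 - κ = ((m : ℝ) / (m + 1)) ^ 2 := by rw [← hkap, sub_sub_cancel, div_pow]
    have hsq : ∀ A : ℝ, √(mu2 κ A) = (m : ℝ) / (m + 1) * √(1 + κ * A) := by
      intro A
      unfold mu2 cA
      rw [h1κ, Real.sqrt_mul (sq_nonneg _), Real.sqrt_sq (by positivity)]
    have hform : ∀ A : ℝ, c A * (KK p k * √(mu2 κ A)) =
        Real.pi * m * ((2 * k * c A / p) * √(1 + κ * A)) / (m + 1) := by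
      intro A
      rw [hsq]
      unfold KK
      field_simp
    have hx : ∀ A ∈ Set.Icc (3/4 : ℝ) (9/2), |2 * k * c A / p - T| ≤ 1 / 8 := by
      intro A hA
      have h1 := hce A hA
      have h2 : 2 * k * c A / p - T = 2 / p * ((c A - h) * k) := by rw [hT]; field_simp
      rw [h2, abs_mul, abs_of_pos (show 0 < 2 / p by positivity), abs_mul, abs_of_pos hk0]
      calc 2 / p * (|c A - h| * k) ≤ 2 / p * (p / 16) := by gcongr
        _ = 1 / 8 := by field_simp; norm_num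
    have hcont : ContinuousOn (fun A => c A * (KK p k * √(mu2 κ A))) (Set.Icc (3/4) (9/2)) := by
      refine hc.mul (ContinuousOn.mul continuousOn_const ?_)
      have : Continuous fun A => √(mu2 κ A) := by unfold mu2 cA; fun_prop
      exact this.continuousOn
    have hle : (3/4 : ℝ) ≤ 9/2 := by norm_num
    have ha : (3/4 : ℝ) ∈ Set.Icc (3/4 : ℝ) (9/2) := ⟨le_rfl, hle⟩
    have hb : (9/2 : ℝ) ∈ Set.Icc (3/4 : ℝ) (9/2) := ⟨hle, le_rfl⟩
    have hm1 : (0 : ℝ) < m + 1 := by positivity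
    have hpm : 0 < Real.pi * m := by positivity
    have hlo : c (3/4) * (KK p k * √(mu2 κ (3/4))) ≤ Real.pi * m := by
      rw [hform, div_le_iff₀ hm1]
      have h3 := abs_le.1 (hx _ ha)
      have h4 := M_low hmpos hkap0 hkapl (x := 2 * k * c (3/4) / p) (by linarith)
      gcongr
    have hhi : Real.pi * m ≤ c (9/2) * (KK p k * √(mu2 κ (9/2))) := by
      rw [hform, le_div_iff₀ hm1]
      have h3 := abs_le.1 (hx _ hb)
      have h4 := M_high hm20 (x := 2 * k * c (9/2) / p) (by linarith)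
      gcongr
    obtain ⟨A, hA, hAe⟩ := intermediate_value_Icc hle hcont ⟨hlo, hhi⟩
    exact ⟨A, hA, hAe⟩

end P205T.K
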