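import Vale.Agent.P205K.IDefs
import Vale.Agent.P205K.Match

/-! # P205K, block M: conformally flat Klein bottles from the four blocks (helper95) -/

open Complex ComplexConjugate
open scoped ContDiff

namespace P205T.K

/-- `klein_conf` from the outputs of the blocks A, G, P (as hypotheses) and `klein_match'` -/
theorem klein_conf_of (p h : ℝ) (hp : 0 < p) (hh : 0 < h) (w : ℂ → ℝ) (hw : ContDiff ℝ ∞ w)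
    (h1 : ∀ z, w (z + p) = w z) (h2 : ∀ z, w (sig h z) = w z)
    (HA : ∀ C e : ℝ, 0 < C → 0 < e → ∃ k₀ : ℕ, ∀ k : ℕ, k₀ ≤ k → ∀ κ : ℝ, 0 < κ → κ * k ≤ C →
      ∃ α Z c, AOut p h w e k κ α Z c)
    (HG : ∀ k : ℕ, 0 < k → ∀ κ : ℝ, (∀ A ∈ Set.Icc (3/4 : ℝ) (9/2), ∀ X, 0 < PX κ A X) →
      ∀ (e : ℝ) (α : ℝ → ℂ → ℝ) (Z : ℝ → ℂ → ℂ) (c : ℝ → ℝ), AOut p h w e k κ α Z c →
        ∀ A ∈ Set.Icc (3/4 : ℝ) (9/2), Met p k κ A w (α A) (Z A))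
    (HS : ∃ κ₀ > 0, ∀ (k m : ℕ), 0 < k → 0 < m → Even m → ∀ κ : ℝ,
      κ = 1 - (m : ℝ) ^ 2 / ((m : ℝ) + 1) ^ 2 → κ ≤ κ₀ →
      ∀ A ∈ Set.Icc (3/4 : ℝ) (9/2), ∀ (α : ℂ → ℝ) (Z : ℂ → ℂ) (c : ℝ), ContDiff ℝ ∞ α → ContDiff ℝ ∞ Z →
      (∀ z, α (z + p) = α z) → (∀ z, α (sig h z) = α z) → (∀ z, Z (z + p) = Z z + p) →
      (∀ z, Z (sig h z) = - conj (Z z) + Complex.I * (c : ℂ)) → Met p k κ A w α Z →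
      c * (KK p k * √(mu2 κ A)) = Real.pi * m →
      ∃ F : ℂ → EuclideanSpace ℝ (Fin 4), ContDiff ℝ ∞ F ∧ (∀ z, F (z + p) = F z) ∧
        (∀ z, F (sig h z) = F z) ∧ ∀ z v, ‖fderiv ℝ F z v‖ ^ 2 = Real.exp (2 * w z) * ‖v‖ ^ 2)
    (HP : ∃ κ₀ > 0, ∀ κ : ℝ, 0 < κ → κ ≤ κ₀ → ∀ A ∈ Set.Icc (3/4 : ℝ) (9/2), ∀ X,
      1/2 ≤ PX κ A X ∧ PX κ A X ≤ 2 ∧ 1/2 ≤ mu2 κ A) :
    ∃ F : ℂ → EuclideanSpace ℝ (Fin 4), ContDiff ℝ ∞ F ∧ (∀ z, F (z + p) = F z) ∧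
      (∀ z, F (sig h z) = F z) ∧ ∀ z v, ‖fderiv ℝ F z v‖ ^ 2 = Real.exp (2 * w z) * ‖v‖ ^ 2 := by
  have _ := hw
  have _ := h1
  have _ := h2
  obtain ⟨C, hC, e, he, Hm⟩ := klein_match' p h hp hh
  obtain ⟨κ₁, hκ₁, HS⟩ := HS
  obtain ⟨κ₂, hκ₂, HP⟩ := HP
  obtain ⟨k₁, Hm⟩ := Hm (min κ₁ κ₂) (lt_min hκ₁ hκ₂)
  obtain ⟨k₀, HA⟩ := HA C e hC he
  set k : ℕ := max (max k₀ k₁) 1 with hk
  have hk0 : k₀ ≤ k := (le_max_left _ _).trans (le_max_left _ _)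
  have hk1 : k₁ ≤ k := (le_max_right _ _).trans (le_max_left _ _)
  have hkp : 0 < k := lt_of_lt_of_le one_pos (le_max_right _ _)
  obtain ⟨m, hm0, hme, hmC, hmκ, Hm⟩ := Hm k hk1
  have hmR : (0 : ℝ) < m := by exact_mod_cast hm0
  have hκ0 : 0 < 1 - (m : ℝ) ^ 2 / ((m : ℝ) + 1) ^ 2 := by
    rw [M_kap (m : ℝ) hmR]; positivity
  obtain ⟨α, Z, c, HO⟩ := HA k hk0 _ hκ0 hmC
  obtain ⟨A, hA, hAe⟩ := Hm c HO.1 fun A hA => (HO.2 A hA).2.2.2.2.2.2.1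
  have hPX : ∀ A ∈ Set.Icc (3/4 : ℝ) (9/2), ∀ X, 0 < PX (1 - (m : ℝ) ^ 2 / ((m : ℝ) + 1) ^ 2) A X :=
    fun A hA X => by
      have := (HP _ hκ0 (hmκ.trans (min_le_right _ _)) A hA X).1
      linarith
  have hMet := HG k hkp _ hPX e α Z c HO A hA
  obtain ⟨g1, g2, g3, g4, g5, g6, -⟩ := HO.2 A hA
  exact HS k m hkp hm0 hme _ rfl (hmκ.trans (min_le_left _ _)) A hA (α A) (Z A) (c A) g1 g2 g3 g4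
    g5 g6 hMet hAe

end P205T.K
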