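import Vale.Agent.P205K.Iface
import Vale.Agent.P205K.Conf

/-! # P205K: `klein_conf` wired to the stubs of `Iface` (replace the import by the proved blocks) -/

open Complex ComplexConjugate
open scoped ContDiff

namespace P205T.K

/-- conformally flat Klein bottles -/
theorem klein_conf' (p h : ℝ) (hp : 0 < p) (hh : 0 < h) (w : ℂ → ℝ) (hw : ContDiff ℝ ∞ w)
    (h1 : ∀ z, w (z + p) = w z) (h2 : ∀ z, w (sig h z) = w z) :
    ∃ F : ℂ → EuclideanSpace ℝ (Fin 4), ContDiff ℝ ∞ F ∧ (∀ z, F (z + p) = F z) ∧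
      (∀ z, F (sig h z) = F z) ∧ ∀ z v, ‖fderiv ℝ F z v‖ ^ 2 = Real.exp (2 * w z) * ‖v‖ ^ 2 := by
  refine klein_conf_of p h hp hh w hw h1 h2 (klein_analysis p h hp hh w hw h1 h2)
    (fun k hk κ hP e α Z c H => klein_geometry p h hp hh w hw h1 h2 k hk κ hP e α Z c H) ?_ PX_pos
  obtain ⟨κ₀, hκ₀, H⟩ := klein_assemble
  exact ⟨κ₀, hκ₀, fun k m => H p h hp hh w hw h1 h2 k m⟩

end P205T.K
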