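import Vale.Agent.P205K.VDefs
import Vale.Agent.P205T.WApi1
import Vale.Agent.P205T.WApi2
import Vale.Agent.P205T.WMult

/-! Module DER: derivations on the coefficient side.  `Dk κ a b` means `b = ∂a` where `∂` has the (additive) symbol `i κ`. -/

open Complex ComplexConjugate

namespace P205T.K

def Dk (κ : ℤ × ℤ → ℝ) (a b : V) : Prop := ∀ n, b n = Complex.I * (κ n : ℂ) * a n

/-- additive symbol -/
def Ad (κ : ℤ × ℤ → ℝ) : Prop := ∀ m n, κ (m + n) = κ m + κ n

theorem DER1_zero {κ : ℤ × ℤ → ℝ} (hκ : Ad κ) : κ 0 = 0 := by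
  have h := hκ 0 0
  rw [add_zero] at h
  linarith

theorem DER1_neg {κ : ℤ × ℤ → ℝ} (hκ : Ad κ) (n : ℤ × ℤ) : κ (-n) = -κ n := by
  have h := hκ (-n) n
  rw [neg_add_cancel, DER1_zero hκ] at h
  linarith

theorem DER1_one (n : ℤ × ℤ) : (one : V) n = if n = 0 then 1 else 0 := WApi1b_one_apply n

theorem DER1_smul (c : ℝ) (a : V) (n : ℤ × ℤ) : (c • a) n = (c : ℂ) * a n := by
  rw [lp.coeFn_smul, Pi.smul_apply, Complex.real_smul]

theorem DER1_im (a : V) (n : ℤ × ℤ) : im a n = Complex.I * a n := by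
  unfold im
  exact mult_apply ⟨1, fun _ => by simp⟩ a n

theorem Ad_kx (L : Lat) : Ad (kx L) := by
  intro m n
  unfold kx
  rw [Prod.fst_add, Prod.snd_add]
  push_cast
  ring
theorem Ad_ky (L : Lat) : Ad (ky L) := by
  intro m n
  unfold ky
  rw [Prod.fst_add, Prod.snd_add]
  push_cast
  ring

theorem Dk.add {κ : ℤ × ℤ → ℝ} {a a' b b' : V} (h : Dk κ a a') (h' : Dk κ b b') : Dk κ (a + b) (a' + b') := by
  intro n
  rw [lp.coeFn_add, lp.coeFn_add, Pi.add_apply, Pi.add_apply, h n, h' n]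
  ring
theorem Dk.sub {κ : ℤ × ℤ → ℝ} {a a' b b' : V} (h : Dk κ a a') (h' : Dk κ b b') : Dk κ (a - b) (a' - b') := by
  intro n
  rw [lp.coeFn_sub, lp.coeFn_sub, Pi.sub_apply, Pi.sub_apply, h n, h' n]
  ring
theorem Dk.smul {κ : ℤ × ℤ → ℝ} {a a' : V} (c : ℝ) (h : Dk κ a a') : Dk κ (c • a) (c • a') := by
  intro n
  rw [DER1_smul, DER1_smul, h n]
  ring
theorem Dk.mult {κ : ℤ × ℤ → ℝ} {a a' : V} {m : ℤ × ℤ → ℂ} (hm : Bdd m) (h : Dk κ a a') :
    Dk κ (mult m a) (mult m a') := by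
  intro n
  rw [mult_apply hm, mult_apply hm, h n]
  ring
theorem Dk.im {κ : ℤ × ℤ → ℝ} {a a' : V} (h : Dk κ a a') : Dk κ (im a) (im a') := by
  intro n
  rw [DER1_im, DER1_im, h n]
  ring
theorem Dk.J {κ : ℤ × ℤ → ℝ} (hκ : Ad κ) {a a' : V} (h : Dk κ a a') : Dk κ (J a) (J a') := by
  intro n
  rw [J_apply, J_apply, h (-n), DER1_neg hκ, map_mul, map_mul, Complex.conj_I, Complex.conj_ofReal]
  push_cast
  ring
theorem Dk.re {κ : ℤ × ℤ → ℝ} (hκ : Ad κ) {a a' : V} (h : Dk κ a a') : Dk κ (re a) (re a') :=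
  (h.add (h.J hκ)).smul _
theorem Dk.one {κ : ℤ × ℤ → ℝ} (hκ : Ad κ) : Dk κ one 0 := by
  intro n
  rw [DER1_one, lp.coeFn_zero, Pi.zero_apply]
  by_cases hn : n = 0
  · rw [hn, DER1_zero hκ]
    simp
  · rw [if_neg hn, mul_zero]

theorem DER2_summable (c : V) : Summable fun n => ‖c n‖ := by
  have h := (lp.memℓp c).summable (by norm_num)
  simpa using h

theorem DER2_norm_le (c : V) (n : ℤ × ℤ) : ‖c n‖ ≤ ‖c‖ :=
  lp.norm_apply_le_norm one_ne_zero c n

theorem DER2_sum_conv (a b : V) (n : ℤ × ℤ) : Summable fun m : ℤ × ℤ => a m * b (n - m) := by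
  refine Summable.of_norm_bounded ((DER2_summable a).mul_right ‖b‖) fun m => ?_
  rw [norm_mul]
  exact mul_le_mul_of_nonneg_left (DER2_norm_le b _) (norm_nonneg _)

theorem Dk.conv {κ : ℤ × ℤ → ℝ} (hκ : Ad κ) {a a' b b' : V} (h : Dk κ a a') (h' : Dk κ b b') :
    Dk κ (conv a b) (conv a' b + conv a b') := by
  intro n
  rw [lp.coeFn_add, Pi.add_apply, conv_apply, conv_apply, conv_apply,
    ← (DER2_sum_conv a' b n).tsum_add (DER2_sum_conv a b' n), ← tsum_mul_left]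
  refine tsum_congr fun m => ?_
  rw [h m, h' (n - m)]
  have h1 : κ n = κ m + κ (n - m) := by
    rw [← hκ, add_sub_cancel]
  rw [h1]
  push_cast
  ring
theorem Dk.unique {κ : ℤ × ℤ → ℝ} {a a' a'' : V} (h : Dk κ a a') (h' : Dk κ a a'') : a' = a'' :=
  lp.ext (funext fun n => by rw [h n, h' n])

/-- ring facts for `conv` -/
theorem conv_comm (a b : V) : conv a b = conv b a := by
  refine lp.ext (funext fun n => ?_)
  rw [conv_apply, conv_apply, ← (Equiv.subLeft n).tsum_eq]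
  refine tsum_congr fun m => ?_
  rw [Equiv.subLeft_apply, sub_sub_cancel, mul_comm]

/-- `(n, m) ↦ (m, n - m)` -/
def DER2_equiv : (ℤ × ℤ) × (ℤ × ℤ) ≃ (ℤ × ℤ) × (ℤ × ℤ) where
  toFun p := (p.2, p.1 - p.2)
  invFun p := (p.1 + p.2, p.1)
  left_inv p := by simp
  right_inv p := by simp

theorem conv_assoc (a b c : V) : conv (conv a b) c = conv a (conv b c) := by
  refine lp.ext (funext fun n => ?_)
  have hs : Summable fun p : (ℤ × ℤ) × (ℤ × ℤ) => a p.1 * (b p.2 * c (n - p.1 - p.2)) := by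
    have h1 : Summable fun p : (ℤ × ℤ) × (ℤ × ℤ) => ‖a p.1 * b p.2‖ :=
      (DER2_summable a).mul_norm (DER2_summable b)
    refine Summable.of_norm_bounded (h1.mul_right ‖c‖) fun p => ?_
    rw [← mul_assoc, norm_mul]
    exact mul_le_mul_of_nonneg_left (DER2_norm_le c _) (norm_nonneg _)
  have hs' : Summable fun p : (ℤ × ℤ) × (ℤ × ℤ) =>
      a p.2 * (b (p.1 - p.2) * c (n - p.2 - (p.1 - p.2))) :=
    (DER2_equiv.summable_iff
      (f := fun p : (ℤ × ℤ) × (ℤ × ℤ) => a p.1 * (b p.2 * c (n - p.1 - p.2)))).mpr hs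
  have e1 : conv a (conv b c) n = ∑' p : (ℤ × ℤ) × (ℤ × ℤ), a p.1 * (b p.2 * c (n - p.1 - p.2)) := by
    rw [hs.tsum_prod, conv_apply]
    refine tsum_congr fun k => ?_
    rw [conv_apply, ← tsum_mul_left]
  have e2 : conv (conv a b) c n = ∑' p : (ℤ × ℤ) × (ℤ × ℤ),
      a p.2 * (b (p.1 - p.2) * c (n - p.2 - (p.1 - p.2))) := by
    rw [hs'.tsum_prod, conv_apply]
    refine tsum_congr fun m => ?_
    rw [conv_apply, ← tsum_mul_right]
    refine tsum_congr fun k => ?_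
    rw [sub_sub_sub_cancel_right, mul_assoc]
  rw [e1, e2]
  exact DER2_equiv.tsum_eq
    (fun p : (ℤ × ℤ) × (ℤ × ℤ) => a p.1 * (b p.2 * c (n - p.1 - p.2)))

theorem DER2_pow {κ : ℤ × ℤ → ℝ} (hκ : Ad κ) {a a' : V} (h : Dk κ a a') (k : ℕ) :
    Dk κ (((P205T.conv a) ^ (k + 1)) one) (((k : ℝ) + 1) • P205T.conv a' (((P205T.conv a) ^ k) one)) := by
  induction k with
  | zero =>
    have h1 : ((P205T.conv a) ^ (0 + 1)) one = a := by
      rw [zero_add, pow_one, P205T.conv_one]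
    have h2 : (((0 : ℕ) : ℝ) + 1) • P205T.conv a' (((P205T.conv a) ^ 0) one) = a' := by
      rw [Nat.cast_zero, zero_add, one_smul, pow_zero]
      exact P205T.conv_one a'
    rw [h1, h2]
    exact h
  | succ k ih =>
    have h1 : ((P205T.conv a) ^ (k + 1 + 1)) one = P205T.conv a (((P205T.conv a) ^ (k + 1)) one) := by
      rw [pow_succ' (P205T.conv a) (k + 1)]
      rfl
    have h2 : P205T.conv a (P205T.conv a' (((P205T.conv a) ^ k) one)) =
        P205T.conv a' (((P205T.conv a) ^ (k + 1)) one) := by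
      rw [← conv_assoc, conv_comm a a', conv_assoc, pow_succ' (P205T.conv a) k]
      rfl
    have h3 := Dk.conv hκ h ih
    rw [map_smul, h2] at h3
    rw [h1]
    have h4 : (((k + 1 : ℕ) : ℝ) + 1) • P205T.conv a' (((P205T.conv a) ^ (k + 1)) one) =
        P205T.conv a' (((P205T.conv a) ^ (k + 1)) one) +
          ((k : ℝ) + 1) • P205T.conv a' (((P205T.conv a) ^ (k + 1)) one) := by
      push_cast
      module
    rw [h4]
    exact h3

theorem DER2_hasSum (a : V) :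
    HasSum (fun k : ℕ => ((k.factorial : ℝ)⁻¹) • ((P205T.conv a) ^ k) one) (vexp a) := by
  have h := NormedSpace.exp_series_hasSum_exp' (𝕂 := ℝ) (P205T.conv a : V →L[ℝ] V)
  have h2 := (ContinuousLinearMap.apply ℝ V (one : V)).hasSum h
  exact h2

theorem DER2_partial {κ : ℤ × ℤ → ℝ} (hκ : Ad κ) {a a' : V} (h : Dk κ a a') (N : ℕ) :
    Dk κ (∑ k ∈ Finset.range (N + 1), ((k.factorial : ℝ)⁻¹) • ((P205T.conv a) ^ k) one)
      (P205T.conv a' (∑ k ∈ Finset.range N, ((k.factorial : ℝ)⁻¹) • ((P205T.conv a) ^ k) one)) := by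
  induction N with
  | zero =>
    rw [Finset.sum_range_one, Finset.range_zero, Finset.sum_empty, map_zero, Nat.factorial_zero,
      Nat.cast_one, inv_one, one_smul, pow_zero]
    exact Dk.one hκ
  | succ N ih =>
    have e1 : ∑ k ∈ Finset.range (N + 1 + 1), ((k.factorial : ℝ)⁻¹) • ((P205T.conv a) ^ k) one =
        ∑ k ∈ Finset.range (N + 1), ((k.factorial : ℝ)⁻¹) • ((P205T.conv a) ^ k) one +
          (((N + 1).factorial : ℝ)⁻¹) • ((P205T.conv a) ^ (N + 1)) one :=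
      Finset.sum_range_succ _ (N + 1)
    have e2 : P205T.conv a' (∑ k ∈ Finset.range (N + 1), ((k.factorial : ℝ)⁻¹) • ((P205T.conv a) ^ k) one) =
        P205T.conv a' (∑ k ∈ Finset.range N, ((k.factorial : ℝ)⁻¹) • ((P205T.conv a) ^ k) one) +
          P205T.conv a' (((N.factorial : ℝ)⁻¹) • ((P205T.conv a) ^ N) one) := by
      rw [Finset.sum_range_succ, map_add]
    rw [e1, e2]
    refine ih.add ?_
    have h1 := (DER2_pow hκ h N).smul (((N + 1).factorial : ℝ)⁻¹)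
    have h2 : (((N + 1).factorial : ℝ)⁻¹) • (((N : ℝ) + 1) • P205T.conv a' (((P205T.conv a) ^ N) one)) =
        P205T.conv a' (((N.factorial : ℝ)⁻¹) • ((P205T.conv a) ^ N) one) := by
      rw [map_smul, smul_smul, Nat.factorial_succ]
      congr 1
      have h3 : (N.factorial : ℝ) ≠ 0 := Nat.cast_ne_zero.2 (Nat.factorial_ne_zero N)
      have h4 : (N : ℝ) + 1 ≠ 0 := by positivity
      push_cast
      field_simp
    rw [h2] at h1
    exact h1

theorem DER2_coord (n : ℤ × ℤ) : Continuous fun c : V => c n := by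
  have h : LipschitzWith 1 fun c : V => c n := by
    refine LipschitzWith.of_dist_le_mul fun c d => ?_
    rw [dist_eq_norm, dist_eq_norm, NNReal.coe_one, one_mul]
    have := DER2_norm_le (c - d) n
    rwa [lp.coeFn_sub, Pi.sub_apply] at this
  exact h.continuous

/-- the exponential (closedness of `Dk` under limits + Leibniz on the partial sums) -/
theorem Dk.vexp {κ : ℤ × ℤ → ℝ} (hκ : Ad κ) {a a' : V} (h : Dk κ a a') :
    Dk κ (vexp a) (P205T.conv a' (K.vexp a)) := by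
  intro n
  have hs := (DER2_hasSum a).tendsto_sum_nat
  have h1 := ((DER2_coord n).tendsto _).comp (((P205T.conv a').continuous.tendsto _).comp hs)
  have h2 := ((DER2_coord n).tendsto _).comp (hs.comp (Filter.tendsto_add_atTop_nat 1))
  have h3 := h2.const_mul (Complex.I * (κ n : ℂ))
  refine tendsto_nhds_unique h1 (h3.congr fun N => ?_)
  exact (DER2_partial hκ h N n).symm

/-- jet of a function: `a 1 = e ∂ₓ (a 0)`, `a 2 = e ∂_y (a 0)` -/
def Jok (L : Lat) (e : ℝ) (a : Jt) : Prop :=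
  (∀ n, a 1 n = (e : ℂ) * (Complex.I * (kx L n : ℂ)) * a 0 n) ∧ ∀ n, a 2 n = (e : ℂ) * (Complex.I * (ky L n : ℂ)) * a 0 n

theorem DER3_add (x y : V) (n : ℤ × ℤ) : (x + y : V) n = x n + y n := rfl
theorem DER3_sub (x y : V) (n : ℤ × ℤ) : (x - y : V) n = x n - y n := rfl
theorem DER3_neg (x : V) (n : ℤ × ℤ) : (-x : V) n = -x n := rfl
theorem DER3_smul (c : ℝ) (x : V) (n : ℤ × ℤ) : (c • x : V) n = (c : ℂ) * x n := by
  show c • x n = _
  rw [Complex.real_smul]

theorem DER3_kx_add (L : Lat) (m n : ℤ × ℤ) : kx L (m + n) = kx L m + kx L n := by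
  unfold kx
  rw [Prod.fst_add, Prod.snd_add]
  push_cast
  ring

theorem DER3_ky_add (L : Lat) (m n : ℤ × ℤ) : ky L (m + n) = ky L m + ky L n := by
  unfold ky
  rw [Prod.fst_add, Prod.snd_add]
  push_cast
  ring

theorem DER3_kx_zero (L : Lat) : kx L 0 = 0 := by
  unfold kx
  simp

theorem DER3_ky_zero (L : Lat) : ky L 0 = 0 := by
  unfold ky
  simp

theorem DER3_kx_neg (L : Lat) (n : ℤ × ℤ) : kx L (-n) = -kx L n := by
  have h := DER3_kx_add L (-n) n
  rw [neg_add_cancel, DER3_kx_zero] at h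
  linarith

theorem DER3_ky_neg (L : Lat) (n : ℤ × ℤ) : ky L (-n) = -ky L n := by
  have h := DER3_ky_add L (-n) n
  rw [neg_add_cancel, DER3_ky_zero] at h
  linarith

theorem DER3_conv {σ : ℤ × ℤ → ℂ} (hσ : ∀ m n, σ (m + n) = σ m + σ n) {a a' b b' : V}
    (h : ∀ n, a' n = σ n * a n) (h' : ∀ n, b' n = σ n * b n) (n : ℤ × ℤ) :
    (conv a' b + conv a b' : V) n = σ n * conv a b n := by
  rw [DER3_add, conv_apply, conv_apply, conv_apply, ← (wb2_fiber' a' b n).tsum_add (wb2_fiber' a b' n),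
    ← tsum_mul_left]
  refine tsum_congr fun m => ?_
  have h1 : σ n = σ m + σ (n - m) := by
    rw [← hσ]
    congr 1
    abel
  rw [h m, h' (n - m), h1]
  ring

theorem Jok.add {L : Lat} {e : ℝ} {a b : Jt} (ha : Jok L e a) (hb : Jok L e b) : Jok L e (a + b) := by
  refine ⟨fun n => ?_, fun n => ?_⟩
  · show (a 1 + b 1 : V) n = _ * (a 0 + b 0 : V) n
    rw [DER3_add, DER3_add, ha.1, hb.1]
    ring
  · show (a 2 + b 2 : V) n = _ * (a 0 + b 0 : V) n
    rw [DER3_add, DER3_add, ha.2, hb.2]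
    ring
theorem Jok.sub {L : Lat} {e : ℝ} {a b : Jt} (ha : Jok L e a) (hb : Jok L e b) : Jok L e (a - b) := by
  refine ⟨fun n => ?_, fun n => ?_⟩
  · show (a 1 - b 1 : V) n = _ * (a 0 - b 0 : V) n
    rw [DER3_sub, DER3_sub, ha.1, hb.1]
    ring
  · show (a 2 - b 2 : V) n = _ * (a 0 - b 0 : V) n
    rw [DER3_sub, DER3_sub, ha.2, hb.2]
    ring
theorem Jok.neg {L : Lat} {e : ℝ} {a : Jt} (ha : Jok L e a) : Jok L e (-a) := by
  refine ⟨fun n => ?_, fun n => ?_⟩
  · show (-a 1 : V) n = _ * (-a 0 : V) n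
    rw [DER3_neg, DER3_neg, ha.1]
    ring
  · show (-a 2 : V) n = _ * (-a 0 : V) n
    rw [DER3_neg, DER3_neg, ha.2]
    ring
theorem Jok.smul {L : Lat} {e : ℝ} {a : Jt} (c : ℝ) (ha : Jok L e a) : Jok L e (c • a) := by
  refine ⟨fun n => ?_, fun n => ?_⟩
  · show (c • a 1 : V) n = _ * (c • a 0 : V) n
    rw [DER3_smul, DER3_smul, ha.1]
    ring
  · show (c • a 2 : V) n = _ * (c • a 0 : V) n
    rw [DER3_smul, DER3_smul, ha.2]
    ring
theorem Jok.jc {L : Lat} {e : ℝ} {a b : Jt} (ha : Jok L e a) (hb : Jok L e b) : Jok L e (jc a b) := by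
  refine ⟨fun n => ?_, fun n => ?_⟩
  · show (conv (a 1) (b 0) + conv (a 0) (b 1) : V) n = _ * conv (a 0) (b 0) n
    refine DER3_conv (σ := fun n => (e : ℂ) * (Complex.I * (kx L n : ℂ))) (fun m n => ?_)
      (fun n => ha.1 n) (fun n => hb.1 n) n
    show (e : ℂ) * (Complex.I * (kx L (m + n) : ℂ)) = _
    rw [DER3_kx_add]
    push_cast
    ring
  · show (conv (a 2) (b 0) + conv (a 0) (b 2) : V) n = _ * conv (a 0) (b 0) n
    refine DER3_conv (σ := fun n => (e : ℂ) * (Complex.I * (ky L n : ℂ))) (fun m n => ?_)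
      (fun n => ha.2 n) (fun n => hb.2 n) n
    show (e : ℂ) * (Complex.I * (ky L (m + n) : ℂ)) = _
    rw [DER3_ky_add]
    push_cast
    ring
theorem Jok.jJ {L : Lat} {e : ℝ} {a : Jt} (ha : Jok L e a) : Jok L e (jJ a) := by
  refine ⟨fun n => ?_, fun n => ?_⟩
  · show J (a 1) n = _ * J (a 0) n
    rw [J_apply, J_apply, ha.1, DER3_kx_neg]
    simp only [map_mul, Complex.conj_ofReal, Complex.conj_I]
    push_cast
    ring
  · show J (a 2) n = _ * J (a 0) n
    rw [J_apply, J_apply, ha.2, DER3_ky_neg]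
    simp only [map_mul, Complex.conj_ofReal, Complex.conj_I]
    push_cast
    ring
theorem Jok.jone {L : Lat} {e : ℝ} : Jok L e jone := by
  refine ⟨fun n => ?_, fun n => ?_⟩
  · show (0 : ℂ) = _ * (one : V) n
    rw [WApi1b_one_apply]
    by_cases hn : n = 0
    · subst hn
      rw [DER3_kx_zero]
      simp
    · rw [if_neg hn, mul_zero]
  · show (0 : ℂ) = _ * (one : V) n
    rw [WApi1b_one_apply]
    by_cases hn : n = 0
    · subst hn
      rw [DER3_ky_zero]
      simp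
    · rw [if_neg hn, mul_zero]
theorem Jok_iff {L : Lat} {e : ℝ} (he : e ≠ 0) (a : Jt) :
    Jok L e a ↔ Dk (kx L) (a 0) (e⁻¹ • a 1) ∧ Dk (ky L) (a 0) (e⁻¹ • a 2) := by
  have he' : (e : ℂ) ≠ 0 := by exact_mod_cast he
  have key : ∀ (κ : ℤ × ℤ → ℝ) (x y : V), (∀ n, y n = (e : ℂ) * (Complex.I * (κ n : ℂ)) * x n) ↔
      Dk κ x (e⁻¹ • y) := by
    intro κ x y
    refine forall_congr' fun n => ?_
    rw [DER3_smul]
    push_cast
    constructor
    · intro h
      rw [h]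
      field_simp
    · intro h
      have h2 : y n = (e : ℂ) * ((e : ℂ)⁻¹ * y n) := by field_simp
      rw [h2, h]
      ring
  exact and_congr (key _ _ _) (key _ _ _)

end P205T.K
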