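import Vale.Agent.P205K.Sol
import Vale.Agent.P205T.WDeriv

/-! Modules EV: the functions `α = fal`, `Z = fZ` of a solution. -/

open Complex ComplexConjugate
open scoped ContDiff

namespace P205T.K

noncomputable def fal (L : Lat) (q : Q) (z : ℂ) : ℝ := (ev L z (al L q)).re
noncomputable def bb (q : Q) : ℝ := ee q * ((q.1 1) ((0 : ℤ), (0 : ℤ))).re
noncomputable def fZ (L : Lat) (q : Q) (z : ℂ) : ℂ :=
  z + (bb q : ℂ) * (conj z - z) + ev L z (ee q • mult (N0 L) (q.1 1))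

/-- termwise differentiation -/
theorem EV1_deriv (L : Lat) {a a1 a2 : V} (h1 : Dk (kx L) a a1) (h2 : Dk (ky L) a a2) (z : ℂ) :
    HasFDerivAt (fun z => ev L z a)
      (Complex.reCLM.smulRight (ev L z a1) + Complex.imCLM.smulRight (ev L z a2)) z := by
  have hs1 := wb1_summable a1
  have hs2 := wb1_summable a2
  have bx : ∀ n z, ‖Complex.I * (kx L n : ℂ) * a n * ch L n z‖ ≤ ‖a1 n‖ := by
    intro n z
    rw [h1 n, norm_mul, norm_ch, mul_one]
  have bY : ∀ n z, ‖Complex.I * (ky L n : ℂ) * a n * ch L n z‖ ≤ ‖a2 n‖ := by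
    intro n z
    rw [h2 n, norm_mul, norm_ch, mul_one]
  have hu : Summable fun n => ‖a1 n‖ + ‖a2 n‖ := hs1.add hs2
  have key := hasFDerivAt_tsum (𝕜 := ℝ) hu (fun n z => wd_ch L n (a n) z)
    (fun n z => wd_norm _ _ _ _ (bx n z) (bY n z)) (x₀ := 0) (wb1_summable_ev L 0 a) z
  have e1 : (fun z => ev L z a) = fun z => ∑' n, a n * ch L n z := by
    funext z
    rw [ev_apply]
  have sx : Summable fun n => Complex.I * (kx L n : ℂ) * a n * ch L n z :=
    Summable.of_norm_bounded hs1 (fun n => bx n z)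
  have sy : Summable fun n => Complex.I * (ky L n : ℂ) * a n * ch L n z :=
    Summable.of_norm_bounded hs2 (fun n => bY n z)
  have ex : ev L z a1 = ∑' n, Complex.I * (kx L n : ℂ) * a n * ch L n z := by
    rw [ev_apply]
    exact tsum_congr fun n => by rw [h1 n]
  have ey : ev L z a2 = ∑' n, Complex.I * (ky L n : ℂ) * a n * ch L n z := by
    rw [ev_apply]
    exact tsum_congr fun n => by rw [h2 n]
  rw [e1, ex, ey]
  have hx := ((ContinuousLinearMap.smulRightL ℝ ℂ ℂ) Complex.reCLM).hasSum sx.hasSum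
  have hy := ((ContinuousLinearMap.smulRightL ℝ ℂ ℂ) Complex.imCLM).hasSum sy.hasSum
  have hxy := (hx.add hy).tsum_eq
  refine key.congr_fderiv ?_
  exact hxy

/-- partial derivatives of a real function given by an element of `V` -/
theorem EV1_dx {L : Lat} {a a1 a2 : V} (h1 : Dk (kx L) a a1) (h2 : Dk (ky L) a a2) {f : ℂ → ℝ}
    (hf : ∀ z, ev L z a = ((f z : ℝ) : ℂ)) (z : ℂ) :
    ev L z a1 = ((dx f z : ℝ) : ℂ) ∧ ev L z a2 = ((dy f z : ℝ) : ℂ) := by
  have hd := EV1_deriv L h1 h2 z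
  have hfr : f = fun z => (ev L z a).re := by
    funext z
    rw [hf z, Complex.ofReal_re]
  have hD : HasFDerivAt f (Complex.reCLM.comp
      (Complex.reCLM.smulRight (ev L z a1) + Complex.imCLM.smulRight (ev L z a2))) z := by
    rw [hfr]
    exact Complex.reCLM.hasFDerivAt.comp z hd
  have hD2 : HasFDerivAt (fun z => ((f z : ℝ) : ℂ)) (Complex.ofRealCLM.comp (Complex.reCLM.comp
      (Complex.reCLM.smulRight (ev L z a1) + Complex.imCLM.smulRight (ev L z a2)))) z :=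
    Complex.ofRealCLM.hasFDerivAt.comp z hD
  have hfun : (fun z => ev L z a) = fun z => ((f z : ℝ) : ℂ) := funext hf
  rw [hfun] at hd
  have hu := hd.unique hD2
  have e1 := congrArg (fun D : ℂ →L[ℝ] ℂ => D 1) hu
  have e2 := congrArg (fun D : ℂ →L[ℝ] ℂ => D Complex.I) hu
  simp only [ContinuousLinearMap.add_apply, ContinuousLinearMap.smulRight_apply,
    ContinuousLinearMap.comp_apply, Complex.reCLM_apply, Complex.imCLM_apply, Complex.one_re,
    Complex.one_im, Complex.I_re, Complex.I_im, one_smul, zero_smul, add_zero, zero_add,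
    Complex.ofRealCLM_apply] at e1 e2
  constructor
  · unfold dx
    rw [hD.fderiv]
    simp only [ContinuousLinearMap.add_apply, ContinuousLinearMap.smulRight_apply,
      ContinuousLinearMap.comp_apply, Complex.reCLM_apply, Complex.imCLM_apply, Complex.one_re,
      Complex.one_im, one_smul, zero_smul, add_zero]
    exact e1
  · unfold dy
    rw [hD.fderiv]
    simp only [ContinuousLinearMap.add_apply, ContinuousLinearMap.smulRight_apply,
      ContinuousLinearMap.comp_apply, Complex.reCLM_apply, Complex.imCLM_apply, Complex.I_re,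
      Complex.I_im, one_smul, zero_smul, zero_add]
    exact e2

theorem EV1_kx (p h : ℝ) (hp : 0 < p) (hh : 0 < h) (n : ℤ × ℤ) :
    kx (Lr p h hp hh) n = 2 * Real.pi * n.1 / p := by
  unfold kx Lr
  simp only [Complex.conj_ofReal, Complex.mul_im, Complex.ofReal_re, Complex.ofReal_im,
    Complex.mul_re, Complex.I_re, Complex.I_im, Complex.re_ofNat, Complex.im_ofNat]
  field_simp
  ring

theorem EV1_ky (p h : ℝ) (hp : 0 < p) (hh : 0 < h) (n : ℤ × ℤ) :
    ky (Lr p h hp hh) n = Real.pi * n.2 / h := by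
  unfold ky Lr
  simp only [Complex.conj_ofReal, Complex.mul_im, Complex.ofReal_re, Complex.ofReal_im,
    Complex.mul_re, Complex.I_re, Complex.I_im, Complex.re_ofNat, Complex.im_ofNat]
  field_simp
  ring

theorem EV1_ch_sig (p h : ℝ) (hp : 0 < p) (hh : 0 < h) (n : ℤ × ℤ) (z : ℂ) :
    ch (Lr p h hp hh) n (sig h z) = sgn n * ch (Lr p h hp hh) (-n.1, n.2) z := by
  have hre : (sig h z).re = -z.re := by simp [sig]
  have him : (sig h z).im = z.im + h := by simp [sig]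
  have hpi : sgn n = Complex.exp (Complex.I * ((Real.pi * n.2 : ℝ) : ℂ)) := by
    unfold sgn
    have : Complex.I * ((Real.pi * n.2 : ℝ) : ℂ) = (n.2 : ℂ) * (Real.pi * Complex.I) := by
      push_cast; ring
    rw [this, Complex.exp_int_mul, Complex.exp_pi_mul_I]
  rw [hpi]
  unfold ch
  rw [← Complex.exp_add]
  congr 1
  rw [hre, him, EV1_kx, EV1_ky, EV1_kx, EV1_ky]
  have hh' : (h : ℂ) ≠ 0 := by exact_mod_cast hh.ne'
  have hp' : (p : ℂ) ≠ 0 := by exact_mod_cast hp.ne'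
  push_cast
  field_simp
  ring

theorem EV1_ev_Sg (p h : ℝ) (hp : 0 < p) (hh : 0 < h) (z : ℂ) (c : V) :
    ev (Lr p h hp hh) z (Sg c) = ev (Lr p h hp hh) (sig h z) c := by
  rw [ev_apply, ev_apply]
  let e : (ℤ × ℤ) ≃ (ℤ × ℤ) :=
    { toFun := fun n => (-n.1, n.2), invFun := fun n => (-n.1, n.2)
      left_inv := fun n => by simp, right_inv := fun n => by simp }
  rw [← e.tsum_eq (fun n => c n * ch (Lr p h hp hh) n (sig h z))]
  refine tsum_congr fun n => ?_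
  change _ = c (-n.1, n.2) * ch (Lr p h hp hh) (-n.1, n.2) (sig h z)
  rw [Sg_apply, EV1_ch_sig]
  have h2 : sgn (-n.1, n.2) = sgn n := rfl
  rw [h2]
  simp only [neg_neg]
  ring

theorem EV1_bdd_of_le {m : ℤ × ℤ → ℂ} (K : ℝ) (h : ∀ n, ‖m n‖ ≤ K) : Bdd m := ⟨K, h⟩

theorem EV1_N0_norm (L : Lat) {n : ℤ × ℤ} (hn : n ≠ 0) :
    ‖N0 L n‖ ^ 2 = 4 / (kx L n ^ 2 + ky L n ^ 2) := by
  unfold N0
  rw [if_neg hn, norm_div, norm_mul, Complex.norm_I, one_mul, div_pow]
  have h1 : ‖(kx L n : ℂ) + Complex.I * (ky L n : ℂ)‖ ^ 2 = kx L n ^ 2 + ky L n ^ 2 := by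
    rw [Complex.sq_norm, Complex.normSq_apply]
    simp
    ring
  rw [h1]
  norm_num

theorem EV1_N1_norm (L : Lat) (n : ℤ × ℤ) : ‖N1 L n‖ ^ 2 ≤ 4 := by
  by_cases hn : n = 0
  · subst hn
    simp [N1, N0]
  · unfold N1
    rw [norm_mul, norm_mul, Complex.norm_I, one_mul, mul_pow, EV1_N0_norm L hn, Complex.norm_real,
      Real.norm_eq_abs, sq_abs]
    have h0 := kk_pos L hn
    rw [← mul_div_assoc, div_le_iff₀ h0]
    nlinarith [sq_nonneg (ky L n)]

theorem EV1_N2_norm (L : Lat) (n : ℤ × ℤ) : ‖N2 L n‖ ^ 2 ≤ 4 := by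
  by_cases hn : n = 0
  · subst hn
    simp [N2, N0]
  · unfold N2
    rw [norm_mul, norm_mul, Complex.norm_I, one_mul, mul_pow, EV1_N0_norm L hn, Complex.norm_real,
      Real.norm_eq_abs, sq_abs]
    have h0 := kk_pos L hn
    rw [← mul_div_assoc, div_le_iff₀ h0]
    nlinarith [sq_nonneg (kx L n)]

section
variable {p h : ℝ} {hp : 0 < p} {hh : 0 < h} {k : ℕ} {κ A : ℝ} {w : ℂ → ℝ} {C₁ : ℝ} {q : Q}

/-- module EV1 -/
theorem bdd_N (L : Lat) : Bdd (N0 L) ∧ Bdd (N1 L) ∧ Bdd (N2 L) ∧ Bdd (Sm L) := by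
  have h1 : ∀ n, ‖N1 L n‖ ≤ 2 := fun n => by
    have := EV1_N1_norm L n
    nlinarith [norm_nonneg (N1 L n)]
  have h2 : ∀ n, ‖N2 L n‖ ≤ 2 := fun n => by
    have := EV1_N2_norm L n
    nlinarith [norm_nonneg (N2 L n)]
  refine ⟨⟨1 + 4 * (WMS L / (2 * Real.pi) ^ 2), fun n => ?_⟩, ⟨2, h1⟩, ⟨2, h2⟩, ⟨2, fun n => ?_⟩⟩
  · have hK : 0 ≤ WMS L / (2 * Real.pi) ^ 2 := div_nonneg (WMS_nonneg L) (by positivity)
    by_cases hn : n = 0
    · subst hn
      simp only [N0, if_true, norm_zero]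
      positivity
    · have h3 := EV1_N0_norm L hn
      have h4 := WM_inv_le L hn
      have h5 : ‖N0 L n‖ ^ 2 ≤ 4 * (WMS L / (2 * Real.pi) ^ 2) := by
        rw [h3]
        calc 4 / (kx L n ^ 2 + ky L n ^ 2) = 4 * (1 / (kx L n ^ 2 + ky L n ^ 2)) := by ring
          _ ≤ _ := by linarith
      nlinarith [sq_nonneg (‖N0 L n‖ - 1)]
  · unfold Sm
    rw [norm_div]
    have h3 : ‖N1 L n - Complex.I * N2 L n‖ ≤ 4 := by
      refine (norm_sub_le _ _).trans ?_
      rw [norm_mul, Complex.norm_I, one_mul]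
      linarith [h1 n, h2 n]
    have h4 : ‖(2 : ℂ)‖ = 2 := by simp
    rw [h4]
    linarith

theorem EV1_al_apply (L : Lat) (q : Q) (n : ℤ × ℤ) :
    al L q n = (eta q : ℂ) * ((M0 L n + Z0 n) * q.1 0 n) := by
  unfold al
  rw [DER1_smul, lp.coeFn_add, Pi.add_apply, mult_apply (bdd_M0 L), mult_apply bdd_Z0]
  ring

theorem EV1_J_al (L : Lat) {q : Q} (hr : J (q.1 0) = q.1 0) : J (al L q) = al L q := by
  refine lp.ext (funext fun n => ?_)
  have h1 : q.1 0 n = conj (q.1 0 (-n)) := by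
    rw [← J_apply, hr]
  rw [J_apply, EV1_al_apply, EV1_al_apply, M0_neg, Z0_neg]
  simp only [map_mul, map_add, Complex.conj_conj, Complex.conj_ofReal]
  rw [← h1]

theorem EV1_Dk (L : Lat) (q : Q) :
    Dk (kx L) (al L q) (al1 L q) ∧ Dk (ky L) (al L q) (al2 L q) ∧
    Dk (kx L) (al1 L q) (al11 L q) ∧ Dk (ky L) (al1 L q) (al12 L q) ∧
    Dk (kx L) (al2 L q) (al12 L q) ∧ Dk (ky L) (al2 L q) (al22 L q) := by
  have hk0 : ∀ n, (kx L n : ℂ) * Z0 n = 0 := by
    intro n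
    by_cases hn : n = 0
    · subst hn
      have : kx L 0 = 0 := DER1_zero (Ad_kx L)
      rw [this]; simp
    · simp [Z0, hn]
  have hk1 : ∀ n, (ky L n : ℂ) * Z0 n = 0 := by
    intro n
    by_cases hn : n = 0
    · subst hn
      have : ky L 0 = 0 := DER1_zero (Ad_ky L)
      rw [this]; simp
    · simp [Z0, hn]
  refine ⟨fun n => ?_, fun n => ?_, fun n => ?_, fun n => ?_, fun n => ?_, fun n => ?_⟩
  · rw [EV1_al_apply]
    unfold al1
    rw [DER1_smul, mult_apply (bdd_M1 L)]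
    unfold M1
    linear_combination (-Complex.I * (eta q : ℂ) * q.1 0 n) * hk0 n
  · rw [EV1_al_apply]
    unfold al2
    rw [DER1_smul, mult_apply (bdd_M2 L)]
    unfold M2
    linear_combination (-Complex.I * (eta q : ℂ) * q.1 0 n) * hk1 n
  · unfold al1 al11
    rw [DER1_smul, DER1_smul, mult_apply (bdd_M1 L), mult_apply (bdd_M11 L)]
    unfold M11
    ring
  · unfold al1 al12
    rw [DER1_smul, DER1_smul, mult_apply (bdd_M1 L), mult_apply (bdd_M12 L)]
    unfold M12 M1 M2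
    ring
  · unfold al2 al12
    rw [DER1_smul, DER1_smul, mult_apply (bdd_M2 L), mult_apply (bdd_M12 L)]
    unfold M12
    ring
  · unfold al2 al22
    rw [DER1_smul, DER1_smul, mult_apply (bdd_M2 L), mult_apply (bdd_M22 L)]
    unfold M22
    ring

theorem fal_ev (S : Sol p h hp hh k κ A w C₁ q) (z : ℂ) :
    ev (Lr p h hp hh) z (al (Lr p h hp hh) q) = ((fal (Lr p h hp hh) q z : ℝ) : ℂ) := by
  have h1 := ev_J (Lr p h hp hh) z (al (Lr p h hp hh) q)
  rw [EV1_J_al _ S.rU] at h1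
  exact (Complex.conj_eq_iff_re.1 h1.symm).symm

theorem fal_smooth (S : Sol p h hp hh k κ A w C₁ q) : ContDiff ℝ ∞ (fal (Lr p h hp hh) q) := by
  have h1 : ∀ z, fal (Lr p h hp hh) q z = (ev (Lr p h hp hh) 0
      (eta q • (mult (M0 (Lr p h hp hh)) (T (Lr p h hp hh) z (q.1 0)) +
        mult Z0 (T (Lr p h hp hh) z (q.1 0))))).re := by
    intro z
    unfold fal al
    rw [mult_T (bdd_M0 _), mult_T bdd_Z0, ← map_add, ← map_smul, ev_T, zero_add]
  have h2 : fal (Lr p h hp hh) q = fun z => (ev (Lr p h hp hh) 0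
      (eta q • (mult (M0 (Lr p h hp hh)) (T (Lr p h hp hh) z (q.1 0)) +
        mult Z0 (T (Lr p h hp hh) z (q.1 0))))).re := funext h1
  rw [h2]
  have h3 := S.smooth 0
  exact Complex.reCLM.contDiff.comp ((ev (Lr p h hp hh) 0).contDiff.comp
    ((((mult (M0 (Lr p h hp hh))).contDiff.comp h3).add
      ((mult Z0).contDiff.comp h3)).const_smul (eta q)))

theorem fal_d (S : Sol p h hp hh k κ A w C₁ q) (z : ℂ) :
    ev (Lr p h hp hh) z (al1 (Lr p h hp hh) q) = ((dx (fal (Lr p h hp hh) q) z : ℝ) : ℂ) ∧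
    ev (Lr p h hp hh) z (al2 (Lr p h hp hh) q) = ((dy (fal (Lr p h hp hh) q) z : ℝ) : ℂ) ∧
    ev (Lr p h hp hh) z (al11 (Lr p h hp hh) q) = ((dx (dx (fal (Lr p h hp hh) q)) z : ℝ) : ℂ) ∧
    ev (Lr p h hp hh) z (al12 (Lr p h hp hh) q) = ((dx (dy (fal (Lr p h hp hh) q)) z : ℝ) : ℂ) ∧
    ev (Lr p h hp hh) z (al22 (Lr p h hp hh) q) = ((dy (dy (fal (Lr p h hp hh) q)) z : ℝ) : ℂ) := by
  obtain ⟨d1, d2, d11, d12, d21, d22⟩ := EV1_Dk (Lr p h hp hh) q
  have g0 := fun z => EV1_dx d1 d2 (fun z => fal_ev S z) z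
  have g1 := fun z => EV1_dx d11 d12 (fun z => (g0 z).1) z
  have g2 := fun z => EV1_dx d21 d22 (fun z => (g0 z).2) z
  exact ⟨(g0 z).1, (g0 z).2, (g1 z).1, (g2 z).1, (g2 z).2⟩

theorem EV1_Sg_al (hs : Sg (q.1 0) = q.1 0) :
    Sg (al (Lr p h hp hh) q) = al (Lr p h hp hh) q := by
  refine lp.ext (funext fun n => ?_)
  have h1 : q.1 0 n = sgn n * q.1 0 (-n.1, n.2) := by
    rw [← Sg_apply, hs]
  have h2 : M0 (Lr p h hp hh) (-n.1, n.2) = M0 (Lr p h hp hh) n := by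
    have e1 : kx (Lr p h hp hh) (-n.1, n.2) ^ 2 = kx (Lr p h hp hh) n ^ 2 := by
      rw [EV1_kx, EV1_kx]; push_cast; ring
    have e2 : ky (Lr p h hp hh) (-n.1, n.2) = ky (Lr p h hp hh) n := by
      rw [EV1_ky, EV1_ky]
    unfold M0
    rw [e1, e2]
    have e3 : ((-n.1, n.2) = (0 : ℤ × ℤ)) ↔ (n = 0) := by
      rw [Prod.ext_iff, Prod.ext_iff]; simp
    by_cases hn : n = 0
    · rw [if_pos hn, if_pos (e3.2 hn)]
    · rw [if_neg hn, if_neg (fun h => hn (e3.1 h))]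
  have h3 : Z0 (-n.1, n.2) = Z0 n := by
    have e3 : ((-n.1, n.2) = (0 : ℤ × ℤ)) ↔ (n = 0) := by
      rw [Prod.ext_iff, Prod.ext_iff]; simp
    unfold Z0
    by_cases hn : n = 0
    · rw [if_pos hn, if_pos (e3.2 hn)]
    · rw [if_neg hn, if_neg (fun h => hn (e3.1 h))]
  rw [Sg_apply, EV1_al_apply, EV1_al_apply, h2, h3, h1]
  ring

theorem fal_per (S : Sol p h hp hh k κ A w C₁ q) (z : ℂ) :
    fal (Lr p h hp hh) q (z + p) = fal (Lr p h hp hh) q z ∧
    fal (Lr p h hp hh) q (sig h z) = fal (Lr p h hp hh) q z := by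
  constructor
  · unfold fal
    have h1 := (ev_per (Lr p h hp hh) (al (Lr p h hp hh) q)).1 z
    have h2 : ev (Lr p h hp hh) (z + (p : ℂ)) (al (Lr p h hp hh) q) =
        ev (Lr p h hp hh) z (al (Lr p h hp hh) q) := h1
    rw [h2]
  · unfold fal
    rw [← EV1_ev_Sg, EV1_Sg_al S.su.s0]

/-- termwise differentiation -/
theorem EV2_hasFDerivAt (L : Lat) {c cx cy : V} (hx : Dk (kx L) c cx) (hy : Dk (ky L) c cy) (z : ℂ) :
    HasFDerivAt (fun z => ev L z c)
      (Complex.reCLM.smulRight (ev L z cx) + Complex.imCLM.smulRight (ev L z cy)) z := by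
  have hcx := wb1_summable cx
  have hcy := wb1_summable cy
  have bx : ∀ n z, ‖Complex.I * (kx L n : ℂ) * c n * ch L n z‖ ≤ ‖cx n‖ := by
    intro n z
    rw [norm_mul, norm_ch, mul_one, hx n]
  have bY : ∀ n z, ‖Complex.I * (ky L n : ℂ) * c n * ch L n z‖ ≤ ‖cy n‖ := by
    intro n z
    rw [norm_mul, norm_ch, mul_one, hy n]
  have key := hasFDerivAt_tsum (𝕜 := ℝ) (hcx.add hcy) (fun n z => wd_ch L n (c n) z)
    (fun n z => wd_norm _ _ _ _ (bx n z) (bY n z)) (x₀ := 0) (wb1_summable_ev L 0 c) z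
  have e1 : (fun z => ev L z c) = fun z => ∑' n, c n * ch L n z := by
    funext z
    rw [ev_apply]
  have sx : Summable fun n => Complex.I * (kx L n : ℂ) * c n * ch L n z :=
    Summable.of_norm_bounded hcx (fun n => bx n z)
  have sy : Summable fun n => Complex.I * (ky L n : ℂ) * c n * ch L n z :=
    Summable.of_norm_bounded hcy (fun n => bY n z)
  have ex : ev L z cx = ∑' n, Complex.I * (kx L n : ℂ) * c n * ch L n z := by
    rw [ev_apply]
    refine tsum_congr fun n => ?_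
    rw [hx n]
  have ey : ev L z cy = ∑' n, Complex.I * (ky L n : ℂ) * c n * ch L n z := by
    rw [ev_apply]
    refine tsum_congr fun n => ?_
    rw [hy n]
  rw [e1, ex, ey]
  have hx := ((ContinuousLinearMap.smulRightL ℝ ℂ ℂ) Complex.reCLM).hasSum sx.hasSum
  have hy := ((ContinuousLinearMap.smulRightL ℝ ℂ ℂ) Complex.imCLM).hasSum sy.hasSum
  have hxy := (hx.add hy).tsum_eq
  refine key.congr_fderiv ?_
  exact hxy

theorem EV2_smooth (L : Lat) {m : ℤ × ℤ → ℂ} (hm : Bdd m) (c : V)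
    (hc : ContDiff ℝ ∞ (fun t : ℂ => T L t c)) : ContDiff ℝ ∞ (fun z => ev L z (mult m c)) := by
  have h1 : (fun z => ev L z (mult m c)) = fun z => ev L 0 (mult m (T L z c)) := by
    funext z
    rw [mult_T hm, ev_T, zero_add]
  rw [h1]
  exact (ev L 0).contDiff.comp ((mult m).contDiff.comp hc)

theorem EV2_smul (L : Lat) (z : ℂ) (a : ℝ) (c : V) : ev L z (a • c) = (a : ℂ) * ev L z c := by
  rw [map_smul, Complex.real_smul]

theorem EV2_re (L : Lat) (z : ℂ) (c : V) : ev L z (re c) = (((ev L z c).re : ℝ) : ℂ) := by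
  unfold re
  rw [EV2_smul, map_add, ev_J, Complex.add_conj]
  push_cast
  ring

theorem EV2_real (S : Sol p h hp hh k κ A w C₁ q) :
    ((((q.1 1) ((0 : ℤ), (0 : ℤ))).re : ℝ) : ℂ) = (q.1 1) 0 := by
  have h1 := congrArg (fun c : V => c 0) S.su.s1
  simp only [Sg_apply, J_apply] at h1
  have h2 : sgn 0 = 1 := by simp [sgn]
  have h3 : ((-(0 : ℤ × ℤ).1, (0 : ℤ × ℤ).2) : ℤ × ℤ) = 0 := by simp
  rw [h2, h3, one_mul, neg_zero] at h1
  exact Complex.conj_eq_iff_re.1 h1.symm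

theorem EV2_hasFDerivAt_fZ (L : Lat) (q : Q) (z : ℂ) :
    HasFDerivAt (fZ L q) (ContinuousLinearMap.id ℝ ℂ
      + (bb q : ℝ) • (Complex.conjCLE.toContinuousLinearMap - ContinuousLinearMap.id ℝ ℂ)
      + (ee q : ℝ) • (Complex.reCLM.smulRight (ev L z (mult (N1 L) (q.1 1)))
        + Complex.imCLM.smulRight (ev L z (mult (N2 L) (q.1 1))))) z := by
  have h1 := ev_mult_hasFDerivAt L (bdd_N L).1 (bdd_N L).2.1 (bdd_N L).2.2.1 (q.1 1) z
  have h2 : HasFDerivAt (fun z : ℂ => conj z - z)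
      (Complex.conjCLE.toContinuousLinearMap - ContinuousLinearMap.id ℝ ℂ) z :=
    (Complex.conjCLE.toContinuousLinearMap.hasFDerivAt).sub (hasFDerivAt_id z)
  have h3 := ((hasFDerivAt_id (𝕜 := ℝ) z).add (h2.const_smul (bb q))).add (h1.const_smul (ee q))
  refine h3.congr_of_eventuallyEq (Filter.Eventually.of_forall fun z => ?_)
  simp only [fZ, Pi.add_apply, Pi.smul_apply, id, Complex.real_smul, EV2_smul]

theorem EV2_fderiv_fZ (L : Lat) (q : Q) (z v : ℂ) :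
    fderiv ℝ (fZ L q) z v = v + (bb q : ℂ) * (conj v - v)
      + (ee q : ℂ) * ((v.re : ℂ) * ev L z (mult (N1 L) (q.1 1)) + (v.im : ℂ) * ev L z (mult (N2 L) (q.1 1))) := by
  rw [(EV2_hasFDerivAt_fZ L q z).fderiv]
  simp
  ring

theorem EV2_Sm (L : Lat) (z : ℂ) (c : V) :
    ev L z (mult (Sm L) c) = (ev L z (mult (N1 L) c) - Complex.I * ev L z (mult (N2 L) c)) / 2 := by
  have h1 : mult (Sm L) c = (1 / 2 : ℝ) • (mult (N1 L) c - im (mult (N2 L) c)) := by
    refine lp.ext (funext fun n => ?_)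
    rw [mult_apply (bdd_N L).2.2.2, DER1_smul, lp.coeFn_sub, Pi.sub_apply, DER1_im, mult_apply (bdd_N L).2.1,
      mult_apply (bdd_N L).2.2.1]
    unfold Sm
    push_cast
    ring
  have h2 : ev L z (im (mult (N2 L) c)) = Complex.I * ev L z (mult (N2 L) c) := by
    rw [ev_apply, ev_apply, ← tsum_mul_left]
    refine tsum_congr fun n => ?_
    rw [DER1_im]
    ring
  rw [h1, EV2_smul, map_sub, h2]
  push_cast
  ring

theorem EV2_im (L : Lat) (z : ℂ) (c : V) : ev L z (im c) = Complex.I * ev L z c := by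
  rw [ev_apply, ev_apply, ← tsum_mul_left]
  refine tsum_congr fun n => ?_
  rw [DER1_im]
  ring

theorem EV2_Np (L : Lat) (z : ℂ) (c : V) :
    (ev L z (mult (N1 L) c) + Complex.I * ev L z (mult (N2 L) c)) / 2 = ev L z c - c 0 := by
  have h1 : (1 / 2 : ℝ) • (mult (N1 L) c + im (mult (N2 L) c)) = c - mult Z0 c := by
    refine lp.ext (funext fun n => ?_)
    rw [DER1_smul, lp.coeFn_add, Pi.add_apply, DER1_im, mult_apply (bdd_N L).2.1,
      mult_apply (bdd_N L).2.2.1, lp.coeFn_sub, Pi.sub_apply, mult_apply bdd_Z0]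
    unfold N1 N2 N0 Z0
    by_cases hn : n = 0
    · rw [if_pos hn, if_pos hn]
      push_cast
      ring
    · rw [if_neg hn, if_neg hn]
      have h2 : (kx L n : ℂ) + Complex.I * (ky L n : ℂ) ≠ 0 := by
        intro h3
        have hr := congrArg Complex.re h3
        have hi := congrArg Complex.im h3
        simp at hr hi
        have := kk_pos L hn
        rw [hr, hi] at this
        simp at this
      have h4 := Complex.I_ne_zero
      push_cast
      field_simp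
      ring
  have h2 := congrArg (ev L z) h1
  rw [EV2_smul, map_add, EV2_im, map_sub, ev_Z0] at h2
  rw [← h2]
  push_cast
  ring







theorem EV2_kx (p h : ℝ) (hp : 0 < p) (hh : 0 < h) (n : ℤ × ℤ) : kx (Lr p h hp hh) n = 2 * Real.pi * n.1 / p := by
  unfold kx Lr
  simp only [Complex.conj_ofReal, Complex.mul_im, Complex.ofReal_re, Complex.ofReal_im, Complex.mul_re, Complex.I_re,
      Complex.I_im, Complex.re_ofNat, Complex.im_ofNat]
  field_simp
  ring

theorem EV2_ky (p h : ℝ) (hp : 0 < p) (hh : 0 < h) (n : ℤ × ℤ) : ky (Lr p h hp hh) n = Real.pi * n.2 / h := by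
  unfold ky Lr
  simp only [Complex.conj_ofReal, Complex.mul_im, Complex.ofReal_re, Complex.ofReal_im, Complex.mul_re, Complex.I_re,
      Complex.I_im, Complex.re_ofNat, Complex.im_ofNat]
  field_simp
  ring

theorem EV2_ch_sig (p h : ℝ) (hp : 0 < p) (hh : 0 < h) (n : ℤ × ℤ) (z : ℂ) :
    ch (Lr p h hp hh) n (sig h z) = sgn n * ch (Lr p h hp hh) (-n.1, n.2) z := by
  unfold ch
  rw [EV2_kx, EV2_ky, EV2_kx, EV2_ky]
  have h1 : (sig h z).re = - z.re := by
    unfold sig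
    simp
  have h2 : (sig h z).im = z.im + h := by
    unfold sig
    simp
  rw [h1, h2]
  have h3 : sgn n = Complex.exp (Complex.I * ((Real.pi * n.2 : ℝ) : ℂ)) := by
    unfold sgn
    have : Complex.I * ((Real.pi * n.2 : ℝ) : ℂ) = (n.2 : ℂ) * (Real.pi * Complex.I) := by
      push_cast
      ring
    rw [this, Complex.exp_int_mul, Complex.exp_pi_mul_I]
  rw [h3, ← Complex.exp_add]
  congr 1
  rw [← mul_add]
  congr 1
  rw [← Complex.ofReal_add]
  congr 1
  have := hh.ne'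
  push_cast
  field_simp
  ring

theorem EV2_ev_sig (p h : ℝ) (hp : 0 < p) (hh : 0 < h) (c : V) (z : ℂ) :
    ev (Lr p h hp hh) (sig h z) c = ev (Lr p h hp hh) z (Sg c) := by
  rw [ev_apply, ev_apply]
  let e : ℤ × ℤ ≃ ℤ × ℤ := (Equiv.neg ℤ).prodCongr (Equiv.refl ℤ)
  rw [← e.tsum_eq]
  refine tsum_congr fun n => ?_
  have he : e n = (-n.1, n.2) := rfl
  rw [he, EV2_ch_sig, Sg_apply]
  have h1 : sgn (-n.1, n.2) = sgn n := rfl
  rw [h1]
  simp only [neg_neg]
  ring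

theorem EV2_N0_sig (p h : ℝ) (hp : 0 < p) (hh : 0 < h) (n : ℤ × ℤ) :
    N0 (Lr p h hp hh) (-n.1, n.2) = - conj (N0 (Lr p h hp hh) (-n)) := by
  unfold N0
  by_cases hn : n = 0
  · subst hn
    simp
  · have h1 : ¬ ((-n.1, n.2) : ℤ × ℤ) = 0 := by
      intro h2
      apply hn
      have h3 := congrArg Prod.fst h2
      have h4 := congrArg Prod.snd h2
      simp at h3 h4
      exact Prod.ext h3 h4
    rw [if_neg h1, if_neg (neg_ne_zero.2 hn)]
    rw [EV2_kx, EV2_ky, EV2_kx, EV2_ky]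
    simp only [Prod.fst_neg, Prod.snd_neg, map_div₀, map_mul, Complex.conj_I, map_add, Complex.conj_ofReal, map_ofNat]
    rw [← div_neg]
    congr 1
    push_cast
    ring



theorem EV3_ee (S : Sol p h hp hh k κ A w C₁ q) : ee q ≠ 0 := by
  have := S.par.h0
  unfold ee
  positivity

theorem EV3_Dk (S : Sol p h hp hh k κ A w C₁ q) :
    Dk (kx (Lr p h hp hh)) (q.1 1) ((ee q)⁻¹ • q.1 2) ∧ Dk (ky (Lr p h hp hh)) (q.1 1) ((ee q)⁻¹ • q.1 3) := by
  have he := EV3_ee S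
  have he' : ((ee q : ℝ) : ℂ) ≠ 0 := Complex.ofReal_ne_zero.2 he
  have h1 := S.cmp
  constructor
  · intro n
    have h2 : (q.1 2) n = (ee q : ℂ) * (Complex.I * (kx (Lr p h hp hh) n : ℂ)) * (q.1 1) n := h1.1 n
    rw [DER1_smul, h2, Complex.ofReal_inv]
    field_simp
  · intro n
    have h2 : (q.1 3) n = (ee q : ℂ) * (Complex.I * (ky (Lr p h hp hh) n : ℂ)) * (q.1 1) n := h1.2 n
    rw [DER1_smul, h2, Complex.ofReal_inv]
    field_simp

theorem EV3_dx (S : Sol p h hp hh k κ A w C₁ q) (z : ℂ) :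
    dx (fun z => (fZ (Lr p h hp hh) q z).re) z = 1 + ee q * (ev (Lr p h hp hh) z (mult (N1 (Lr p h hp hh)) (q.1 1))).re := by
  unfold dx
  have h1 := (Complex.reCLM.hasFDerivAt (x := fZ (Lr p h hp hh) q z)).comp z
    ((EV2_hasFDerivAt_fZ (Lr p h hp hh) q z).differentiableAt.hasFDerivAt)
  have h2 : HasFDerivAt (fun z => (fZ (Lr p h hp hh) q z).re)
    (Complex.reCLM.comp (fderiv ℝ (fZ (Lr p h hp hh) q) z)) z := h1
  rw [h2.fderiv]
  change (fderiv ℝ (fZ (Lr p h hp hh) q) z 1).re = _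
  rw [EV2_fderiv_fZ]
  simp

theorem EV3_dy (S : Sol p h hp hh k κ A w C₁ q) (z : ℂ) :
    dy (fun z => (fZ (Lr p h hp hh) q z).re) z = ee q * (ev (Lr p h hp hh) z (mult (N2 (Lr p h hp hh)) (q.1 1))).re := by
  unfold dy
  have h1 := (Complex.reCLM.hasFDerivAt (x := fZ (Lr p h hp hh) q z)).comp z
    ((EV2_hasFDerivAt_fZ (Lr p h hp hh) q z).differentiableAt.hasFDerivAt)
  have h2 : HasFDerivAt (fun z => (fZ (Lr p h hp hh) q z).re)
    (Complex.reCLM.comp (fderiv ℝ (fZ (Lr p h hp hh) q) z)) z := h1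
  rw [h2.fderiv]
  change (fderiv ℝ (fZ (Lr p h hp hh) q) z Complex.I).re = _
  rw [EV2_fderiv_fZ]
  simp

theorem EV3_d2 (S : Sol p h hp hh k κ A w C₁ q) {m : ℤ × ℤ → ℂ} (hm : Bdd m) (a : ℝ) (z v : ℂ) :
    fderiv ℝ (fun z => a + ee q * (ev (Lr p h hp hh) z (mult m (q.1 1))).re) z v
      = v.re * (ev (Lr p h hp hh) z (mult m (q.1 2))).re + v.im * (ev (Lr p h hp hh) z (mult m (q.1 3))).re := by
  have he := EV3_ee S
  have h1 := EV2_hasFDerivAt (Lr p h hp hh) ((EV3_Dk S).1.mult hm) ((EV3_Dk S).2.mult hm) z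
  have h2 := (Complex.reCLM.hasFDerivAt (x := ev (Lr p h hp hh) z (mult m (q.1 1)))).comp z h1
  have h3 := (h2.const_mul (ee q)).const_add a
  have h4 : fderiv ℝ (fun z => a + ee q * (ev (Lr p h hp hh) z (mult m (q.1 1))).re) z = _ := h3.fderiv
  rw [h4]
  simp only [FunLike.coe_smul, Pi.smul_apply, ContinuousLinearMap.comp_apply,
    add_apply, ContinuousLinearMap.smulRight_apply, Complex.reCLM_apply, Complex.imCLM_apply,
    map_smul, EV2_smul, smul_eq_mul, Complex.add_re, Complex.real_smul, ← Complex.ofReal_mul, Complex.re_ofReal_mul]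
  field_simp



theorem EV3_phase (S : Sol p h hp hh k κ A w C₁ q) (z : ℂ) :
    2 * q.2.2 1 * k * z.re + 2 * q.2.2 1 * (ev (Lr p h hp hh) z (mult (N0 (Lr p h hp hh)) (q.1 1))).re
      = 2 * (KK p k * (fZ (Lr p h hp hh) q z).re) := by
  have h1 : (fZ (Lr p h hp hh) q z).re
      = z.re + ee q * (ev (Lr p h hp hh) z (mult (N0 (Lr p h hp hh)) (q.1 1))).re := by
    unfold fZ
    rw [EV2_smul]
    simp
  have h2 : q.2.2 1 = 2 * Real.pi / p := by
    rw [S.r]
    rfl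
  have h3 : ee q * k = 1 := S.par.he
  rw [h1]
  unfold KK
  rw [h2]
  linear_combination (-(2 * (2 * Real.pi / p)) * (ev (Lr p h hp hh) z (mult (N0 (Lr p h hp hh)) (q.1 1))).re) * h3

/-- module EV2 (`Z_z̄ = Y`: the zero mode of `q.1 1` is real by `SU`) -/
theorem fZ_smooth (S : Sol p h hp hh k κ A w C₁ q) : ContDiff ℝ ∞ (fZ (Lr p h hp hh) q) := by
  have h1 := EV2_smooth (Lr p h hp hh) (bdd_N (Lr p h hp hh)).1 (q.1 1) (S.smooth 1)
  have h2 : fZ (Lr p h hp hh) q = fun z => z + (bb q : ℂ) * (conj z - z)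
      + (ee q : ℂ) * ev (Lr p h hp hh) z (mult (N0 (Lr p h hp hh)) (q.1 1)) := by
    funext z
    unfold fZ
    rw [EV2_smul]
  rw [h2]
  exact (contDiff_id.add (contDiff_const.mul (Complex.conjCLE.contDiff.sub contDiff_id))).add
    (contDiff_const.mul h1)
theorem fZ_fderiv (S : Sol p h hp hh k κ A w C₁ q) (z v : ℂ) :
    fderiv ℝ (fZ (Lr p h hp hh) q) z v
      = ev (Lr p h hp hh) z (Zz (Lr p h hp hh) q) * v + ev (Lr p h hp hh) z (ee q • q.1 1) * conj v := by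
  rw [EV2_fderiv_fZ]
  have h1 : ev (Lr p h hp hh) z (Zz (Lr p h hp hh) q) = 1 + (ee q : ℂ) *
      ((ev (Lr p h hp hh) z (mult (N1 (Lr p h hp hh)) (q.1 1))
        - Complex.I * ev (Lr p h hp hh) z (mult (N2 (Lr p h hp hh)) (q.1 1))) / 2 - (q.1 1) 0) := by
    unfold Zz r0
    rw [map_add, ev_one, EV2_smul, map_sub, EV2_Sm, EV2_re, ev_Z0]
    congr 3
    exact EV2_real S
  have h2 := EV2_Np (Lr p h hp hh) z (q.1 1)
  have h3 : (bb q : ℂ) = (ee q : ℂ) * (q.1 1) 0 := by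
    unfold bb
    rw [Complex.ofReal_mul, EV2_real S]
  rw [h1, EV2_smul, h3]
  have h4 : (v.re : ℂ) = (v + conj v) / 2 := by
    rw [Complex.add_conj]
    push_cast
    ring
  have h5 : (v.im : ℂ) = -Complex.I * (v - conj v) / 2 := by
    rw [Complex.sub_conj]
    push_cast
    linear_combination (v.im : ℂ) * Complex.I_sq
  rw [h4, h5]
  linear_combination (ee q : ℂ) * conj v * h2
theorem fZ_per (S : Sol p h hp hh k κ A w C₁ q) (z : ℂ) :
    fZ (Lr p h hp hh) q (z + p) = fZ (Lr p h hp hh) q z + p := by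
  unfold fZ
  have h1 := (ev_per (Lr p h hp hh) (ee q • mult (N0 (Lr p h hp hh)) (q.1 1))).1 z
  have h2 : (Lr p h hp hh).ω₁ = (p : ℂ) := rfl
  rw [h2] at h1
  simp only at h1
  rw [h1, map_add, Complex.conj_ofReal]
  ring
theorem fZ_sig (S : Sol p h hp hh k κ A w C₁ q) (z : ℂ) :
    fZ (Lr p h hp hh) q (sig h z)
      = - conj (fZ (Lr p h hp hh) q z) + Complex.I * ((h * (1 - 2 * bb q) : ℝ) : ℂ) := by
  have h1 : Sg (mult (N0 (Lr p h hp hh)) (q.1 1)) = - J (mult (N0 (Lr p h hp hh)) (q.1 1)) := by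
    refine lp.ext (funext fun n => ?_)
    have h2 := congrArg (fun c : V => c n) S.su.s1
    simp only [Sg_apply, J_apply] at h2
    rw [Sg_apply, mult_apply (bdd_N _).1, lp.coeFn_neg, Pi.neg_apply, J_apply, mult_apply (bdd_N _).1, EV2_N0_sig,
      map_mul]
    linear_combination (- conj (N0 (Lr p h hp hh) (-n))) * h2
  have h3 : ev (Lr p h hp hh) (sig h z) (mult (N0 (Lr p h hp hh)) (q.1 1))
      = - conj (ev (Lr p h hp hh) z (mult (N0 (Lr p h hp hh)) (q.1 1))) := by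
    rw [EV2_ev_sig, h1, map_neg, ev_J]
  unfold fZ
  rw [EV2_smul, EV2_smul, h3]
  unfold sig
  simp only [map_add, map_mul, map_neg, map_sub, Complex.conj_conj, Complex.conj_I, Complex.conj_ofReal]
  push_cast
  ring

/-- module EV3: `s = Re Z` -/
theorem s_d (S : Sol p h hp hh k κ A w C₁ q) (z : ℂ) :
    ev (Lr p h hp hh) z (sx (Lr p h hp hh) q) = ((dx (fun z => (fZ (Lr p h hp hh) q z).re) z : ℝ) : ℂ) ∧
    ev (Lr p h hp hh) z (sy (Lr p h hp hh) q) = ((dy (fun z => (fZ (Lr p h hp hh) q z).re) z : ℝ) : ℂ) ∧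
    ev (Lr p h hp hh) z (q11 (Lr p h hp hh) q) = ((dx (dx (fun z => (fZ (Lr p h hp hh) q z).re)) z : ℝ) : ℂ) ∧
    ev (Lr p h hp hh) z (q12 (Lr p h hp hh) q) = ((dx (dy (fun z => (fZ (Lr p h hp hh) q z).re)) z : ℝ) : ℂ) ∧
    ev (Lr p h hp hh) z (q22 (Lr p h hp hh) q) = ((dy (dy (fun z => (fZ (Lr p h hp hh) q z).re)) z : ℝ) : ℂ) := by
  have e1 : dx (fun z => (fZ (Lr p h hp hh) q z).re) = _ := funext (EV3_dx S)
  have e2 : dy (fun z => (fZ (Lr p h hp hh) q z).re) = fun z =>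
      0 + ee q * (ev (Lr p h hp hh) z (mult (N2 (Lr p h hp hh)) (q.1 1))).re := funext fun z => by
    rw [EV3_dy S, zero_add]
  have hb := bdd_N (Lr p h hp hh)
  refine ⟨?_, ?_, ?_, ?_, ?_⟩
  · rw [EV3_dx S]
    unfold sx q1
    rw [map_add, ev_one, EV2_smul, EV2_re]
    push_cast
    ring
  · rw [EV3_dy S]
    unfold sy q2
    rw [EV2_smul, EV2_re]
    push_cast
    ring
  · rw [e1]
    unfold q11 dx
    rw [EV3_d2 S hb.2.1, EV2_re]
    simp
  · rw [e2]
    unfold q12 dx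
    rw [EV3_d2 S hb.2.2.1, EV2_re]
    have h1 : mult (N2 (Lr p h hp hh)) (q.1 2) = mult (N1 (Lr p h hp hh)) (q.1 3) := by
      refine lp.ext (funext fun n => ?_)
      have h2 : (q.1 2) n = (ee q : ℂ) * (Complex.I * (kx (Lr p h hp hh) n : ℂ)) * (q.1 1) n := S.cmp.1 n
      have h3 : (q.1 3) n = (ee q : ℂ) * (Complex.I * (ky (Lr p h hp hh) n : ℂ)) * (q.1 1) n := S.cmp.2 n
      rw [mult_apply hb.2.2.1, mult_apply hb.2.1, h2, h3]
      unfold N1 N2
      ring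
    rw [h1]
    simp
  · rw [e2]
    unfold q22 dy
    rw [EV3_d2 S hb.2.2.1, EV2_re]
    simp
theorem ev_Ep (S : Sol p h hp hh k κ A w C₁ q) (z : ℂ) :
    ev (Lr p h hp hh) z (Ep (Lr p h hp hh) q)
      = Complex.exp (Complex.I * ((2 * (KK p k * (fZ (Lr p h hp hh) q z).re) : ℝ) : ℂ)) ∧
    ev (Lr p h hp hh) z (Em (Lr p h hp hh) q)
      = Complex.exp (-(Complex.I * ((2 * (KK p k * (fZ (Lr p h hp hh) q z).re) : ℝ) : ℂ))) := by
  have h5 := S.par.ev5 z
  rw [← EV3_phase S z]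
  constructor
  · unfold Ep q0
    rw [ev_conv, ev_vexp, h5, EV2_smul, EV2_im, EV2_re, ← Complex.exp_add]
    congr 1
    push_cast
    ring
  · unfold Em q0
    have h6 : ev (Lr p h hp hh) z (q.2.1 6) = conj (ev (Lr p h hp hh) z (q.2.1 5)) := by
      rw [← ev_J, S.par.J5]
    rw [ev_conv, ev_vexp, h6, h5, EV2_smul, EV2_im, EV2_re, ← Complex.exp_conj, ← Complex.exp_add]
    congr 1
    rw [map_mul, Complex.conj_I, Complex.conj_ofReal]
    push_cast
    ring

theorem EV4_im (L : Lat) (z : ℂ) (c : V) : ev L z (im c) = Complex.I * ev L z c := by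
  rw [ev_apply, ev_apply, ← tsum_mul_left]
  refine tsum_congr fun n => ?_
  rw [EXP3_im]; ring

theorem EV4_smul (L : Lat) (z : ℂ) (r : ℝ) (c : V) : ev L z (r • c) = (r : ℂ) * ev L z c := by
  rw [map_smul]; rfl

theorem EV4_kap (S : Sol p h hp hh k κ A w C₁ q) : kap q = κ := by
  have h0 : (0 : ℝ) < k := by exact_mod_cast S.hk
  have : (√(1 / (k : ℝ))) ^ 2 = 1 / (k : ℝ) := Real.sq_sqrt (by positivity)
  simp only [kap, S.r, rpar, Matrix.cons_val_zero, Matrix.cons_val]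
  rw [this]; field_simp

theorem EV4_ee (S : Sol p h hp hh k κ A w C₁ q) : ee q = 1 / (k : ℝ) := by
  have h0 : (0 : ℝ) < k := by exact_mod_cast S.hk
  simp only [ee, S.r, rpar, Matrix.cons_val_zero]
  exact Real.sq_sqrt (by positivity)

theorem EV4_sq (X : ℝ) : HasDerivAt (fun X => Real.sin X ^ 2) (Real.sin (2 * X)) X := by
  refine HasDerivAt.congr_deriv (HasDerivAt.fun_pow (Real.hasDerivAt_sin X) 2) ?_
  rw [Real.sin_two_mul]; simp

theorem EV4_vP (κ A y : ℝ) : HasDerivAt (fun y => vP κ A y) (vP' κ A y) y := by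
  unfold vP vP'
  have e1 : HasDerivAt (fun y : ℝ => cA κ A * y) (cA κ A) y := by
    simpa using (hasDerivAt_id y).const_mul (cA κ A)
  have e2 : HasDerivAt (fun y : ℝ => cB κ A * y ^ 2) (cB κ A * (2 * y)) y := by
    simpa using (hasDerivAt_pow 2 y).const_mul (cB κ A)
  have e3 : HasDerivAt (fun y : ℝ => cC κ A * y ^ 3) (cC κ A * (3 * y ^ 2)) y := by
    simpa using (hasDerivAt_pow 3 y).const_mul (cC κ A)
  have e4 : HasDerivAt (fun y : ℝ => cD κ A * y ^ 4) (cD κ A * (4 * y ^ 3)) y := by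
    simpa using (hasDerivAt_pow 4 y).const_mul (cD κ A)
  exact HasDerivAt.congr_deriv (((e1.fun_add e2).fun_add e3).fun_add e4) (by ring)

theorem EV4_vP' (κ A y : ℝ) :
    HasDerivAt (fun y => vP' κ A y) (2 * cB κ A + 6 * cC κ A * y + 12 * cD κ A * y ^ 2) y := by
  unfold vP'
  have e2 : HasDerivAt (fun y : ℝ => 2 * cB κ A * y) (2 * cB κ A) y := by
    simpa using (hasDerivAt_id y).const_mul (2 * cB κ A)
  have e3 : HasDerivAt (fun y : ℝ => 3 * cC κ A * y ^ 2) (3 * cC κ A * (2 * y)) y := by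
    simpa using (hasDerivAt_pow 2 y).const_mul (3 * cC κ A)
  have e4 : HasDerivAt (fun y : ℝ => 4 * cD κ A * y ^ 3) (4 * cD κ A * (3 * y ^ 2)) y := by
    simpa using (hasDerivAt_pow 3 y).const_mul (4 * cD κ A)
  exact HasDerivAt.congr_deriv (((e2.const_add (cA κ A)).fun_add e3).fun_add e4) (by ring)

theorem EV4_PX (κ A X : ℝ) : HasDerivAt (PX κ A) (-κ * (vP' κ A (Real.sin X ^ 2) * Real.sin (2 * X))) X := by
  have h2 : HasDerivAt (fun X => vP κ A (Real.sin X ^ 2)) (vP' κ A (Real.sin X ^ 2) * Real.sin (2 * X)) X :=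
    HasDerivAt.comp (h₂ := fun y => vP κ A y) (h := fun X => Real.sin X ^ 2) X
      (EV4_vP κ A (Real.sin X ^ 2)) (EV4_sq X)
  have h4 : HasDerivAt (fun X => 1 - κ * vP κ A (Real.sin X ^ 2))
      (-(κ * (vP' κ A (Real.sin X ^ 2) * Real.sin (2 * X)))) X := (h2.const_mul κ).const_sub 1
  exact HasDerivAt.congr_deriv h4 (by ring)

theorem EV4_PX2 (κ A X : ℝ) : deriv (deriv (PX κ A)) X
    = -κ * ((2 * cB κ A + 6 * cC κ A * Real.sin X ^ 2 + 12 * cD κ A * (Real.sin X ^ 2) ^ 2) * Real.sin (2 * X) ^ 2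
      + 2 * (vP' κ A (Real.sin X ^ 2) * Real.cos (2 * X))) := by
  have hd : deriv (PX κ A) = fun X => -κ * (vP' κ A (Real.sin X ^ 2) * Real.sin (2 * X)) := by
    funext X; exact (EV4_PX κ A X).deriv
  rw [hd]
  have h2 : HasDerivAt (fun X => vP' κ A (Real.sin X ^ 2))
      ((2 * cB κ A + 6 * cC κ A * Real.sin X ^ 2 + 12 * cD κ A * (Real.sin X ^ 2) ^ 2) * Real.sin (2 * X)) X :=
    HasDerivAt.comp (h₂ := fun y => vP' κ A y) (h := fun X => Real.sin X ^ 2) X
      (EV4_vP' κ A (Real.sin X ^ 2)) (EV4_sq X)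
  have h5 : HasDerivAt (fun X : ℝ => Real.sin (2 * X)) (2 * Real.cos (2 * X)) X := by
    have h6 : HasDerivAt (fun X : ℝ => 2 * X) 2 X := by simpa using (hasDerivAt_id X).const_mul (2 : ℝ)
    exact HasDerivAt.congr_deriv h6.sin (by ring)
  exact (HasDerivAt.congr_deriv ((h2.fun_mul h5).const_mul (-κ)) (by ring)).deriv

/-- module EV4: the profile; `PX' = deriv`, `k p2 = K² PX''` -/
theorem ev_P (S : Sol p h hp hh k κ A w C₁ q) (z : ℂ) :
    ev (Lr p h hp hh) z (Pv (Lr p h hp hh) q) = ((PX κ A (KK p k * (fZ (Lr p h hp hh) q z).re) : ℝ) : ℂ) ∧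
    ev (Lr p h hp hh) z (p1 (Lr p h hp hh) q)
      = ((KK p k * deriv (PX κ A) (KK p k * (fZ (Lr p h hp hh) q z).re) : ℝ) : ℂ) ∧
    (k : ℂ) * ev (Lr p h hp hh) z (p2 (Lr p h hp hh) q)
      = ((KK p k ^ 2 * deriv (deriv (PX κ A)) (KK p k * (fZ (Lr p h hp hh) q z).re) : ℝ) : ℂ) := by
  obtain ⟨hE, hE'⟩ := ev_Ep S z
  have hk := EV4_kap S
  have r1 : q.2.2 1 = 2 * Real.pi / p := by simp only [S.r, rpar, Matrix.cons_val_one, Matrix.cons_val]
  have r2 : q.2.2 2 = κ * k := by simp only [S.r, rpar, Matrix.cons_val]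
  have r4 : q.2.2 4 = A := by simp only [S.r, rpar, Matrix.cons_val]
  generalize hL : Lr p h hp hh = L at *
  generalize hX : KK p k * (fZ L q z).re = X at *
  have hc2 : ev L z (c2 L q) = ((Real.cos (2 * X) : ℝ) : ℂ) := by
    rw [c2, EV4_smul, map_add, hE, hE']
    rw [Complex.ofReal_cos, Complex.cos]
    push_cast
    rw [show (Complex.I * (2 * (X : ℂ))) = 2 * (X : ℂ) * Complex.I by ring,
      show -(2 * (X : ℂ) * Complex.I) = -(2 * (X : ℂ)) * Complex.I by ring]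
    ring
  have hs2 : ev L z (s2 L q) = ((Real.sin (2 * X) : ℝ) : ℂ) := by
    rw [s2, EV4_smul, EV4_im, map_sub, hE, hE']
    rw [Complex.ofReal_sin, Complex.sin]
    push_cast
    rw [show (Complex.I * (2 * (X : ℂ))) = 2 * (X : ℂ) * Complex.I by ring,
      show -(2 * (X : ℂ) * Complex.I) = -(2 * (X : ℂ)) * Complex.I by ring]
    ring
  have hyy : ev L z (yy L q) = ((Real.sin X ^ 2 : ℝ) : ℂ) := by
    rw [yy, EV4_smul, map_sub, hc2, ev_one]
    rw [Real.cos_two_mul, Real.cos_sq']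
    push_cast; ring
  have hyy2 : ev L z (yy2 L q) = (((Real.sin X ^ 2) ^ 2 : ℝ) : ℂ) := by
    rw [yy2, ev_conv, hyy]; push_cast; ring
  have hyy3 : ev L z (yy3 L q) = (((Real.sin X ^ 2) ^ 3 : ℝ) : ℂ) := by
    rw [yy3, ev_conv, hyy, hyy2]; push_cast; ring
  have hyy4 : ev L z (yy4 L q) = (((Real.sin X ^ 2) ^ 4 : ℝ) : ℂ) := by
    rw [yy4, ev_conv, hyy, hyy3]; push_cast; ring
  have hvv : ev L z (vv L q) = ((vP κ A (Real.sin X ^ 2) : ℝ) : ℂ) := by
    rw [vv, map_add, map_add, map_add, EV4_smul, EV4_smul, EV4_smul, EV4_smul, hyy, hyy2, hyy3, hyy4, hk, r4]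
    unfold vP; push_cast; ring
  have hvv' : ev L z (vv' L q) = ((vP' κ A (Real.sin X ^ 2) : ℝ) : ℂ) := by
    rw [vv', map_add, map_add, map_add, EV4_smul, EV4_smul, EV4_smul, EV4_smul, ev_one, hyy, hyy2, hyy3, hk, r4]
    unfold vP'; push_cast; ring
  have hvv'' : ev L z (vv'' L q)
      = ((2 * cB κ A + 6 * cC κ A * Real.sin X ^ 2 + 12 * cD κ A * (Real.sin X ^ 2) ^ 2 : ℝ) : ℂ) := by
    rw [vv'', map_add, map_add, EV4_smul, EV4_smul, EV4_smul, ev_one, hyy, hyy2, hk, r4]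
    push_cast; ring
  have h0 : (k : ℝ) ≠ 0 := by exact_mod_cast S.hk.ne'
  refine ⟨?_, ?_, ?_⟩
  · rw [Pv, map_sub, EV4_smul, ev_one, hvv, hk]
    unfold PX; push_cast; ring
  · rw [p1, EV4_smul, ev_conv, hvv', hs2, r1, r2, (EV4_PX κ A X).deriv]
    unfold KK; push_cast; ring
  · rw [p2, EV4_smul, map_add, EV4_smul, ev_conv, ev_conv, ev_conv, hvv', hs2, hvv'', hc2, r1, r2, EV4_PX2]
    unfold KK; push_cast; ring
end

end P205T.K
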