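import Vale.Agent.P205K.Ev1

/-! Module EV5 (helper99): calculus of `λ = w + α + ½ log P(K s)`. -/

open Complex ComplexConjugate
open scoped ContDiff

namespace P205T.K

theorem EV5_PX (κ A : ℝ) : ContDiff ℝ ∞ (PX κ A) := by
  unfold PX vP
  fun_prop

/-- directional derivative -/
noncomputable def EV5_D (v : ℂ) (f : ℂ → ℝ) (z : ℂ) : ℝ := fderiv ℝ f z v

theorem EV5_smooth {f : ℂ → ℝ} (hf : ContDiff ℝ ∞ f) (v : ℂ) : ContDiff ℝ ∞ (EV5_D v f) :=
  (hf.fderiv_right (m := ∞) (by simp)).clm_apply contDiff_const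

theorem EV5_line {f : ℂ → ℝ} (hf : ContDiff ℝ ∞ f) (u z : ℂ) :
    HasDerivAt (fun t : ℝ => f (z + t * u)) (EV5_D u f z) 0 := by
  have h1 : HasFDerivAt f (fderiv ℝ f z) z :=
    (hf.contDiffAt.differentiableAt (by simp)).hasFDerivAt
  have h2 : HasDerivAt (fun t : ℝ => z + (t : ℂ) * u) (1 * u) 0 :=
    (((hasDerivAt_id (0 : ℝ)).ofReal_comp).mul_const u).const_add z
  have h3 : z + ((0 : ℝ) : ℂ) * u = z := by
    rw [Complex.ofReal_zero, zero_mul, add_zero]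
  rw [← h3] at h1
  have h4 := h1.comp_hasDerivAt (0 : ℝ) h2
  rw [h3, one_mul] at h4
  exact h4

theorem EV5_eq {f : ℂ → ℝ} (hf : ContDiff ℝ ∞ f) {u z : ℂ} {c : ℝ}
    (h : HasDerivAt (fun t : ℝ => f (z + t * u)) c 0) : EV5_D u f z = c :=
  (EV5_line hf u z).unique h

section
variable {w α s : ℂ → ℝ} {g : ℝ → ℝ} (hw : ContDiff ℝ ∞ w) (hα : ContDiff ℝ ∞ α)
  (hs : ContDiff ℝ ∞ s) (hg : ContDiff ℝ ∞ g) (hg0 : ∀ X, 0 < g X) (K : ℝ)
include hw hα hs hg hg0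

theorem EV5_lsm : ContDiff ℝ ∞ (fun z => w z + α z + Real.log (g (K * s z)) / 2) := by
  refine (hw.add hα).add (ContDiff.div_const (ContDiff.log ?_ fun z => (hg0 _).ne') 2)
  exact hg.comp (contDiff_const.mul hs)

theorem EV5_D1 (u z : ℂ) : EV5_D u (fun z => w z + α z + Real.log (g (K * s z)) / 2) z =
    EV5_D u w z + EV5_D u α z + K * deriv g (K * s z) * EV5_D u s z / (2 * g (K * s z)) := by
  refine EV5_eq (EV5_lsm hw hα hs hg hg0 K) ?_
  have h3 : z + ((0 : ℝ) : ℂ) * u = z := by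
    rw [Complex.ofReal_zero, zero_mul, add_zero]
  have h1 := (EV5_line hs u z).const_mul K
  have h2 : HasDerivAt g (deriv g (K * s (z + ((0 : ℝ) : ℂ) * u))) (K * s (z + ((0 : ℝ) : ℂ) * u)) :=
    (hg.contDiffAt.differentiableAt (by simp)).hasDerivAt
  have h4 := (h2.comp (0 : ℝ) h1).log (hg0 _).ne'
  have h5 := ((EV5_line hw u z).add (EV5_line hα u z)).add (h4.div_const 2)
  refine h5.congr_deriv ?_
  simp only [Function.comp_apply, h3]
  have h6 := (hg0 (K * s z)).ne'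
  field_simp

theorem EV5_D2 (u v z : ℂ) :
    EV5_D u (EV5_D v (fun z => w z + α z + Real.log (g (K * s z)) / 2)) z =
    EV5_D u (EV5_D v w) z + EV5_D u (EV5_D v α) z +
      ((K ^ 2 * deriv (deriv g) (K * s z) * EV5_D u s z * EV5_D v s z +
        K * deriv g (K * s z) * EV5_D u (EV5_D v s) z) * g (K * s z) -
        (K * deriv g (K * s z)) ^ 2 * EV5_D u s z * EV5_D v s z) / (2 * g (K * s z) ^ 2) := by
  have e : EV5_D v (fun z => w z + α z + Real.log (g (K * s z)) / 2) = fun z =>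
      EV5_D v w z + EV5_D v α z + K * deriv g (K * s z) * EV5_D v s z / (2 * g (K * s z)) :=
    funext fun z => EV5_D1 hw hα hs hg hg0 K v z
  have hg' : ContDiff ℝ ∞ (deriv g) := by
    have := (contDiff_infty_iff_deriv.mp hg).2
    exact this
  have hsm := EV5_smooth (EV5_lsm hw hα hs hg hg0 K) v
  refine EV5_eq hsm ?_
  rw [e]
  have h3 : z + ((0 : ℝ) : ℂ) * u = z := by
    rw [Complex.ofReal_zero, zero_mul, add_zero]
  have h1 := (EV5_line hs u z).const_mul K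
  have h2 : HasDerivAt g (deriv g (K * s (z + ((0 : ℝ) : ℂ) * u))) (K * s (z + ((0 : ℝ) : ℂ) * u)) :=
    (hg.contDiffAt.differentiableAt (by simp)).hasDerivAt
  have h2' : HasDerivAt (deriv g) (deriv (deriv g) (K * s (z + ((0 : ℝ) : ℂ) * u)))
      (K * s (z + ((0 : ℝ) : ℂ) * u)) :=
    (hg'.contDiffAt.differentiableAt (by simp)).hasDerivAt
  have h4 := (h2.comp (0 : ℝ) h1).const_mul 2
  have h5 := ((h2'.comp (0 : ℝ) h1).const_mul K).mul (EV5_line (EV5_smooth hs v) u z)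
  have h7 : 2 * (g ∘ fun t : ℝ => K * s (z + (t : ℂ) * u)) 0 ≠ 0 :=
    mul_ne_zero two_ne_zero (hg0 _).ne'
  have h8 := h5.div h4 h7
  have h9 := ((EV5_line (EV5_smooth hw v) u z).add (EV5_line (EV5_smooth hα v) u z)).add h8
  refine h9.congr_deriv ?_
  simp only [Function.comp_apply, Pi.mul_apply, h3]
  have h6 := (hg0 (K * s z)).ne'
  field_simp
end

/-- `s = Re Z` -/
noncomputable def EV5_s (L : Lat) (q : Q) (z : ℂ) : ℝ := (fZ L q z).re

section
variable {p h : ℝ} {hp : 0 < p} {hh : 0 < h} {k : ℕ} {κ A : ℝ} {w : ℂ → ℝ} {C₁ : ℝ} {q : Q}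

theorem EV5_ssm (S : Sol p h hp hh k κ A w C₁ q) : ContDiff ℝ ∞ (EV5_s (Lr p h hp hh) q) :=
  Complex.reCLM.contDiff.comp (fZ_smooth S)

theorem EV5_ee (S : Sol p h hp hh k κ A w C₁ q) : ee q * (k : ℝ) = 1 := by
  unfold ee
  rw [S.r]
  have h0 : (0 : ℝ) < k := Nat.cast_pos.mpr S.hk
  show √(1 / (k : ℝ)) ^ 2 * (k : ℝ) = 1
  rw [Real.sq_sqrt (by positivity)]
  field_simp

theorem EV5_p2 (S : Sol p h hp hh k κ A w C₁ q) (z : ℂ) :
    ev (Lr p h hp hh) z (p2 (Lr p h hp hh) q) = ((ee q * (KK p k ^ 2 *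
      deriv (deriv (PX κ A)) (KK p k * EV5_s (Lr p h hp hh) q z)) : ℝ) : ℂ) := by
  have h1 := (ev_P S z).2.2
  have h2 : ((ee q : ℝ) : ℂ) * (k : ℂ) = 1 := by
    have := EV5_ee S
    exact_mod_cast this
  calc ev (Lr p h hp hh) z (p2 (Lr p h hp hh) q)
      = ((ee q : ℝ) : ℂ) * (k : ℂ) * ev (Lr p h hp hh) z (p2 (Lr p h hp hh) q) := by
        rw [h2, one_mul]
    _ = ((ee q : ℝ) : ℂ) * ((k : ℂ) * ev (Lr p h hp hh) z (p2 (Lr p h hp hh) q)) := by
        rw [mul_assoc]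
    _ = _ := by
        rw [h1, ← Complex.ofReal_mul]
        rfl

theorem EV5_q2 (S : Sol p h hp hh k κ A w C₁ q) (z : ℂ) :
    ev (Lr p h hp hh) z (q2 (Lr p h hp hh) q) =
      (((k : ℝ) * dy (EV5_s (Lr p h hp hh) q) z : ℝ) : ℂ) := by
  have h1 := (s_d S z).2.1
  unfold sy at h1
  rw [map_smul, Complex.real_smul] at h1
  have h2 : ((ee q : ℝ) : ℂ) * (k : ℂ) = 1 := by
    have := EV5_ee S
    exact_mod_cast this
  calc ev (Lr p h hp hh) z (q2 (Lr p h hp hh) q)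
      = ((ee q : ℝ) : ℂ) * (k : ℂ) * ev (Lr p h hp hh) z (q2 (Lr p h hp hh) q) := by
        rw [h2, one_mul]
    _ = (k : ℂ) * (((ee q : ℝ) : ℂ) * ev (Lr p h hp hh) z (q2 (Lr p h hp hh) q)) := by
        ring
    _ = _ := by
        rw [h1]
        push_cast
        rfl

theorem EV5_la (S : Sol p h hp hh k κ A w C₁ q) (hw : ContDiff ℝ ∞ w)
    (hP : ∀ X, 1/2 ≤ PX κ A X) (z : ℂ) :
    ev (Lr p h hp hh) z (la1 (Lr p h hp hh) q)
      = ((PX κ A (KK p k * EV5_s (Lr p h hp hh) q z) *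
        dx (lamF p k κ A w (fal (Lr p h hp hh) q) (fZ (Lr p h hp hh) q)) z : ℝ) : ℂ) ∧
    ev (Lr p h hp hh) z (la2 (Lr p h hp hh) q)
      = ((PX κ A (KK p k * EV5_s (Lr p h hp hh) q z) *
        dy (lamF p k κ A w (fal (Lr p h hp hh) q) (fZ (Lr p h hp hh) q)) z : ℝ) : ℂ) := by
  have hg0 : ∀ X, 0 < PX κ A X := fun X => lt_of_lt_of_le (by norm_num) (hP X)
  have hD := fun u => EV5_D1 hw (fal_smooth S) (EV5_ssm S) (EV5_PX κ A) hg0 (KK p k) u z
  have h6 := (hg0 (KK p k * EV5_s (Lr p h hp hh) q z)).ne'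
  have h1 : PX κ A (KK p k * EV5_s (Lr p h hp hh) q z) *
      dx (lamF p k κ A w (fal (Lr p h hp hh) q) (fZ (Lr p h hp hh) q)) z =
      PX κ A (KK p k * EV5_s (Lr p h hp hh) q z) * (dx w z + dx (fal (Lr p h hp hh) q) z) +
        1 / 2 * (KK p k * deriv (PX κ A) (KK p k * EV5_s (Lr p h hp hh) q z) *
          dx (EV5_s (Lr p h hp hh) q) z) := by
    have h2 : dx (lamF p k κ A w (fal (Lr p h hp hh) q) (fZ (Lr p h hp hh) q)) z = _ := hD 1
    rw [h2]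
    show _ * (dx w z + dx (fal (Lr p h hp hh) q) z + _ * dx (EV5_s (Lr p h hp hh) q) z / _) = _
    field_simp
  have h1' : PX κ A (KK p k * EV5_s (Lr p h hp hh) q z) *
      dy (lamF p k κ A w (fal (Lr p h hp hh) q) (fZ (Lr p h hp hh) q)) z =
      PX κ A (KK p k * EV5_s (Lr p h hp hh) q z) * (dy w z + dy (fal (Lr p h hp hh) q) z) +
        1 / 2 * (KK p k * deriv (PX κ A) (KK p k * EV5_s (Lr p h hp hh) q z) *
          dy (EV5_s (Lr p h hp hh) q) z) := by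
    have h2 : dy (lamF p k κ A w (fal (Lr p h hp hh) q) (fZ (Lr p h hp hh) q)) z = _ :=
      hD Complex.I
    rw [h2]
    show _ * (dy w z + dy (fal (Lr p h hp hh) q) z + _ * dy (EV5_s (Lr p h hp hh) q) z / _) = _
    field_simp
  have e1 : ev (Lr p h hp hh) z (Pv (Lr p h hp hh) q) =
      ((PX κ A (KK p k * EV5_s (Lr p h hp hh) q z) : ℝ) : ℂ) := (ev_P S z).1
  have e2 : ev (Lr p h hp hh) z (p1 (Lr p h hp hh) q) =
      ((KK p k * deriv (PX κ A) (KK p k * EV5_s (Lr p h hp hh) q z) : ℝ) : ℂ) := (ev_P S z).2.1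
  have e3 : ev (Lr p h hp hh) z (sx (Lr p h hp hh) q) =
      ((dx (EV5_s (Lr p h hp hh) q) z : ℝ) : ℂ) := (s_d S z).1
  have e4 : ev (Lr p h hp hh) z (sy (Lr p h hp hh) q) =
      ((dy (EV5_s (Lr p h hp hh) q) z : ℝ) : ℂ) := (s_d S z).2.1
  constructor
  · rw [h1]
    unfold la1 U1
    rw [map_add, map_smul, Complex.real_smul, ev_conv, ev_conv, map_add, S.e0, (fal_d S z).1, e1,
      e2, e3]
    push_cast
    ring
  · rw [h1']
    unfold la2 U2
    rw [map_add, map_smul, Complex.real_smul, ev_conv, ev_conv, map_add, S.e1, (fal_d S z).2.1,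
      e1, e2, e4]
    push_cast
    ring

/-- second derivatives -/
theorem EV5_dd (S : Sol p h hp hh k κ A w C₁ q) (hw : ContDiff ℝ ∞ w)
    (hP : ∀ X, 1/2 ≤ PX κ A X) (u v z : ℂ) :
    PX κ A (KK p k * EV5_s (Lr p h hp hh) q z) ^ 2 *
      EV5_D u (EV5_D v (lamF p k κ A w (fal (Lr p h hp hh) q) (fZ (Lr p h hp hh) q))) z =
    PX κ A (KK p k * EV5_s (Lr p h hp hh) q z) ^ 2 *
      (EV5_D u (EV5_D v w) z + EV5_D u (EV5_D v (fal (Lr p h hp hh) q)) z) +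
    1 / 2 * ((KK p k ^ 2 * deriv (deriv (PX κ A)) (KK p k * EV5_s (Lr p h hp hh) q z) *
        EV5_D u (EV5_s (Lr p h hp hh) q) z * EV5_D v (EV5_s (Lr p h hp hh) q) z +
      KK p k * deriv (PX κ A) (KK p k * EV5_s (Lr p h hp hh) q z) *
        EV5_D u (EV5_D v (EV5_s (Lr p h hp hh) q)) z) *
        PX κ A (KK p k * EV5_s (Lr p h hp hh) q z) -
      (KK p k * deriv (PX κ A) (KK p k * EV5_s (Lr p h hp hh) q z)) ^ 2 *
        EV5_D u (EV5_s (Lr p h hp hh) q) z * EV5_D v (EV5_s (Lr p h hp hh) q) z) := by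
  have hg0 : ∀ X, 0 < PX κ A X := fun X => lt_of_lt_of_le (by norm_num) (hP X)
  have hD := EV5_D2 hw (fal_smooth S) (EV5_ssm S) (EV5_PX κ A) hg0 (KK p k) u v z
  have h6 := (hg0 (KK p k * EV5_s (Lr p h hp hh) q z)).ne'
  have h2 : EV5_D u (EV5_D v (lamF p k κ A w (fal (Lr p h hp hh) q) (fZ (Lr p h hp hh) q))) z = _ :=
    hD
  rw [h2]
  field_simp

theorem EV5_h (S : Sol p h hp hh k κ A w C₁ q) (hw : ContDiff ℝ ∞ w)
    (hP : ∀ X, 1/2 ≤ PX κ A X) (z : ℂ) {lam : ℂ → ℝ} {P : ℝ}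
    (hl : lam = lamF p k κ A w (fal (Lr p h hp hh) q) (fZ (Lr p h hp hh) q))
    (hPe : P = PX κ A (KK p k * EV5_s (Lr p h hp hh) q z)) :
    ev (Lr p h hp hh) z (h11 (Lr p h hp hh) q)
      = ((ee q * P ^ 2 * (dx (dx lam) z
          - dx w z * dx lam z + dy w z * dy lam z + dx lam z ^ 2) : ℝ) : ℂ) ∧
    ev (Lr p h hp hh) z (H12 (Lr p h hp hh) q)
      = ((P ^ 2 * (dx (dy lam) z
          - dx w z * dy lam z - dy w z * dx lam z + dx lam z * dy lam z) : ℝ) : ℂ) ∧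
    ev (Lr p h hp hh) z (H22 (Lr p h hp hh) q)
      = ((P ^ 2 * (dy (dy lam) z
          + dx w z * dx lam z - dy w z * dy lam z + dy lam z ^ 2) : ℝ) : ℂ) := by
  have eP : ev (Lr p h hp hh) z (Pv (Lr p h hp hh) q) = ((P : ℝ) : ℂ) := by
    rw [hPe]; exact (ev_P S z).1
  have ep1 : ev (Lr p h hp hh) z (p1 (Lr p h hp hh) q) =
      ((KK p k * deriv (PX κ A) (KK p k * EV5_s (Lr p h hp hh) q z) : ℝ) : ℂ) := (ev_P S z).2.1
  have ep2 := EV5_p2 S z
  have esx : ev (Lr p h hp hh) z (sx (Lr p h hp hh) q) =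
      ((dx (EV5_s (Lr p h hp hh) q) z : ℝ) : ℂ) := (s_d S z).1
  have eq2 := EV5_q2 S z
  have eq11 : ev (Lr p h hp hh) z (q11 (Lr p h hp hh) q) =
      ((dx (dx (EV5_s (Lr p h hp hh) q)) z : ℝ) : ℂ) := (s_d S z).2.2.1
  have eq12 : ev (Lr p h hp hh) z (q12 (Lr p h hp hh) q) =
      ((dx (dy (EV5_s (Lr p h hp hh) q)) z : ℝ) : ℂ) := (s_d S z).2.2.2.1
  have eq22 : ev (Lr p h hp hh) z (q22 (Lr p h hp hh) q) =
      ((dy (dy (EV5_s (Lr p h hp hh) q)) z : ℝ) : ℂ) := (s_d S z).2.2.2.2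
  have ea := fal_d S z
  have ela := EV5_la S hw hP z
  rw [← hl, ← hPe] at ela
  have D11 : P ^ 2 * dx (dx lam) z = P ^ 2 * (dx (dx w) z + dx (dx (fal (Lr p h hp hh) q)) z) +
    1 / 2 * ((KK p k ^ 2 * deriv (deriv (PX κ A)) (KK p k * EV5_s (Lr p h hp hh) q z) *
        dx (EV5_s (Lr p h hp hh) q) z * dx (EV5_s (Lr p h hp hh) q) z +
      KK p k * deriv (PX κ A) (KK p k * EV5_s (Lr p h hp hh) q z) *
        dx (dx (EV5_s (Lr p h hp hh) q)) z) * P -
      (KK p k * deriv (PX κ A) (KK p k * EV5_s (Lr p h hp hh) q z)) ^ 2 *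
        dx (EV5_s (Lr p h hp hh) q) z * dx (EV5_s (Lr p h hp hh) q) z) := by
    rw [hl, hPe]
    exact EV5_dd S hw hP 1 1 z
  have D12 : P ^ 2 * dx (dy lam) z = P ^ 2 * (dx (dy w) z + dx (dy (fal (Lr p h hp hh) q)) z) +
    1 / 2 * ((KK p k ^ 2 * deriv (deriv (PX κ A)) (KK p k * EV5_s (Lr p h hp hh) q z) *
        dx (EV5_s (Lr p h hp hh) q) z * dy (EV5_s (Lr p h hp hh) q) z +
      KK p k * deriv (PX κ A) (KK p k * EV5_s (Lr p h hp hh) q z) *
        dx (dy (EV5_s (Lr p h hp hh) q)) z) * P -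
      (KK p k * deriv (PX κ A) (KK p k * EV5_s (Lr p h hp hh) q z)) ^ 2 *
        dx (EV5_s (Lr p h hp hh) q) z * dy (EV5_s (Lr p h hp hh) q) z) := by
    rw [hl, hPe]
    exact EV5_dd S hw hP 1 Complex.I z
  have D22 : P ^ 2 * dy (dy lam) z = P ^ 2 * (dy (dy w) z + dy (dy (fal (Lr p h hp hh) q)) z) +
    1 / 2 * ((KK p k ^ 2 * deriv (deriv (PX κ A)) (KK p k * EV5_s (Lr p h hp hh) q z) *
        dy (EV5_s (Lr p h hp hh) q) z * dy (EV5_s (Lr p h hp hh) q) z +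
      KK p k * deriv (PX κ A) (KK p k * EV5_s (Lr p h hp hh) q z) *
        dy (dy (EV5_s (Lr p h hp hh) q)) z) * P -
      (KK p k * deriv (PX κ A) (KK p k * EV5_s (Lr p h hp hh) q z)) ^ 2 *
        dy (EV5_s (Lr p h hp hh) q) z * dy (EV5_s (Lr p h hp hh) q) z) := by
    rw [hl, hPe]
    exact EV5_dd S hw hP Complex.I Complex.I z
  have hek := EV5_ee S
  generalize KK p k * deriv (PX κ A) (KK p k * EV5_s (Lr p h hp hh) q z) = g1 at ep1 D11 D12 D22
  generalize KK p k ^ 2 * deriv (deriv (PX κ A)) (KK p k * EV5_s (Lr p h hp hh) q z) = g2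
    at ep2 D11 D12 D22
  refine ⟨?_, ?_, ?_⟩
  · have R : ee q * (P * P * (dx (dx w) z + dx (dx (fal (Lr p h hp hh) q)) z) +
        1 / 2 * (P * g1 * dx (dx (EV5_s (Lr p h hp hh) q)) z -
          g1 * g1 * (dx (EV5_s (Lr p h hp hh) q) z * dx (EV5_s (Lr p h hp hh) q) z)) -
        P * (dx w z * (P * dx lam z) - dy w z * (P * dy lam z)) + P * dx lam z * (P * dx lam z)) +
        1 / 2 * (P * (ee q * g2) *
          (dx (EV5_s (Lr p h hp hh) q) z * dx (EV5_s (Lr p h hp hh) q) z)) =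
        ee q * P ^ 2 * (dx (dx lam) z
          - dx w z * dx lam z + dy w z * dy lam z + dx lam z ^ 2) := by
      linear_combination (-ee q) * D11
    rw [← R]
    unfold h11
    simp only [map_add, map_sub, map_smul, Complex.real_smul, ev_conv, eP, ep1, ep2, esx, eq11,
      S.e0, S.e1, S.e2, ea.2.2.1, ela.1, ela.2]
    push_cast
    ring
  · have R : P * P * (dx (dy w) z + dx (dy (fal (Lr p h hp hh) q)) z) +
        1 / 2 * (P * (ee q * g2) * (dx (EV5_s (Lr p h hp hh) q) z *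
            ((k : ℝ) * dy (EV5_s (Lr p h hp hh) q) z)) -
          ee q * (g1 * g1 * (dx (EV5_s (Lr p h hp hh) q) z *
            ((k : ℝ) * dy (EV5_s (Lr p h hp hh) q) z))) +
          P * g1 * dx (dy (EV5_s (Lr p h hp hh) q)) z) -
        P * (dx w z * (P * dy lam z) + dy w z * (P * dx lam z)) + P * dx lam z * (P * dy lam z) =
        P ^ 2 * (dx (dy lam) z
          - dx w z * dy lam z - dy w z * dx lam z + dx lam z * dy lam z) := by
      linear_combination (-1 : ℝ) * D12 + (1 / 2 * (P * g2 * dx (EV5_s (Lr p h hp hh) q) z *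
        dy (EV5_s (Lr p h hp hh) q) z - g1 ^ 2 * dx (EV5_s (Lr p h hp hh) q) z *
        dy (EV5_s (Lr p h hp hh) q) z)) * hek
    rw [← R]
    unfold H12
    simp only [map_add, map_sub, map_smul, Complex.real_smul, ev_conv, eP, ep1, ep2, esx, eq12,
      eq2, S.e0, S.e1, S.e3, ea.2.2.2.1, ela.1, ela.2]
    push_cast
    ring
  · have R : P * P * (dy (dy w) z + dy (dy (fal (Lr p h hp hh) q)) z) +
        1 / 2 * (ee q * (P * (ee q * g2) * ((k : ℝ) * dy (EV5_s (Lr p h hp hh) q) z *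
            ((k : ℝ) * dy (EV5_s (Lr p h hp hh) q) z))) -
          ee q ^ 2 * (g1 * g1 * ((k : ℝ) * dy (EV5_s (Lr p h hp hh) q) z *
            ((k : ℝ) * dy (EV5_s (Lr p h hp hh) q) z))) +
          P * g1 * dy (dy (EV5_s (Lr p h hp hh) q)) z) -
        P * (dy w z * (P * dy lam z) - dx w z * (P * dx lam z)) + P * dy lam z * (P * dy lam z) =
        P ^ 2 * (dy (dy lam) z
          + dx w z * dx lam z - dy w z * dy lam z + dy lam z ^ 2) := by
      linear_combination (-1 : ℝ) * D22 + (1 / 2 * (P * g2 * dy (EV5_s (Lr p h hp hh) q) z ^ 2 -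
        g1 ^ 2 * dy (EV5_s (Lr p h hp hh) q) z ^ 2) * (ee q * (k : ℝ) + 1)) * hek
    rw [← R]
    unfold H22
    simp only [map_add, map_sub, map_smul, Complex.real_smul, ev_conv, eP, ep1, ep2, eq22,
      eq2, S.e0, S.e1, S.e4, ea.2.2.2.2, ela.1, ela.2]
    push_cast
    ring

end

end P205T.K
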