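import Vale.Agent.P205K.BLdef
import Vale.Agent.P205K.Der
import Vale.Agent.P205T.WTrans

/-! Module EXP: the exponential in `V`. -/

open Complex ComplexConjugate
open scoped ContDiff

namespace P205T.K

section EXP1
open scoped Nat
set_option linter.unusedSectionVars false
variable {A : Type*} [NormedRing A] [NormedAlgebra ℝ A] [CompleteSpace A]

theorem EXP1_pow_le (h1 : ‖(1:A)‖ ≤ 1) {M : ℝ} (hM : 1 ≤ M) {a : A} (ha : ‖a‖ ≤ M) (n : ℕ) :
    ‖a ^ n‖ ≤ M ^ n := by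
  induction n with
  | zero => simpa using h1
  | succ n ih =>
    rw [pow_succ, pow_succ]
    exact (norm_mul_le _ _).trans (mul_le_mul ih ha (norm_nonneg _) (by positivity))

theorem EXP1_pow_sub_le (h1 : ‖(1:A)‖ ≤ 1) {M : ℝ} (hM : 1 ≤ M) {a b : A} (ha : ‖a‖ ≤ M) (hb : ‖b‖ ≤ M)
    (n : ℕ) : ‖a ^ n - b ^ n‖ ≤ (2 * M) ^ n * ‖a - b‖ := by
  induction n with
  | zero => simp
  | succ n ih =>
    have e : a ^ (n+1) - b ^ (n+1) = a ^ n * (a - b) + (a ^ n - b ^ n) * b := by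
      rw [pow_succ, pow_succ]; noncomm_ring
    have hM0 : 0 ≤ M := by linarith
    have h2 : M ^ n ≤ (2 * M) ^ n := pow_le_pow_left₀ hM0 (by linarith) n
    have h3 : (0:ℝ) ≤ (2 * M) ^ n := by positivity
    calc ‖a ^ (n+1) - b ^ (n+1)‖ ≤ ‖a ^ n * (a - b)‖ + ‖(a ^ n - b ^ n) * b‖ := by
          rw [e]; exact norm_add_le _ _
      _ ≤ M ^ n * ‖a - b‖ + ((2 * M) ^ n * ‖a - b‖) * M :=
          add_le_add ((norm_mul_le _ _).trans
              (mul_le_mul_of_nonneg_right (EXP1_pow_le h1 hM ha n) (norm_nonneg _)))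
            ((norm_mul_le _ _).trans (mul_le_mul ih hb (norm_nonneg _) (by positivity)))
      _ ≤ ((2 * M) ^ n * M) * ‖a - b‖ + ((2 * M) ^ n * ‖a - b‖) * M := by
          gcongr
          nlinarith
      _ = (2 * M) ^ (n+1) * ‖a - b‖ := by ring

theorem EXP1_summable {c : ℕ → ℝ} (hc : ∀ n, |c n| ≤ ((n ! : ℝ))⁻¹) (h1 : ‖(1:A)‖ ≤ 1) (a : A) :
    Summable (fun n => c n • a ^ n) := by
  refine Summable.of_norm_bounded (g := fun n => (max ‖a‖ 1) ^ n / (n ! : ℝ))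
    (Real.summable_pow_div_factorial _) (fun n => ?_)
  rw [norm_smul, Real.norm_eq_abs, div_eq_mul_inv, mul_comm (_ ^ n)]
  exact mul_le_mul (hc n) (EXP1_pow_le h1 (le_max_right _ _) (le_max_left _ _) n) (norm_nonneg _)
    (by positivity)

theorem EXP1_series {c : ℕ → ℝ} (hc : ∀ n, |c n| ≤ ((n ! : ℝ))⁻¹) (h1 : ‖(1:A)‖ ≤ 1) (M : ℝ) :
    ∃ C : ℝ, 0 ≤ C ∧ ∀ a b : A, ‖a‖ ≤ M → ‖b‖ ≤ M → ‖∑' n, c n • a ^ n‖ ≤ C ∧
      ‖(∑' n, c n • a ^ n) - ∑' n, c n • b ^ n‖ ≤ C * ‖a - b‖ := by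
  have hS := Real.summable_pow_div_factorial (2 * max M 1)
  have hM1 : (1:ℝ) ≤ max M 1 := le_max_right _ _
  refine ⟨∑' n, (2 * max M 1) ^ n / (n ! : ℝ), tsum_nonneg (fun n => by positivity), ?_⟩
  intro a b ha hb
  have ha' : ‖a‖ ≤ max M 1 := ha.trans (le_max_left _ _)
  have hb' : ‖b‖ ≤ max M 1 := hb.trans (le_max_left _ _)
  constructor
  · refine tsum_of_norm_bounded hS.hasSum (fun n => ?_)
    rw [norm_smul, Real.norm_eq_abs, div_eq_mul_inv, mul_comm (_ ^ n)]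
    refine mul_le_mul (hc n) ((EXP1_pow_le h1 hM1 ha' n).trans
      (pow_le_pow_left₀ (by positivity) (by linarith) n)) (norm_nonneg _) (by positivity)
  · rw [← (EXP1_summable hc h1 a).tsum_sub (EXP1_summable hc h1 b), ← tsum_mul_right]
    refine tsum_of_norm_bounded (hS.mul_right _).hasSum (fun n => ?_)
    rw [← smul_sub, norm_smul, Real.norm_eq_abs, div_eq_mul_inv, mul_comm (_ ^ n), mul_assoc]
    exact mul_le_mul (hc n) (EXP1_pow_sub_le h1 hM1 ha' hb' n) (norm_nonneg _) (by positivity)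

theorem EXP1_exp_eq (a : A) : NormedSpace.exp a = ∑' n, ((n ! : ℝ)⁻¹) • a ^ n := by
  rw [NormedSpace.exp_eq_tsum ℝ]

theorem EXP1_c2 (n : ℕ) : |(((n+2) ! : ℝ))⁻¹| ≤ ((n ! : ℝ))⁻¹ := by
  rw [abs_of_nonneg (by positivity)]
  exact inv_anti₀ (by positivity) (by exact_mod_cast Nat.factorial_le (by omega))

theorem EXP1_exp_expand (h1 : ‖(1:A)‖ ≤ 1) (a : A) :
    NormedSpace.exp a = 1 + a + a * (a * ∑' n, (((n+2) ! : ℝ)⁻¹) • a ^ n) := by
  have hs : Summable (fun n => ((n ! : ℝ)⁻¹) • a ^ n) :=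
    EXP1_summable (fun n => by rw [abs_of_nonneg (by positivity)]) h1 a
  rw [EXP1_exp_eq, ← hs.sum_add_tsum_nat_add 2]
  have hs2 : Summable (fun n => (((n+2) ! : ℝ)⁻¹) • a ^ n) := EXP1_summable EXP1_c2 h1 a
  rw [← mul_assoc, ← hs2.tsum_mul_left]
  congr 1
  · simp [Finset.sum_range_succ]
  · refine tsum_congr (fun n => ?_)
    rw [mul_smul_comm, pow_add, (Commute.refl a).pow_pow n 2 |>.eq, pow_two]
end EXP1

theorem EXP1_one_le : ‖(1 : V →L[ℝ] V)‖ ≤ 1 := ContinuousLinearMap.norm_id_le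

theorem EXP1_BL {c : ℕ → ℝ} (hc : ∀ n, |c n| ≤ ((Nat.factorial n : ℝ))⁻¹) :
    BL (fun v : V => (∑' n, c n • (conv v) ^ n : V →L[ℝ] V) one) := by
  have hF : BL (fun a : V →L[ℝ] V => ∑' n, c n • a ^ n) := EXP1_series hc EXP1_one_le
  have h2 : BL (fun v : V => conv v) := BL.clm conv
  exact BL.comp (BL.clm (ContinuousLinearMap.apply ℝ V one)) (BL.comp hF h2)

theorem BL_vexp : BL vexp := by
  have h := EXP1_BL (c := fun n => ((Nat.factorial n : ℝ))⁻¹)
    (fun n => by rw [abs_of_nonneg (by positivity)])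
  have e : vexp = fun v : V => (∑' n, ((Nat.factorial n : ℝ))⁻¹ • (conv v) ^ n : V →L[ℝ] V) one := by
    funext v
    rw [vexp, EXP1_exp_eq]
  rw [e]; exact h
/-- second order expansion -/
theorem vexp_expand : ∃ φ : V → V, BL φ ∧ ∀ c, vexp c = one + c + conv (conv c c) (φ c) := by
  refine ⟨_, EXP1_BL (c := fun n => ((Nat.factorial (n+2) : ℝ))⁻¹) EXP1_c2, fun c => ?_⟩
  rw [vexp, EXP1_exp_expand EXP1_one_le, conv_assoc]
  simp only [ContinuousLinearMap.add_apply, ContinuousLinearMap.mul_apply, ContinuousLinearMap.one_apply,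
    conv_one]
/-- the powers of `c` in `V` -/
noncomputable def EXP2_p (c : V) (k : ℕ) : V := ((conv c) ^ k : V →L[ℝ] V) one

theorem EXP2_p_zero (c : V) : EXP2_p c 0 = one := by
  unfold EXP2_p
  rw [pow_zero]
  rfl

theorem EXP2_p_succ (c : V) (k : ℕ) : EXP2_p c (k + 1) = conv c (EXP2_p c k) := by
  unfold EXP2_p
  rw [pow_succ']
  rfl

theorem EXP2_hasSum (c : V) : HasSum (fun k : ℕ => ((k.factorial : ℝ))⁻¹ • EXP2_p c k) (vexp c) := by
  have h := NormedSpace.exp_series_hasSum_exp' (𝕂 := ℝ) (conv c : V →L[ℝ] V)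
  exact h.mapL (ContinuousLinearMap.apply ℝ V one)

theorem contDiff_vexp : ContDiff ℝ ∞ vexp := by
  have h1 : ContDiff ℝ ∞ (NormedSpace.exp : (V →L[ℝ] V) → (V →L[ℝ] V)) :=
    contDiff_iff_contDiffAt.2 fun x => (NormedSpace.exp_analytic (𝕂 := ℝ) x).contDiffAt
  have h2 : ContDiff ℝ ∞ fun c : V => (NormedSpace.exp (conv c) : V →L[ℝ] V) :=
    h1.comp conv.contDiff
  exact h2.clm_apply contDiff_const

theorem ev_vexp (L : Lat) (z : ℂ) (c : V) : ev L z (vexp c) = Complex.exp (ev L z c) := by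
  have hp : ∀ k : ℕ, ev L z (EXP2_p c k) = (ev L z c) ^ k := by
    intro k
    induction k with
    | zero => rw [EXP2_p_zero, ev_one, pow_zero]
    | succ k ih => rw [EXP2_p_succ, ev_conv, ih, pow_succ']
  have h1 := (EXP2_hasSum c).mapL (ev L z)
  have h2 := NormedSpace.exp_series_hasSum_exp' (𝕂 := ℝ) (ev L z c : ℂ)
  have h3 : (fun k : ℕ => ev L z (((k.factorial : ℝ))⁻¹ • EXP2_p c k)) =
      fun k : ℕ => ((k.factorial : ℝ))⁻¹ • (ev L z c) ^ k := by
    funext k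
    rw [map_smul, hp]
  rw [h3] at h1
  rw [Complex.exp_eq_exp_ℂ]
  exact h1.unique h2

/-- the exponential commutes with continuous homomorphisms -/
theorem EXP3_hom (B : V →L[ℝ] V) (hB : ∀ a b, B (conv a b) = conv (B a) (B b))
    (h1 : B one = one) (c : V) : vexp (B c) = B (vexp c) := by
  have hp : ∀ k : ℕ, B (EXP2_p c k) = EXP2_p (B c) k := by
    intro k
    induction k with
    | zero => rw [EXP2_p_zero, EXP2_p_zero, h1]
    | succ k ih => rw [EXP2_p_succ, EXP2_p_succ, hB, ih]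
  have h2 := (EXP2_hasSum c).mapL B
  have h3 : (fun k : ℕ => B (((k.factorial : ℝ))⁻¹ • EXP2_p c k)) =
      fun k : ℕ => ((k.factorial : ℝ))⁻¹ • EXP2_p (B c) k := by
    funext k
    rw [map_smul, hp]
  rw [h3] at h2
  exact (EXP2_hasSum (B c)).unique h2

theorem vexp_T (L : Lat) (h : ℂ) (c : V) : vexp (T L h c) = T L h (vexp c) :=
  EXP3_hom (T L h) (fun a b => (conv_T L h a b).symm) (T_one L h) c

theorem vexp_J (c : V) : vexp (J c) = J (vexp c) :=
  EXP3_hom J (fun a b => (conv_J a b).symm) J_one c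


/-- pull back under `sig h` for the rectangular lattice: `(Sg c)(n) = (-1)^{n₂} c(-n₁, n₂)` -/
noncomputable def sgn (n : ℤ × ℤ) : ℂ := ((-1 : ℂ)) ^ n.2
theorem EXP4_sgn_norm (n : ℤ × ℤ) : ‖sgn n‖ = 1 := by
  unfold sgn
  rw [norm_zpow, norm_neg, norm_one, one_zpow]

theorem EXP4_sgn_add (m n : ℤ × ℤ) : sgn (m + n) = sgn m * sgn n := by
  unfold sgn
  rw [Prod.snd_add, zpow_add₀ (by norm_num)]

theorem EXP4_sgn_neg (n : ℤ × ℤ) : sgn (-n) = sgn n := by
  unfold sgn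
  rw [Prod.snd_neg, zpow_neg, ← inv_zpow, inv_neg, inv_one]

theorem EXP4_sgn_conj (n : ℤ × ℤ) : conj (sgn n) = sgn n := by
  unfold sgn
  rw [map_zpow₀, map_neg, map_one]

/-- the flip of the first coordinate -/
def EXP4_fl : ℤ × ℤ ≃ ℤ × ℤ := (Equiv.neg ℤ).prodCongr (Equiv.refl ℤ)

theorem EXP4_fl_apply (n : ℤ × ℤ) : EXP4_fl n = (-n.1, n.2) := rfl

theorem EXP4_hasSum (c : V) :
    HasSum (fun n : ℕ => ((n.factorial : ℝ)⁻¹) • ((conv c) ^ n) one) (vexp c) := by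
  have h1 : HasSum (fun n : ℕ => ((n.factorial : ℝ)⁻¹) • (conv c) ^ n)
      (NormedSpace.exp (conv c)) := NormedSpace.exp_series_hasSum_exp' (𝕂 := ℝ) (conv c)
  exact h1.mapL (ContinuousLinearMap.apply ℝ V one)

/-- multiplicative continuous linear maps commute with the exponential -/
theorem EXP4_hom (B : V →L[ℝ] V) (h1 : B one = one)
    (hc : ∀ a b, B (conv a b) = conv (B a) (B b)) (a : V) : B (vexp a) = vexp (B a) := by
  have h2 : ∀ n : ℕ, B (((conv a) ^ n) one) = ((conv (B a)) ^ n) one := by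
    intro n
    induction n with
    | zero =>
      rw [pow_zero, pow_zero]
      exact h1
    | succ n ih =>
      rw [pow_succ', pow_succ']
      show B (conv a (((conv a) ^ n) one)) = conv (B a) (((conv (B a)) ^ n) one)
      rw [hc, ih]
  have h3 := (EXP4_hasSum a).mapL B
  have h4 := EXP4_hasSum (B a)
  have e : (fun n : ℕ => B (((n.factorial : ℝ)⁻¹) • ((conv a) ^ n) one)) =
      fun n : ℕ => ((n.factorial : ℝ)⁻¹) • ((conv (B a)) ^ n) one := by
    funext n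
    rw [map_smul, h2]
  rw [e] at h3
  exact h3.unique h4

theorem exists_Sg : ∃ B : V →L[ℝ] V, ∀ (c : V) (n : ℤ × ℤ), B c n = sgn n * c (-n.1, n.2) := by
  have hn : ∀ (c : V) (n : ℤ × ℤ), ‖sgn n * c (-n.1, n.2)‖ = ‖c (EXP4_fl n)‖ := by
    intro c n
    rw [norm_mul, EXP4_sgn_norm, one_mul]
    rfl
  have hs : ∀ c : V, Summable fun n : ℤ × ℤ => ‖sgn n * c (-n.1, n.2)‖ := by
    intro c
    simp only [hn]
    exact EXP4_fl.summable_iff.2 (wb1_summable c)
  refine ⟨LinearMap.mkContinuous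
    { toFun := fun c : V => ⟨fun n => sgn n * c (-n.1, n.2), wb1_mem (hs c)⟩
      map_add' := fun a b => ?_
      map_smul' := fun r a => ?_ } 1 (fun c => ?_), fun c n => rfl⟩
  · apply lp.ext
    funext n
    show sgn n * (a + b) (-n.1, n.2) = sgn n * a (-n.1, n.2) + sgn n * b (-n.1, n.2)
    rw [lp.coeFn_add, Pi.add_apply, mul_add]
  · apply lp.ext
    funext n
    show sgn n * (r • a) (-n.1, n.2) = r • (sgn n * a (-n.1, n.2))
    rw [lp.coeFn_smul, Pi.smul_apply, mul_smul_comm]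
  · rw [one_mul, wb1_norm, wb1_norm]
    show ∑' n : ℤ × ℤ, ‖sgn n * c (-n.1, n.2)‖ ≤ _
    simp only [hn]
    exact le_of_eq (EXP4_fl.tsum_eq (fun n => ‖c n‖))
noncomputable def Sg : V →L[ℝ] V := exists_Sg.choose
theorem Sg_apply (c : V) (n : ℤ × ℤ) : Sg c n = sgn n * c (-n.1, n.2) := exists_Sg.choose_spec c n
theorem Sg_conv (a b : V) : Sg (conv a b) = conv (Sg a) (Sg b) := by
  refine lp.ext (funext fun n => ?_)
  rw [Sg_apply, conv_apply, conv_apply, ← tsum_mul_left,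
    ← EXP4_fl.tsum_eq (fun m => sgn n * (a m * b ((-n.1, n.2) - m)))]
  refine tsum_congr fun m => ?_
  rw [Sg_apply, Sg_apply, EXP4_fl_apply]
  have e1 : ((-n.1, n.2) : ℤ × ℤ) - (-m.1, m.2) = (-(n - m).1, (n - m).2) := by
    ext
    · simp; ring
    · simp
  have e2 : sgn n = sgn m * sgn (n - m) := by
    rw [← EXP4_sgn_add, add_sub_cancel]
  rw [e1, e2]
  ring
theorem Sg_one : Sg one = one := by
  refine lp.ext (funext fun n => ?_)
  rw [Sg_apply, WApi1a_one_apply, WApi1a_one_apply]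
  by_cases h : n = 0
  · subst h
    simp [sgn]
  · have h2 : ((-n.1, n.2) : ℤ × ℤ) ≠ 0 := by
      intro h3
      apply h
      have h4 := congrArg Prod.fst h3
      have h5 := congrArg Prod.snd h3
      simp at h4 h5
      exact Prod.ext h4 h5
    rw [if_neg h, if_neg h2, mul_zero]
theorem Sg_J (a : V) : Sg (J a) = J (Sg a) := by
  refine lp.ext (funext fun n => ?_)
  rw [Sg_apply, J_apply, J_apply, Sg_apply, map_mul, EXP4_sgn_conj, EXP4_sgn_neg]
  have e : (-((-n.1, n.2) : ℤ × ℤ)) = (-(-n).1, (-n).2) := by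
    ext <;> simp
  rw [e]
theorem EXP4_im_apply (a : V) (n : ℤ × ℤ) : im a n = Complex.I * a n := by
  unfold im
  exact mult_apply ⟨1, fun n => by simp⟩ a n
theorem Sg_im (a : V) : Sg (im a) = im (Sg a) := by
  refine lp.ext (funext fun n => ?_)
  rw [Sg_apply, EXP4_im_apply, EXP4_im_apply, Sg_apply]
  ring
theorem Sg_vexp (a : V) : Sg (vexp a) = vexp (Sg a) := EXP4_hom Sg Sg_one Sg_conv a
/-- multipliers: `Sg (m c) = m' (Sg c)`, `m' n = m (-n₁, n₂)` -/
theorem Sg_mult {m : ℤ × ℤ → ℂ} (hm : Bdd m) (c : V) : Sg (mult m c) = mult (fun n => m (-n.1, n.2)) (Sg c) := by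
  obtain ⟨K, hK⟩ := hm
  refine lp.ext (funext fun n => ?_)
  rw [Sg_apply, mult_apply ⟨K, hK⟩, mult_apply ⟨K, fun n => hK _⟩, Sg_apply]
  ring
theorem EXP3_im (a : V) (n : ℤ × ℤ) : im a n = Complex.I * a n := by
  unfold im
  exact mult_apply ⟨1, fun _ => by simp⟩ a n

theorem J_im (a : V) : J (im a) = - im (J a) := by
  refine lp.ext (funext fun n => ?_)
  rw [J_apply, EXP3_im, map_mul, Complex.conj_I]
  rw [lp.coeFn_neg, Pi.neg_apply, EXP3_im, J_apply]
  ring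

theorem J_J (a : V) : J (J a) = a := by
  refine lp.ext (funext fun n => ?_)
  rw [J_apply, J_apply, neg_neg, Complex.conj_conj]

end P205T.K
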