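import Vale.Agent.P205K.BLall2

/-! Modules EX, FAC: `Ex f f0` means `f = f0 + e f1` with `f0, f1 ∈ BL`; then `Phi = η Ψ` with `Ψ ∈ BL`. -/

open Complex ComplexConjugate

namespace P205T.K

def Ex {F : Type*} [NormedAddCommGroup F] [NormedSpace ℝ F] (f f0 : Q → F) : Prop :=
  BL f0 ∧ ∃ f1 : Q → F, BL f1 ∧ ∀ q, f q = f0 q + ee q • f1 q

section
variable {F : Type*} [NormedAddCommGroup F] [NormedSpace ℝ F]
theorem Ex.self {f : Q → F} (hf : BL f) : Ex f f :=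
  ⟨hf, fun _ => 0, BL.const 0, fun q => by rw [smul_zero, add_zero]⟩
theorem Ex.small {f : Q → F} (hf : BL f) : Ex (fun q => ee q • f q) (fun _ => 0) :=
  ⟨BL.const 0, f, hf, fun q => by rw [zero_add]⟩
theorem Ex.bl {f f0 : Q → F} (h : Ex f f0) : BL f := by
  obtain ⟨h0, f1, h1, h2⟩ := h
  have h3 : f = fun q => f0 q + ee q • f1 q := funext h2
  rw [h3]
  exact h0.add (BL_ee.smul h1)
theorem Ex.add {f f0 g g0 : Q → F} (hf : Ex f f0) (hg : Ex g g0) : Ex (fun q => f q + g q) (fun q => f0 q + g0 q) := by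
  obtain ⟨h0, f1, h1, h2⟩ := hf
  obtain ⟨k0, g1, k1, k2⟩ := hg
  refine ⟨h0.add k0, fun q => f1 q + g1 q, h1.add k1, fun q => ?_⟩
  change f q + g q = f0 q + g0 q + ee q • (f1 q + g1 q)
  rw [h2, k2, smul_add]
  abel
theorem Ex.sub {f f0 g g0 : Q → F} (hf : Ex f f0) (hg : Ex g g0) : Ex (fun q => f q - g q) (fun q => f0 q - g0 q) := by
  obtain ⟨h0, f1, h1, h2⟩ := hf
  obtain ⟨k0, g1, k1, k2⟩ := hg
  refine ⟨h0.sub k0, fun q => f1 q - g1 q, h1.sub k1, fun q => ?_⟩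
  change f q - g q = f0 q - g0 q + ee q • (f1 q - g1 q)
  rw [h2, k2, smul_sub]
  abel
theorem Ex.smul {a : Q → ℝ} {f f0 : Q → F} (ha : BL a) (hf : Ex f f0) :
    Ex (fun q => a q • f q) (fun q => a q • f0 q) := by
  obtain ⟨h0, f1, h1, h2⟩ := hf
  refine ⟨ha.smul h0, fun q => a q • f1 q, ha.smul h1, fun q => ?_⟩
  change a q • f q = a q • f0 q + ee q • (a q • f1 q)
  rw [h2, smul_add, smul_comm]
end
theorem Ex.conv {f f0 g g0 : Q → V} (hf : Ex f f0) (hg : Ex g g0) :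
    Ex (fun q => conv (f q) (g q)) (fun q => conv (f0 q) (g0 q)) := by
  obtain ⟨h0, f1, h1, h2⟩ := hf
  obtain ⟨k0, g1, k1, k2⟩ := hg
  refine ⟨h0.conv k0, fun q => P205T.conv (f0 q) (g1 q) + P205T.conv (f1 q) (g0 q)
    + ee q • P205T.conv (f1 q) (g1 q),
    ((h0.conv k1).add (h1.conv k0)).add (BL_ee.smul (h1.conv k1)), fun q => ?_⟩
  change P205T.conv (f q) (g q) = P205T.conv (f0 q) (g0 q) + ee q • (P205T.conv (f0 q) (g1 q)
    + P205T.conv (f1 q) (g0 q) + ee q • P205T.conv (f1 q) (g1 q))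
  rw [h2, k2]
  simp only [map_add, map_smul, ContinuousLinearMap.add_apply, ContinuousLinearMap.smul_apply,
    smul_add]
  abel

/-- module EX2 -/
theorem EX2_congr {F : Type*} [NormedAddCommGroup F] [NormedSpace ℝ F] {f f0 g0 : Q → F} (hf : Ex f f0)
    (h : ∀ q, f0 q = g0 q) : Ex f g0 := by
  have h1 : f0 = g0 := funext h
  rw [← h1]
  exact hf

theorem EX2_of {F : Type*} [NormedAddCommGroup F] [NormedSpace ℝ F] {f f0 f1 : Q → F} (h0 : BL f0) (h1 : BL f1)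
    (h : ∀ q, f q = f0 q + ee q • f1 q) : Ex f f0 := ⟨h0, f1, h1, h⟩

theorem EX2_one (a : V) : conv one a = a := one_conv a

theorem Ex_Pv (L : Lat) : Ex (Pv L) (fun _ => one) := by
  refine EX2_of (BL.const _) (f1 := fun q => -((q.2.2 2) • vv L q)) ((BL_r 2).smul (BL_vv L)).neg ?_
  intro q
  unfold Pv kap ee
  rw [smul_neg, smul_smul, sub_eq_add_neg]
theorem Ex_om (L : Lat) : Ex (om L) (fun _ => one) := by
  have h1 := Ex_Pv L
  have h2 : Ex (fun q => ee q • (ee q • conv (gg L q) (LL L q))) (fun _ => 0) :=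
    Ex.small (BL_ee.smul ((BL_gg L).conv (BL_LL L)))
  have h3 := h1.sub h2
  refine EX2_congr (f0 := fun _ => one - 0) ?_ (fun q => sub_zero _)
  have h4 : om L = fun q => Pv L q - ee q • (ee q • conv (gg L q) (LL L q)) := by
    funext q
    unfold om
    rw [smul_smul, ← pow_two]
  rw [h4]
  exact h3
theorem EX2_e2 {f : Q → V} (hf : BL f) : Ex (fun q => ee q ^ 2 • f q) (fun _ => 0) := by
  have h2 : Ex (fun q => ee q • (ee q • f q)) (fun _ => 0) := Ex.small (BL_ee.smul hf)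
  have h4 : (fun q => ee q ^ 2 • f q) = fun q => ee q • (ee q • f q) := by
    funext q
    rw [smul_smul, ← pow_two]
  rw [h4]
  exact h2
theorem Ex_m11 (L : Lat) : Ex (m11 L) (fun _ => one) := by
  have h3 := (Ex_om L).add (EX2_e2 ((BL_gg L).conv ((BL_la1 L).conv (BL_la1 L))))
  exact EX2_congr h3 (fun q => add_zero _)
theorem Ex_m12 (L : Lat) : Ex (m12 L) (fun _ => 0) :=
  EX2_e2 ((BL_gg L).conv ((BL_la1 L).conv (BL_la2 L)))
theorem Ex_m22 (L : Lat) : Ex (m22 L) (fun _ => one) := by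
  have h3 := (Ex_om L).add (EX2_e2 ((BL_gg L).conv ((BL_la2 L).conv (BL_la2 L))))
  exact EX2_congr h3 (fun q => add_zero _)
theorem Ex_Zz (L : Lat) : Ex (Zz L) (fun _ => one) :=
  EX2_of (BL.const _) (BL_r0 L) (fun q => rfl)
/-- `EE = α₁₁ + α₂₂ + e BL` (uses `U11 + U22 = W2 + W4 + α₁₁ + α₂₂`) -/
theorem Ex_EE (L : Lat) : Ex (EE L) (fun q => al11 L q + al22 L q) := by
  have hP := Ex_Pv L
  have hom := Ex_om L
  have hPo := hP.conv hom
  have a1 := (Ex_m11 L).conv (Ex.self (BL_U11 L))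
  have a2 := Ex.smul (BL.const (2 : ℝ)) ((Ex_m12 L).conv (Ex.self (BL_U12 L)))
  have a3 := (Ex_m22 L).conv (Ex.self (BL_U22 L))
  have t1 := hPo.conv ((a1.add a2).add a3)
  have hW : BL (fun q : Q => q.2.1 2 + q.2.1 4) := (BL_W 2).add (BL_W 4)
  have t2 := ((hP.conv hP).conv hom).conv (Ex.self hW)
  have hX : BL (fun q => conv (conv (gg L q) (conv (m11 L q) (h11 L q) + (2 * ee q) • conv (m12 L q) (H12 L q)
      + ee q • conv (m22 L q) (H22 L q))) (conv (la1 L q) (U1 L q) + conv (la2 L q) (U2 L q))) := by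
    refine BL.conv ((BL_gg L).conv ?_) (((BL_la1 L).conv (BL_U1 L)).add ((BL_la2 L).conv (BL_U2 L)))
    refine (((BL_m11 L).conv (BL_h11 L)).add ?_).add (BL_ee.smul ((BL_m22 L).conv (BL_H22 L)))
    exact BL.smul ((BL.const (2 : ℝ)).mul BL_ee) ((BL_m12 L).conv (BL_H12 L))
  have t3 := Ex.small hX
  have hY : BL (fun q => conv (gg L q) (conv (h11 L q) (H22 L q) - ee q • conv (H12 L q) (H12 L q))) :=
    (BL_gg L).conv (((BL_h11 L).conv (BL_H22 L)).sub (BL_ee.smul ((BL_H12 L).conv (BL_H12 L))))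
  have t4 := Ex.small hY
  have t := ((t1.sub t2).add t3).sub t4
  have e1 : EE L = fun q => conv (conv (Pv L q) (om L q)) (conv (m11 L q) (U11 L q) + (2 : ℝ) • conv (m12 L q) (U12 L q)
      + conv (m22 L q) (U22 L q))
    - conv (conv (conv (Pv L q) (Pv L q)) (om L q)) (q.2.1 2 + q.2.1 4)
    + ee q • (conv (conv (gg L q) (conv (m11 L q) (h11 L q) + (2 * ee q) • conv (m12 L q) (H12 L q)
      + ee q • conv (m22 L q) (H22 L q))) (conv (la1 L q) (U1 L q) + conv (la2 L q) (U2 L q)))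
    - ee q • (conv (gg L q) (conv (h11 L q) (H22 L q) - ee q • conv (H12 L q) (H12 L q))) := by
    funext q
    have e3 : ee q • conv (m11 L q) (h11 L q) + (2 * ee q ^ 2) • conv (m12 L q) (H12 L q)
      + ee q ^ 2 • conv (m22 L q) (H22 L q) = ee q • (conv (m11 L q) (h11 L q) + (2 * ee q) • conv (m12 L q) (H12 L q)
      + ee q • conv (m22 L q) (H22 L q)) := by
      rw [smul_add, smul_add, smul_smul, smul_smul]
      rw [show ee q * (2 * ee q) = 2 * ee q ^ 2 by ring, show ee q * ee q = ee q ^ 2 by ring]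
    have e4 : ee q • conv (h11 L q) (H22 L q) - ee q ^ 2 • conv (H12 L q) (H12 L q)
      = ee q • (conv (h11 L q) (H22 L q) - ee q • conv (H12 L q) (H12 L q)) := by
      rw [smul_sub, smul_smul]
      rw [show ee q * ee q = ee q ^ 2 by ring]
    unfold EE
    rw [e3, e4, map_smul, map_smul, map_smul, ContinuousLinearMap.smul_apply]
  rw [e1]
  refine EX2_congr t ?_
  intro q
  have z1 : conv (0 : V) (U12 L q) = 0 := by rw [map_zero, ContinuousLinearMap.zero_apply]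
  simp only [EX2_one, z1, smul_zero, add_zero, sub_zero]
  unfold U11 U22
  abel
/-- module EX3: `α₁₁ + α₂₂ = η (u - Z0 u)` -/
theorem al_lap (L : Lat) (q : Q) : al11 L q + al22 L q = eta q • (q.1 0 - mult Z0 (q.1 0)) := by
  unfold al11 al22
  rw [← smul_add]
  congr 1
  apply lp.ext
  funext n
  rw [lp.coeFn_add, lp.coeFn_sub, Pi.add_apply, Pi.sub_apply, mult_apply (bdd_M11 L),
    mult_apply (bdd_M22 L), mult_apply bdd_Z0, ← add_mul, M11_add_M22]
  ring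

theorem EX3_Z0M0 (L : Lat) (u : V) : mult Z0 (mult (M0 L) u) = 0 := by
  apply lp.ext
  funext n
  rw [mult_apply bdd_Z0, mult_apply (bdd_M0 L)]
  by_cases h : n = 0
  · simp [M0, h]
  · simp [Z0, h]

theorem EX3_Z0Z0 (u : V) : mult Z0 (mult Z0 u) = mult Z0 u := by
  apply lp.ext
  funext n
  rw [mult_apply bdd_Z0, mult_apply bdd_Z0]
  by_cases h : n = 0
  · simp [Z0, h]
  · simp [Z0, h]

theorem EX3_vexp (L : Lat) : Ex (fun q => vexp ((2 : ℝ) • al L q)) (fun q => one + (2 : ℝ) • al L q) := by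
  obtain ⟨φ, hφ, h⟩ := vexp_expand
  have ha0 : BL (fun q : Q => mult (M0 L) (q.1 0) + mult Z0 (q.1 0)) :=
    ((BL_U 0).mult _).add ((BL_U 0).mult _)
  refine ⟨(BL.const one).add ((BL_al L).csmul 2),
    fun q => P205T.conv ((4 : ℝ) • P205T.conv (mult (M0 L) (q.1 0) + mult Z0 (q.1 0))
      (mult (M0 L) (q.1 0) + mult Z0 (q.1 0))) (φ ((2 : ℝ) • al L q)),
    ((ha0.conv ha0).csmul 4).conv (hφ.comp ((BL_al L).csmul 2)), fun q => ?_⟩
  change vexp ((2 : ℝ) • al L q) = _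
  rw [h]
  congr 1
  have e1 : P205T.conv ((2 : ℝ) • al L q) ((2 : ℝ) • al L q)
      = ee q • ((4 : ℝ) • P205T.conv (mult (M0 L) (q.1 0) + mult Z0 (q.1 0))
      (mult (M0 L) (q.1 0) + mult Z0 (q.1 0))) := by
    unfold al ee eta
    simp only [map_smul, ContinuousLinearMap.smul_apply, smul_smul]
    congr 1
    ring
  rw [e1, map_smul, ContinuousLinearMap.smul_apply]

theorem EX3_one : P205T.conv one one = one := one_conv one

theorem EX3_GG (L : Lat) : Ex (GG L) (fun q => (2 : ℝ) • al L q) := by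
  have hZ := Ex_Zz L
  have hJZ : Ex (fun q => J (Zz L q)) (fun _ => one) := by
    obtain ⟨h0, f1, h1, h2⟩ := hZ
    refine ⟨BL.const _, fun q => J (f1 q), h1.J, fun q => ?_⟩
    change J (Zz L q) = one + ee q • J (f1 q)
    rw [h2, map_add, map_smul, J_one]
  have hyy : Ex (fun q : Q => ee q ^ 2 • P205T.conv (q.1 1) (J (q.1 1))) (fun _ => 0) :=
    EX2_e2 ((BL_U 1).conv (BL_U 1).J)
  have h1 := (Ex_Pv L).conv ((EX3_vexp L).conv ((hZ.conv hJZ).add hyy))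
  have h2 := h1.sub (Ex_Pv L)
  have hg : BL (fun q : Q => (1 / 2 : ℝ) • P205T.conv (gg L q) (LL L q)) :=
    ((BL_gg L).conv (BL_LL L)).csmul _
  have h3 := h2.add (EX2_e2 hg)
  have e1 : GG L = fun q => P205T.conv (Pv L q) (P205T.conv (vexp ((2 : ℝ) • al L q))
      (P205T.conv (Zz L q) (J (Zz L q)) + ee q ^ 2 • P205T.conv (q.1 1) (J (q.1 1)))) - Pv L q
      + ee q ^ 2 • ((1 / 2 : ℝ) • P205T.conv (gg L q) (LL L q)) := by
    funext q
    unfold GG
    rw [smul_smul, show ee q ^ 2 * (1 / 2 : ℝ) = ee q ^ 2 / 2 by ring]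
  rw [e1]
  refine EX2_congr h3 ?_
  intro q
  simp only [EX2_one, add_zero, conv_one, add_sub_cancel_left]

/-- `GG = 2 α + e BL` in the zero mode: `exp 2α = 1 + 2α + η² BL`, `Z0 α = η Z0 u` -/
theorem GG_expand (L : Lat) : ∃ G1 : Q → V, BL G1 ∧ ∀ q, mult Z0 (GG L q) = (2 * eta q) • mult Z0 (q.1 0) + ee q • G1 q := by
  obtain ⟨_, g1, h1, h2⟩ := EX3_GG L
  refine ⟨fun q => mult Z0 (g1 q), h1.mult _, fun q => ?_⟩
  rw [h2, map_add, map_smul, map_smul]
  congr 1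
  unfold al
  rw [map_smul, map_add, EX3_Z0M0, EX3_Z0Z0, zero_add, smul_smul]
theorem newu_factor (L : Lat) : ∃ Ψ : Q → V, BL Ψ ∧ ∀ q, eta q ≠ 0 → newu L q = eta q • Ψ q := by
  obtain ⟨_, e1, hE, h2⟩ := Ex_EE L
  obtain ⟨g1, hG, h3⟩ := GG_expand L
  refine ⟨fun q => -(e1 q - mult Z0 (e1 q) + (1 / 2 : ℝ) • g1 q),
    ((hE.sub (hE.mult _)).add (hG.csmul _)).neg, fun q hq => ?_⟩
  have e2 : EE L q = eta q • (q.1 0 - mult Z0 (q.1 0)) + ee q • e1 q := by
    rw [h2]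
    change al11 L q + al22 L q + _ = _
    rw [al_lap]
  have e3 : ee q = eta q * eta q := by
    unfold ee eta
    ring
  have e4 : EE L q - mult Z0 (EE L q) + (1 / 2 : ℝ) • mult Z0 (GG L q)
      = eta q • q.1 0 + eta q • (eta q • (e1 q - mult Z0 (e1 q) + (1 / 2 : ℝ) • g1 q)) := by
    rw [h3, e2, map_add, map_smul, map_smul, map_sub, EX3_Z0Z0, sub_self, smul_zero, zero_add, e3,
      mul_smul, mul_smul, mul_smul]
    module
  unfold newu
  rw [e4, ← smul_add, smul_smul, inv_mul_cancel₀ hq, one_smul]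
  module

/-- module EX4 -/
theorem EX4_jc_exp (e : ℝ) (a a' b b' : Jt) :
    jc (a + e • a') (b + e • b') = jc a b + e • (jc a b' + jc a' b + e • jc a' b') := by
  funext i
  fin_cases i <;>
  · simp only [jc, Pi.add_apply, Pi.smul_apply, Matrix.cons_val_zero, Matrix.cons_val_one,
      Matrix.cons_val, map_add, map_smul, ContinuousLinearMap.add_apply,
      ContinuousLinearMap.smul_apply, Fin.zero_eta, Fin.mk_one, Fin.reduceFinMk]
    module

theorem Ex_jc {f f0 g g0 : Q → Jt} (hf : Ex f f0) (hg : Ex g g0) :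
    Ex (fun q => jc (f q) (g q)) (fun q => jc (f0 q) (g0 q)) := by
  obtain ⟨h0, f1, h1, h2⟩ := hf
  obtain ⟨k0, g1, k1, k2⟩ := hg
  refine ⟨BL_jc h0 k0, fun q => jc (f0 q) (g1 q) + jc (f1 q) (g0 q) + ee q • jc (f1 q) (g1 q),
    ((BL_jc h0 k1).add (BL_jc h1 k0)).add (BL_ee.smul (BL_jc h1 k1)), fun q => ?_⟩
  change jc (f q) (g q) = _
  rw [h2, k2, EX4_jc_exp]

theorem EX4_jc_one (a : Jt) : jc jone a = a := by
  funext i
  fin_cases i <;> simp [jc, jone, EX2_one]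

theorem EX4_jJ_one : jJ jone = jone := by
  funext i
  fin_cases i <;> simp [jJ, jone, J_one]

theorem EX4_BL3 {a b c : Q → V} (ha : BL a) (hb : BL b) (hc : BL c) :
    BL (fun q => (![a q, b q, c q] : Jt)) := by
  refine BL.pi fun i => ?_
  fin_cases i
  · exact ha
  · exact hb
  · exact hc

theorem EX4_jZ (L : Lat) : Ex (jZ L) (fun _ => jone) := by
  refine ⟨BL.const _, fun q => ![r0 L q, mult (Sm L) (q.1 2), mult (Sm L) (q.1 3)],
    EX4_BL3 (BL_r0 L) ((BL_U 2).mult _) ((BL_U 3).mult _), fun q => ?_⟩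
  funext i
  fin_cases i <;> simp [jZ, jone, Zz]

theorem EX4_jP (L : Lat) : Ex (jP L) (fun _ => jone) := by
  refine ⟨BL.const _, fun q => ![-((q.2.2 2) • vv L q), P205T.conv (p1 L q) (sx L q),
    P205T.conv (p1 L q) (sy L q)],
    EX4_BL3 ((BL_r 2).smul (BL_vv L)).neg ((BL_p1 L).conv (BL_sx L)) ((BL_p1 L).conv (BL_sy L)),
    fun q => ?_⟩
  funext i
  fin_cases i
  · simp [jP, jone, Pv, kap, ee, smul_smul, sub_eq_add_neg]
  · simp [jP, jone]
  · simp [jP, jone]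

theorem Ex_jT (L : Lat) : Ex (jT L) (fun _ => jone) := by
  have h1 : Ex (fun q => jJ (jZ L q)) (fun _ => jone) := by
    obtain ⟨h0, f1, h1, h2⟩ := EX4_jZ L
    refine ⟨BL.const _, fun q => jJ (f1 q), BL_jJ h1, fun q => ?_⟩
    change jJ (jZ L q) = jone + ee q • jJ (f1 q)
    rw [h2]
    funext i
    fin_cases i <;> simp [jJ, jone, J_one]
  have hB : BL (fun q => (1 / 2 : ℝ) • jc (jg L q) (jc (jl1 L q) (jl1 L q) + jc (jl2 L q) (jl2 L q))) :=
    (BL_jc (BL_jg L) ((BL_jc (BL_jl1 L) (BL_jl1 L)).add (BL_jc (BL_jl2 L) (BL_jl2 L)))).csmul _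
  have h2 : Ex (fun q => ee q • (ee q • ((1 / 2 : ℝ) • jc (jg L q)
      (jc (jl1 L q) (jl1 L q) + jc (jl2 L q) (jl2 L q))))) (fun _ => (0 : Jt)) :=
    Ex.small (BL_ee.smul hB)
  have h3 := Ex_jc h1 ((EX4_jP L).sub h2)
  have e1 : jT L = fun q => jc (jJ (jZ L q)) (jP L q - ee q • (ee q • ((1 / 2 : ℝ) • jc (jg L q)
      (jc (jl1 L q) (jl1 L q) + jc (jl2 L q) (jl2 L q))))) := by
    funext q
    unfold jT
    rw [smul_smul, smul_smul, show ee q * ee q * (1 / 2 : ℝ) = ee q ^ 2 / 2 by ring]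
  rw [e1]
  refine EX2_congr h3 fun q => ?_
  rw [sub_zero, EX4_jc_one]
theorem jR_factor (L : Lat) : ∃ Ψ : Q → Jt, BL Ψ ∧ ∀ q, jR L q = ee q • Ψ q := by
  obtain ⟨_, t1, ht, h2⟩ := Ex_jT L
  have hX : BL (fun q => jc (jc (jg L q) (jc (jlz L q) (jlz L q)))
      (jc (jZ L q) (jJ (jZ L q)) + ee q ^ 2 • jc (jy q) (jJ (jy q)))) :=
    BL_jc (BL_jc (BL_jg L) (BL_jc (BL_jlz L) (BL_jlz L)))
      ((BL_jc (BL_jZ L) (BL_jJ (BL_jZ L))).add ((BL_ee.pow 2).smul (BL_jc BL_jy (BL_jJ BL_jy))))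
  refine ⟨fun q => -(jc (jc (jg L q) (jc (jlz L q) (jlz L q)))
      (jc (jZ L q) (jJ (jZ L q)) + ee q ^ 2 • jc (jy q) (jJ (jy q)))) - jc (jy q) (t1 q),
    hX.neg.sub (BL_jc BL_jy ht), fun q => ?_⟩
  unfold jR
  have e1 : jT L q - jone = ee q • t1 q := by
    rw [h2, add_sub_cancel_left]
  have e2 : jc (jy q) (ee q • t1 q) = ee q • jc (jy q) (t1 q) := by
    funext i
    fin_cases i <;> simp [jc, map_smul, smul_add]
  rw [e1, e2, smul_sub, smul_neg]

theorem Phi_factor (L : Lat) : ∃ Ψ : Q → Fin 4 → V, BL Ψ ∧ ∀ q, eta q ≠ 0 → Phi L q = eta q • Ψ q := by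
  obtain ⟨ψ, h1, h2⟩ := newu_factor L
  obtain ⟨χ, h3, h4⟩ := jR_factor L
  have h5 : ∀ i, BL (fun q => eta q • χ q i) := fun i => BL_eta.smul (h3.apply i)
  have e3 : ∀ q : Q, ee q = eta q * eta q := by
    intro q
    unfold ee eta
    ring
  refine ⟨fun q => ![ψ q, eta q • χ q 0, eta q • χ q 1, eta q • χ q 2], ?_, fun q hq => ?_⟩
  · refine BL.pi fun i => ?_
    fin_cases i
    · exact h1
    · exact h5 0
    · exact h5 1
    · exact h5 2
  · unfold Phi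
    rw [h2 q hq, h4 q, e3 q, mul_smul]
    funext i
    fin_cases i <;> simp

end P205T.K
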