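import Vale.Agent.P205K.Base
import Vale.Agent.P205T.GCurv

/-! Block G, module CURVK (helper62). -/

open Complex ComplexConjugate
open scoped ContDiff

namespace P205T.K

/-- first derivative in the direction `v` -/
private def CKJ (v z : ℂ) (f : ℂ → ℝ) (d : ℝ) : Prop :=
  DifferentiableAt ℝ f z ∧ fderiv ℝ f z v = d

private theorem CK_mul {v z : ℂ} {f g : ℂ → ℝ} {d e : ℝ} (hf : CKJ v z f d) (hg : CKJ v z g e) :
    CKJ v z (fun z => f z * g z) (d * g z + f z * e) := by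
  refine ⟨hf.1.mul hg.1, ?_⟩
  rw [fderiv_fun_mul hf.1 hg.1]
  simp [hf.2, hg.2]
  ring

private theorem CK_add {v z : ℂ} {f g : ℂ → ℝ} {d e : ℝ} (hf : CKJ v z f d) (hg : CKJ v z g e) :
    CKJ v z (fun z => f z + g z) (d + e) := by
  refine ⟨hf.1.add hg.1, ?_⟩
  rw [fderiv_fun_add hf.1 hg.1]
  simp [hf.2, hg.2]

private theorem CK_sub {v z : ℂ} {f g : ℂ → ℝ} {d e : ℝ} (hf : CKJ v z f d) (hg : CKJ v z g e) :
    CKJ v z (fun z => f z - g z) (d - e) := by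
  refine ⟨hf.1.sub hg.1, ?_⟩
  rw [fderiv_fun_sub hf.1 hg.1]
  simp [hf.2, hg.2]

private theorem CK_cmul {v z : ℂ} {f : ℂ → ℝ} {d : ℝ} (c : ℝ) (hf : CKJ v z f d) :
    CKJ v z (fun z => c * f z) (c * d) := by
  refine ⟨hf.1.const_mul c, ?_⟩
  rw [fderiv_const_mul hf.1]
  simp [hf.2]

private theorem CK_exp {v z : ℂ} {f : ℂ → ℝ} {d : ℝ} (hf : CKJ v z f d) :
    CKJ v z (fun z => Real.exp (f z)) (Real.exp (f z) * d) := by
  refine ⟨hf.1.exp, ?_⟩
  rw [fderiv_exp hf.1]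
  simp [hf.2]

private theorem CK_of {f : ℂ → ℝ} (hf : ContDiff ℝ ∞ f) (v z : ℂ) : CKJ v z f (fderiv ℝ f z v) :=
  ⟨GC_diff hf z, rfl⟩

private theorem CK_eq {v z : ℂ} {f : ℂ → ℝ} {d e : ℝ} (hf : CKJ v z f d) (h : d = e) :
    CKJ v z f e := h ▸ hf

/-- (CURVK) from `P205T.GC_gen`: `GCBr (..) = exp(-2a)^3 * E1F`. -/
theorem curvK (D : ℝ) (w a l : ℂ → ℝ) (hw : ContDiff ℝ ∞ w) (ha : ContDiff ℝ ∞ a) (hl : ContDiff ℝ ∞ l) (z : ℂ)
    (hE0 : 0 < kE D w a l z) (hD : 0 < kE D w a l z * kG D w a l z - kF D w a l z ^ 2) :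
    dx (Om2 (kE D w a l) (kF D w a l) (kG D w a l)) z - dy (Om1 (kE D w a l) (kF D w a l) (kG D w a l)) z
      = - (Real.exp (-2 * a z) ^ 3 * E1F D w a l z) / √(kE D w a l z * kG D w a l z - kF D w a l z ^ 2) ^ 3 := by
  -- smoothness
  have sax : ContDiff ℝ ∞ (dx a) := GC_sm ha 1
  have say : ContDiff ℝ ∞ (dy a) := GC_sm ha I
  have swx : ContDiff ℝ ∞ (dx w) := GC_sm hw 1
  have swy : ContDiff ℝ ∞ (dy w) := GC_sm hw I
  have slx : ContDiff ℝ ∞ (dx l) := GC_sm hl 1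
  have sly : ContDiff ℝ ∞ (dy l) := GC_sm hl I
  have slxy : ContDiff ℝ ∞ (dx (dy l)) := GC_sm sly 1
  have slyy : ContDiff ℝ ∞ (dy (dy l)) := GC_sm sly I
  have m1 : dy (dx l) = dx (dy l) := funext fun z => GC_mixed hl z 1 I
  have m1w : dy (dx w) = dx (dy w) := funext fun z => GC_mixed hw z 1 I
  have m1a : dy (dx a) = dx (dy a) := funext fun z => GC_mixed ha z 1 I
  have m2 : dy (dx (dy l)) = dx (dy (dy l)) := funext fun z => GC_mixed sly z 1 I
  obtain ⟨b, hb⟩ : ∃ b : ℂ → ℝ, b = fun z => Real.exp (-2 * a z) := ⟨_, rfl⟩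
  obtain ⟨T, hT⟩ : ∃ T : ℂ → ℝ, T = fun z => b z * (D * Real.exp (2 * (l z - w z))) := ⟨_, rfl⟩
  have sb : ContDiff ℝ ∞ b := by
    rw [hb]; exact (contDiff_const.mul ha).exp
  have sT : ContDiff ℝ ∞ T := by
    rw [hT]; exact sb.mul (contDiff_const.mul (contDiff_const.mul (hl.sub hw)).exp)
  -- derivatives of b and T
  have jb : ∀ v z, CKJ v z b (b z * (-2 * fderiv ℝ a z v)) := by
    intro v z
    rw [hb]
    exact CK_exp (CK_cmul (-2) (CK_of ha v z))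
  have jT : ∀ v z, CKJ v z T (T z * (2 * (fderiv ℝ l z v - fderiv ℝ w z v - fderiv ℝ a z v))) := by
    intro v z
    rw [hT]
    refine CK_eq (CK_mul (jb v z) (CK_cmul D (CK_exp (CK_cmul 2
      (CK_sub (CK_of hl v z) (CK_of hw v z)))))) ?_
    ring
  have hE : kE D w a l = fun z => b z - T z * (dx l z * dx l z) := by
    funext z
    simp only [kE, tauF, hT, hb]
    ring
  have hF : kF D w a l = fun z => (-1) * (T z * (dx l z * dy l z)) := by
    funext z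
    simp only [kF, tauF, hT, hb]
    ring
  have hG : kG D w a l = fun z => b z - T z * (dy l z * dy l z) := by
    funext z
    simp only [kG, tauF, hT, hb]
    ring
  have sE : ContDiff ℝ ∞ (kE D w a l) := by
    rw [hE]; exact sb.sub (sT.mul (slx.mul slx))
  have sF : ContDiff ℝ ∞ (kF D w a l) := by
    rw [hF]; exact contDiff_const.mul (sT.mul (slx.mul sly))
  have sG : ContDiff ℝ ∞ (kG D w a l) := by
    rw [hG]; exact sb.sub (sT.mul (sly.mul sly))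
  have jb1 : ∀ z, CKJ 1 z b (b z * (-2 * dx a z)) := jb 1
  have jbI : ∀ z, CKJ I z b (b z * (-2 * dy a z)) := jb I
  have jT1 : ∀ z, CKJ 1 z T (T z * (2 * (dx l z - dx w z - dx a z))) := jT 1
  have jTI : ∀ z, CKJ I z T (T z * (2 * (dy l z - dy w z - dy a z))) := jT I
  have jlx1 : ∀ z, CKJ 1 z (dx l) (dx (dx l) z) := CK_of slx 1
  have jlxI : ∀ z, CKJ I z (dx l) (dx (dy l) z) := fun z => CK_eq (CK_of slx I z) (congrFun m1 z)
  have jly1 : ∀ z, CKJ 1 z (dy l) (dx (dy l) z) := CK_of sly 1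
  have jlyI : ∀ z, CKJ I z (dy l) (dy (dy l) z) := CK_of sly I
  have jlxy1 : ∀ z, CKJ 1 z (dx (dy l)) (dx (dx (dy l)) z) := CK_of slxy 1
  have jlxyI : ∀ z, CKJ I z (dx (dy l)) (dx (dy (dy l)) z) := fun z =>
    CK_eq (CK_of slxy I z) (congrFun m2 z)
  have jlyy1 : ∀ z, CKJ 1 z (dy (dy l)) (dx (dy (dy l)) z) := CK_of slyy 1
  have jwx1 : ∀ z, CKJ 1 z (dx w) (dx (dx w) z) := CK_of swx 1
  have jwy1 : ∀ z, CKJ 1 z (dy w) (dx (dy w) z) := CK_of swy 1
  have jwyI : ∀ z, CKJ I z (dy w) (dy (dy w) z) := CK_of swy I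
  have jax1 : ∀ z, CKJ 1 z (dx a) (dx (dx a) z) := CK_of sax 1
  have jay1 : ∀ z, CKJ 1 z (dy a) (dx (dy a) z) := CK_of say 1
  have jayI : ∀ z, CKJ I z (dy a) (dy (dy a) z) := CK_of say I
  -- first derivatives
  have Ex : dx (kE D w a l) = fun z => b z * (-2 * dx a z)
      - (T z * (2 * (dx l z - dx w z - dx a z)) * (dx l z * dx l z)
        + T z * (dx (dx l) z * dx l z + dx l z * dx (dx l) z)) := by
    funext z
    rw [hE]
    exact (CK_sub (jb1 z) (CK_mul (jT1 z) (CK_mul (jlx1 z) (jlx1 z)))).2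
  have Ey : dy (kE D w a l) = fun z => b z * (-2 * dy a z)
      - (T z * (2 * (dy l z - dy w z - dy a z)) * (dx l z * dx l z)
        + T z * (dx (dy l) z * dx l z + dx l z * dx (dy l) z)) := by
    funext z
    rw [hE]
    exact (CK_sub (jbI z) (CK_mul (jTI z) (CK_mul (jlxI z) (jlxI z)))).2
  have Gx : dx (kG D w a l) = fun z => b z * (-2 * dx a z)
      - (T z * (2 * (dx l z - dx w z - dx a z)) * (dy l z * dy l z)
        + T z * (dx (dy l) z * dy l z + dy l z * dx (dy l) z)) := by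
    funext z
    rw [hG]
    exact (CK_sub (jb1 z) (CK_mul (jT1 z) (CK_mul (jly1 z) (jly1 z)))).2
  have Gy : dy (kG D w a l) = fun z => b z * (-2 * dy a z)
      - (T z * (2 * (dy l z - dy w z - dy a z)) * (dy l z * dy l z)
        + T z * (dy (dy l) z * dy l z + dy l z * dy (dy l) z)) := by
    funext z
    rw [hG]
    exact (CK_sub (jbI z) (CK_mul (jTI z) (CK_mul (jlyI z) (jlyI z)))).2
  have Fx : dx (kF D w a l) = fun z => (-1) *
      (T z * (2 * (dx l z - dx w z - dx a z)) * (dx l z * dy l z)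
        + T z * (dx (dx l) z * dy l z + dx l z * dx (dy l) z)) := by
    funext z
    rw [hF]
    exact (CK_cmul (-1) (CK_mul (jT1 z) (CK_mul (jlx1 z) (jly1 z)))).2
  have Fy : dy (kF D w a l) = fun z => (-1) *
      (T z * (2 * (dy l z - dy w z - dy a z)) * (dx l z * dy l z)
        + T z * (dx (dy l) z * dy l z + dx l z * dy (dy l) z)) := by
    funext z
    rw [hF]
    exact (CK_cmul (-1) (CK_mul (jTI z) (CK_mul (jlxI z) (jlyI z)))).2
  -- second derivatives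
  have jGxx := CK_sub (CK_mul (jb1 z) (CK_cmul (-2) (jax1 z)))
    (CK_add (CK_mul (CK_mul (jT1 z) (CK_cmul 2 (CK_sub (CK_sub (jlx1 z) (jwx1 z)) (jax1 z))))
      (CK_mul (jly1 z) (jly1 z)))
      (CK_mul (jT1 z) (CK_add (CK_mul (jlxy1 z) (jly1 z)) (CK_mul (jly1 z) (jlxy1 z)))))
  have Gxx := (congrArg (fun f => fderiv ℝ f z 1) Gx).trans jGxx.2
  have jEyy := CK_sub (CK_mul (jbI z) (CK_cmul (-2) (jayI z)))
    (CK_add (CK_mul (CK_mul (jTI z) (CK_cmul 2 (CK_sub (CK_sub (jlyI z) (jwyI z)) (jayI z))))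
      (CK_mul (jlxI z) (jlxI z)))
      (CK_mul (jTI z) (CK_add (CK_mul (jlxyI z) (jlxI z)) (CK_mul (jlxI z) (jlxyI z)))))
  have Eyy := (congrArg (fun f => fderiv ℝ f z I) Ey).trans jEyy.2
  have jFxy := CK_cmul (-1)
    (CK_add (CK_mul (CK_mul (jT1 z) (CK_cmul 2 (CK_sub (CK_sub (jly1 z) (jwy1 z)) (jay1 z))))
      (CK_mul (jlx1 z) (jly1 z)))
      (CK_mul (jT1 z) (CK_add (CK_mul (jlxy1 z) (jly1 z)) (CK_mul (jlx1 z) (jlyy1 z)))))
  have Fxy := (congrArg (fun f => fderiv ℝ f z 1) Fy).trans jFxy.2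
  rw [GC_gen sE sF sG z hE0 hD, show dx (dx (kG D w a l)) z = _ from Gxx,
    show dy (dy (kE D w a l)) z = _ from Eyy, show dx (dy (kF D w a l)) z = _ from Fxy,
    Ex, Ey, Fx, Fy, Gx, Gy, neg_div, neg_div]
  congr 2
  have e1 : kE D w a l z = b z - T z * (dx l z * dx l z) := congrFun hE z
  have e2 : kF D w a l z = (-1) * (T z * (dx l z * dy l z)) := congrFun hF z
  have e3 : kG D w a l z = b z - T z * (dy l z * dy l z) := congrFun hG z
  have e4 : T z = b z * tauF D w l z := by rw [hT]; rfl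
  have e5 : Real.exp (-2 * a z) = b z := by rw [hb]
  rw [e5, e1, e2, e3]
  simp only [E1F, E1, e4]
  unfold GCBr
  ring

end P205T.K
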