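import Vale.Agent.P205K.KAlg

/-! P205K block K (helper84), module KL: an anti-conformal map with bounded derivative is affine. -/

open Complex ComplexConjugate
open scoped ContDiff

namespace P205T.K

/-- entire function with bounded derivative -/
theorem entire_affine (f : ℂ → ℂ) (hf : Differentiable ℂ f) (M : ℝ) (hM : ∀ y, ‖deriv f y‖ ≤ M) :
    ∃ a b : ℂ, ∀ y, f y = a * y + b := by
  have hd : Differentiable ℂ (deriv f) := by
    intro y
    exact ((hf.analyticAt y).deriv).differentiableAt
  have hb : Bornology.IsBounded (Set.range (deriv f)) := by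
    rw [isBounded_iff_forall_norm_le]
    exact ⟨M, by rintro _ ⟨y, rfl⟩; exact hM y⟩
  have hc : ∀ y, deriv f y = deriv f 0 := fun y => hd.apply_eq_apply_of_bounded hb y 0
  refine ⟨deriv f 0, f 0, fun y => ?_⟩
  have hg : Differentiable ℂ (fun y => f y - deriv f 0 * y) :=
    hf.sub ((differentiable_const _).mul differentiable_id)
  have h0 : ∀ y, deriv (fun y => f y - deriv f 0 * y) y = 0 := by
    intro y
    have h1 : HasDerivAt (fun y => f y - deriv f 0 * y) (deriv f y - deriv f 0 * 1) y :=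
      (hf y).hasDerivAt.sub ((hasDerivAt_id y).const_mul (deriv f 0))
    rw [h1.deriv, hc y]
    ring
  have h2 := is_const_of_deriv_eq_zero hg h0 y 0
  simp only [mul_zero, sub_zero] at h2
  linear_combination h2

theorem anti_liouville (S : ℂ → ℂ) (hS : ContDiff ℝ ∞ S) (M : ℝ) (hM : ∀ y, ‖fderiv ℝ S y 1‖ ≤ M)
    (h : ∀ y, fderiv ℝ S y Complex.I = -Complex.I * fderiv ℝ S y 1) :
    ∃ a b : ℂ, ∀ y, S y = a * conj y + b := by
  have hSd : Differentiable ℝ S := hS.differentiable (by simp)
  have hc : Differentiable ℝ (fun y : ℂ => conj y) := Complex.conjCLE.differentiable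
  set f : ℂ → ℂ := fun y => S (conj y) with hf
  have hfd : ∀ y v, fderiv ℝ f y v = fderiv ℝ S (conj y) (conj v) := by
    intro y v
    have h1 : fderiv ℝ f y = (fderiv ℝ S (conj y)).comp (fderiv ℝ (fun y : ℂ => conj y) y) :=
      fderiv_comp y (hSd _) (hc y)
    have h2 : fderiv ℝ (fun y : ℂ => conj y) y = (Complex.conjCLE : ℂ →L[ℝ] ℂ) :=
      Complex.conjCLE.fderiv
    rw [h1, h2]
    rfl
  have hdiff : Differentiable ℂ f := by
    intro y
    rw [differentiableAt_complex_iff_differentiableAt_real]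
    refine ⟨(hSd _).comp y (hc y), ?_⟩
    rw [hfd, hfd, Complex.conj_I, map_neg, h, map_one (starRingEnd ℂ)]
    simp
  have hder : ∀ y, deriv f y = fderiv ℝ f y 1 := by
    intro y
    have h1 := (hdiff y).hasDerivAt.hasFDerivAt.restrictScalars ℝ
    rw [h1.fderiv]
    simp
  obtain ⟨a, b, hab⟩ := entire_affine f hdiff M (fun y => by
    rw [hder, hfd, map_one (starRingEnd ℂ)]
    exact hM _)
  refine ⟨a, b, fun y => ?_⟩
  have := hab (conj y)
  rw [hf] at this
  simpa using this

/-- KD: the determinant of the derivative of a local diffeomorphism of the plane has a constant sign -/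
theorem dt_ne_zero (D : ℂ →L[ℝ] ℂ) (h : ∀ v, D v = 0 → v = 0) : dt D ≠ 0 := by
  intro h0
  rw [dt] at h0
  have h1 : D 1 ≠ 0 := fun h2 => one_ne_zero (h 1 h2)
  -- `conj (D 1) * D I = r` real
  have h3 : conj (D 1) * D Complex.I = (((conj (D 1) * D Complex.I).re : ℝ) : ℂ) := by
    apply Complex.ext
    · simp
    · rw [h0]; simp
  set r := (conj (D 1) * D Complex.I).re
  have h4 : ((Complex.normSq (D 1) : ℝ) : ℂ) * D Complex.I = ((r : ℝ) : ℂ) * D 1 := by
    have h5 := Complex.mul_conj (D 1)
    linear_combination (D 1) * h3 - D Complex.I * h5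
  have h6 : D (Complex.normSq (D 1) • Complex.I - r • (1 : ℂ)) = 0 := by
    rw [map_sub, map_smul, map_smul, Complex.real_smul, Complex.real_smul, h4, sub_self]
  have h7 := congrArg Complex.im (h _ h6)
  simp only [Complex.sub_im, Complex.real_smul, Complex.mul_im, Complex.ofReal_re,
    Complex.ofReal_im, Complex.I_re, Complex.I_im, Complex.one_re, Complex.one_im,
    Complex.zero_im] at h7
  have h8 : Complex.normSq (D 1) = 0 := by linarith
  exact h1 (Complex.normSq_eq_zero.1 h8)

theorem dt_sign (Z : ℂ → ℂ) (hZ : ContDiff ℝ ∞ Z) (hinj : ∀ z v, fderiv ℝ Z z v = 0 → v = 0) (z w : ℂ) :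
    0 < dt (fderiv ℝ Z z) * dt (fderiv ℝ Z w) := by
  have hc : Continuous (fun z => dt (fderiv ℝ Z z)) := by
    have h1 : Continuous (fderiv ℝ Z) := hZ.continuous_fderiv (by simp)
    unfold dt
    have h2 : Continuous fun z => fderiv ℝ Z z 1 := h1.clm_apply continuous_const
    have h3 : Continuous fun z => fderiv ℝ Z z Complex.I := h1.clm_apply continuous_const
    exact Complex.continuous_im.comp ((Complex.continuous_conj.comp h2).mul h3)
  have hne : ∀ z, dt (fderiv ℝ Z z) ≠ 0 := fun z => dt_ne_zero _ (hinj z)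
  rcases lt_or_gt_of_ne (hne z) with h1 | h1 <;> rcases lt_or_gt_of_ne (hne w) with h2 | h2
  · exact mul_pos_of_neg_of_neg h1 h2
  · obtain ⟨x, hx⟩ := mem_range_of_exists_le_of_exists_ge hc ⟨z, h1.le⟩ ⟨w, h2.le⟩
    exact absurd hx (hne x)
  · obtain ⟨x, hx⟩ := mem_range_of_exists_le_of_exists_ge hc ⟨w, h2.le⟩ ⟨z, h1.le⟩
    exact absurd hx (hne x)
  · exact mul_pos h1 h2

end P205T.K
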