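import Vale.Agent.P205K.Base
import Vale.Agent.P205K.KLiou
import Vale.Agent.P205U.Glob
import Vale.Agent.P205U.Hol
import Vale.Agent.P205T.GFlatAux

/-! Block G, module LIOU (helper62). -/

open Complex ComplexConjugate
open scoped ContDiff

namespace P205T.K

/-- (LIOU) `Ψ = Φ⁻¹` (`P205T.U.global_inverse`); `g = Z ∘ Ψ` has complex derivative `q (Ψ y)`, so `g` is entire and so is
`g' = q ∘ Ψ`; `|q| = |dZ 1| / |dΦ 1|` is continuous and `L`-periodic, hence bounded (`P205T.U.HOL_max` or `gg_domain`);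
Liouville (`Differentiable.apply_eq_apply_of_bounded`). -/
theorem liouv (L : Lat) (Z Φ : ℂ → ℂ) (hZ : ContDiff ℝ ∞ Z) (hΦ : ContDiff ℝ ∞ Φ)
    (hinj : ∀ z v, fderiv ℝ Φ z v = 0 → v = 0) (c₁ c₂ d₁ d₂ : ℂ)
    (h1 : ∀ z, Φ (z + L.ω₁) = Φ z + c₁) (h2 : ∀ z, Φ (z + L.ω₂) = Φ z + c₂)
    (h3 : ∀ z, Z (z + L.ω₁) = Z z + d₁) (h4 : ∀ z, Z (z + L.ω₂) = Z z + d₂)
    (q : ℂ → ℂ) (hq : ∀ z v, fderiv ℝ Z z v = q z * fderiv ℝ Φ z v) : ∀ z, q z = q 0 := by
  obtain ⟨Ψ, hΨ, hΨΦ, hΦΨ⟩ := P205T.U.global_inverse L Φ hΦ hinj c₁ c₂ h1 h2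
  have dZ : Differentiable ℝ Z := hZ.differentiable (by simp)
  have dΦ : Differentiable ℝ Φ := hΦ.differentiable (by simp)
  have dΨ : Differentiable ℝ Ψ := hΨ.differentiable (by simp)
  have hsurj : ∀ y w, fderiv ℝ Φ (Ψ y) (fderiv ℝ Ψ y w) = w := by
    intro y w
    have e1 : HasFDerivAt (fun y => Φ (Ψ y)) ((fderiv ℝ Φ (Ψ y)).comp (fderiv ℝ Ψ y)) y :=
      (dΦ (Ψ y)).hasFDerivAt.comp y (dΨ y).hasFDerivAt
    have e3 : (fun y => Φ (Ψ y)) = fun y => y := funext hΦΨ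
    rw [e3] at e1
    have e4 := e1.unique (hasFDerivAt_id y)
    have e5 := congrArg (fun D : ℂ →L[ℝ] ℂ => D w) e4
    simpa using e5
  set g : ℂ → ℂ := fun y => Z (Ψ y) with hg
  have hgR : ∀ y, HasFDerivAt g ((fderiv ℝ Z (Ψ y)).comp (fderiv ℝ Ψ y)) y := fun y =>
    (dZ (Ψ y)).hasFDerivAt.comp y (dΨ y).hasFDerivAt
  have hgv : ∀ y v, fderiv ℝ g y v = q (Ψ y) * v := by
    intro y v
    rw [(hgR y).fderiv, ContinuousLinearMap.comp_apply, hq, hsurj]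
  have hdiff : Differentiable ℂ g := by
    intro y
    rw [differentiableAt_complex_iff_differentiableAt_real]
    refine ⟨(hgR y).differentiableAt, ?_⟩
    rw [hgv, hgv, smul_eq_mul]
    ring
  have hder : ∀ y, deriv g y = q (Ψ y) := by
    intro y
    have e1 := (hdiff y).hasDerivAt.hasFDerivAt.restrictScalars ℝ
    have e2 := hgv y 1
    rw [e1.fderiv] at e2
    simpa using e2
  -- bound
  have hne : ∀ z, fderiv ℝ Φ z 1 ≠ 0 := fun z h0 => one_ne_zero (hinj z 1 h0)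
  have hcZ : Continuous fun z => fderiv ℝ Z z 1 := (hZ.continuous_fderiv (by simp)).clm_apply continuous_const
  have hcΦ : Continuous fun z => fderiv ℝ Φ z 1 := (hΦ.continuous_fderiv (by simp)).clm_apply continuous_const
  have hsh : ∀ (f : ℂ → ℂ) (o c : ℂ), (∀ z, f (z + o) = f z + c) → ∀ z, fderiv ℝ f (z + o) = fderiv ℝ f z := by
    intro f o c hf z
    rw [← fderiv_comp_add_right]
    have : (fun x => f (x + o)) = fun x => f x + c := funext hf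
    rw [this, fderiv_add_const]
  have hcont : Continuous fun z => ‖fderiv ℝ Z z 1‖ / ‖fderiv ℝ Φ z 1‖ :=
    hcZ.norm.div hcΦ.norm fun z => norm_ne_zero_iff.2 (hne z)
  obtain ⟨z₀, hz₀⟩ := P205T.U.HOL_max L hcont
    ⟨fun z => by simp only [hsh Z _ _ h3, hsh Φ _ _ h1], fun z => by simp only [hsh Z _ _ h4, hsh Φ _ _ h2]⟩
  have hqn : ∀ z, ‖q z‖ = ‖fderiv ℝ Z z 1‖ / ‖fderiv ℝ Φ z 1‖ := by
    intro z
    rw [hq, norm_mul, mul_div_assoc, div_self (norm_ne_zero_iff.2 (hne z)), mul_one]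
  obtain ⟨a, b, hab⟩ := entire_affine g hdiff (‖fderiv ℝ Z z₀ 1‖ / ‖fderiv ℝ Φ z₀ 1‖) (fun y => by
    rw [hder, hqn]
    exact hz₀ _)
  have hqa : ∀ y, q (Ψ y) = a := by
    intro y
    rw [← hder]
    have e1 : g = fun y => a * y + b := funext hab
    have e2 : HasDerivAt (fun y : ℂ => a * y + b) (a * 1) y := ((hasDerivAt_id y).const_mul a).add_const b
    rw [e1, e2.deriv, mul_one]
  have hqz : ∀ z, q z = a := by
    intro z
    have := hqa (Φ z)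
    rwa [hΨΦ] at this
  intro z
  rw [hqz, hqz]

end P205T.K
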