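import Vale.Agent.P205K.Base

/-! Block G, module RATIO (helper62). -/

open Complex ComplexConjugate
open scoped ContDiff

namespace P205T.K

theorem RATIO_pol (A B : ℂ →L[ℝ] ℂ) (f : ℝ) (hAB : ∀ v, ‖B v‖ ^ 2 = f * ‖A v‖ ^ 2) :
    (conj (B 1) * B Complex.I).re = f * (conj (A 1) * A Complex.I).re := by
  have h1 := hAB 1
  have h2 := hAB Complex.I
  have h3 := hAB (1 + Complex.I)
  rw [map_add, map_add] at h3
  simp only [← Complex.normSq_eq_norm_sq, Complex.normSq_apply, Complex.add_re, Complex.add_im] at h1 h2 h3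
  simp only [Complex.mul_re, Complex.conj_re, Complex.conj_im]
  linarith

/-- (RATIO) `s = B I / B 1`, `t = A I / A 1`: `|s| = |t|`, `re s = re t`, both imaginary parts positive, so `s = t`
(use `v = 1, I, 1 + I` in `hAB`); then `q = A 1 / B 1`. -/
theorem ratio (A B : ℂ →L[ℝ] ℂ) (f : ℝ) (hf : 0 < f) (hA : 0 < (conj (A 1) * A Complex.I).im)
    (hB : 0 < (conj (B 1) * B Complex.I).im) (hAB : ∀ v, ‖B v‖ ^ 2 = f * ‖A v‖ ^ 2) :
    ∃ q : ℂ, ∀ v, A v = q * B v := by
  have hre := RATIO_pol A B f hAB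
  have h1 := hAB 1
  have h2 := hAB Complex.I
  have nA : ‖conj (A 1) * A Complex.I‖ ^ 2 = ‖A 1‖ ^ 2 * ‖A Complex.I‖ ^ 2 := by
    rw [norm_mul, Complex.norm_conj, mul_pow]
  have nB : ‖conj (B 1) * B Complex.I‖ ^ 2 = ‖B 1‖ ^ 2 * ‖B Complex.I‖ ^ 2 := by
    rw [norm_mul, Complex.norm_conj, mul_pow]
  have him : (conj (B 1) * B Complex.I).im = f * (conj (A 1) * A Complex.I).im := by
    rw [h1, h2] at nB
    rw [← Complex.normSq_eq_norm_sq, Complex.normSq_apply] at nA nB
    have h5 : (conj (B 1) * B Complex.I).im ^ 2 = (f * (conj (A 1) * A Complex.I).im) ^ 2 := by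
      rw [hre] at nB
      linear_combination nB - f ^ 2 * nA
    rcases sq_eq_sq_iff_eq_or_eq_neg.1 h5 with h6 | h6
    · exact h6
    · have := mul_pos hf hA
      linarith
  have hc : conj (B 1) * B Complex.I = (f : ℂ) * (conj (A 1) * A Complex.I) := by
    apply Complex.ext
    · rw [Complex.re_ofReal_mul, hre]
    · rw [Complex.im_ofReal_mul, him]
  have hB1 : B 1 ≠ 0 := by
    intro h0
    rw [h0] at hB
    simp at hB
  have hA1 : A 1 ≠ 0 := by
    intro h0
    rw [h0] at hA
    simp at hA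
  have hcB : conj (B 1) ≠ 0 := (map_ne_zero _).2 hB1
  have h1c : B 1 * conj (B 1) = (f : ℂ) * (A 1 * conj (A 1)) := by
    rw [Complex.mul_conj, Complex.mul_conj, Complex.normSq_eq_norm_sq, Complex.normSq_eq_norm_sq, h1]
    push_cast
    ring
  have key : A Complex.I * B 1 = A 1 * B Complex.I := by
    have h7 : (A Complex.I * B 1) * conj (B 1) = (A 1 * B Complex.I) * conj (B 1) := by
      linear_combination (A Complex.I) * h1c - (A 1) * hc
    exact mul_right_cancel₀ hcB h7
  refine ⟨A 1 / B 1, fun v => ?_⟩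
  have hv : v = v.re • (1 : ℂ) + v.im • Complex.I := by
    apply Complex.ext <;> simp
  have e1 : A v = v.re • A 1 + v.im • A Complex.I := by
    conv_lhs => rw [hv]
    simp only [map_add, map_smul]
  have e2 : B v = v.re • B 1 + v.im • B Complex.I := by
    conv_lhs => rw [hv]
    simp only [map_add, map_smul]
  rw [e1, e2, Complex.real_smul, Complex.real_smul, Complex.real_smul, Complex.real_smul,
    div_mul_eq_mul_div, eq_div_iff hB1]
  linear_combination (v.im : ℂ) * key

/-- (RATIO2) -/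
theorem orient (A : ℂ →L[ℝ] ℂ) (h : ∀ v, ‖A v - v‖ ≤ ‖v‖ / 10) : 0 < (conj (A 1) * A Complex.I).im := by
  have h1 := h 1
  have h2 := h Complex.I
  rw [norm_one] at h1
  rw [Complex.norm_I] at h2
  have a1 := abs_le.1 ((Complex.abs_re_le_norm (A 1 - 1)).trans h1)
  have a2 := abs_le.1 ((Complex.abs_im_le_norm (A 1 - 1)).trans h1)
  have a3 := abs_le.1 ((Complex.abs_re_le_norm (A Complex.I - Complex.I)).trans h2)
  have a4 := abs_le.1 ((Complex.abs_im_le_norm (A Complex.I - Complex.I)).trans h2)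
  simp only [Complex.sub_re, Complex.sub_im, Complex.one_re, Complex.one_im, Complex.I_re,
    Complex.I_im] at a1 a2 a3 a4
  simp only [Complex.mul_im, Complex.conj_re, Complex.conj_im]
  have b1 : (9 : ℝ) / 10 * (9 / 10) ≤ (A 1).re * (A Complex.I).im :=
    mul_le_mul (by linarith) (by linarith) (by norm_num) (by linarith)
  have b2 : |(A 1).im * (A Complex.I).re| ≤ 1 / 10 * (1 / 10) := by
    rw [abs_mul]
    refine mul_le_mul (abs_le.2 ⟨by linarith, by linarith⟩) (abs_le.2 ⟨by linarith, by linarith⟩)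
      (abs_nonneg _) (by norm_num)
  have b3 := abs_le.1 b2
  nlinarith

end P205T.K
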