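import Vale.Agent.P205K.GLat
import Vale.Agent.P205K.GRatio
import Vale.Agent.P205K.GLiou
import Vale.Agent.P205K.GCurvK
import Vale.Agent.P205T.GConst
import Vale.Agent.P205T.GCoframe
import Vale.Agent.P205T.GDevelop
import Vale.Agent.P205U.Hol

/-! Block G, assembly (helper62): `geom_core`, `met_core`. -/

open Complex ComplexConjugate
open scoped ContDiff

namespace P205T.K

private theorem GM_exp (x : ℝ) : ‖Complex.exp (Complex.I * (x : ℂ))‖ = 1 := by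
  rw [mul_comm, Complex.norm_exp_ofReal_mul_I]

/-- flatness, development and rigidity for one metric `E, F, G` -/
private theorem GM_flat (L : Lat) (E F G : ℂ → ℝ) (sE : ContDiff ℝ ∞ E) (sF : ContDiff ℝ ∞ F)
    (sG : ContDiff ℝ ∞ G) (pE : Per L E) (pF : Per L F) (pG : Per L G) (hE0 : ∀ z, 0 < E z)
    (hD : ∀ z, 0 < E z * G z - F z ^ 2) (κ : ℂ → ℝ) (hκ : Continuous κ) (hκ0 : ∀ z, 0 < κ z) (c : ℝ)
    (hc : ∀ z, dx (Om2 E F G) z - dy (Om1 E F G) z = c * κ z)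
    (Z : ℂ → ℂ) (hZ : ContDiff ℝ ∞ Z) (d₁ d₂ : ℂ) (h3 : ∀ z, Z (z + L.ω₁) = Z z + d₁)
    (h4 : ∀ z, Z (z + L.ω₂) = Z z + d₂) (hd : ∀ z v, ‖fderiv ℝ Z z v - v‖ ≤ ‖v‖ / 10)
    (f : ℂ → ℝ) (hf : ∀ z, 0 < f z)
    (hm : ∀ z (v : ℂ), E z * v.re ^ 2 + 2 * F z * v.re * v.im + G z * v.im ^ 2
      = f z * ‖fderiv ℝ Z z v‖ ^ 2) :
    ∃ c₂ : ℝ, ∀ z (v : ℂ), E z * v.re ^ 2 + 2 * F z * v.re * v.im + G z * v.im ^ 2
      = c₂ * ‖fderiv ℝ Z z v‖ ^ 2 := by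
  have s1 := gg_Om1_smooth sE sF sG hE0 hD
  have s2 := gg_Om2_smooth sE sF sG hE0 hD
  obtain ⟨p1', p2'⟩ := gg_Om_per pE pF pG
  have hc0 : c = 0 := const_zero L _ _ κ s1 s2 p1' p2' hκ hκ0 c hc
  have hcl : ∀ z, dx (Om2 E F G) z = dy (Om1 E F G) z := by
    intro z
    have := hc z
    rw [hc0, zero_mul] at this
    linarith
  obtain ⟨px, py⟩ := gg_th_per pE pF pG
  obtain ⟨β, Φ, -, sΦ, -, -, -, hΦ, -, -, hΦ1, hΦ2⟩ := develop L (Om1 E F G) (Om2 E F G) (thx E)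
    (thy E F G) s1 s2 (gg_thx_smooth sE hE0) (gg_thy_smooth sE sF sG hE0 hD) p1' p2' px py hcl
    (coframe E F G sE sF sG hE0 hD)
  have hnorm : ∀ z v, ‖fderiv ℝ Φ z v‖ ^ 2 = f z * ‖fderiv ℝ Z z v‖ ^ 2 := by
    intro z v
    rw [hΦ, norm_mul, GM_exp, one_mul, gg_norm_coframe hE0 hD, hm]
  have hZinj : ∀ z v, fderiv ℝ Z z v = 0 → v = 0 := by
    intro z v h
    have h1 := hd z v
    rw [h, zero_sub, norm_neg] at h1
    have h2 : ‖v‖ ≤ 0 := by linarith [norm_nonneg v]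
    exact norm_le_zero_iff.1 h2
  have hinj : ∀ z v, fderiv ℝ Φ z v = 0 → v = 0 := by
    intro z v h
    have h1 := hnorm z v
    rw [h, norm_zero] at h1
    have h2 : ‖fderiv ℝ Z z v‖ ^ 2 = 0 := by
      rcases mul_eq_zero.1 (by linarith : f z * ‖fderiv ℝ Z z v‖ ^ 2 = 0) with h3 | h3
      · exact absurd h3 (hf z).ne'
      · exact h3
    exact hZinj z v (norm_eq_zero.1 (pow_eq_zero_iff (two_ne_zero)|>.1 h2))
  obtain ⟨hu1, hu2⟩ := P205T.U.hol_trivial L Φ sΦ hinj _ _ _ _ (GM_exp _) (GM_exp _) hΦ1 hΦ2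
  have hB : ∀ z, 0 < (conj (fderiv ℝ Φ z 1) * fderiv ℝ Φ z Complex.I).im := by
    intro z
    have e1 : fderiv ℝ Φ z 1 = Complex.exp (Complex.I * (β z : ℂ)) * thx E z := by
      rw [hΦ]; simp
    have e2 : fderiv ℝ Φ z Complex.I = Complex.exp (Complex.I * (β z : ℂ)) * thy E F G z := by
      rw [hΦ]; simp
    have e3 : conj (Complex.exp (Complex.I * (β z : ℂ))) * Complex.exp (Complex.I * (β z : ℂ)) = 1 := by
      rw [Complex.conj_mul', GM_exp]; simp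
    have hs : 0 < √(E z) := Real.sqrt_pos.2 (hE0 z)
    have hs' : ((√(E z) : ℝ) : ℂ) ≠ 0 := by exact_mod_cast hs.ne'
    have e4 : conj (fderiv ℝ Φ z 1) * fderiv ℝ Φ z Complex.I
        = (F z : ℂ) + Complex.I * ((√(E z * G z - F z ^ 2) : ℝ) : ℂ) := by
      rw [e1, e2, map_mul]
      have e5 : conj (Complex.exp (Complex.I * (β z : ℂ))) * conj (thx E z)
          * (Complex.exp (Complex.I * (β z : ℂ)) * thy E F G z)
          = (conj (Complex.exp (Complex.I * (β z : ℂ))) * Complex.exp (Complex.I * (β z : ℂ)))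
            * (conj (thx E z) * thy E F G z) := by ring
      rw [e5, e3, one_mul]
      unfold thx thy
      rw [Complex.conj_ofReal]
      exact mul_div_cancel₀ _ hs'
    rw [e4]
    have hs2 : 0 < √(E z * G z - F z ^ 2) := Real.sqrt_pos.2 (hD z)
    simpa using hs2
  have hq : ∀ z, ∃ q : ℂ, ∀ v, fderiv ℝ Z z v = q * fderiv ℝ Φ z v := fun z =>
    ratio (fderiv ℝ Z z) (fderiv ℝ Φ z) (f z) (hf z) (orient _ (hd z)) (hB z) (hnorm z)
  choose q hq using hq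
  have hq0 := liouv L Z Φ hZ sΦ hinj (Φ L.ω₁) (Φ L.ω₂) d₁ d₂
    (fun z => by rw [hΦ1, hu1, one_mul]) (fun z => by rw [hΦ2, hu2, one_mul]) h3 h4 q hq
  have hqne : q 0 ≠ 0 := by
    intro h
    have h1 := hq 0 1
    rw [h, zero_mul] at h1
    exact one_ne_zero (hZinj 0 1 h1)
  refine ⟨(‖q 0‖ ^ 2)⁻¹, fun z v => ?_⟩
  rw [hm, ← hnorm, hq z v, hq0 z, norm_mul, mul_pow]
  have h0 : ‖q 0‖ ^ 2 ≠ 0 := by positivity
  rw [← mul_assoc, inv_mul_cancel₀ h0, one_mul]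

/-- block G for one parameter -/
theorem met_core (p h : ℝ) (hp : 0 < p) (hh : 0 < h) (w : ℂ → ℝ) (hw : ContDiff ℝ ∞ w)
    (h1 : ∀ z, w (z + p) = w z) (h2 : ∀ z, w (sig h z) = w z) (k : ℕ) (κ A : ℝ)
    (hP : ∀ X, 0 < PX κ A X) (a : ℂ → ℝ) (Z : ℂ → ℂ) (c : ℝ) (ha : ContDiff ℝ ∞ a)
    (hZ : ContDiff ℝ ∞ Z) (a1 : ∀ z, a (z + p) = a z) (a2 : ∀ z, a (sig h z) = a z)
    (Z1 : ∀ z, Z (z + p) = Z z + p) (Z2 : ∀ z, Z (sig h z) = - conj (Z z) + Complex.I * (c : ℂ))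
    (hd : ∀ z v, ‖fderiv ℝ Z z v - v‖ ≤ ‖v‖ / 10)
    (hs : ∀ z, dlt p k κ A ^ 2 * Real.exp (2 * (lamF p k κ A w a Z z - w z))
      * (dx (lamF p k κ A w a Z) z ^ 2 + dy (lamF p k κ A w a Z) z ^ 2) ≤ 1/10)
    (hc : ∃ c₁ : ℝ, ∀ z, E1F (dlt p k κ A ^ 2) w a (lamF p k κ A w a Z) z
      * PX κ A (KK p k * (Z z).re) ^ 3 = c₁)
    (hconf : ∃ f : ℂ → ℝ, (∀ z, 0 < f z) ∧ ∀ z (v : ℂ),
      kE (dlt p k κ A ^ 2) w a (lamF p k κ A w a Z) z * v.re ^ 2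
        + 2 * kF (dlt p k κ A ^ 2) w a (lamF p k κ A w a Z) z * v.re * v.im
        + kG (dlt p k κ A ^ 2) w a (lamF p k κ A w a Z) z * v.im ^ 2
        = f z * ‖fderiv ℝ Z z v‖ ^ 2)
    (hn : ∀ c₂ : ℝ, (∀ z (v : ℂ),
      kE (dlt p k κ A ^ 2) w a (lamF p k κ A w a Z) z * v.re ^ 2
        + 2 * kF (dlt p k κ A ^ 2) w a (lamF p k κ A w a Z) z * v.re * v.im
        + kG (dlt p k κ A ^ 2) w a (lamF p k κ A w a Z) z * v.im ^ 2
        = c₂ * ‖fderiv ℝ Z z v‖ ^ 2) → c₂ = 1) :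
    ∀ z v : ℂ, Real.exp (2 * w z) * ‖v‖ ^ 2
      = dlt p k κ A ^ 2 * Real.exp (2 * lamF p k κ A w a Z z) * (fderiv ℝ (lamF p k κ A w a Z) z v) ^ 2
        + Real.exp (2 * (w z + a z)) * ‖fderiv ℝ Z z v‖ ^ 2 := by
  obtain ⟨L, hL⟩ : ∃ L : Lat, L = latK p h hp hh := ⟨_, rfl⟩
  have hL1 : L.ω₁ = (p : ℂ) := by rw [hL]; rfl
  have hL2 : L.ω₂ = 2 * (h : ℂ) * Complex.I := by rw [hL]; rfl
  have wL : Per L w := by rw [hL]; exact per_of_sig p h hp hh w h1 h2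
  have aL : Per L a := by rw [hL]; exact per_of_sig p h hp hh a a1 a2
  have Z3 := Z_shift h c Z Z2
  have sl := lamF_smooth p k κ A w a Z hw ha hZ hP
  have lL : Per L (lamF p k κ A w a Z) := by
    rw [hL] at wL aL ⊢
    exact lam_per p h hp hh k κ A c w a Z wL aL Z1 Z3
  obtain ⟨l, hl⟩ : ∃ l : ℂ → ℝ, l = lamF p k κ A w a Z := ⟨_, rfl⟩
  obtain ⟨D, hDd⟩ : ∃ D : ℝ, D = dlt p k κ A ^ 2 := ⟨_, rfl⟩
  have hD0 : 0 ≤ D := by rw [hDd]; positivity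
  simp only [← hl, ← hDd] at sl lL hs hc hconf hn ⊢
  obtain ⟨sE, sF, sG⟩ := kE_smooth D w a l hw ha sl
  obtain ⟨pE, pF, pG⟩ := kE_per L D w a l wL aL lL
  have hpos := fun z => kE_pos D hD0 w a l z (hs z)
  obtain ⟨c₁, hc₁⟩ := hc
  obtain ⟨f, hf, hm⟩ := hconf
  have sP : Continuous fun z => PX κ A (KK p k * (Z z).re) := by
    have hZc := hZ.continuous
    unfold PX vP
    fun_prop
  have hPz : ∀ z, 0 < PX κ A (KK p k * (Z z).re) := fun z => hP _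
  have sDt : Continuous fun z => √(kE D w a l z * kG D w a l z - kF D w a l z ^ 2) :=
    (gg_D_smooth sE sF sG fun z => (hpos z).2).continuous
  have hDt : ∀ z, 0 < √(kE D w a l z * kG D w a l z - kF D w a l z ^ 2) := fun z =>
    Real.sqrt_pos.2 (hpos z).2
  obtain ⟨c₂, hc₂⟩ := GM_flat L (kE D w a l) (kF D w a l) (kG D w a l) sE sF sG pE pF pG
    (fun z => (hpos z).1) (fun z => (hpos z).2)
    (fun z => Real.exp (-2 * a z) ^ 3 / (PX κ A (KK p k * (Z z).re) ^ 3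
      * √(kE D w a l z * kG D w a l z - kF D w a l z ^ 2) ^ 3))
    (by
      refine Continuous.div ?_ ((sP.pow 3).mul (sDt.pow 3)) ?_
      · have := ha.continuous
        fun_prop
      · intro z
        exact mul_ne_zero (pow_ne_zero _ (hPz z).ne') (pow_ne_zero _ (hDt z).ne'))
    (fun z => div_pos (by positivity) (mul_pos (pow_pos (hPz z) 3) (pow_pos (hDt z) 3)))
    (-c₁)
    (fun z => by
      rw [curvK D w a l hw ha sl z (hpos z).1 (hpos z).2, ← hc₁ z]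
      have e1 := (hPz z).ne'
      have e2 := (hDt z).ne'
      generalize √(kE D w a l z * kG D w a l z - kF D w a l z ^ 2) = s at *
      generalize PX κ A (KK p k * (Z z).re) = P at *
      field_simp)
    Z hZ (p : ℂ) (2 * (c : ℂ) * Complex.I) (fun z => by rw [hL1]; exact Z1 z)
    (fun z => by rw [hL2]; exact Z3 z) hd f hf hm
  have hc1 : c₂ = 1 := hn c₂ hc₂
  rw [hc1] at hc₂
  intro z v
  have e1 := hc₂ z v
  rw [one_mul] at e1
  rw [← e1, gg_fderiv_apply l z v]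
  have e2 : ‖v‖ ^ 2 = v.re ^ 2 + v.im ^ 2 := by
    rw [← Complex.normSq_eq_norm_sq, Complex.normSq_apply]
    ring
  have e3 : Real.exp (2 * (w z + a z)) = Real.exp (2 * w z) * (Real.exp (-2 * a z))⁻¹ := by
    rw [← Real.exp_neg, ← Real.exp_add]
    congr 1
    ring
  have e4 : Real.exp (2 * l z) = Real.exp (2 * w z) * Real.exp (2 * (l z - w z)) := by
    rw [← Real.exp_add]
    congr 1
    ring
  have e5 : Real.exp (-2 * a z) ≠ 0 := (Real.exp_pos _).ne'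
  rw [e2, e3, e4]
  simp only [kE, kF, kG, tauF, smul_eq_mul]
  field_simp
  ring

end P205T.K
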