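import Vale.Agent.P205K.IDefs
import Vale.Agent.P205K.GMain

/-! Block G of the Klein bottle case: `klein_geometry` (no sorry in this file or its imports). -/

open Complex ComplexConjugate
open scoped ContDiff

namespace P205T.K

/-- block G -/
theorem klein_geometry (p h : ℝ) (hp : 0 < p) (hh : 0 < h) (w : ℂ → ℝ) (hw : ContDiff ℝ ∞ w)
    (h1 : ∀ z, w (z + p) = w z) (h2 : ∀ z, w (sig h z) = w z) (k : ℕ) (hk : 0 < k) (κ : ℝ)
    (hP : ∀ A ∈ Set.Icc (3/4 : ℝ) (9/2), ∀ X, 0 < PX κ A X) (e : ℝ) (α Z c) (H : AOut p h w e k κ α Z c) :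
    ∀ A ∈ Set.Icc (3/4 : ℝ) (9/2), Met p k κ A w (α A) (Z A) := by
  intro A hA
  obtain ⟨-, H2⟩ := H
  obtain ⟨ha, hZ, a1, a2, Z1, Z2, -, -, hd, hs, hc, hconf, hn⟩ := H2 A hA
  exact met_core p h hp hh w hw h1 h2 k κ A (hP A hA) (α A) (Z A) (c A) ha hZ a1 a2 Z1 Z2 hd hs hc hconf hn

end P205T.K
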