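import Vale.Agent.P205K.KLiou
import Vale.Agent.P205K.Base
import Vale.Agent.P205U.Main

/-! P205K block K (helper84): uniformization of a Riemannian Klein bottle and the reduction of an arbitrary smooth metric
on the Klein bottle `ℂ/⟨z + 1, -conj z + i⟩` to a conformally flat one. -/

open Complex ComplexConjugate
open scoped ContDiff

namespace P205T.K

theorem sig_sig (h : ℝ) (z : ℂ) : sig h (sig h z) = z + 2 * Complex.I * h := by
  unfold sig
  simp only [map_add, map_neg, map_mul, Complex.conj_conj, Complex.conj_I, Complex.conj_ofReal]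
  ring

theorem hasFDerivAt_sig (h : ℝ) (z : ℂ) :
    HasFDerivAt (sig h) (-(Complex.conjCLE : ℂ →L[ℝ] ℂ)) z := by
  have h1 : HasFDerivAt (fun z : ℂ => conj z) (Complex.conjCLE : ℂ →L[ℝ] ℂ) z :=
    Complex.conjCLE.hasFDerivAt
  have h2 := h1.neg.add_const (Complex.I * (h : ℂ))
  exact h2

theorem contDiff_sig (h : ℝ) : ContDiff ℝ ∞ (sig h) := by
  have h1 : ContDiff ℝ ∞ (fun z : ℂ => conj z) := Complex.conjCLE.contDiff
  exact h1.neg.add contDiff_const

/-- the transition map in the uniformizing coordinate -/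
theorem trans_affine (v : ℂ → ℝ) (hv : ContDiff ℝ ∞ v) (L : Lat) (pv : Per L v) (hω : L.ω₂ = 2 * Complex.I)
    (g : ℂ → ℂ →L[ℝ] ℂ →L[ℝ] ℝ) (hpos : ∀ z v, v ≠ 0 → 0 < g z v v)
    (h2 : ∀ z v w, g (sig 1 z) (- conj v) (- conj w) = g z v w)
    (Z Ψ : ℂ → ℂ) (hZ : ContDiff ℝ ∞ Z) (hΨ : ContDiff ℝ ∞ Ψ) (hΨZ : ∀ z, Ψ (Z z) = z)
    (hZΨ : ∀ y, Z (Ψ y) = y) (c₂ : ℂ) (hc2 : ∀ z, Z (z + L.ω₂) = Z z + c₂)
    (hmet : ∀ z u, ‖fderiv ℝ Z z u‖ ^ 2 = Real.exp (2 * v z) * g z u u) :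
    (∀ z, v (sig 1 z) = v z) ∧ ∃ a b : ℂ, a * conj a = 1 ∧ a * conj b + b = c₂ ∧
      ∀ z, Z (sig 1 z) = a * conj (Z z) + b := by
  set S : ℂ → ℂ := fun y => Z (sig 1 (Ψ y)) with hSdef
  have hS : ContDiff ℝ ∞ S := hZ.comp ((contDiff_sig 1).comp hΨ)
  have hSZ : ∀ z, S (Z z) = Z (sig 1 z) := fun z => by simp only [hSdef, hΨZ]
  have dZ : Differentiable ℝ Z := hZ.differentiable (by simp)
  have dΨ : Differentiable ℝ Ψ := hΨ.differentiable (by simp)
  have dS : Differentiable ℝ S := hS.differentiable (by simp)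
  -- chain rule
  have chain : ∀ z u, fderiv ℝ S (Z z) (fderiv ℝ Z z u) = fderiv ℝ Z (sig 1 z) (- conj u) := by
    intro z u
    have e1 : HasFDerivAt (fun z => S (Z z)) ((fderiv ℝ S (Z z)).comp (fderiv ℝ Z z)) z :=
      (dS (Z z)).hasFDerivAt.comp z (dZ z).hasFDerivAt
    have e2 : HasFDerivAt (fun z => Z (sig 1 z))
        ((fderiv ℝ Z (sig 1 z)).comp (-(Complex.conjCLE : ℂ →L[ℝ] ℂ))) z :=
      (dZ (sig 1 z)).hasFDerivAt.comp z (hasFDerivAt_sig 1 z)
    have e3 : (fun z => S (Z z)) = fun z => Z (sig 1 z) := funext hSZ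
    rw [e3] at e1
    have e4 := e1.unique e2
    have e5 := congrArg (fun D : ℂ →L[ℝ] ℂ => D u) e4
    simpa using e5
  have hinj : ∀ z u, fderiv ℝ Z z u = 0 → u = 0 := by
    intro z u hu
    by_contra hne
    have h3 := hmet z u
    rw [hu, norm_zero] at h3
    have h4 := mul_pos (Real.exp_pos (2 * v z)) (hpos z u hne)
    rw [← h3] at h4
    simp at h4
  have hsurj : ∀ y w, fderiv ℝ Z (Ψ y) (fderiv ℝ Ψ y w) = w := by
    intro y w
    have e1 : HasFDerivAt (fun y => Z (Ψ y)) ((fderiv ℝ Z (Ψ y)).comp (fderiv ℝ Ψ y)) y :=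
      (dZ (Ψ y)).hasFDerivAt.comp y (dΨ y).hasFDerivAt
    have e3 : (fun y => Z (Ψ y)) = fun y => y := funext hZΨ
    rw [e3] at e1
    have e4 := e1.unique (hasFDerivAt_id y)
    have e5 := congrArg (fun D : ℂ →L[ℝ] ℂ => D w) e4
    simpa using e5
  -- negative determinant
  have hneg : ∀ y, dt (fderiv ℝ S y) < 0 := by
    intro y
    have e1 := dt_mul (fderiv ℝ S y) (fderiv ℝ Z (Ψ y) 1) (fderiv ℝ Z (Ψ y) Complex.I)
    have c1 := chain (Ψ y) 1
    have c2 := chain (Ψ y) Complex.I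
    rw [hZΨ] at c1 c2
    rw [c1, c2, map_one (starRingEnd ℂ), Complex.conj_I, neg_neg, map_neg, map_neg, neg_mul,
      Complex.neg_im] at e1
    have e2 := dt_sign Z hZ hinj (Ψ y) (sig 1 (Ψ y))
    change -dt (fderiv ℝ Z (sig 1 (Ψ y))) = dt (fderiv ℝ S y) * dt (fderiv ℝ Z (Ψ y)) at e1
    by_contra hcon
    push Not at hcon
    rcases lt_or_gt_of_ne (dt_ne_zero _ (hinj (Ψ y))) with h5 | h5
    · have h6 : dt (fderiv ℝ Z (sig 1 (Ψ y))) < 0 := by
        by_contra h7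
        push Not at h7
        nlinarith
      nlinarith
    · have h6 : 0 < dt (fderiv ℝ Z (sig 1 (Ψ y))) := by
        by_contra h7
        push Not at h7
        nlinarith
      nlinarith
  -- conformality
  have conf : ∀ y w, ‖fderiv ℝ S y w‖ ^ 2
      = Real.exp (2 * (v (sig 1 (Ψ y)) - v (Ψ y))) * ‖w‖ ^ 2 := by
    intro y w
    have c1 := chain (Ψ y) (fderiv ℝ Ψ y w)
    rw [hZΨ, hsurj] at c1
    have c2 := hmet (Ψ y) (fderiv ℝ Ψ y w)
    rw [hsurj] at c2
    rw [c1, hmet, h2, c2, ← mul_assoc, ← Real.exp_add]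
    congr 2
    ring
  have hper : Per L v := pv
  obtain ⟨z₀, hz₀⟩ := P205T.U.HOL_max L hv.continuous hper
  obtain ⟨z₁, hz₁⟩ := P205T.U.HOL_max L (f := fun z => - v z) hv.continuous.neg
    ⟨fun z => by simp only [hper.1], fun z => by simp only [hper.2]⟩
  obtain ⟨a, b, hab⟩ := anti_liouville S hS (√(Real.exp (2 * (v z₀ - v z₁)))) (fun y => by
    apply Real.le_sqrt_of_sq_le
    rw [conf, norm_one, one_pow, mul_one]
    apply Real.exp_le_exp.2
    have h5 := hz₀ (sig 1 (Ψ y))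
    have h6 := hz₁ (Ψ y)
    linarith) (fun y => conf_anti _ _ (conf y) (hneg y))
  have hSS : ∀ z, S (S (Z z)) = Z z + c₂ := by
    intro z
    rw [hSZ, hΨZ, sig_sig]
    have : z + 2 * Complex.I * ((1 : ℝ) : ℂ) = z + L.ω₂ := by
      rw [hω]
      push_cast
      ring
    rw [this, hc2]
  have hSS' : ∀ y, S (S y) = y + c₂ := by
    intro y
    have := hSS (Ψ y)
    rwa [hZΨ] at this
  have k0 : a * conj b + b = c₂ := by
    have := hSS' 0
    rw [hab, hab] at this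
    simpa using this
  have k1 : a * conj a = 1 := by
    have := hSS' 1
    rw [hab, hab] at this
    simp only [map_add, map_mul, map_one] at this
    linear_combination this - k0
  have hna : ‖a‖ = 1 := by
    have h5 : ((Complex.normSq a : ℝ) : ℂ) = 1 := by rw [← Complex.mul_conj, k1]
    have h6 : Complex.normSq a = 1 := by exact_mod_cast h5
    rw [Complex.normSq_eq_norm_sq] at h6
    nlinarith [norm_nonneg a]
  have dSc : ∀ y, fderiv ℝ S y 1 = a := by
    intro y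
    have h5 : HasFDerivAt (fun y : ℂ => a * conj y + b) (a • (Complex.conjCLE : ℂ →L[ℝ] ℂ)) y := by
      have h6 : HasFDerivAt (fun z : ℂ => conj z) (Complex.conjCLE : ℂ →L[ℝ] ℂ) y :=
        Complex.conjCLE.hasFDerivAt
      exact (h6.const_mul a).add_const b
    have h7 : S = fun y : ℂ => a * conj y + b := funext hab
    rw [h7, h5.fderiv]
    simp
  refine ⟨fun z => ?_, a, b, k1, k0, fun z => ?_⟩
  · have h5 := conf (Z z) 1
    rw [dSc, hna, norm_one, hΨZ] at h5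
    have h6 : Real.exp (2 * (v (sig 1 z) - v z)) = Real.exp 0 := by
      rw [Real.exp_zero]
      linarith
    have h7 := Real.exp_injective h6
    linarith
  · rw [← hSZ, hab]

/-- uniformization of a Riemannian Klein bottle: normal form `⟨z + p, -conj z + i h⟩`, conformally flat metric -/
theorem klein_unif (g : ℂ → ℂ →L[ℝ] ℂ →L[ℝ] ℝ)
    (hg : ContDiff ℝ ∞ g) (hsym : ∀ z v w, g z v w = g z w v) (hpos : ∀ z v, v ≠ 0 → 0 < g z v v)
    (h1 : ∀ z, g (z + 1) = g z) (h2 : ∀ z v w, g (sig 1 z) (- conj v) (- conj w) = g z v w) :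
    ∃ p h : ℝ, 0 < p ∧ 0 < h ∧ ∃ (s : ℝ) (w : ℂ → ℝ) (Φ : ℂ → ℂ), (s = 1 ∨ s = -1) ∧
      ContDiff ℝ ∞ w ∧ ContDiff ℝ ∞ Φ ∧ (∀ y, w (y + p) = w y) ∧ (∀ y, w (sig h y) = w y) ∧
      (∀ z, Φ (z + 1) = Φ z + s * p) ∧ (∀ z, Φ (sig 1 z) = sig h (Φ z)) ∧
      ∀ z u, Real.exp (2 * w (Φ z)) * ‖fderiv ℝ Φ z u‖ ^ 2 = g z u u := by
  have hper2 : ∀ z, g (z + 2 * Complex.I) = g z := by
    intro z
    ext v w
    have e1 : z + 2 * Complex.I = sig 1 (sig 1 z) := by
      rw [sig_sig]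
      push_cast
      ring
    have e2 := h2 (sig 1 z) (- conj v) (- conj w)
    rw [h2 z v w] at e2
    rw [e1, ← e2]
    simp
  have hω : (conj (1 : ℂ) * (2 * Complex.I)).im ≠ 0 := by simp
  set L : Lat := ⟨1, 2 * Complex.I, hω⟩ with hL
  have sm : ∀ v w : ℂ, ContDiff ℝ ∞ (fun z => g z v w) := fun v w =>
    (hg.clm_apply contDiff_const).clm_apply contDiff_const
  have pr : ∀ v w : ℂ, Per L (fun z => g z v w) := fun v w =>
    ⟨fun z => by change g (z + 1) v w = g z v w; rw [h1],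
      fun z => by change g (z + 2 * Complex.I) v w = g z v w; rw [hper2]⟩
  have hG : ∀ z, 0 < g z Complex.I Complex.I := fun z => hpos z _ Complex.I_ne_zero
  have hE : ∀ z, 0 < g z 1 1 := fun z => hpos z _ one_ne_zero
  have hD : ∀ z, 0 < g z 1 1 * g z Complex.I Complex.I - g z 1 Complex.I ^ 2 := by
    intro z
    have hG0 := hG z
    have h3 := hpos z (⟨g z Complex.I Complex.I, -g z 1 Complex.I⟩ : ℂ) (by
      intro h
      have h4 := congrArg Complex.re h
      exact hG0.ne' h4)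
    rw [P205T.U.MAI2_expand _ (hsym z)] at h3
    simp only at h3
    have h4 : 0 < g z Complex.I Complex.I *
        (g z 1 1 * g z Complex.I Complex.I - g z 1 Complex.I ^ 2) := by
      have e : g z Complex.I Complex.I *
        (g z 1 1 * g z Complex.I Complex.I - g z 1 Complex.I ^ 2) =
        g z 1 1 * g z Complex.I Complex.I * g z Complex.I Complex.I +
        g z 1 Complex.I * (g z Complex.I Complex.I * -g z 1 Complex.I +
          -g z 1 Complex.I * g z Complex.I Complex.I) +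
        g z Complex.I Complex.I * -g z 1 Complex.I * -g z 1 Complex.I := by ring
      rw [e]
      exact h3
    exact (pos_iff_pos_of_mul_pos h4).1 hG0
  obtain ⟨v, hv, pv, Z, Ψ, hZ, hΨ, hΨZ, hZΨ, ⟨c₁, c₂, hc, hc1, hc2⟩, hmet0⟩ :=
    P205T.U.uniformization L (fun z => g z 1 1) (fun z => g z 1 Complex.I)
      (fun z => g z Complex.I Complex.I) (sm _ _) (sm _ _) (sm _ _) (pr _ _) (pr _ _) (pr _ _) hE hD
  have hmet : ∀ z u, ‖fderiv ℝ Z z u‖ ^ 2 = Real.exp (2 * v z) * g z u u := by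
    intro z u
    rw [hmet0, P205T.U.MAI2_expand (g z) (hsym z) u u]
    ring
  obtain ⟨hvs, a, b, ha, hb, hZs⟩ := trans_affine v hv L pv rfl g hpos h2 Z Ψ hZ hΨ hΨZ hZΨ c₂ hc2 hmet
  have hc1' : ∀ z, Z (z + 1) = Z z + c₁ := hc1
  have pv1 : ∀ z, v (z + 1) = v z := pv.1
  have c1ne : c₁ ≠ 0 := by
    rintro rfl
    simp at hc
  -- relation with the first period
  have hac : a * conj c₁ = -c₁ := by
    have e1 : sig 1 ((0 : ℂ) + 1) + 1 = sig 1 0 := by
      unfold sig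
      simp
    have e2 := hc1' (sig 1 ((0 : ℂ) + 1))
    rw [e1, hZs, hZs, hc1', map_add] at e2
    linear_combination -e2
  have hn : (0 : ℝ) < ‖c₁‖ := norm_pos_iff.2 c1ne
  have hnc : ((‖c₁‖ : ℝ) : ℂ) ≠ 0 := by exact_mod_cast hn.ne'
  have hcc : conj c₁ ≠ 0 := (map_ne_zero _).2 c1ne
  set u : ℂ := conj c₁ / ((‖c₁‖ : ℝ) : ℂ) with hu
  have hcu : conj u = c₁ / ((‖c₁‖ : ℝ) : ℂ) := by
    rw [hu, map_div₀, Complex.conj_conj, Complex.conj_ofReal]
  have hnn : c₁ * conj c₁ = ((‖c₁‖ : ℝ) : ℂ) * ((‖c₁‖ : ℝ) : ℂ) := by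
    rw [Complex.mul_conj, Complex.normSq_eq_norm_sq]
    push_cast
    ring
  have huc : u * c₁ = ((‖c₁‖ : ℝ) : ℂ) := by
    rw [hu, div_mul_eq_mul_div, mul_comm, hnn]
    field_simp
  have huu : u * conj u = 1 := by
    rw [hcu, hu, div_mul_div_comm, mul_comm (conj c₁), hnn]
    field_simp
  have hnu : ‖u‖ = 1 := by
    rw [hu, norm_div, Complex.norm_conj, Complex.norm_real, Real.norm_eq_abs, abs_of_pos hn]
    field_simp
  have hua : u * a = - conj u := by
    have : u * a * conj c₁ = - conj u * conj c₁ := by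
      have e1 : u * a * conj c₁ = u * (a * conj c₁) := by ring
      rw [e1, hac, hcu, mul_neg, huc]
      have e2 : -(c₁ / ((‖c₁‖ : ℝ) : ℂ)) * conj c₁ = -(c₁ * conj c₁) / ((‖c₁‖ : ℝ) : ℂ) := by ring
      rw [e2, hnn]
      field_simp
    exact mul_right_cancel₀ hcc this
  clear_value u
  set β : ℝ := (u * b).re with hβ
  set η : ℝ := (u * b).im with hη
  have hub : u * b = (β : ℂ) + Complex.I * (η : ℂ) := by
    rw [hβ, hη]
    apply Complex.ext <;> simp
  clear_value β η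
  have hη0 : η ≠ 0 := by
    intro h0
    have e1 : u * c₂ = 0 := by
      have e2 : conj (u * b) = (β : ℂ) - Complex.I * (η : ℂ) := by
        rw [hub]
        simp only [map_add, map_mul, Complex.conj_I, Complex.conj_ofReal]
        ring
      rw [map_mul] at e2
      rw [← hb]
      have e3 : u * (a * conj b + b) = (u * a) * conj b + u * b := by ring
      rw [e3, hua, neg_mul, e2, hub, h0]
      simp
    have hune : u ≠ 0 := by
      intro h3
      rw [h3, norm_zero] at hnu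
      exact zero_ne_one hnu
    have e2 : c₂ = 0 := (mul_eq_zero.1 e1).resolve_left hune
    rw [e2] at hc
    simp at hc
  obtain ⟨s, hs, hsη⟩ : ∃ s : ℝ, (s = 1 ∨ s = -1) ∧ s * η = |η| := by
    rcases le_total 0 η with h3 | h3
    · exact ⟨1, Or.inl rfl, by rw [abs_of_nonneg h3, one_mul]⟩
    · exact ⟨-1, Or.inr rfl, by rw [abs_of_nonpos h3]; ring⟩
  have hss : s * s = 1 := by rcases hs with h3 | h3 <;> rw [h3] <;> norm_num
  have hssc : (s : ℂ) * (s : ℂ) = 1 := by exact_mod_cast hss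
  have hsηc : (s : ℂ) * (η : ℂ) = ((|η| : ℝ) : ℂ) := by exact_mod_cast hsη
  set Φ : ℂ → ℂ := fun z => (s : ℂ) * (u * Z z - (β : ℂ) / 2) with hΦ
  set Φ' : ℂ → ℂ := fun y => Ψ (conj u * ((s : ℂ) * y + (β : ℂ) / 2)) with hΦ'
  have hΦs : ContDiff ℝ ∞ Φ := contDiff_const.mul ((contDiff_const.mul hZ).sub contDiff_const)
  have hΦ's : ContDiff ℝ ∞ Φ' :=
    hΨ.comp (contDiff_const.mul ((contDiff_const.mul contDiff_id).add contDiff_const))
  have hinv : ∀ z, Φ' (Φ z) = z := by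
    intro z
    simp only [hΦ, hΦ']
    have : conj u * ((s : ℂ) * ((s : ℂ) * (u * Z z - (β : ℂ) / 2)) + (β : ℂ) / 2) = Z z := by
      linear_combination (conj u * (u * Z z - (β : ℂ) / 2)) * hssc + Z z * huu
    rw [this, hΨZ]
  have hinv' : ∀ y, Φ (Φ' y) = y := by
    intro y
    simp only [hΦ, hΦ', hZΨ]
    linear_combination (s : ℂ) * ((s : ℂ) * y + (β : ℂ) / 2) * huu + y * hssc
  have hΦ1 : ∀ z, Φ (z + 1) = Φ z + s * ((‖c₁‖ : ℝ) : ℂ) := by
    intro z
    simp only [hΦ, hc1']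
    linear_combination (s : ℂ) * huc
  have hΦσ : ∀ z, Φ (sig 1 z) = sig |η| (Φ z) := by
    intro z
    simp only [hΦ, hZs]
    simp only [sig, map_mul, map_sub, map_div₀, Complex.conj_ofReal, map_ofNat]
    linear_combination (s : ℂ) * conj (Z z) * hua + (s : ℂ) * hub + Complex.I * hsηc
  refine ⟨‖c₁‖, |η|, hn, abs_pos.2 hη0, s, fun y => - v (Φ' y), Φ, hs, (hv.comp hΦ's).neg, hΦs, ?_, ?_,
    hΦ1, hΦσ, ?_⟩
  · intro y
    have key : ∀ y, v (Φ' (y + s * ((‖c₁‖ : ℝ) : ℂ))) = v (Φ' y) := by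
      intro y
      have e1 := hΦ1 (Φ' y)
      rw [hinv'] at e1
      rw [← e1, hinv, pv1]
    simp only
    rcases hs with h3 | h3
    · have := key y
      rw [h3] at this
      simp only [Complex.ofReal_one, one_mul] at this
      rw [this]
    · have := key (y + ((‖c₁‖ : ℝ) : ℂ))
      rw [h3] at this
      simp only [Complex.ofReal_neg, Complex.ofReal_one, neg_mul, one_mul, add_neg_cancel_right] at this
      rw [this]
  · intro y
    have e1 := hΦσ (Φ' y)
    rw [hinv'] at e1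
    simp only
    rw [← e1, hinv, hvs]
  · intro z w
    simp only [hinv]
    have dZ : Differentiable ℝ Z := hZ.differentiable (by simp)
    have e1 : HasFDerivAt Φ ((s : ℂ) • (u • fderiv ℝ Z z)) z :=
      (((dZ z).hasFDerivAt.const_mul u).sub_const ((β : ℂ) / 2)).const_mul (s : ℂ)
    have hsn : ‖(s : ℂ)‖ = 1 := by
      rcases hs with h3 | h3 <;> rw [h3] <;> simp
    rw [e1.fderiv]
    simp only [ContinuousLinearMap.smul_apply, smul_eq_mul, norm_mul, hsn, hnu, one_mul]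
    rw [hmet, ← mul_assoc, ← Real.exp_add]
    have : 2 * -v z + 2 * v z = 0 := by ring
    rw [this, Real.exp_zero, one_mul]

/-- block K from the conformally flat case -/
theorem klein_general_of
    (hconf : ∀ (p h : ℝ), 0 < p → 0 < h → ∀ (w : ℂ → ℝ), ContDiff ℝ ∞ w →
      (∀ z, w (z + p) = w z) → (∀ z, w (sig h z) = w z) →
      ∃ F : ℂ → EuclideanSpace ℝ (Fin 4), ContDiff ℝ ∞ F ∧ (∀ z, F (z + p) = F z) ∧
        (∀ z, F (sig h z) = F z) ∧ ∀ z v, ‖fderiv ℝ F z v‖ ^ 2 = Real.exp (2 * w z) * ‖v‖ ^ 2)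
    (g : ℂ → ℂ →L[ℝ] ℂ →L[ℝ] ℝ)
    (hg : ContDiff ℝ ∞ g) (hsym : ∀ z v w, g z v w = g z w v) (hpos : ∀ z v, v ≠ 0 → 0 < g z v v)
    (h1 : ∀ z, g (z + 1) = g z) (h2 : ∀ z v w, g (sig 1 z) (- conj v) (- conj w) = g z v w) :
    ∃ X : ℂ → EuclideanSpace ℝ (Fin 4), ContDiff ℝ ∞ X ∧ (∀ z, X (z + 1) = X z) ∧
      (∀ z, X (sig 1 z) = X z) ∧ ∀ z v w, inner ℝ (fderiv ℝ X z v) (fderiv ℝ X z w) = g z v w := by
  obtain ⟨p, h, hp, hh, s, w, Φ, hs, hw, hΦ, pw1, pw2, q1, q2, hm⟩ := klein_unif g hg hsym hpos h1 h2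
  obtain ⟨F, hF, F1, F2, hFm⟩ := hconf p h hp hh w hw pw1 pw2
  have hq : ∀ z u, ‖fderiv ℝ (fun z => F (Φ z)) z u‖ ^ 2 = g z u u := by
    intro z u
    have hd : fderiv ℝ (fun z => F (Φ z)) z = (fderiv ℝ F (Φ z)).comp (fderiv ℝ Φ z) :=
      fderiv_comp z (hF.differentiable (by simp) (Φ z)) (hΦ.differentiable (by simp) z)
    rw [hd, ContinuousLinearMap.comp_apply, hFm, hm]
  refine ⟨fun z => F (Φ z), hF.comp hΦ, fun z => ?_, fun z => ?_, fun z v w => ?_⟩
  · simp only [q1]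
    rcases hs with h3 | h3
    · rw [h3]
      simp only [Complex.ofReal_one, one_mul]
      rw [F1]
    · rw [h3]
      have := F1 (Φ z + ((-1 : ℝ) : ℂ) * (p : ℂ))
      rw [← this]
      congr 1
      push_cast
      ring
  · simp only [q2, F2]
  · have e1 := hq z (v + w)
    rw [map_add, norm_add_sq_real, hq z v, hq z w] at e1
    have e2 : g z (v + w) (v + w) = g z v v + 2 * g z v w + g z w w := by
      rw [map_add, map_add]
      simp only [ContinuousLinearMap.add_apply]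
      rw [hsym z w v]
      ring
    rw [e2] at e1
    linarith

end P205T.K
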