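import Vale.Agent.P205K.Base

/-! Module POS: positivity of `PX` and `mu2` for small `κ` (compactness or explicit bounds; block P). -/

namespace P205T.K

theorem POS_term {t z T : ℝ} (ht : |t| ≤ T) (h0 : 0 ≤ z) (h1 : z ≤ 1) : |t * z| ≤ T := by
  rw [abs_mul, abs_of_nonneg h0]
  calc |t| * z ≤ |t| * 1 := mul_le_mul_of_nonneg_left h1 (abs_nonneg t)
    _ = |t| := mul_one _
    _ ≤ T := ht

theorem PX_pos : ∃ κ₀ > 0, ∀ κ : ℝ, 0 < κ → κ ≤ κ₀ → ∀ A ∈ Set.Icc (3/4 : ℝ) (9/2), ∀ X,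
    1/2 ≤ PX κ A X ∧ PX κ A X ≤ 2 ∧ 1/2 ≤ mu2 κ A := by
  refine ⟨1 / 1000, by norm_num, fun κ h0 h1 A hA X => ?_⟩
  obtain ⟨hA1, hA2⟩ := hA
  have ha1 : 1 ≤ cA κ A := by
    unfold cA
    nlinarith
  have ha2 : cA κ A ≤ 2 := by
    unfold cA
    nlinarith
  have hm1 : 1 / 2 ≤ mu2 κ A := by
    unfold mu2
    nlinarith
  have hm2 : mu2 κ A ≤ 2 := by
    unfold mu2
    nlinarith
  have hb1 : -1 ≤ cB κ A := by
    unfold cB
    have h2 : cA κ A * (1 + κ) ≤ 9 / 4 := by nlinarith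
    have h3 : 1 ≤ cA κ A * (1 + κ) := by nlinarith
    have h4 : -(5 / 4) ≤ 1 - cA κ A * (1 + κ) := by linarith
    have h5 : cA κ A * (1 - cA κ A * (1 + κ)) ≥ 2 * (-(5 / 4)) := by nlinarith
    linarith
  have hb2 : cB κ A ≤ 1 := by
    unfold cB
    have h3 : 1 ≤ cA κ A * (1 + κ) := by nlinarith
    have h5 : cA κ A * (1 - cA κ A * (1 + κ)) ≤ 0 :=
      mul_nonpos_of_nonneg_of_nonpos (by linarith) (by linarith)
    linarith
  have hc : |cC κ A| ≤ 14 := by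
    unfold cC
    rw [abs_le]
    constructor <;> linarith
  have hd : |cD κ A| ≤ 10 := by
    unfold cD
    rw [abs_le]
    constructor <;> linarith
  have ha : |cA κ A| ≤ 2 := by
    rw [abs_le]
    constructor <;> linarith
  have hb : |cB κ A| ≤ 1 := by
    rw [abs_le]
    constructor <;> linarith
  have hy0 : 0 ≤ Real.sin X ^ 2 := sq_nonneg _
  have hy1 : Real.sin X ^ 2 ≤ 1 := Real.sin_sq_le_one X
  have hv : |vP κ A (Real.sin X ^ 2)| ≤ 27 := by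
    unfold vP
    have t1 := POS_term ha hy0 hy1
    have t2 := POS_term hb (pow_nonneg hy0 2) (pow_le_one₀ hy0 hy1)
    have t3 := POS_term hc (pow_nonneg hy0 3) (pow_le_one₀ hy0 hy1)
    have t4 := POS_term hd (pow_nonneg hy0 4) (pow_le_one₀ hy0 hy1)
    rw [abs_le] at t1 t2 t3 t4 ⊢
    constructor <;> linarith [t1.1, t1.2, t2.1, t2.2, t3.1, t3.2, t4.1, t4.2]
  have hk : |κ * vP κ A (Real.sin X ^ 2)| ≤ 27 / 1000 := by
    rw [abs_mul, abs_of_pos h0]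
    calc κ * |vP κ A (Real.sin X ^ 2)| ≤ 1 / 1000 * 27 :=
          mul_le_mul h1 hv (abs_nonneg _) (by norm_num)
      _ = 27 / 1000 := by norm_num
  rw [abs_le] at hk
  refine ⟨?_, ?_, hm1⟩
  · unfold PX
    linarith [hk.2]
  · unfold PX
    linarith [hk.1]

end P205T.K
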