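import Vale.Agent.P205K.Ana
import Vale.Agent.P205K.GGeo
import Vale.Agent.P205K.Asm
import Vale.Agent.P205K.Pos
import Vale.Agent.P205K.Conf
import Vale.Agent.P205K.KGen

/-! # P205K: final wiring (helper84): conformally flat Klein bottles, then all Riemannian Klein bottles -/

open Complex ComplexConjugate
open scoped ContDiff

namespace P205T.K

/-- conformally flat Klein bottles -/
theorem klein_conf (p h : ℝ) (hp : 0 < p) (hh : 0 < h) (w : ℂ → ℝ) (hw : ContDiff ℝ ∞ w)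
    (h1 : ∀ z, w (z + p) = w z) (h2 : ∀ z, w (sig h z) = w z) :
    ∃ F : ℂ → EuclideanSpace ℝ (Fin 4), ContDiff ℝ ∞ F ∧ (∀ z, F (z + p) = F z) ∧
      (∀ z, F (sig h z) = F z) ∧ ∀ z v, ‖fderiv ℝ F z v‖ ^ 2 = Real.exp (2 * w z) * ‖v‖ ^ 2 := by
  refine klein_conf_of p h hp hh w hw h1 h2 (klein_analysis p h hp hh w hw h1 h2)
    (fun k hk κ hP e α Z c H => klein_geometry p h hp hh w hw h1 h2 k hk κ hP e α Z c H) ?_ PX_pos
  obtain ⟨κ₀, hκ₀, H⟩ := klein_assemble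
  exact ⟨κ₀, hκ₀, fun k m => H p h hp hh w hw h1 h2 k m⟩

/-- every smooth metric on the Klein bottle `ℂ/⟨z + 1, -conj z + i⟩` -/
theorem klein_general (g : ℂ → ℂ →L[ℝ] ℂ →L[ℝ] ℝ)
    (hg : ContDiff ℝ ∞ g) (hsym : ∀ z v w, g z v w = g z w v) (hpos : ∀ z v, v ≠ 0 → 0 < g z v v)
    (h1 : ∀ z, g (z + 1) = g z) (h2 : ∀ z v w, g (sig 1 z) (- conj v) (- conj w) = g z v w) :
    ∃ X : ℂ → EuclideanSpace ℝ (Fin 4), ContDiff ℝ ∞ X ∧ (∀ z, X (z + 1) = X z) ∧ (∀ z, X (sig 1 z) = X z) ∧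
      ∀ z v w, inner ℝ (fderiv ℝ X z v) (fderiv ℝ X z w) = g z v w :=
  klein_general_of (fun p h hp hh w hw k1 k2 => klein_conf p h hp hh w hw k1 k2) g hg hsym hpos h1 h2

end P205T.K
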