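import Vale.Agent.P205K.BLdef

/-! Module FIX: abstract uniform contraction.  `E`, `P` Banach spaces, `Ψ : E × P → E` in `BL`; the maps are
`T (U, π) = η • Ψ (U, π)` on the unit ball. -/

open scoped ContDiff Topology

namespace P205T.K

variable {E P : Type*} [NormedAddCommGroup E] [NormedSpace ℝ E] [CompleteSpace E]
  [NormedAddCommGroup P] [NormedSpace ℝ P] [CompleteSpace P]

/-- data of a contraction at the parameter `π`: maps the unit ball into the ball of radius `1/2` and is `1/2`-Lipschitz -/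
def Ctr (Φ : E × P → E) (π : P) : Prop :=
  (∀ U, ‖U‖ ≤ 1 → ‖Φ (U, π)‖ ≤ 1 / 2) ∧ ∀ U U', ‖U‖ ≤ 1 → ‖U'‖ ≤ 1 → ‖Φ (U, π) - Φ (U', π)‖ ≤ 1 / 2 * ‖U - U'‖

theorem ctr_of_BL (Ψ : E × P → E) (hΨ : BL Ψ) (M : ℝ) : ∃ η₀ > 0, ∀ Φ : E × P → E, ∀ π : P, ‖π‖ ≤ M → ∀ η : ℝ,
    0 < η → η ≤ η₀ → (∀ U, Φ (U, π) = η • Ψ (U, π)) → Ctr Φ π := by
  obtain ⟨C, hC, h⟩ := hΨ (max 1 M)
  refine ⟨1 / (2 * (C + 1)), by positivity, fun Φ π hπ η hη hη' hΦ => ?_⟩
  have hn : ∀ U : E, ‖U‖ ≤ 1 → ‖(U, π)‖ ≤ max 1 M := fun U hU => by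
    rw [Prod.norm_mk]
    exact max_le_max hU hπ
  have hηC : η * C ≤ 1 / 2 := by
    rw [le_div_iff₀ (by positivity)] at hη'
    nlinarith
  refine ⟨fun U hU => ?_, fun U U' hU hU' => ?_⟩
  · rw [hΦ, norm_smul, Real.norm_of_nonneg hη.le]
    exact (mul_le_mul_of_nonneg_left (h _ _ (hn U hU) (hn U hU)).1 hη.le).trans hηC
  · rw [hΦ, hΦ, ← smul_sub, norm_smul, Real.norm_of_nonneg hη.le]
    have h1 := (h _ _ (hn U hU) (hn U' hU')).2
    have h2 : ‖((U, π) : E × P) - (U', π)‖ = ‖U - U'‖ := by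
      rw [Prod.mk_sub_mk, sub_self, Prod.norm_mk, norm_zero, max_eq_left (norm_nonneg _)]
    rw [h2] at h1
    calc η * ‖Ψ (U, π) - Ψ (U', π)‖ ≤ η * (C * ‖U - U'‖) := mul_le_mul_of_nonneg_left h1 hη.le
      _ = (η * C) * ‖U - U'‖ := by ring
      _ ≤ 1 / 2 * ‖U - U'‖ := mul_le_mul_of_nonneg_right hηC (norm_nonneg _)

/-- existence and uniqueness of the fixed point; closed invariant sets contain it -/
theorem ctr_fixed (Φ : E × P → E) (π : P) (h : Ctr Φ π) :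
    ∃ U, ‖U‖ ≤ 1 / 2 ∧ Φ (U, π) = U ∧ (∀ U', ‖U'‖ ≤ 1 → Φ (U', π) = U' → U' = U) ∧
      ∀ S : Set E, IsClosed S → (0 : E) ∈ S → (∀ U ∈ S, ‖U‖ ≤ 1 → Φ (U, π) ∈ S) → U ∈ S := by
  obtain ⟨h1, h2⟩ := h
  set f : E → E := fun U => Φ (U, π) with hf
  have hmaps : Set.MapsTo f (Metric.closedBall 0 1) (Metric.closedBall 0 1) := by
    intro U hU
    rw [mem_closedBall_zero_iff] at hU ⊢
    exact (h1 U hU).trans (by norm_num)
  have hc : ContractingWith (1 / 2 : NNReal) (hmaps.restrict f _ _) := by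
    refine ⟨by rw [← NNReal.coe_lt_coe]; norm_num, LipschitzWith.of_dist_le_mul fun x y => ?_⟩
    have hx := x.2
    have hy := y.2
    rw [mem_closedBall_zero_iff] at hx hy
    rw [Subtype.dist_eq, Subtype.dist_eq, dist_eq_norm, dist_eq_norm]
    have h3 := h2 x y hx hy
    simpa using h3
  obtain ⟨U, hU, hfix, hlim, -⟩ := hc.exists_fixedPoint' (Metric.isClosed_closedBall.isComplete)
    hmaps (x := (0 : E)) (by simp) (edist_ne_top _ _)
  have hfU : Φ (U, π) = U := hfix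
  rw [mem_closedBall_zero_iff] at hU
  refine ⟨U, ?_, hfU, ?_, ?_⟩
  · rw [← hfU]
    exact h1 U hU
  · intro U' hU' hf'
    have h3 := h2 U' U hU' hU
    rw [hf', hfU] at h3
    have h4 : ‖U' - U‖ = 0 := by
      have := norm_nonneg (U' - U)
      linarith
    exact sub_eq_zero.1 (norm_eq_zero.1 h4)
  · intro S hS h0 hinv
    have hit : ∀ n : ℕ, f^[n] 0 ∈ S ∧ ‖f^[n] 0‖ ≤ 1 := by
      intro n
      induction n with
      | zero => exact ⟨h0, by simp⟩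
      | succ n ih =>
        rw [Function.iterate_succ_apply']
        exact ⟨hinv _ ih.1 ih.2, (h1 _ ih.2).trans (by norm_num)⟩
    exact hS.mem_of_tendsto hlim (Filter.Eventually.of_forall fun n => (hit n).1)

/-- size and Lipschitz dependence of the fixed points on the parameter: `‖U‖ ≤ η C`, `‖U π - U π'‖ ≤ C ‖π - π'‖` -/
theorem ctr_dep (Ψ : E × P → E) (hΨ : BL Ψ) (M : ℝ) : ∃ C > 0, ∀ Φ : E × P → E, ∀ η : ℝ, 0 < η → η ≤ 1 →
    ∀ π π' : P, ‖π‖ ≤ M → ‖π'‖ ≤ M → (∀ U, Φ (U, π) = η • Ψ (U, π)) → (∀ U, Φ (U, π') = η • Ψ (U, π')) →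
    Ctr Φ π → Ctr Φ π' → ∀ U U', ‖U‖ ≤ 1 → ‖U'‖ ≤ 1 → Φ (U, π) = U → Φ (U', π') = U' →
    ‖U‖ ≤ η * C ∧ ‖U - U'‖ ≤ C * ‖π - π'‖ := by
  obtain ⟨C, hC0, hC⟩ := hΨ (max 1 M)
  refine ⟨2 * C + 1, by linarith, ?_⟩
  intro Φ η hη hη1 π π' hπ hπ' h1 h2 hc hc' U U' hU hU' hf hf'
  have n1 : ‖((U, π) : E × P)‖ ≤ max 1 M := by
    rw [Prod.norm_def]
    exact max_le_max hU hπ
  have n2 : ‖((U', π) : E × P)‖ ≤ max 1 M := by
    rw [Prod.norm_def]
    exact max_le_max hU' hπ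
  have n3 : ‖((U', π') : E × P)‖ ≤ max 1 M := by
    rw [Prod.norm_def]
    exact max_le_max hU' hπ'
  constructor
  · have h3 := (hC _ _ n1 n1).1
    calc ‖U‖ = ‖Φ (U, π)‖ := by rw [hf]
      _ = η * ‖Ψ (U, π)‖ := by rw [h1, norm_smul, Real.norm_of_nonneg hη.le]
      _ ≤ η * (2 * C + 1) := mul_le_mul_of_nonneg_left (by linarith) hη.le
  · have h4 : ‖Φ (U', π) - Φ (U', π')‖ ≤ C * ‖π - π'‖ := by
      rw [h1, h2, ← smul_sub, norm_smul, Real.norm_of_nonneg hη.le]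
      have h5 := (hC _ _ n2 n3).2
      have h6 : ‖((U', π) : E × P) - (U', π')‖ = ‖π - π'‖ := by
        rw [Prod.norm_def]
        simp
      rw [h6] at h5
      calc η * ‖Ψ (U', π) - Ψ (U', π')‖ ≤ 1 * ‖Ψ (U', π) - Ψ (U', π')‖ :=
            mul_le_mul_of_nonneg_right hη1 (norm_nonneg _)
        _ ≤ C * ‖π - π'‖ := by rw [one_mul]; exact h5
    have h7 := hc.2 U U' hU hU'
    have h8 : ‖U - U'‖ ≤ ‖Φ (U, π) - Φ (U', π)‖ + ‖Φ (U', π) - Φ (U', π')‖ := by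
      calc ‖U - U'‖ = ‖(Φ (U, π) - Φ (U', π)) + (Φ (U', π) - Φ (U', π'))‖ := by
            rw [sub_add_sub_cancel, hf, hf']
        _ ≤ _ := norm_add_le _ _
    have h9 : 0 ≤ ‖π - π'‖ := norm_nonneg _
    nlinarith

/-- smoothness along a smooth curve of parameters (implicit function theorem and uniqueness).
`Φ ∘ (id, H)` is smooth jointly and all `H t` are contractions, `s t` the fixed point. -/
theorem ctr_smooth (Φ : E × P → E) (H : ℂ → P) (hΦ : ContDiff ℝ ∞ (fun x : E × ℂ => Φ (x.1, H x.2)))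
    (hc : ∀ t, Ctr Φ (H t)) (s : ℂ → E) (hs : ∀ t, ‖s t‖ ≤ 1 / 2) (hf : ∀ t, Φ (s t, H t) = s t) : ContDiff ℝ ∞ s := by
  rw [contDiff_iff_contDiffAt]
  intro t₀
  have hsw : ContDiff ℝ ∞ (fun y : ℂ × E => Φ (y.2, H y.1)) :=
    hΦ.comp (contDiff_snd.prodMk contDiff_fst)
  set f : ℂ × E → E := fun y => y.2 - Φ (y.2, H y.1) with hfdef
  have hfc : ContDiff ℝ ∞ f := contDiff_snd.sub hsw
  have cdf : ContDiffAt ℝ ∞ f (t₀, s t₀) := hfc.contDiffAt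
  have pn : (∞ : WithTop ℕ∞) ≠ 0 := by simp
  -- the partial derivative
  set A := fderiv ℝ f (t₀, s t₀) ∘L ContinuousLinearMap.inr ℝ ℂ E with hA
  have hfd : HasFDerivAt (fun u : E => f (t₀, u)) A (s t₀) := by
    have h1 : HasFDerivAt (fun u : E => ((t₀, u) : ℂ × E)) (ContinuousLinearMap.inr ℝ ℂ E) (s t₀) :=
      hasFDerivAt_prodMk_right t₀ (s t₀)
    have h2 : HasFDerivAt f (fderiv ℝ f (t₀, s t₀)) (t₀, s t₀) :=
      (hfc.differentiable (by simp) _).hasFDerivAt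
    exact HasFDerivAt.comp (g := f) (f := fun u : E => ((t₀, u) : ℂ × E)) (s t₀) h2 h1
  have hgd : HasFDerivAt (fun u : E => Φ (u, H t₀)) (ContinuousLinearMap.id ℝ E - A) (s t₀) := by
    have h1 := (hasFDerivAt_id (s t₀)).sub hfd
    refine h1.congr_of_eventuallyEq (Filter.Eventually.of_forall fun u => ?_)
    simp [hfdef]
  have hn : ‖ContinuousLinearMap.id ℝ E - A‖ ≤ 1 / 2 := by
    refine hgd.le_of_lip' (by norm_num) ?_
    have hball : Metric.ball (s t₀) (1 / 2) ∈ 𝓝 (s t₀) := Metric.ball_mem_nhds _ (by norm_num)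
    filter_upwards [hball] with u hu
    have hu1 : ‖u‖ ≤ 1 := by
      rw [mem_ball_iff_norm] at hu
      calc ‖u‖ = ‖(u - s t₀) + s t₀‖ := by rw [sub_add_cancel]
        _ ≤ ‖u - s t₀‖ + ‖s t₀‖ := norm_add_le _ _
        _ ≤ 1 := by linarith [hs t₀]
    exact (hc t₀).2 u (s t₀) hu1 (by linarith [hs t₀])
  have if₂ : (fderiv ℝ f (t₀, s t₀) ∘L ContinuousLinearMap.inr ℝ ℂ E).IsInvertible := by
    rw [← hA]
    have h1 : ‖ContinuousLinearMap.id ℝ E - A‖ < 1 := by linarith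
    have h2 : IsUnit (1 - (ContinuousLinearMap.id ℝ E - A)) := isUnit_one_sub_of_norm_lt_one h1
    have h3 : (1 : E →L[ℝ] E) - (ContinuousLinearMap.id ℝ E - A) = A := by
      ext x
      simp
    rw [h3] at h2
    obtain ⟨u, hu⟩ := h2
    exact ⟨ContinuousLinearEquiv.unitsEquiv ℝ E u, by ext x; simp [← hu]⟩
  set ψ := cdf.implicitFunction pn if₂ with hψ
  have hψC : ContDiffAt ℝ ∞ ψ t₀ := cdf.contDiffAt_implicitFunction pn if₂
  have hψ0 : ψ t₀ = s t₀ := cdf.implicitFunction_apply_self pn if₂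
  have hψe : ∀ᶠ t in 𝓝 t₀, f (t, ψ t) = f (t₀, s t₀) :=
    cdf.eventually_apply_implicitFunction pn if₂
  have hψn : ∀ᶠ t in 𝓝 t₀, ‖ψ t‖ < 1 := by
    have h1 : Filter.Tendsto (fun t => ‖ψ t‖) (𝓝 t₀) (𝓝 ‖ψ t₀‖) := hψC.continuousAt.norm
    refine h1.eventually_lt_const ?_
    rw [hψ0]
    linarith [hs t₀]
  have heq : s =ᶠ[𝓝 t₀] ψ := by
    filter_upwards [hψe, hψn] with t h1 h2
    have h3 : f (t₀, s t₀) = 0 := by simp [hfdef, hf]
    rw [h3] at h1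
    have h4 : Φ (ψ t, H t) = ψ t := by
      have : ψ t - Φ (ψ t, H t) = 0 := h1
      exact (sub_eq_zero.1 this).symm
    have h5 := (hc t).2 (s t) (ψ t) (by linarith [hs t]) h2.le
    rw [hf, h4] at h5
    have h6 : ‖s t - ψ t‖ = 0 := by
      have := norm_nonneg (s t - ψ t)
      linarith
    exact sub_eq_zero.1 (norm_eq_zero.1 h6)
  exact hψC.congr_of_eventuallyEq heq

end P205T.K
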