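import Vale.Agent.P205K.Base
import Vale.Agent.P205T.GFlatAux
import Vale.Agent.P205T.GFlatMet

/-! Block G, modules LATA, LATB, LATC (helper62): lattice `⟨p, 2ih⟩`, periodicity, smoothness and positivity of
`lamF, kE, kF, kG`.  Helpers: `gg_dx_contDiff, gg_dy_contDiff, gg_dx_per, gg_dy_per` in P205T.GFlatAux. -/

open Complex ComplexConjugate
open scoped ContDiff

namespace P205T.K

/-- the lattice `⟨p, 2ih⟩` -/
noncomputable def latK (p h : ℝ) (hp : 0 < p) (hh : 0 < h) : Lat where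
  ω₁ := p
  ω₂ := 2 * (h : ℂ) * Complex.I
  h := by
    have : (conj (p : ℂ) * (2 * (h : ℂ) * Complex.I)).im = p * (2 * h) := by simp
    rw [this]
    positivity

/-- (LATA) `σσ z = z + 2ih`: σ-invariant and p-periodic functions are `latK`-periodic; `Z` shifts. -/
theorem per_of_sig (p h : ℝ) (hp : 0 < p) (hh : 0 < h) (w : ℂ → ℝ) (h1 : ∀ z, w (z + p) = w z)
    (h2 : ∀ z, w (sig h z) = w z) : Per (latK p h hp hh) w := by
  refine ⟨h1, fun z => ?_⟩
  have e : z + (latK p h hp hh).ω₂ = sig h (sig h z) := by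
    change z + 2 * (h : ℂ) * Complex.I = - conj (- conj z + Complex.I * (h : ℂ)) + Complex.I * (h : ℂ)
    simp only [map_add, map_neg, map_mul, Complex.conj_conj, Complex.conj_I, Complex.conj_ofReal]
    ring
  rw [e, h2, h2]

theorem Z_shift (h c : ℝ) (Z : ℂ → ℂ) (h2 : ∀ z, Z (sig h z) = - conj (Z z) + Complex.I * (c : ℂ)) (z : ℂ) :
    Z (z + 2 * (h : ℂ) * Complex.I) = Z z + 2 * (c : ℂ) * Complex.I := by
  have e : z + 2 * (h : ℂ) * Complex.I = sig h (sig h z) := by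
    change z + 2 * (h : ℂ) * Complex.I = - conj (- conj z + Complex.I * (h : ℂ)) + Complex.I * (h : ℂ)
    simp only [map_add, map_neg, map_mul, Complex.conj_conj, Complex.conj_I, Complex.conj_ofReal]
    ring
  rw [e, h2, h2]
  simp only [map_add, map_neg, map_mul, Complex.conj_conj, Complex.conj_I, Complex.conj_ofReal]
  ring

/-- (LATB) `lamF` is smooth and periodic (`sin (x + 2πk)`; `PX > 0` for the logarithm). -/
theorem lamF_smooth (p : ℝ) (k : ℕ) (κ A : ℝ) (w α : ℂ → ℝ) (Z : ℂ → ℂ) (hw : ContDiff ℝ ∞ w)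
    (hα : ContDiff ℝ ∞ α) (hZ : ContDiff ℝ ∞ Z) (hP : ∀ X, 0 < PX κ A X) :
    ContDiff ℝ ∞ (lamF p k κ A w α Z) := by
  have h1 : ContDiff ℝ ∞ fun z => (Z z).re := Complex.reCLM.contDiff.comp hZ
  have h2 : ContDiff ℝ ∞ fun z => PX κ A (KK p k * (Z z).re) := by
    unfold PX vP
    have h3 : ContDiff ℝ ∞ fun z => Real.sin (KK p k * (Z z).re) :=
      Real.contDiff_sin.comp (contDiff_const.mul h1)
    fun_prop
  exact (hw.add hα).add ((h2.log fun z => (hP _).ne').div_const 2)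

theorem lam_per (p h : ℝ) (hp : 0 < p) (hh : 0 < h) (k : ℕ) (κ A c : ℝ) (w α : ℂ → ℝ) (Z : ℂ → ℂ)
    (hw : Per (latK p h hp hh) w) (hα : Per (latK p h hp hh) α) (h1 : ∀ z, Z (z + p) = Z z + p)
    (h2 : ∀ z, Z (z + 2 * (h : ℂ) * Complex.I) = Z z + 2 * (c : ℂ) * Complex.I) :
    Per (latK p h hp hh) (lamF p k κ A w α Z) := by
  have hp1 : (p : ℝ) ≠ 0 := hp.ne'
  refine ⟨fun z => ?_, fun z => ?_⟩
  · change w (z + p) + α (z + p) + Real.log (PX κ A (KK p k * (Z (z + p)).re)) / 2 =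
      w z + α z + Real.log (PX κ A (KK p k * (Z z).re)) / 2
    have e1 : w (z + p) = w z := hw.1 z
    have e2 : α (z + p) = α z := hα.1 z
    have e3 : PX κ A (KK p k * (Z (z + p)).re) = PX κ A (KK p k * (Z z).re) := by
      rw [h1, Complex.add_re, Complex.ofReal_re, mul_add]
      have e4 : KK p k * p = (k : ℕ) * (2 * Real.pi) := by
        unfold KK
        field_simp
      unfold PX
      rw [e4, Real.sin_add_nat_mul_two_pi]
    rw [e1, e2, e3]
  · change w (z + 2 * (h : ℂ) * Complex.I) + α (z + 2 * (h : ℂ) * Complex.I) +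
      Real.log (PX κ A (KK p k * (Z (z + 2 * (h : ℂ) * Complex.I)).re)) / 2 =
      w z + α z + Real.log (PX κ A (KK p k * (Z z).re)) / 2
    have e1 : w (z + 2 * (h : ℂ) * Complex.I) = w z := hw.2 z
    have e2 : α (z + 2 * (h : ℂ) * Complex.I) = α z := hα.2 z
    have e3 : (Z (z + 2 * (h : ℂ) * Complex.I)).re = (Z z).re := by
      rw [h2]
      simp
    rw [e1, e2, e3]

/-- (LATC) the coefficients `kE, kF, kG`. -/
theorem kE_smooth (D : ℝ) (w a l : ℂ → ℝ) (hw : ContDiff ℝ ∞ w) (ha : ContDiff ℝ ∞ a) (hl : ContDiff ℝ ∞ l) :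
    ContDiff ℝ ∞ (kE D w a l) ∧ ContDiff ℝ ∞ (kF D w a l) ∧ ContDiff ℝ ∞ (kG D w a l) := by
  have h1 := gg_dx_contDiff hl
  have h2 := gg_dy_contDiff hl
  have h3 : ContDiff ℝ ∞ (tauF D w l) :=
    contDiff_const.mul (contDiff_const.mul (hl.sub hw)).exp
  have h4 : ContDiff ℝ ∞ fun z => Real.exp (-2 * a z) := (contDiff_const.mul ha).exp
  refine ⟨?_, ?_, ?_⟩
  · exact h4.mul (contDiff_const.sub (h3.mul (h1.pow 2)))
  · exact h4.mul ((h3.mul h1).mul h2).neg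
  · exact h4.mul (contDiff_const.sub (h3.mul (h2.pow 2)))

theorem kE_per (L : Lat) (D : ℝ) (w a l : ℂ → ℝ) (hw : Per L w) (ha : Per L a) (hl : Per L l) :
    Per L (kE D w a l) ∧ Per L (kF D w a l) ∧ Per L (kG D w a l) := by
  have h1 := gg_dx_per hl
  have h2 := gg_dy_per hl
  refine ⟨⟨fun z => ?_, fun z => ?_⟩, ⟨fun z => ?_, fun z => ?_⟩, ⟨fun z => ?_, fun z => ?_⟩⟩
  · simp only [kE, tauF, ha.1 z, hw.1 z, hl.1 z, h1.1 z]
  · simp only [kE, tauF, ha.2 z, hw.2 z, hl.2 z, h1.2 z]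
  · simp only [kF, tauF, ha.1 z, hw.1 z, hl.1 z, h1.1 z, h2.1 z]
  · simp only [kF, tauF, ha.2 z, hw.2 z, hl.2 z, h1.2 z, h2.2 z]
  · simp only [kG, tauF, ha.1 z, hw.1 z, hl.1 z, h2.1 z]
  · simp only [kG, tauF, ha.2 z, hw.2 z, hl.2 z, h2.2 z]

theorem kE_pos (D : ℝ) (hD : 0 ≤ D) (w a l : ℂ → ℝ) (z : ℂ)
    (h : D * Real.exp (2 * (l z - w z)) * (dx l z ^ 2 + dy l z ^ 2) ≤ 1/10) :
    0 < kE D w a l z ∧ 0 < kE D w a l z * kG D w a l z - kF D w a l z ^ 2 := by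
  have h0 : 0 ≤ tauF D w l z := mul_nonneg hD (Real.exp_pos _).le
  have hE : 0 < Real.exp (-2 * a z) := Real.exp_pos _
  have h1 : tauF D w l z * (dx l z ^ 2 + dy l z ^ 2) ≤ 1 / 10 := h
  have h2 : 0 ≤ tauF D w l z * dx l z ^ 2 := mul_nonneg h0 (sq_nonneg _)
  have h3 : 0 ≤ tauF D w l z * dy l z ^ 2 := mul_nonneg h0 (sq_nonneg _)
  constructor
  · refine mul_pos hE ?_
    nlinarith
  · have e : kE D w a l z * kG D w a l z - kF D w a l z ^ 2 =
        Real.exp (-2 * a z) ^ 2 * (1 - tauF D w l z * (dx l z ^ 2 + dy l z ^ 2)) := by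
      unfold kE kF kG
      ring
    rw [e]
    refine mul_pos (pow_pos hE 2) ?_
    linarith

end P205T.K
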