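import Mathlib

/-! P205K block K (helper84), modules KA, KL, KD: plane linear algebra, Liouville, sign of the determinant. -/

open Complex ComplexConjugate
open scoped ContDiff

namespace P205T.K

/-- determinant of a real linear map of `ℂ` -/
noncomputable def dt (D : ℂ →L[ℝ] ℂ) : ℝ := (conj (D 1) * D Complex.I).im

/-- KA1 -/
theorem dt_mul (D : ℂ →L[ℝ] ℂ) (u v : ℂ) : (conj (D u) * D v).im = dt D * (conj u * v).im := by
  have hu : u = u.re • (1 : ℂ) + u.im • Complex.I := by
    apply Complex.ext <;> simp
  have hv : v = v.re • (1 : ℂ) + v.im • Complex.I := by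
    apply Complex.ext <;> simp
  have e1 : D u = u.re • D 1 + u.im • D Complex.I := by
    conv_lhs => rw [hu]
    simp only [map_add, map_smul]
  have e2 : D v = v.re • D 1 + v.im • D Complex.I := by
    conv_lhs => rw [hv]
    simp only [map_add, map_smul]
  rw [e1, e2, dt]
  simp only [map_add, Complex.mul_im, Complex.add_re, Complex.add_im, Complex.conj_re,
    Complex.conj_im, Complex.real_smul, Complex.mul_re, Complex.ofReal_re, Complex.ofReal_im]
  ring

/-- KA2: a conformal real linear map with negative determinant is conjugate linear -/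
theorem conf_anti (D : ℂ →L[ℝ] ℂ) (c : ℝ) (h : ∀ v, ‖D v‖ ^ 2 = c * ‖v‖ ^ 2) (hd : dt D < 0) :
    D Complex.I = -Complex.I * D 1 := by
  have h1 := h 1
  have h2 := h Complex.I
  have h3 := h (1 + Complex.I)
  rw [map_add] at h3
  rw [← Complex.normSq_eq_norm_sq, ← Complex.normSq_eq_norm_sq, Complex.normSq_apply,
    Complex.normSq_apply] at h1 h2 h3
  simp only [Complex.one_re, Complex.one_im, Complex.I_re, Complex.I_im, Complex.add_re,
    Complex.add_im] at h1 h2 h3
  rw [dt] at hd
  simp only [Complex.mul_im, Complex.conj_re, Complex.conj_im] at hd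
  set a := (D 1).re
  set b := (D 1).im
  set x := (D Complex.I).re
  set y := (D Complex.I).im
  have hp : a * x + b * y = 0 := by nlinarith
  -- `a y - b x < 0`, `(a y - b x)² = c²`
  have hc : a * a + b * b = c := by linarith
  have hxy : x * x + y * y = c := by linarith
  have hs : (a * y - b * x) ^ 2 = c ^ 2 := by
    have : (a * y - b * x) ^ 2 = (a * a + b * b) * (x * x + y * y) - (a * x + b * y) ^ 2 := by ring
    rw [this, hc, hxy, hp]
    ring
  have hc0 : 0 ≤ c := by rw [← hc]; nlinarith [mul_self_nonneg a, mul_self_nonneg b]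
  have hneg : a * y - b * x < 0 := by linarith
  have hval : a * y - b * x = -c := by
    rcases sq_eq_sq_iff_eq_or_eq_neg.1 hs with h5 | h5
    · linarith
    · exact h5
  -- `x = b`, `y = -a`
  have hsum : (x - b) ^ 2 + (y + a) ^ 2 = 0 := by nlinarith
  have hx : x = b := by nlinarith [sq_nonneg (x - b), sq_nonneg (y + a)]
  have hy : y = -a := by nlinarith [sq_nonneg (x - b), sq_nonneg (y + a)]
  apply Complex.ext
  · simp only [Complex.mul_re, Complex.neg_re, Complex.neg_im, Complex.I_re, Complex.I_im]
    change x = _
    change x = -0 * a - -1 * b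
    linarith
  · simp only [Complex.mul_im, Complex.neg_re, Complex.neg_im, Complex.I_re, Complex.I_im]
    change y = -0 * b + -1 * a
    linarith

end P205T.K
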