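import Vale.Agent.P205K.ParDefs

/-! Module SIG (helper95): symmetry of the fixed point map under `sig h`.
Type `TP`: `Sg a = J a`; type `TM`: `Sg a = - J a`. -/

open Complex ComplexConjugate
open scoped ContDiff

namespace P205T.K

def TP (a : V) : Prop := Sg a = J a
def TM (a : V) : Prop := Sg a = - J a

namespace SIG

theorem zeroP : TP 0 := by unfold TP; rw [map_zero, map_zero]
theorem zeroM : TM 0 := by unfold TM; rw [map_zero, map_zero, neg_zero]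
theorem addP {a b : V} (ha : TP a) (hb : TP b) : TP (a + b) := by
  unfold TP at *; rw [map_add, map_add, ha, hb]
theorem addM {a b : V} (ha : TM a) (hb : TM b) : TM (a + b) := by
  unfold TM at *; rw [map_add, map_add, ha, hb, neg_add]
theorem subP {a b : V} (ha : TP a) (hb : TP b) : TP (a - b) := by
  unfold TP at *; rw [map_sub, map_sub, ha, hb]
theorem subM {a b : V} (ha : TM a) (hb : TM b) : TM (a - b) := by
  unfold TM at *; rw [map_sub, map_sub, ha, hb]; abel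
theorem smulP {a : V} (c : ℝ) (ha : TP a) : TP (c • a) := by
  unfold TP at *; rw [map_smul, map_smul, ha]
theorem smulM {a : V} (c : ℝ) (ha : TM a) : TM (c • a) := by
  unfold TM at *; rw [map_smul, map_smul, ha, smul_neg]
theorem negP {a : V} (ha : TP a) : TP (-a) := by
  unfold TP at *; rw [map_neg, map_neg, ha]
theorem negM {a : V} (ha : TM a) : TM (-a) := by
  unfold TM at *; rw [map_neg, map_neg, ha]
theorem pp {a b : V} (ha : TP a) (hb : TP b) : TP (conv a b) := by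
  unfold TP at *; rw [Sg_conv, ha, hb, conv_J]
theorem pm {a b : V} (ha : TP a) (hb : TM b) : TM (conv a b) := by
  unfold TP TM at *; rw [Sg_conv, ha, hb, map_neg, conv_J]
theorem mp {a b : V} (ha : TM a) (hb : TP b) : TM (conv a b) := by
  unfold TP TM at *
  rw [Sg_conv, ha, hb, map_neg, neg_apply, conv_J]
theorem mm {a b : V} (ha : TM a) (hb : TM b) : TP (conv a b) := by
  unfold TP TM at *
  rw [Sg_conv, ha, hb, map_neg, map_neg, neg_apply, neg_neg, conv_J]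
theorem imP {a : V} (ha : TM a) : TP (im a) := by
  unfold TP TM at *; rw [Sg_im, ha, map_neg, J_im]
theorem imM {a : V} (ha : TP a) : TM (im a) := by
  unfold TP TM at *; rw [Sg_im, ha, J_im, neg_neg]
theorem JP {a : V} (ha : TP a) : TP (J a) := by
  unfold TP at *; rw [Sg_J, ha]
theorem JM {a : V} (ha : TM a) : TM (J a) := by
  unfold TM at *; rw [Sg_J, ha, map_neg]
theorem reP {a : V} (ha : TP a) : TP (re a) := smulP _ (addP ha (JP ha))
theorem reM {a : V} (ha : TM a) : TM (re a) := smulM _ (addM ha (JM ha))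
theorem vexpP {a : V} (ha : TP a) : TP (vexp a) := by
  unfold TP at *; rw [Sg_vexp, ha, vexp_J]
theorem oneP : TP one := by unfold TP; rw [Sg_one, J_one]

/-! multipliers -/
def FP (m : ℤ × ℤ → ℂ) : Prop := ∀ n : ℤ × ℤ, m (-n.1, n.2) = conj (m (-n))
def FM (m : ℤ × ℤ → ℂ) : Prop := ∀ n : ℤ × ℤ, m (-n.1, n.2) = - conj (m (-n))

theorem mult_nb {m : ℤ × ℤ → ℂ} (hm : ¬ Bdd m) : mult m = 0 := by
  unfold mult; rw [dif_neg hm]

theorem mPP {m : ℤ × ℤ → ℂ} (hf : FP m) {c : V} (hc : TP c) : TP (mult m c) := by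
  by_cases hm : Bdd m
  · unfold TP at *
    refine lp.ext (funext fun n => ?_)
    have h1 := congrArg (fun a : V => a n) hc
    simp only [Sg_apply, J_apply] at h1
    rw [Sg_apply, J_apply, mult_apply hm, mult_apply hm, hf n, map_mul, ← h1]
    ring
  · rw [mult_nb hm]; exact zeroP
theorem mPM {m : ℤ × ℤ → ℂ} (hf : FP m) {c : V} (hc : TM c) : TM (mult m c) := by
  by_cases hm : Bdd m
  · unfold TM at *
    refine lp.ext (funext fun n => ?_)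
    have h1 := congrArg (fun a : V => a n) hc
    simp only [lp.coeFn_neg, Pi.neg_apply, Sg_apply, J_apply] at h1
    rw [lp.coeFn_neg, Pi.neg_apply, Sg_apply, J_apply, mult_apply hm, mult_apply hm, hf n, map_mul]
    linear_combination conj (m (-n)) * h1
  · rw [mult_nb hm]; exact zeroM
theorem mMP {m : ℤ × ℤ → ℂ} (hf : FM m) {c : V} (hc : TP c) : TM (mult m c) := by
  by_cases hm : Bdd m
  · unfold TP TM at *
    refine lp.ext (funext fun n => ?_)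
    have h1 := congrArg (fun a : V => a n) hc
    simp only [Sg_apply, J_apply] at h1
    rw [lp.coeFn_neg, Pi.neg_apply, Sg_apply, J_apply, mult_apply hm, mult_apply hm, hf n, map_mul]
    linear_combination (-conj (m (-n))) * h1
  · rw [mult_nb hm]; exact zeroM
theorem mMM {m : ℤ × ℤ → ℂ} (hf : FM m) {c : V} (hc : TM c) : TP (mult m c) := by
  by_cases hm : Bdd m
  · unfold TP TM at *
    refine lp.ext (funext fun n => ?_)
    have h1 := congrArg (fun a : V => a n) hc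
    simp only [lp.coeFn_neg, Pi.neg_apply, Sg_apply, J_apply] at h1
    rw [Sg_apply, J_apply, mult_apply hm, mult_apply hm, hf n, map_mul]
    linear_combination (-conj (m (-n))) * h1
  · rw [mult_nb hm]; exact zeroP

theorem fPP {m m' : ℤ × ℤ → ℂ} (h : FP m) (h' : FP m') : FP (fun n => m n * m' n) := fun n => by
  simp only [h n, h' n, map_mul]
theorem fMP {m m' : ℤ × ℤ → ℂ} (h : FM m) (h' : FP m') : FM (fun n => m n * m' n) := fun n => by
  simp only [h n, h' n, map_mul]; ring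
theorem fPM {m m' : ℤ × ℤ → ℂ} (h : FP m) (h' : FM m') : FM (fun n => m n * m' n) := fun n => by
  simp only [h n, h' n, map_mul]; ring
theorem fMM {m m' : ℤ × ℤ → ℂ} (h : FM m) (h' : FM m') : FP (fun n => m n * m' n) := fun n => by
  simp only [h n, h' n, map_mul]; ring

theorem flip_zero (n : ℤ × ℤ) : ((-n.1, n.2) : ℤ × ℤ) = 0 ↔ n = 0 := by
  obtain ⟨a, b⟩ := n
  simp [Prod.ext_iff]

theorem kxneg (L : Lat) (n : ℤ × ℤ) : kx L (-n) = - kx L n := by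
  unfold kx; simp only [Prod.fst_neg, Prod.snd_neg]; push_cast; ring
theorem kyneg (L : Lat) (n : ℤ × ℤ) : ky L (-n) = - ky L n := by
  unfold ky; simp only [Prod.fst_neg, Prod.snd_neg]; push_cast; ring

/-- rectangular lattices -/
structure Rect (L : Lat) : Prop where
  x : ∀ n : ℤ × ℤ, kx L (-n.1, n.2) = - kx L n
  y : ∀ n : ℤ × ℤ, ky L (-n.1, n.2) = ky L n

section
variable {L : Lat} (hL : Rect L)
include hL

theorem f_kx : FM (fun n => Complex.I * (kx L n : ℂ)) := fun n => by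
  simp only [hL.x, kxneg, map_mul, Complex.conj_I, Complex.conj_ofReal]
  push_cast; ring
theorem f_ky : FP (fun n => Complex.I * (ky L n : ℂ)) := fun n => by
  simp only [hL.y, kyneg, map_mul, Complex.conj_I, Complex.conj_ofReal]
  push_cast; ring
omit hL in
theorem f_Z0 : FP Z0 := fun n => by
  unfold Z0
  simp only [flip_zero, neg_eq_zero]
  split_ifs <;> simp
theorem f_M0 : FP (M0 L) := fun n => by
  unfold M0
  simp only [flip_zero, neg_eq_zero, hL.x, hL.y, kxneg, kyneg]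
  split_ifs
  · simp
  · rw [Complex.conj_ofReal]; simp
theorem f_M1 : FM (M1 L) := fMP (f_kx hL) (f_M0 hL)
theorem f_M2 : FP (M2 L) := fPP (f_ky hL) (f_M0 hL)
theorem f_M11 : FP (M11 L) := fMM (f_kx hL) (f_M1 hL)
theorem f_M12 : FM (M12 L) := fMP (f_kx hL) (f_M2 hL)
theorem f_M22 : FP (M22 L) := fPP (f_ky hL) (f_M2 hL)
theorem f_N0 : FM (N0 L) := fun n => by
  unfold N0
  simp only [flip_zero, neg_eq_zero, hL.x, hL.y, kxneg, kyneg]
  split_ifs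
  · simp
  · simp only [map_div₀, map_mul, map_add, Complex.conj_I, Complex.conj_ofReal, map_ofNat]
    push_cast
    have e : (-Complex.I * (-(kx L n : ℂ) + -Complex.I * -(ky L n : ℂ))) =
        -(Complex.I * (-(kx L n : ℂ) + Complex.I * (ky L n : ℂ))) := by ring
    rw [e, div_neg, neg_neg]
theorem f_N1 : FP (N1 L) := fMM (f_kx hL) (f_N0 hL)
theorem f_N2 : FM (N2 L) := fPM (f_ky hL) (f_N0 hL)
theorem f_Sm : FP (Sm L) := fun n => by
  unfold Sm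
  rw [f_N1 hL n, f_N2 hL n]
  simp only [map_div₀, map_sub, map_mul, Complex.conj_I, map_ofNat]
  ring

/-- input types -/
structure SH (q : Q) : Prop where
  u0 : TP (q.1 0)
  u1 : TP (q.1 1)
  u2 : TM (q.1 2)
  u3 : TP (q.1 3)
  w0 : TM (q.2.1 0)
  w1 : TP (q.2.1 1)
  w2 : TP (q.2.1 2)
  w3 : TM (q.2.1 3)
  w4 : TP (q.2.1 4)
  w5 : TP (q.2.1 5)
  w6 : TP (q.2.1 6)

variable {q : Q} (H : SH q)
include H

theorem t_al : TP (al L q) := smulP _ (addP (mPP (f_M0 hL) H.u0) (mPP f_Z0 H.u0))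
theorem t_al1 : TM (al1 L q) := smulM _ (mMP (f_M1 hL) H.u0)
theorem t_al2 : TP (al2 L q) := smulP _ (mPP (f_M2 hL) H.u0)
theorem t_al11 : TP (al11 L q) := smulP _ (mPP (f_M11 hL) H.u0)
theorem t_al12 : TM (al12 L q) := smulM _ (mMP (f_M12 hL) H.u0)
theorem t_al22 : TP (al22 L q) := smulP _ (mPP (f_M22 hL) H.u0)
theorem t_q0 : TM (q0 L q) := reM (mMP (f_N0 hL) H.u1)
theorem t_q1 : TP (q1 L q) := reP (mPP (f_N1 hL) H.u1)
theorem t_q2 : TM (q2 L q) := reM (mMP (f_N2 hL) H.u1)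
theorem t_q11 : TM (q11 L q) := reM (mPM (f_N1 hL) H.u2)
theorem t_q12 : TP (q12 L q) := reP (mPP (f_N1 hL) H.u3)
theorem t_q22 : TM (q22 L q) := reM (mMP (f_N2 hL) H.u3)
theorem t_Ep : TP (Ep L q) := pp H.w5 (vexpP (smulP _ (imP (t_q0 hL H))))
theorem t_Em : TP (Em L q) := pp H.w6 (vexpP (smulP _ (imP (t_q0 hL H))))
theorem t_c2 : TP (c2 L q) := smulP _ (addP (t_Ep hL H) (t_Em hL H))
theorem t_s2 : TM (s2 L q) := smulM _ (imM (subP (t_Ep hL H) (t_Em hL H)))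
theorem t_yy : TP (yy L q) := smulP _ (subP oneP (t_c2 hL H))
theorem t_yy2 : TP (yy2 L q) := pp (t_yy hL H) (t_yy hL H)
theorem t_yy3 : TP (yy3 L q) := pp (t_yy2 hL H) (t_yy hL H)
theorem t_yy4 : TP (yy4 L q) := pp (t_yy3 hL H) (t_yy hL H)
theorem t_vv : TP (vv L q) := addP (addP (addP (smulP _ (t_yy hL H)) (smulP _ (t_yy2 hL H)))
  (smulP _ (t_yy3 hL H))) (smulP _ (t_yy4 hL H))
theorem t_vv' : TP (vv' L q) := addP (addP (addP (smulP _ oneP) (smulP _ (t_yy hL H)))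
  (smulP _ (t_yy2 hL H))) (smulP _ (t_yy3 hL H))
theorem t_vv'' : TP (vv'' L q) := addP (addP (smulP _ oneP) (smulP _ (t_yy hL H)))
  (smulP _ (t_yy2 hL H))
theorem t_Pv : TP (Pv L q) := subP oneP (smulP _ (t_vv hL H))
theorem t_p1 : TM (p1 L q) := smulM _ (pm (t_vv' hL H) (t_s2 hL H))
theorem t_p2 : TP (p2 L q) := smulP _ (addP (pp (t_vv'' hL H) (mm (t_s2 hL H) (t_s2 hL H)))
  (smulP _ (pp (t_vv' hL H) (t_c2 hL H))))
theorem t_sx : TP (sx L q) := addP oneP (smulP _ (t_q1 hL H))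
theorem t_sy : TM (sy L q) := smulM _ (t_q2 hL H)
theorem t_U1 : TM (U1 L q) := addM H.w0 (t_al1 hL H)
theorem t_U2 : TP (U2 L q) := addP H.w1 (t_al2 hL H)
theorem t_la1 : TM (la1 L q) := addM (pm (t_Pv hL H) (t_U1 hL H)) (smulM _ (mp (t_p1 hL H) (t_sx hL H)))
theorem t_la2 : TP (la2 L q) := addP (pp (t_Pv hL H) (t_U2 hL H)) (smulP _ (mm (t_p1 hL H) (t_sy hL H)))
theorem t_lx1 : TP (lx1 L q) := addP (smulP _ (addP (addP (mm (mp (t_p1 hL H) (t_sx hL H)) (t_U1 hL H))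
  (pp (t_Pv hL H) (addP H.w2 (t_al11 hL H)))) (smulP _ (mm (t_p1 hL H) (t_q11 hL H)))))
  (smulP _ (pp (pp (t_p2 hL H) (t_sx hL H)) (t_sx hL H)))
theorem t_lx2 : TM (lx2 L q) := addM (smulM _ (addM (addM (mp (mp (t_p1 hL H) (t_sx hL H)) (t_U2 hL H))
  (pm (t_Pv hL H) (addM H.w3 (t_al12 hL H)))) (smulM _ (mp (t_p1 hL H) (t_q12 hL H)))))
  (smulM _ (pm (pp (t_p2 hL H) (t_sx hL H)) (t_sy hL H)))
theorem t_ly1 : TM (ly1 L q) := addM (smulM _ (addM (addM (pm (mm (t_p1 hL H) (t_sy hL H)) (t_U1 hL H))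
  (pm (t_Pv hL H) (addM H.w3 (t_al12 hL H)))) (smulM _ (mp (t_p1 hL H) (t_q12 hL H)))))
  (smulM _ (mp (pm (t_p2 hL H) (t_sy hL H)) (t_sx hL H)))
theorem t_ly2 : TP (ly2 L q) := addP (smulP _ (addP (addP (pp (mm (t_p1 hL H) (t_sy hL H)) (t_U2 hL H))
  (pp (t_Pv hL H) (addP H.w4 (t_al22 hL H)))) (smulP _ (mm (t_p1 hL H) (t_q22 hL H)))))
  (smulP _ (mm (pm (t_p2 hL H) (t_sy hL H)) (t_sy hL H)))
theorem t_gg : TP (gg L q) := smulP _ (vexpP (smulP _ (t_al hL H)))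
theorem t_LL : TP (LL L q) := addP (mm (t_la1 hL H) (t_la1 hL H)) (pp (t_la2 hL H) (t_la2 hL H))
theorem t_om : TP (om L q) := subP (t_Pv hL H) (smulP _ (pp (t_gg hL H) (t_LL hL H)))
theorem t_m11 : TP (m11 L q) := addP (t_om hL H) (smulP _ (pp (t_gg hL H) (mm (t_la1 hL H) (t_la1 hL H))))
theorem t_m12 : TM (m12 L q) := smulM _ (pm (t_gg hL H) (mp (t_la1 hL H) (t_la2 hL H)))
theorem t_m22 : TP (m22 L q) := addP (t_om hL H) (smulP _ (pp (t_gg hL H) (pp (t_la2 hL H) (t_la2 hL H))))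
theorem t_h11 : TP (h11 L q) :=
  addP (smulP _ (addP (subP (addP (pp (pp (t_Pv hL H) (t_Pv hL H)) (addP H.w2 (t_al11 hL H)))
    (smulP _ (subP (mm (pm (t_Pv hL H) (t_p1 hL H)) (t_q11 hL H))
      (pp (mm (t_p1 hL H) (t_p1 hL H)) (pp (t_sx hL H) (t_sx hL H))))))
    (pp (t_Pv hL H) (subP (mm H.w0 (t_la1 hL H)) (pp H.w1 (t_la2 hL H)))))
    (mm (t_la1 hL H) (t_la1 hL H))))
  (smulP _ (pp (pp (t_Pv hL H) (t_p2 hL H)) (pp (t_sx hL H) (t_sx hL H))))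
theorem t_H12 : TM (H12 L q) :=
  addM (subM (addM (pm (pp (t_Pv hL H) (t_Pv hL H)) (addM H.w3 (t_al12 hL H)))
    (smulM _ (addM (subM (pm (pp (t_Pv hL H) (t_p2 hL H)) (pm (t_sx hL H) (t_q2 hL H)))
      (smulM _ (pm (mm (t_p1 hL H) (t_p1 hL H)) (pm (t_sx hL H) (t_q2 hL H)))))
      (mp (pm (t_Pv hL H) (t_p1 hL H)) (t_q12 hL H)))))
    (pm (t_Pv hL H) (addM (mp H.w0 (t_la2 hL H)) (pm H.w1 (t_la1 hL H)))))
  (mp (t_la1 hL H) (t_la2 hL H))
theorem t_H22 : TP (H22 L q) :=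
  addP (subP (addP (pp (pp (t_Pv hL H) (t_Pv hL H)) (addP H.w4 (t_al22 hL H)))
    (smulP _ (addP (subP (smulP _ (pp (pp (t_Pv hL H) (t_p2 hL H)) (mm (t_q2 hL H) (t_q2 hL H))))
      (smulP _ (pp (mm (t_p1 hL H) (t_p1 hL H)) (mm (t_q2 hL H) (t_q2 hL H)))))
      (mm (pm (t_Pv hL H) (t_p1 hL H)) (t_q22 hL H)))))
    (pp (t_Pv hL H) (subP (pp H.w1 (t_la2 hL H)) (mm H.w0 (t_la1 hL H)))))
  (pp (t_la2 hL H) (t_la2 hL H))
theorem t_U11 : TP (U11 L q) := addP (subP (addP H.w2 (t_al11 hL H)) (mm H.w0 (t_U1 hL H)))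
  (pp H.w1 (t_U2 hL H))
theorem t_U12 : TM (U12 L q) := subM (subM (addM H.w3 (t_al12 hL H)) (mp H.w0 (t_U2 hL H)))
  (pm H.w1 (t_U1 hL H))
theorem t_U22 : TP (U22 L q) := subP (addP (addP H.w4 (t_al22 hL H)) (mm H.w0 (t_U1 hL H)))
  (pp H.w1 (t_U2 hL H))
theorem t_EE : TP (EE L q) :=
  subP (addP (subP
    (pp (pp (t_Pv hL H) (t_om hL H)) (addP (addP (pp (t_m11 hL H) (t_U11 hL H))
      (smulP _ (mm (t_m12 hL H) (t_U12 hL H)))) (pp (t_m22 hL H) (t_U22 hL H))))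
    (pp (pp (pp (t_Pv hL H) (t_Pv hL H)) (t_om hL H)) (addP H.w2 H.w4)))
    (pp (pp (t_gg hL H) (addP (addP (smulP _ (pp (t_m11 hL H) (t_h11 hL H)))
      (smulP _ (mm (t_m12 hL H) (t_H12 hL H)))) (smulP _ (pp (t_m22 hL H) (t_H22 hL H)))))
      (addP (mm (t_la1 hL H) (t_U1 hL H)) (pp (t_la2 hL H) (t_U2 hL H)))))
    (pp (t_gg hL H) (subP (smulP _ (pp (t_h11 hL H) (t_H22 hL H)))
      (smulP _ (mm (t_H12 hL H) (t_H12 hL H)))))
theorem t_r0 : TP (r0 L q) := subP (mPP (f_Sm hL) H.u1) (reP (mPP f_Z0 H.u1))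
theorem t_Zz : TP (Zz L q) := addP oneP (smulP _ (t_r0 hL H))
theorem t_GG : TP (GG L q) :=
  addP (subP (pp (t_Pv hL H) (pp (vexpP (smulP _ (t_al hL H)))
    (addP (pp (t_Zz hL H) (JP (t_Zz hL H))) (smulP _ (pp H.u1 (JP H.u1)))))) (t_Pv hL H))
    (smulP _ (pp (t_gg hL H) (t_LL hL H)))
theorem t_newu : TP (newu L q) :=
  subP H.u0 (smulP _ (addP (subP (t_EE hL H) (mPP f_Z0 (t_EE hL H)))
    (smulP _ (mPP f_Z0 (t_GG hL H)))))

end

/-! jets -/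
def JTP (a : Jt) : Prop := TP (a 0) ∧ TM (a 1) ∧ TP (a 2)
def JTM (a : Jt) : Prop := TM (a 0) ∧ TP (a 1) ∧ TM (a 2)

theorem jaddP {a b : Jt} (ha : JTP a) (hb : JTP b) : JTP (a + b) :=
  ⟨addP ha.1 hb.1, addM ha.2.1 hb.2.1, addP ha.2.2 hb.2.2⟩
theorem jsubP {a b : Jt} (ha : JTP a) (hb : JTP b) : JTP (a - b) :=
  ⟨subP ha.1 hb.1, subM ha.2.1 hb.2.1, subP ha.2.2 hb.2.2⟩
theorem jnegP {a : Jt} (ha : JTP a) : JTP (-a) := ⟨negP ha.1, negM ha.2.1, negP ha.2.2⟩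
theorem jsmulP {a : Jt} (c : ℝ) (ha : JTP a) : JTP (c • a) :=
  ⟨smulP _ ha.1, smulM _ ha.2.1, smulP _ ha.2.2⟩
theorem jpp {a b : Jt} (ha : JTP a) (hb : JTP b) : JTP (jc a b) :=
  ⟨pp ha.1 hb.1, addM (mp ha.2.1 hb.1) (pm ha.1 hb.2.1), addP (pp ha.2.2 hb.1) (pp ha.1 hb.2.2)⟩
theorem jmm {a b : Jt} (ha : JTM a) (hb : JTM b) : JTP (jc a b) :=
  ⟨mm ha.1 hb.1, addM (pm ha.2.1 hb.1) (mp ha.1 hb.2.1), addP (mm ha.2.2 hb.1) (mm ha.1 hb.2.2)⟩
theorem jJP {a : Jt} (ha : JTP a) : JTP (jJ a) := ⟨JP ha.1, JM ha.2.1, JP ha.2.2⟩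
theorem joneP : JTP jone := ⟨oneP, zeroM, zeroP⟩

section
variable {L : Lat} (hL : Rect L) {q : Q} (H : SH q)
include hL H

omit hL in
theorem j_jy : JTP (jy q) := ⟨H.u1, H.u2, H.u3⟩
theorem j_jP : JTP (jP L q) := ⟨t_Pv hL H, smulM _ (mp (t_p1 hL H) (t_sx hL H)),
  smulP _ (mm (t_p1 hL H) (t_sy hL H))⟩
theorem j_jg : JTP (jg L q) := ⟨t_gg hL H, smulM _ (mp (t_al1 hL H) (t_gg hL H)),
  smulP _ (pp (t_al2 hL H) (t_gg hL H))⟩
theorem j_jl1 : JTM (jl1 L q) := ⟨t_la1 hL H, t_lx1 hL H, t_ly1 hL H⟩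
theorem j_jl2 : JTP (jl2 L q) := ⟨t_la2 hL H, t_lx2 hL H, t_ly2 hL H⟩
theorem j_jlz : JTM (jlz L q) :=
  ⟨smulM _ (addM (j_jl1 hL H).1 (imM (j_jl2 hL H).1)),
    smulP _ (addP (j_jl1 hL H).2.1 (imP (j_jl2 hL H).2.1)),
    smulM _ (addM (j_jl1 hL H).2.2 (imM (j_jl2 hL H).2.2))⟩
theorem j_jZ : JTP (jZ L q) := ⟨t_Zz hL H, smulM _ (mPM (f_Sm hL) H.u2), smulP _ (mPP (f_Sm hL) H.u3)⟩
theorem j_jT : JTP (jT L q) :=
  jpp (jJP (j_jZ hL H)) (jsubP (j_jP hL H) (jsmulP _ (jpp (j_jg hL H)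
    (jaddP (jmm (j_jl1 hL H) (j_jl1 hL H)) (jpp (j_jl2 hL H) (j_jl2 hL H))))))
theorem j_jR : JTP (jR L q) :=
  jsubP (jnegP (jsmulP _ (jpp (jpp (j_jg hL H) (jmm (j_jlz hL H) (j_jlz hL H)))
    (jaddP (jpp (j_jZ hL H) (jJP (j_jZ hL H))) (jsmulP _ (jpp (j_jy H) (jJP (j_jy H))))))))
    (jpp (j_jy H) (jsubP (j_jT hL H) joneP))

end

theorem rect_Lr (p h : ℝ) (hp : 0 < p) (hh : 0 < h) : Rect (Lr p h hp hh) := by
  refine ⟨fun n => ?_, fun n => ?_⟩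
  · simp [kx, Lr]; ring
  · simp [ky, Lr]

end SIG

open SIG in
/-- module SIG: the symmetry is preserved (rectangular lattice) -/
theorem sig_Phi_of (p h : ℝ) (hp : 0 < p) (hh : 0 < h) (k : ℕ) (q : Q) (hq : Par (Lr p h hp hh) k q.2)
    (hs : ParS q.2) (hr : J (q.1 0) = q.1 0) (hU : SU q.1)
    (hnew : J (newu (Lr p h hp hh) q) = newu (Lr p h hp hh) q) : SU (Phi (Lr p h hp hh) q) := by
  have hL := rect_Lr p h hp hh
  have H : SH q := by
    refine ⟨?_, hU.s1, hU.s2, hU.s3, ?_, ?_, ?_, ?_, ?_, ?_, ?_⟩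
    · unfold TP; rw [hU.s0, hr]
    · unfold TM; rw [hs.S0, hq.J0]
    · unfold TP; rw [hs.S1, hq.J1]
    · unfold TP; rw [hs.S2, hq.J2]
    · unfold TM; rw [hs.S3, hq.J3]
    · unfold TP; rw [hs.S4, hq.J4]
    · unfold TP; rw [hs.S5, hq.J5]
    · unfold TP; rw [← hq.J5, Sg_J, hs.S5, hq.J5]
  have hR := j_jR hL H
  refine ⟨?_, hR.1, hR.2.1, hR.2.2⟩
  have h1 : TP (newu (Lr p h hp hh) q) := t_newu hL H
  unfold TP at h1
  rw [hnew] at h1
  exact h1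

end P205T.K
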