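import Vale.Agent.P205K.ParDefs
import Vale.Agent.P205K.CmpPar
import Vale.Agent.P205K.Sig

/-! Parameters (helper2) and modules CMP (compatibility), REA (reality), SIG (symmetry under `sig h`). -/

open Complex ComplexConjugate
open scoped ContDiff

namespace P205T.K

/-! module CMP: the compatibility `jy` is a jet is preserved: `cmp_jl1`, ..., `cmp_jR` in CmpPar.lean -/

theorem REA_im_bdd : Bdd (fun _ : ℤ × ℤ => Complex.I) := ⟨1, fun n => by simp⟩

theorem REA_add {a b : V} (ha : J a = a) (hb : J b = b) : J (a + b) = a + b := by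
  rw [map_add, ha, hb]

theorem REA_sub {a b : V} (ha : J a = a) (hb : J b = b) : J (a - b) = a - b := by
  rw [map_sub, ha, hb]

theorem REA_smul (c : ℝ) {a : V} (ha : J a = a) : J (c • a) = c • a := by
  rw [map_smul, ha]

theorem REA_conv {a b : V} (ha : J a = a) (hb : J b = b) : J (conv a b) = conv a b := by
  rw [← conv_J, ha, hb]

theorem REA_mult {m : ℤ × ℤ → ℂ} (hm : Bdd m) (hs : ∀ n, m (-n) = conj (m n)) {c : V}
    (hc : J c = c) : J (mult m c) = mult m c := by
  rw [← mult_J hm hs, hc]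

theorem REA_re (c : V) : J (re c) = re c := by
  unfold re
  rw [map_smul, map_add, J_J, add_comm]

theorem REA_abs (c : V) : J (conv c (J c)) = conv c (J c) := by
  rw [← conv_J, J_J, conv_comm]

theorem REA_newu_main (L : Lat) (k : ℕ) (q : Q) (hq : Par L k q.2) (hu : J (q.1 0) = q.1 0) :
    J (newu L q) = newu L q := by
  have w0 := hq.J0
  have w1 := hq.J1
  have w2 := hq.J2
  have w3 := hq.J3
  have w4 := hq.J4
  have w5 := hq.J5
  have w6 : J (q.2.1 6) = q.2.1 5 := by rw [← w5, J_J]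
  have hone : J one = one := J_one
  have al_ : J (al L q) = al L q := REA_smul _ (REA_add (REA_mult (bdd_M0 L) (M0_neg L) hu)
    (REA_mult bdd_Z0 Z0_neg hu))
  have al1_ : J (al1 L q) = al1 L q := REA_smul _ (REA_mult (bdd_M1 L) (M1_neg L) hu)
  have al2_ : J (al2 L q) = al2 L q := REA_smul _ (REA_mult (bdd_M2 L) (M2_neg L) hu)
  have al11_ : J (al11 L q) = al11 L q := REA_smul _ (REA_mult (bdd_M11 L) (M11_neg L) hu)
  have al12_ : J (al12 L q) = al12 L q := REA_smul _ (REA_mult (bdd_M12 L) (M12_neg L) hu)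
  have al22_ : J (al22 L q) = al22 L q := REA_smul _ (REA_mult (bdd_M22 L) (M22_neg L) hu)
  have q0_ : J (q0 L q) = q0 L q := REA_re _
  have q1_ : J (q1 L q) = q1 L q := REA_re _
  have q2_ : J (q2 L q) = q2 L q := REA_re _
  have q11_ : J (q11 L q) = q11 L q := REA_re _
  have q12_ : J (q12 L q) = q12 L q := REA_re _
  have q22_ : J (q22 L q) = q22 L q := REA_re _
  have ep : J (Ep L q) = Em L q := by
    unfold Ep Em
    rw [← conv_J, w5, ← vexp_J, map_smul, J_im, q0_, smul_neg, ← neg_smul]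
  have em : J (Em L q) = Ep L q := by rw [← ep, J_J]
  have c2_ : J (c2 L q) = c2 L q := by
    unfold c2
    rw [map_smul, map_add, ep, em, add_comm]
  have s2_ : J (s2 L q) = s2 L q := by
    unfold s2
    rw [map_smul, J_im, map_sub, ep, em, ← neg_sub (Ep L q) (Em L q), map_neg, neg_neg]
  have yy_ : J (yy L q) = yy L q := REA_smul _ (REA_sub hone c2_)
  have yy2_ : J (yy2 L q) = yy2 L q := REA_conv yy_ yy_
  have yy3_ : J (yy3 L q) = yy3 L q := REA_conv yy2_ yy_
  have yy4_ : J (yy4 L q) = yy4 L q := REA_conv yy3_ yy_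
  have vv_ : J (vv L q) = vv L q := REA_add (REA_add (REA_add (REA_smul _ yy_) (REA_smul _ yy2_))
    (REA_smul _ yy3_)) (REA_smul _ yy4_)
  have vv'_ : J (vv' L q) = vv' L q := REA_add (REA_add (REA_add (REA_smul _ hone)
    (REA_smul _ yy_)) (REA_smul _ yy2_)) (REA_smul _ yy3_)
  have vv''_ : J (vv'' L q) = vv'' L q := REA_add (REA_add (REA_smul _ hone)
    (REA_smul _ yy_)) (REA_smul _ yy2_)
  have Pv_ : J (Pv L q) = Pv L q := REA_sub hone (REA_smul _ vv_)
  have p1_ : J (p1 L q) = p1 L q := REA_smul _ (REA_conv vv'_ s2_)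
  have p2_ : J (p2 L q) = p2 L q := REA_smul _ (REA_add (REA_conv vv''_ (REA_conv s2_ s2_))
    (REA_smul _ (REA_conv vv'_ c2_)))
  have sx_ : J (sx L q) = sx L q := REA_add hone (REA_smul _ q1_)
  have sy_ : J (sy L q) = sy L q := REA_smul _ q2_
  have U1_ : J (U1 L q) = U1 L q := REA_add w0 al1_
  have U2_ : J (U2 L q) = U2 L q := REA_add w1 al2_
  have la1_ : J (la1 L q) = la1 L q := REA_add (REA_conv Pv_ U1_) (REA_smul _ (REA_conv p1_ sx_))
  have la2_ : J (la2 L q) = la2 L q := REA_add (REA_conv Pv_ U2_) (REA_smul _ (REA_conv p1_ sy_))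
  have gg_ : J (gg L q) = gg L q := by
    unfold gg
    rw [map_smul, ← vexp_J, map_smul, al_]
  have LL_ : J (LL L q) = LL L q := REA_add (REA_conv la1_ la1_) (REA_conv la2_ la2_)
  have om_ : J (om L q) = om L q := REA_sub Pv_ (REA_smul _ (REA_conv gg_ LL_))
  have m11_ : J (m11 L q) = m11 L q :=
    REA_add om_ (REA_smul _ (REA_conv gg_ (REA_conv la1_ la1_)))
  have m12_ : J (m12 L q) = m12 L q := REA_smul _ (REA_conv gg_ (REA_conv la1_ la2_))
  have m22_ : J (m22 L q) = m22 L q :=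
    REA_add om_ (REA_smul _ (REA_conv gg_ (REA_conv la2_ la2_)))
  have h11_ : J (h11 L q) = h11 L q :=
    REA_add (REA_smul _ (REA_add (REA_sub (REA_add (REA_conv (REA_conv Pv_ Pv_)
      (REA_add w2 al11_)) (REA_smul _ (REA_sub (REA_conv (REA_conv Pv_ p1_) q11_)
        (REA_conv (REA_conv p1_ p1_) (REA_conv sx_ sx_)))))
      (REA_conv Pv_ (REA_sub (REA_conv w0 la1_) (REA_conv w1 la2_)))) (REA_conv la1_ la1_)))
      (REA_smul _ (REA_conv (REA_conv Pv_ p2_) (REA_conv sx_ sx_)))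
  have H12_ : J (H12 L q) = H12 L q :=
    REA_add (REA_sub (REA_add (REA_conv (REA_conv Pv_ Pv_) (REA_add w3 al12_))
      (REA_smul _ (REA_add (REA_sub (REA_conv (REA_conv Pv_ p2_) (REA_conv sx_ q2_))
        (REA_smul _ (REA_conv (REA_conv p1_ p1_) (REA_conv sx_ q2_))))
        (REA_conv (REA_conv Pv_ p1_) q12_))))
      (REA_conv Pv_ (REA_add (REA_conv w0 la2_) (REA_conv w1 la1_)))) (REA_conv la1_ la2_)
  have H22_ : J (H22 L q) = H22 L q :=
    REA_add (REA_sub (REA_add (REA_conv (REA_conv Pv_ Pv_) (REA_add w4 al22_))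
      (REA_smul _ (REA_add (REA_sub (REA_smul _ (REA_conv (REA_conv Pv_ p2_) (REA_conv q2_ q2_)))
        (REA_smul _ (REA_conv (REA_conv p1_ p1_) (REA_conv q2_ q2_))))
        (REA_conv (REA_conv Pv_ p1_) q22_))))
      (REA_conv Pv_ (REA_sub (REA_conv w1 la2_) (REA_conv w0 la1_)))) (REA_conv la2_ la2_)
  have U11_ : J (U11 L q) = U11 L q :=
    REA_add (REA_sub (REA_add w2 al11_) (REA_conv w0 U1_)) (REA_conv w1 U2_)
  have U12_ : J (U12 L q) = U12 L q :=
    REA_sub (REA_sub (REA_add w3 al12_) (REA_conv w0 U2_)) (REA_conv w1 U1_)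
  have U22_ : J (U22 L q) = U22 L q :=
    REA_sub (REA_add (REA_add w4 al22_) (REA_conv w0 U1_)) (REA_conv w1 U2_)
  have EE_ : J (EE L q) = EE L q :=
    REA_sub (REA_add (REA_sub (REA_conv (REA_conv Pv_ om_) (REA_add (REA_add (REA_conv m11_ U11_)
      (REA_smul _ (REA_conv m12_ U12_))) (REA_conv m22_ U22_)))
      (REA_conv (REA_conv (REA_conv Pv_ Pv_) om_) (REA_add w2 w4)))
      (REA_conv (REA_conv gg_ (REA_add (REA_add (REA_smul _ (REA_conv m11_ h11_))
        (REA_smul _ (REA_conv m12_ H12_))) (REA_smul _ (REA_conv m22_ H22_))))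
        (REA_add (REA_conv la1_ U1_) (REA_conv la2_ U2_))))
      (REA_conv gg_ (REA_sub (REA_smul _ (REA_conv h11_ H22_))
        (REA_smul _ (REA_conv H12_ H12_))))
  have va_ : J (vexp ((2 : ℝ) • al L q)) = vexp ((2 : ℝ) • al L q) := by
    rw [← vexp_J, map_smul, al_]
  have GG_ : J (GG L q) = GG L q :=
    REA_add (REA_sub (REA_conv Pv_ (REA_conv va_ (REA_add (REA_abs _) (REA_smul _ (REA_abs _)))))
      Pv_) (REA_smul _ (REA_conv gg_ LL_))
  exact REA_sub hu (REA_smul _ (REA_add (REA_sub EE_ (REA_mult bdd_Z0 Z0_neg EE_))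
    (REA_smul _ (REA_mult bdd_Z0 Z0_neg GG_))))

/-- module REA: reality of `u` is preserved -/
theorem rea_newu (L : Lat) (k : ℕ) (q : Q) (hq : Par L k q.2) (hu : J (q.1 0) = q.1 0) : J (newu L q) = newu L q :=
  REA_newu_main L k q hq hu

/-- module SIG: the symmetry is preserved (rectangular lattice: `kx (-n₁,n₂) = - kx n`, `ky (-n₁,n₂) = ky n`) -/
theorem sig_Phi (p h : ℝ) (hp : 0 < p) (hh : 0 < h) (k : ℕ) (q : Q) (hq : Par (Lr p h hp hh) k q.2) (hs : ParS q.2)
    (hr : J (q.1 0) = q.1 0) (hU : SU q.1) : SU (Phi (Lr p h hp hh) q) :=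
  sig_Phi_of p h hp hh k q hq hs hr hU (rea_newu _ k q hq hr)

end P205T.K
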