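import Vale.Agent.P205K.Exp

/-! Module PHC: for fixed scalars `r` the map `Phi` is smooth in `(U, W)`. (all atoms: `conv` bilinear continuous,
`mult`, `J`, `im` continuous linear, `contDiff_vexp`) -/

open Complex ComplexConjugate
open scoped ContDiff

namespace P205T.K

/-- predicate: smooth in `(U, W)` for all scalars -/
def CD {F : Type*} [NormedAddCommGroup F] [NormedSpace ℝ F] (f : Q → F) : Prop :=
  ∀ r : Fin 5 → ℝ, ContDiff ℝ ∞ (fun x : (Fin 4 → V) × (Fin 7 → V) => f (x.1, (x.2, r)))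

section PHC

theorem PHC_U (i : Fin 4) : CD (fun q : Q => q.1 i) := fun _ =>
  (contDiff_apply ℝ V i).comp contDiff_fst

theorem PHC_W (i : Fin 7) : CD (fun q : Q => q.2.1 i) := fun _ =>
  (contDiff_apply ℝ V i).comp contDiff_snd

theorem PHC_const (c : V) : CD (fun _ : Q => c) := fun _ => contDiff_const

theorem PHC_add {f g : Q → V} (hf : CD f) (hg : CD g) : CD (fun q => f q + g q) := fun r =>
  (hf r).add (hg r)

theorem PHC_sub {f g : Q → V} (hf : CD f) (hg : CD g) : CD (fun q => f q - g q) := fun r =>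
  (hf r).sub (hg r)

theorem PHC_neg {f : Q → V} (hf : CD f) : CD (fun q => - f q) := fun r => (hf r).neg

theorem PHC_clm (B : V →L[ℝ] V) {f : Q → V} (hf : CD f) : CD (fun q => B (f q)) := fun r =>
  B.contDiff.comp (hf r)

theorem PHC_conv {f g : Q → V} (hf : CD f) (hg : CD g) : CD (fun q => conv (f q) (g q)) := fun r =>
  (conv.contDiff.comp (hf r)).clm_apply (hg r)

theorem PHC_vexp {f : Q → V} (hf : CD f) : CD (fun q => vexp (f q)) := fun r =>
  contDiff_vexp.comp (hf r)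

theorem PHC_smul {c : Q → ℝ} (hc : ∀ (U : Fin 4 → V) (W : Fin 7 → V) (r : Fin 5 → ℝ),
    c (U, (W, r)) = c (0, (0, r))) {f : Q → V} (hf : CD f) : CD (fun q => c q • f q) := by
  intro r
  have h : (fun x : (Fin 4 → V) × (Fin 7 → V) => c (x.1, (x.2, r)) • f (x.1, (x.2, r))) =
      fun x : (Fin 4 → V) × (Fin 7 → V) => c (0, (0, r)) • f (x.1, (x.2, r)) := by
    funext x
    rw [hc]
  show ContDiff ℝ ∞ (fun x : (Fin 4 → V) × (Fin 7 → V) => c (x.1, (x.2, r)) • f (x.1, (x.2, r)))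
  rw [h]
  exact (hf r).const_smul _

end PHC

section PHCdefs
variable (L : Lat)

theorem PHC_re {f : Q → V} (hf : CD f) : CD (fun q => re (f q)) := by
  show CD (fun q => (1 / 2 : ℝ) • (f q + J (f q)))
  repeat' (first
    | assumption
    | exact PHC_U _ | exact PHC_W _ | exact PHC_const _
    | refine PHC_smul (fun _ _ _ => rfl) ?_
    | refine PHC_vexp ?_
    | refine PHC_conv ?_ ?_
    | refine PHC_add ?_ ?_
    | refine PHC_sub ?_ ?_
    | refine PHC_neg ?_
    | refine PHC_clm _ ?_)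

theorem PHC_al : CD (al L) := by
  show CD (fun q => eta q • (mult (M0 L) (q.1 0) + mult Z0 (q.1 0)))
  repeat' (first
    | assumption
    | exact PHC_U _ | exact PHC_W _ | exact PHC_const _
    | refine PHC_smul (fun _ _ _ => rfl) ?_
    | refine PHC_vexp ?_
    | refine PHC_conv ?_ ?_
    | refine PHC_add ?_ ?_
    | refine PHC_sub ?_ ?_
    | refine PHC_neg ?_
    | refine PHC_clm _ ?_)
theorem PHC_al1 : CD (al1 L) := by
  show CD (fun q => eta q • mult (M1 L) (q.1 0))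
  repeat' (first
    | assumption
    | exact PHC_U _ | exact PHC_W _ | exact PHC_const _
    | refine PHC_smul (fun _ _ _ => rfl) ?_
    | refine PHC_vexp ?_
    | refine PHC_conv ?_ ?_
    | refine PHC_add ?_ ?_
    | refine PHC_sub ?_ ?_
    | refine PHC_neg ?_
    | refine PHC_clm _ ?_)
theorem PHC_al2 : CD (al2 L) := by
  show CD (fun q => eta q • mult (M2 L) (q.1 0))
  repeat' (first
    | assumption
    | exact PHC_U _ | exact PHC_W _ | exact PHC_const _
    | refine PHC_smul (fun _ _ _ => rfl) ?_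
    | refine PHC_vexp ?_
    | refine PHC_conv ?_ ?_
    | refine PHC_add ?_ ?_
    | refine PHC_sub ?_ ?_
    | refine PHC_neg ?_
    | refine PHC_clm _ ?_)
theorem PHC_al11 : CD (al11 L) := by
  show CD (fun q => eta q • mult (M11 L) (q.1 0))
  repeat' (first
    | assumption
    | exact PHC_U _ | exact PHC_W _ | exact PHC_const _
    | refine PHC_smul (fun _ _ _ => rfl) ?_
    | refine PHC_vexp ?_
    | refine PHC_conv ?_ ?_
    | refine PHC_add ?_ ?_
    | refine PHC_sub ?_ ?_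
    | refine PHC_neg ?_
    | refine PHC_clm _ ?_)
theorem PHC_al12 : CD (al12 L) := by
  show CD (fun q => eta q • mult (M12 L) (q.1 0))
  repeat' (first
    | assumption
    | exact PHC_U _ | exact PHC_W _ | exact PHC_const _
    | refine PHC_smul (fun _ _ _ => rfl) ?_
    | refine PHC_vexp ?_
    | refine PHC_conv ?_ ?_
    | refine PHC_add ?_ ?_
    | refine PHC_sub ?_ ?_
    | refine PHC_neg ?_
    | refine PHC_clm _ ?_)
theorem PHC_al22 : CD (al22 L) := by
  show CD (fun q => eta q • mult (M22 L) (q.1 0))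
  repeat' (first
    | assumption
    | exact PHC_U _ | exact PHC_W _ | exact PHC_const _
    | refine PHC_smul (fun _ _ _ => rfl) ?_
    | refine PHC_vexp ?_
    | refine PHC_conv ?_ ?_
    | refine PHC_add ?_ ?_
    | refine PHC_sub ?_ ?_
    | refine PHC_neg ?_
    | refine PHC_clm _ ?_)
theorem PHC_q0 : CD (q0 L) := PHC_re (PHC_clm _ (PHC_U 1))
theorem PHC_q1 : CD (q1 L) := PHC_re (PHC_clm _ (PHC_U 1))
theorem PHC_q2 : CD (q2 L) := PHC_re (PHC_clm _ (PHC_U 1))
theorem PHC_q11 : CD (q11 L) := PHC_re (PHC_clm _ (PHC_U 2))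
theorem PHC_q12 : CD (q12 L) := PHC_re (PHC_clm _ (PHC_U 3))
theorem PHC_q22 : CD (q22 L) := PHC_re (PHC_clm _ (PHC_U 3))
theorem PHC_Ep : CD (Ep L) := by
  have h := PHC_q0 L
  show CD (fun q => conv (q.2.1 5) (vexp ((2 * q.2.2 1) • im (q0 L q))))
  repeat' (first
    | assumption
    | exact PHC_U _ | exact PHC_W _ | exact PHC_const _
    | refine PHC_smul (fun _ _ _ => rfl) ?_
    | refine PHC_vexp ?_
    | refine PHC_conv ?_ ?_
    | refine PHC_add ?_ ?_
    | refine PHC_sub ?_ ?_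
    | refine PHC_neg ?_
    | refine PHC_clm _ ?_)
theorem PHC_Em : CD (Em L) := by
  have h := PHC_q0 L
  show CD (fun q => conv (q.2.1 6) (vexp ((-(2 * q.2.2 1)) • im (q0 L q))))
  repeat' (first
    | assumption
    | exact PHC_U _ | exact PHC_W _ | exact PHC_const _
    | refine PHC_smul (fun _ _ _ => rfl) ?_
    | refine PHC_vexp ?_
    | refine PHC_conv ?_ ?_
    | refine PHC_add ?_ ?_
    | refine PHC_sub ?_ ?_
    | refine PHC_neg ?_
    | refine PHC_clm _ ?_)
theorem PHC_c2 : CD (c2 L) := by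
  have h := PHC_Ep L
  have h' := PHC_Em L
  show CD (fun q => (1 / 2 : ℝ) • (Ep L q + Em L q))
  repeat' (first
    | assumption
    | exact PHC_U _ | exact PHC_W _ | exact PHC_const _
    | refine PHC_smul (fun _ _ _ => rfl) ?_
    | refine PHC_vexp ?_
    | refine PHC_conv ?_ ?_
    | refine PHC_add ?_ ?_
    | refine PHC_sub ?_ ?_
    | refine PHC_neg ?_
    | refine PHC_clm _ ?_)
theorem PHC_s2 : CD (s2 L) := by
  have h := PHC_Ep L
  have h' := PHC_Em L
  show CD (fun q => (-(1 / 2) : ℝ) • im (Ep L q - Em L q))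
  repeat' (first
    | assumption
    | exact PHC_U _ | exact PHC_W _ | exact PHC_const _
    | refine PHC_smul (fun _ _ _ => rfl) ?_
    | refine PHC_vexp ?_
    | refine PHC_conv ?_ ?_
    | refine PHC_add ?_ ?_
    | refine PHC_sub ?_ ?_
    | refine PHC_neg ?_
    | refine PHC_clm _ ?_)
theorem PHC_yy : CD (yy L) := by
  have h := PHC_c2 L
  show CD (fun q => (1 / 2 : ℝ) • (one - c2 L q))
  repeat' (first
    | assumption
    | exact PHC_U _ | exact PHC_W _ | exact PHC_const _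
    | refine PHC_smul (fun _ _ _ => rfl) ?_
    | refine PHC_vexp ?_
    | refine PHC_conv ?_ ?_
    | refine PHC_add ?_ ?_
    | refine PHC_sub ?_ ?_
    | refine PHC_neg ?_
    | refine PHC_clm _ ?_)
theorem PHC_yy2 : CD (yy2 L) := PHC_conv (PHC_yy L) (PHC_yy L)
theorem PHC_yy3 : CD (yy3 L) := PHC_conv (PHC_yy2 L) (PHC_yy L)
theorem PHC_yy4 : CD (yy4 L) := PHC_conv (PHC_yy3 L) (PHC_yy L)
theorem PHC_vv : CD (vv L) := by
  have hyp1 := PHC_yy L
  have hyp2 := PHC_yy2 L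
  have hyp3 := PHC_yy3 L
  have hyp4 := PHC_yy4 L
  show CD (fun q => cA (kap q) (q.2.2 4) • yy L q + cB (kap q) (q.2.2 4) • yy2 L q
    + cC (kap q) (q.2.2 4) • yy3 L q + cD (kap q) (q.2.2 4) • yy4 L q)
  repeat' (first
    | assumption
    | exact PHC_U _ | exact PHC_W _ | exact PHC_const _
    | refine PHC_smul (fun _ _ _ => rfl) ?_
    | refine PHC_vexp ?_
    | refine PHC_conv ?_ ?_
    | refine PHC_add ?_ ?_
    | refine PHC_sub ?_ ?_
    | refine PHC_neg ?_
    | refine PHC_clm _ ?_)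
theorem PHC_vv' : CD (vv' L) := by
  have hyp1 := PHC_yy L
  have hyp2 := PHC_yy2 L
  have hyp3 := PHC_yy3 L
  show CD (fun q => cA (kap q) (q.2.2 4) • one + (2 * cB (kap q) (q.2.2 4)) • yy L q
    + (3 * cC (kap q) (q.2.2 4)) • yy2 L q + (4 * cD (kap q) (q.2.2 4)) • yy3 L q)
  repeat' (first
    | assumption
    | exact PHC_U _ | exact PHC_W _ | exact PHC_const _
    | refine PHC_smul (fun _ _ _ => rfl) ?_
    | refine PHC_vexp ?_
    | refine PHC_conv ?_ ?_
    | refine PHC_add ?_ ?_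
    | refine PHC_sub ?_ ?_
    | refine PHC_neg ?_
    | refine PHC_clm _ ?_)
theorem PHC_vv'' : CD (vv'' L) := by
  have hyp1 := PHC_yy L
  have hyp2 := PHC_yy2 L
  show CD (fun q => (2 * cB (kap q) (q.2.2 4)) • one + (6 * cC (kap q) (q.2.2 4)) • yy L q
    + (12 * cD (kap q) (q.2.2 4)) • yy2 L q)
  repeat' (first
    | assumption
    | exact PHC_U _ | exact PHC_W _ | exact PHC_const _
    | refine PHC_smul (fun _ _ _ => rfl) ?_
    | refine PHC_vexp ?_
    | refine PHC_conv ?_ ?_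
    | refine PHC_add ?_ ?_
    | refine PHC_sub ?_ ?_
    | refine PHC_neg ?_
    | refine PHC_clm _ ?_)
theorem PHC_Pv : CD (Pv L) := by
  have hyp1 := PHC_vv L
  show CD (fun q => one - kap q • vv L q)
  repeat' (first
    | assumption
    | exact PHC_U _ | exact PHC_W _ | exact PHC_const _
    | refine PHC_smul (fun _ _ _ => rfl) ?_
    | refine PHC_vexp ?_
    | refine PHC_conv ?_ ?_
    | refine PHC_add ?_ ?_
    | refine PHC_sub ?_ ?_
    | refine PHC_neg ?_
    | refine PHC_clm _ ?_)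
theorem PHC_p1 : CD (p1 L) := by
  have hyp1 := PHC_vv' L
  have hyp2 := PHC_s2 L
  show CD (fun q => (-(q.2.2 1 * q.2.2 2)) • conv (vv' L q) (s2 L q))
  repeat' (first
    | assumption
    | exact PHC_U _ | exact PHC_W _ | exact PHC_const _
    | refine PHC_smul (fun _ _ _ => rfl) ?_
    | refine PHC_vexp ?_
    | refine PHC_conv ?_ ?_
    | refine PHC_add ?_ ?_
    | refine PHC_sub ?_ ?_
    | refine PHC_neg ?_
    | refine PHC_clm _ ?_)
theorem PHC_p2 : CD (p2 L) := by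
  have hyp1 := PHC_vv' L
  have hyp2 := PHC_s2 L
  have hyp3 := PHC_vv'' L
  have hyp4 := PHC_c2 L
  show CD (fun q => (-(q.2.2 1 ^ 2 * q.2.2 2)) • (conv (vv'' L q) (conv (s2 L q) (s2 L q)) +
    (2 : ℝ) • conv (vv' L q) (c2 L q)))
  repeat' (first
    | assumption
    | exact PHC_U _ | exact PHC_W _ | exact PHC_const _
    | refine PHC_smul (fun _ _ _ => rfl) ?_
    | refine PHC_vexp ?_
    | refine PHC_conv ?_ ?_
    | refine PHC_add ?_ ?_
    | refine PHC_sub ?_ ?_
    | refine PHC_neg ?_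
    | refine PHC_clm _ ?_)
theorem PHC_sx : CD (sx L) := by
  have hyp1 := PHC_q1 L
  show CD (fun q => one + ee q • q1 L q)
  repeat' (first
    | assumption
    | exact PHC_U _ | exact PHC_W _ | exact PHC_const _
    | refine PHC_smul (fun _ _ _ => rfl) ?_
    | refine PHC_vexp ?_
    | refine PHC_conv ?_ ?_
    | refine PHC_add ?_ ?_
    | refine PHC_sub ?_ ?_
    | refine PHC_neg ?_
    | refine PHC_clm _ ?_)
theorem PHC_sy : CD (sy L) := by
  have hyp1 := PHC_q2 L
  show CD (fun q => ee q • q2 L q)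
  repeat' (first
    | assumption
    | exact PHC_U _ | exact PHC_W _ | exact PHC_const _
    | refine PHC_smul (fun _ _ _ => rfl) ?_
    | refine PHC_vexp ?_
    | refine PHC_conv ?_ ?_
    | refine PHC_add ?_ ?_
    | refine PHC_sub ?_ ?_
    | refine PHC_neg ?_
    | refine PHC_clm _ ?_)
theorem PHC_U1 : CD (U1 L) := PHC_add (PHC_W 0) (PHC_al1 L)
theorem PHC_U2 : CD (U2 L) := PHC_add (PHC_W 1) (PHC_al2 L)
theorem PHC_la1 : CD (la1 L) := by
  have hyp1 := PHC_Pv L
  have hyp2 := PHC_U1 L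
  have hyp3 := PHC_p1 L
  have hyp4 := PHC_sx L
  show CD (fun q => conv (Pv L q) (U1 L q) + (1 / 2 : ℝ) • conv (p1 L q) (sx L q))
  repeat' (first
    | assumption
    | exact PHC_U _ | exact PHC_W _ | exact PHC_const _
    | refine PHC_smul (fun _ _ _ => rfl) ?_
    | refine PHC_vexp ?_
    | refine PHC_conv ?_ ?_
    | refine PHC_add ?_ ?_
    | refine PHC_sub ?_ ?_
    | refine PHC_neg ?_
    | refine PHC_clm _ ?_)
theorem PHC_la2 : CD (la2 L) := by
  have hyp1 := PHC_Pv L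
  have hyp2 := PHC_U2 L
  have hyp3 := PHC_p1 L
  have hyp4 := PHC_sy L
  show CD (fun q => conv (Pv L q) (U2 L q) + (1 / 2 : ℝ) • conv (p1 L q) (sy L q))
  repeat' (first
    | assumption
    | exact PHC_U _ | exact PHC_W _ | exact PHC_const _
    | refine PHC_smul (fun _ _ _ => rfl) ?_
    | refine PHC_vexp ?_
    | refine PHC_conv ?_ ?_
    | refine PHC_add ?_ ?_
    | refine PHC_sub ?_ ?_
    | refine PHC_neg ?_
    | refine PHC_clm _ ?_)

theorem PHC_lx1 : CD (lx1 L) := by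
  have hyp0 := PHC_al11 L
  have hyp1 := PHC_q11 L
  have hyp2 := PHC_Pv L
  have hyp3 := PHC_p1 L
  have hyp4 := PHC_p2 L
  have hyp5 := PHC_sx L
  have hyp6 := PHC_U1 L
  show CD (fun q =>
    ee q • (conv (conv (p1 L q) (sx L q)) (U1 L q)
    + conv (Pv L q) (q.2.1 2 + al11 L q) + (1 / 2 : ℝ) • conv (p1 L q) (q11 L q))
    + (1 / 2 : ℝ) • conv (conv (p2 L q) (sx L q)) (sx L q))
  repeat' (first
    | assumption
    | exact PHC_U _ | exact PHC_W _ | exact PHC_const _
    | refine PHC_smul (fun _ _ _ => rfl) ?_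
    | refine PHC_vexp ?_
    | refine PHC_conv ?_ ?_
    | refine PHC_add ?_ ?_
    | refine PHC_sub ?_ ?_
    | refine PHC_neg ?_
    | refine PHC_clm _ ?_)
theorem PHC_lx2 : CD (lx2 L) := by
  have hyp0 := PHC_al12 L
  have hyp1 := PHC_q12 L
  have hyp2 := PHC_Pv L
  have hyp3 := PHC_p1 L
  have hyp4 := PHC_p2 L
  have hyp5 := PHC_sx L
  have hyp6 := PHC_sy L
  have hyp7 := PHC_U2 L
  show CD (fun q =>
    ee q • (conv (conv (p1 L q) (sx L q)) (U2 L q)
    + conv (Pv L q) (q.2.1 3 + al12 L q) + (1 / 2 : ℝ) • conv (p1 L q) (q12 L q))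
    + (1 / 2 : ℝ) • conv (conv (p2 L q) (sx L q)) (sy L q))
  repeat' (first
    | assumption
    | exact PHC_U _ | exact PHC_W _ | exact PHC_const _
    | refine PHC_smul (fun _ _ _ => rfl) ?_
    | refine PHC_vexp ?_
    | refine PHC_conv ?_ ?_
    | refine PHC_add ?_ ?_
    | refine PHC_sub ?_ ?_
    | refine PHC_neg ?_
    | refine PHC_clm _ ?_)
theorem PHC_ly1 : CD (ly1 L) := by
  have hyp0 := PHC_al12 L
  have hyp1 := PHC_q12 L
  have hyp2 := PHC_Pv L
  have hyp3 := PHC_p1 L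
  have hyp4 := PHC_p2 L
  have hyp5 := PHC_sx L
  have hyp6 := PHC_sy L
  have hyp7 := PHC_U1 L
  show CD (fun q =>
    ee q • (conv (conv (p1 L q) (sy L q)) (U1 L q)
    + conv (Pv L q) (q.2.1 3 + al12 L q) + (1 / 2 : ℝ) • conv (p1 L q) (q12 L q))
    + (1 / 2 : ℝ) • conv (conv (p2 L q) (sy L q)) (sx L q))
  repeat' (first
    | assumption
    | exact PHC_U _ | exact PHC_W _ | exact PHC_const _
    | refine PHC_smul (fun _ _ _ => rfl) ?_
    | refine PHC_vexp ?_
    | refine PHC_conv ?_ ?_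
    | refine PHC_add ?_ ?_
    | refine PHC_sub ?_ ?_
    | refine PHC_neg ?_
    | refine PHC_clm _ ?_)
theorem PHC_ly2 : CD (ly2 L) := by
  have hyp0 := PHC_al22 L
  have hyp1 := PHC_q22 L
  have hyp2 := PHC_Pv L
  have hyp3 := PHC_p1 L
  have hyp4 := PHC_p2 L
  have hyp5 := PHC_sy L
  have hyp6 := PHC_U2 L
  show CD (fun q =>
    ee q • (conv (conv (p1 L q) (sy L q)) (U2 L q)
    + conv (Pv L q) (q.2.1 4 + al22 L q) + (1 / 2 : ℝ) • conv (p1 L q) (q22 L q))
    + (1 / 2 : ℝ) • conv (conv (p2 L q) (sy L q)) (sy L q))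
  repeat' (first
    | assumption
    | exact PHC_U _ | exact PHC_W _ | exact PHC_const _
    | refine PHC_smul (fun _ _ _ => rfl) ?_
    | refine PHC_vexp ?_
    | refine PHC_conv ?_ ?_
    | refine PHC_add ?_ ?_
    | refine PHC_sub ?_ ?_
    | refine PHC_neg ?_
    | refine PHC_clm _ ?_)
theorem PHC_gg : CD (gg L) := by
  have hyp0 := PHC_al L
  show CD (fun q =>
    q.2.2 3 • vexp ((2 : ℝ) • al L q))
  repeat' (first
    | assumption
    | exact PHC_U _ | exact PHC_W _ | exact PHC_const _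
    | refine PHC_smul (fun _ _ _ => rfl) ?_
    | refine PHC_vexp ?_
    | refine PHC_conv ?_ ?_
    | refine PHC_add ?_ ?_
    | refine PHC_sub ?_ ?_
    | refine PHC_neg ?_
    | refine PHC_clm _ ?_)
theorem PHC_LL : CD (LL L) := by
  have hyp0 := PHC_la1 L
  have hyp1 := PHC_la2 L
  show CD (fun q =>
    conv (la1 L q) (la1 L q) + conv (la2 L q) (la2 L q))
  repeat' (first
    | assumption
    | exact PHC_U _ | exact PHC_W _ | exact PHC_const _
    | refine PHC_smul (fun _ _ _ => rfl) ?_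
    | refine PHC_vexp ?_
    | refine PHC_conv ?_ ?_
    | refine PHC_add ?_ ?_
    | refine PHC_sub ?_ ?_
    | refine PHC_neg ?_
    | refine PHC_clm _ ?_)
theorem PHC_om : CD (om L) := by
  have hyp0 := PHC_Pv L
  have hyp1 := PHC_gg L
  have hyp2 := PHC_LL L
  show CD (fun q =>
    Pv L q - ee q ^ 2 • conv (gg L q) (LL L q))
  repeat' (first
    | assumption
    | exact PHC_U _ | exact PHC_W _ | exact PHC_const _
    | refine PHC_smul (fun _ _ _ => rfl) ?_
    | refine PHC_vexp ?_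
    | refine PHC_conv ?_ ?_
    | refine PHC_add ?_ ?_
    | refine PHC_sub ?_ ?_
    | refine PHC_neg ?_
    | refine PHC_clm _ ?_)
theorem PHC_m11 : CD (m11 L) := by
  have hyp0 := PHC_la1 L
  have hyp1 := PHC_gg L
  have hyp2 := PHC_om L
  show CD (fun q =>
    om L q + ee q ^ 2 • conv (gg L q) (conv (la1 L q) (la1 L q)))
  repeat' (first
    | assumption
    | exact PHC_U _ | exact PHC_W _ | exact PHC_const _
    | refine PHC_smul (fun _ _ _ => rfl) ?_
    | refine PHC_vexp ?_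
    | refine PHC_conv ?_ ?_
    | refine PHC_add ?_ ?_
    | refine PHC_sub ?_ ?_
    | refine PHC_neg ?_
    | refine PHC_clm _ ?_)
theorem PHC_m12 : CD (m12 L) := by
  have hyp0 := PHC_la1 L
  have hyp1 := PHC_la2 L
  have hyp2 := PHC_gg L
  show CD (fun q =>
    ee q ^ 2 • conv (gg L q) (conv (la1 L q) (la2 L q)))
  repeat' (first
    | assumption
    | exact PHC_U _ | exact PHC_W _ | exact PHC_const _
    | refine PHC_smul (fun _ _ _ => rfl) ?_
    | refine PHC_vexp ?_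
    | refine PHC_conv ?_ ?_
    | refine PHC_add ?_ ?_
    | refine PHC_sub ?_ ?_
    | refine PHC_neg ?_
    | refine PHC_clm _ ?_)
theorem PHC_m22 : CD (m22 L) := by
  have hyp0 := PHC_la2 L
  have hyp1 := PHC_gg L
  have hyp2 := PHC_om L
  show CD (fun q =>
    om L q + ee q ^ 2 • conv (gg L q) (conv (la2 L q) (la2 L q)))
  repeat' (first
    | assumption
    | exact PHC_U _ | exact PHC_W _ | exact PHC_const _
    | refine PHC_smul (fun _ _ _ => rfl) ?_
    | refine PHC_vexp ?_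
    | refine PHC_conv ?_ ?_
    | refine PHC_add ?_ ?_
    | refine PHC_sub ?_ ?_
    | refine PHC_neg ?_
    | refine PHC_clm _ ?_)
theorem PHC_h11 : CD (h11 L) := by
  have hyp0 := PHC_al11 L
  have hyp1 := PHC_q11 L
  have hyp2 := PHC_Pv L
  have hyp3 := PHC_p1 L
  have hyp4 := PHC_p2 L
  have hyp5 := PHC_sx L
  have hyp6 := PHC_la1 L
  have hyp7 := PHC_la2 L
  show CD (fun q =>
    ee q • (conv (conv (Pv L q) (Pv L q)) (q.2.1 2 + al11 L q)
    + (1 / 2 : ℝ) • (conv (conv (Pv L q) (p1 L q)) (q11 L q) - conv (conv (p1 L q) (p1 L q)) (conv (sx L q) (sx L q)))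
    - conv (Pv L q) (conv (q.2.1 0) (la1 L q) - conv (q.2.1 1) (la2 L q)) + conv (la1 L q) (la1 L q))
    + (1 / 2 : ℝ) • conv (conv (Pv L q) (p2 L q)) (conv (sx L q) (sx L q)))
  repeat' (first
    | assumption
    | exact PHC_U _ | exact PHC_W _ | exact PHC_const _
    | refine PHC_smul (fun _ _ _ => rfl) ?_
    | refine PHC_vexp ?_
    | refine PHC_conv ?_ ?_
    | refine PHC_add ?_ ?_
    | refine PHC_sub ?_ ?_
    | refine PHC_neg ?_
    | refine PHC_clm _ ?_)
theorem PHC_H12 : CD (H12 L) := by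
  have hyp0 := PHC_al12 L
  have hyp1 := PHC_q2 L
  have hyp2 := PHC_q12 L
  have hyp3 := PHC_Pv L
  have hyp4 := PHC_p1 L
  have hyp5 := PHC_p2 L
  have hyp6 := PHC_sx L
  have hyp7 := PHC_la1 L
  have hyp8 := PHC_la2 L
  show CD (fun q =>
    conv (conv (Pv L q) (Pv L q)) (q.2.1 3 + al12 L q)
    + (1 / 2 : ℝ) • (conv (conv (Pv L q) (p2 L q)) (conv (sx L q) (q2 L q))
    - ee q • conv (conv (p1 L q) (p1 L q)) (conv (sx L q) (q2 L q)) + conv (conv (Pv L q) (p1 L q)) (q12 L q))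
    - conv (Pv L q) (conv (q.2.1 0) (la2 L q) + conv (q.2.1 1) (la1 L q)) + conv (la1 L q) (la2 L q))
  repeat' (first
    | assumption
    | exact PHC_U _ | exact PHC_W _ | exact PHC_const _
    | refine PHC_smul (fun _ _ _ => rfl) ?_
    | refine PHC_vexp ?_
    | refine PHC_conv ?_ ?_
    | refine PHC_add ?_ ?_
    | refine PHC_sub ?_ ?_
    | refine PHC_neg ?_
    | refine PHC_clm _ ?_)
theorem PHC_H22 : CD (H22 L) := by
  have hyp0 := PHC_al22 L
  have hyp1 := PHC_q2 L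
  have hyp2 := PHC_q22 L
  have hyp3 := PHC_Pv L
  have hyp4 := PHC_p1 L
  have hyp5 := PHC_p2 L
  have hyp6 := PHC_la1 L
  have hyp7 := PHC_la2 L
  show CD (fun q =>
    conv (conv (Pv L q) (Pv L q)) (q.2.1 4 + al22 L q)
    + (1 / 2 : ℝ) • (ee q • conv (conv (Pv L q) (p2 L q)) (conv (q2 L q) (q2 L q))
    - ee q ^ 2 • conv (conv (p1 L q) (p1 L q)) (conv (q2 L q) (q2 L q)) + conv (conv (Pv L q) (p1 L q)) (q22 L q))
    - conv (Pv L q) (conv (q.2.1 1) (la2 L q) - conv (q.2.1 0) (la1 L q)) + conv (la2 L q) (la2 L q))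
  repeat' (first
    | assumption
    | exact PHC_U _ | exact PHC_W _ | exact PHC_const _
    | refine PHC_smul (fun _ _ _ => rfl) ?_
    | refine PHC_vexp ?_
    | refine PHC_conv ?_ ?_
    | refine PHC_add ?_ ?_
    | refine PHC_sub ?_ ?_
    | refine PHC_neg ?_
    | refine PHC_clm _ ?_)
theorem PHC_U11 : CD (U11 L) := by
  have hyp0 := PHC_al11 L
  have hyp1 := PHC_U1 L
  have hyp2 := PHC_U2 L
  show CD (fun q =>
    q.2.1 2 + al11 L q - conv (q.2.1 0) (U1 L q) + conv (q.2.1 1) (U2 L q))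
  repeat' (first
    | assumption
    | exact PHC_U _ | exact PHC_W _ | exact PHC_const _
    | refine PHC_smul (fun _ _ _ => rfl) ?_
    | refine PHC_vexp ?_
    | refine PHC_conv ?_ ?_
    | refine PHC_add ?_ ?_
    | refine PHC_sub ?_ ?_
    | refine PHC_neg ?_
    | refine PHC_clm _ ?_)
theorem PHC_U12 : CD (U12 L) := by
  have hyp0 := PHC_al12 L
  have hyp1 := PHC_U1 L
  have hyp2 := PHC_U2 L
  show CD (fun q =>
    q.2.1 3 + al12 L q - conv (q.2.1 0) (U2 L q) - conv (q.2.1 1) (U1 L q))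
  repeat' (first
    | assumption
    | exact PHC_U _ | exact PHC_W _ | exact PHC_const _
    | refine PHC_smul (fun _ _ _ => rfl) ?_
    | refine PHC_vexp ?_
    | refine PHC_conv ?_ ?_
    | refine PHC_add ?_ ?_
    | refine PHC_sub ?_ ?_
    | refine PHC_neg ?_
    | refine PHC_clm _ ?_)
theorem PHC_U22 : CD (U22 L) := by
  have hyp0 := PHC_al22 L
  have hyp1 := PHC_U1 L
  have hyp2 := PHC_U2 L
  show CD (fun q =>
    q.2.1 4 + al22 L q + conv (q.2.1 0) (U1 L q) - conv (q.2.1 1) (U2 L q))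
  repeat' (first
    | assumption
    | exact PHC_U _ | exact PHC_W _ | exact PHC_const _
    | refine PHC_smul (fun _ _ _ => rfl) ?_
    | refine PHC_vexp ?_
    | refine PHC_conv ?_ ?_
    | refine PHC_add ?_ ?_
    | refine PHC_sub ?_ ?_
    | refine PHC_neg ?_
    | refine PHC_clm _ ?_)
theorem PHC_EE : CD (EE L) := by
  have hyp0 := PHC_Pv L
  have hyp1 := PHC_U1 L
  have hyp2 := PHC_U2 L
  have hyp3 := PHC_la1 L
  have hyp4 := PHC_la2 L
  have hyp5 := PHC_gg L
  have hyp6 := PHC_om L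
  have hyp7 := PHC_m11 L
  have hyp8 := PHC_m12 L
  have hyp9 := PHC_m22 L
  have hyp10 := PHC_h11 L
  have hyp11 := PHC_H12 L
  have hyp12 := PHC_H22 L
  have hyp13 := PHC_U11 L
  have hyp14 := PHC_U12 L
  have hyp15 := PHC_U22 L
  show CD (fun q =>
    conv (conv (Pv L q) (om L q)) (conv (m11 L q) (U11 L q) + (2 : ℝ) • conv (m12 L q) (U12 L q)
    + conv (m22 L q) (U22 L q))
    - conv (conv (conv (Pv L q) (Pv L q)) (om L q)) (q.2.1 2 + q.2.1 4)
    + conv (conv (gg L q) (ee q • conv (m11 L q) (h11 L q) + (2 * ee q ^ 2) • conv (m12 L q) (H12 L q)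
    + ee q ^ 2 • conv (m22 L q) (H22 L q))) (conv (la1 L q) (U1 L q) + conv (la2 L q) (U2 L q))
    - conv (gg L q) (ee q • conv (h11 L q) (H22 L q) - ee q ^ 2 • conv (H12 L q) (H12 L q)))
  repeat' (first
    | assumption
    | exact PHC_U _ | exact PHC_W _ | exact PHC_const _
    | refine PHC_smul (fun _ _ _ => rfl) ?_
    | refine PHC_vexp ?_
    | refine PHC_conv ?_ ?_
    | refine PHC_add ?_ ?_
    | refine PHC_sub ?_ ?_
    | refine PHC_neg ?_
    | refine PHC_clm _ ?_)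
theorem PHC_r0 : CD (r0 L) := by
  have hr := PHC_re (PHC_clm (mult Z0) (PHC_U 1))
  show CD (fun q =>
    mult (Sm L) (q.1 1) - re (mult Z0 (q.1 1)))
  repeat' (first
    | assumption
    | exact PHC_U _ | exact PHC_W _ | exact PHC_const _
    | refine PHC_smul (fun _ _ _ => rfl) ?_
    | refine PHC_vexp ?_
    | refine PHC_conv ?_ ?_
    | refine PHC_add ?_ ?_
    | refine PHC_sub ?_ ?_
    | refine PHC_neg ?_
    | refine PHC_clm _ ?_)
theorem PHC_Zz : CD (Zz L) := by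
  have hyp0 := PHC_r0 L
  show CD (fun q =>
    one + ee q • r0 L q)
  repeat' (first
    | assumption
    | exact PHC_U _ | exact PHC_W _ | exact PHC_const _
    | refine PHC_smul (fun _ _ _ => rfl) ?_
    | refine PHC_vexp ?_
    | refine PHC_conv ?_ ?_
    | refine PHC_add ?_ ?_
    | refine PHC_sub ?_ ?_
    | refine PHC_neg ?_
    | refine PHC_clm _ ?_)
theorem PHC_GG : CD (GG L) := by
  have hyp0 := PHC_al L
  have hyp1 := PHC_Pv L
  have hyp2 := PHC_gg L
  have hyp3 := PHC_LL L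
  have hyp4 := PHC_Zz L
  show CD (fun q =>
    conv (Pv L q) (conv (vexp ((2 : ℝ) • al L q))
    (conv (Zz L q) (J (Zz L q)) + ee q ^ 2 • conv (q.1 1) (J (q.1 1)))) - Pv L q
    + (ee q ^ 2 / 2) • conv (gg L q) (LL L q))
  repeat' (first
    | assumption
    | exact PHC_U _ | exact PHC_W _ | exact PHC_const _
    | refine PHC_smul (fun _ _ _ => rfl) ?_
    | refine PHC_vexp ?_
    | refine PHC_conv ?_ ?_
    | refine PHC_add ?_ ?_
    | refine PHC_sub ?_ ?_
    | refine PHC_neg ?_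
    | refine PHC_clm _ ?_)
theorem PHC_newu : CD (newu L) := by
  have hyp0 := PHC_EE L
  have hyp1 := PHC_GG L
  show CD (fun q =>
    q.1 0 - (eta q)⁻¹ • (EE L q - mult Z0 (EE L q) + (1 / 2 : ℝ) • mult Z0 (GG L q)))
  repeat' (first
    | assumption
    | exact PHC_U _ | exact PHC_W _ | exact PHC_const _
    | refine PHC_smul (fun _ _ _ => rfl) ?_
    | refine PHC_vexp ?_
    | refine PHC_conv ?_ ?_
    | refine PHC_add ?_ ?_
    | refine PHC_sub ?_ ?_
    | refine PHC_neg ?_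
    | refine PHC_clm _ ?_)

/-- jets -/
def PHCJ (f : Q → Jt) : Prop := ∀ i, CD (fun q => f q i)

theorem PHCJ_mk {a b c : Q → V} (ha : CD a) (hb : CD b) (hc : CD c) :
    PHCJ (fun q => ![a q, b q, c q]) := by
  intro i
  fin_cases i
  · exact ha
  · exact hb
  · exact hc

theorem PHCJ_jc {a b : Q → Jt} (ha : PHCJ a) (hb : PHCJ b) : PHCJ (fun q => jc (a q) (b q)) := by
  have a0 := ha 0
  have a1 := ha 1
  have a2 := ha 2
  have b0 := hb 0
  have b1 := hb 1
  have b2 := hb 2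
  refine PHCJ_mk ?_ ?_ ?_ <;>
  (repeat' (first
      | assumption
      | exact PHC_U _ | exact PHC_W _ | exact PHC_const _
      | refine PHC_smul (fun _ _ _ => rfl) ?_
      | refine PHC_vexp ?_
      | refine PHC_conv ?_ ?_
      | refine PHC_add ?_ ?_
      | refine PHC_sub ?_ ?_
      | refine PHC_neg ?_
      | refine PHC_clm _ ?_))

theorem PHCJ_jJ {a : Q → Jt} (ha : PHCJ a) : PHCJ (fun q => jJ (a q)) := fun i =>
  PHC_clm J (ha i)

theorem PHCJ_add {a b : Q → Jt} (ha : PHCJ a) (hb : PHCJ b) : PHCJ (fun q => a q + b q) := fun i =>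
  PHC_add (ha i) (hb i)

theorem PHCJ_sub {a b : Q → Jt} (ha : PHCJ a) (hb : PHCJ b) : PHCJ (fun q => a q - b q) := fun i =>
  PHC_sub (ha i) (hb i)

theorem PHCJ_neg {a : Q → Jt} (ha : PHCJ a) : PHCJ (fun q => - a q) := fun i =>
  PHC_neg (ha i)

theorem PHCJ_smul {c : Q → ℝ} (hc : ∀ (U : Fin 4 → V) (W : Fin 7 → V) (r : Fin 5 → ℝ),
    c (U, (W, r)) = c (0, (0, r))) {f : Q → Jt} (hf : PHCJ f) : PHCJ (fun q => c q • f q) :=
  fun i => PHC_smul hc (hf i)

theorem PHCJ_jone : PHCJ (fun _ => jone) := fun i => PHC_const (jone i)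

theorem PHCJ_jy : PHCJ (fun q => jy q) := PHCJ_mk (PHC_U 1) (PHC_U 2) (PHC_U 3)

theorem PHCJ_jP : PHCJ (jP L) := by
  have hyp1 := PHC_Pv L
  have hyp2 := PHC_p1 L
  have hyp3 := PHC_sx L
  have hyp4 := PHC_sy L
  refine PHCJ_mk ?_ ?_ ?_ <;>
  (repeat' (first
      | assumption
      | exact PHC_U _ | exact PHC_W _ | exact PHC_const _
      | refine PHC_smul (fun _ _ _ => rfl) ?_
      | refine PHC_vexp ?_
      | refine PHC_conv ?_ ?_
      | refine PHC_add ?_ ?_
      | refine PHC_sub ?_ ?_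
      | refine PHC_neg ?_
      | refine PHC_clm _ ?_))

theorem PHCJ_jg : PHCJ (jg L) := by
  have hyp1 := PHC_gg L
  have hyp2 := PHC_al1 L
  have hyp3 := PHC_al2 L
  refine PHCJ_mk ?_ ?_ ?_ <;>
  (repeat' (first
      | assumption
      | exact PHC_U _ | exact PHC_W _ | exact PHC_const _
      | refine PHC_smul (fun _ _ _ => rfl) ?_
      | refine PHC_vexp ?_
      | refine PHC_conv ?_ ?_
      | refine PHC_add ?_ ?_
      | refine PHC_sub ?_ ?_
      | refine PHC_neg ?_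
      | refine PHC_clm _ ?_))

theorem PHCJ_jl1 : PHCJ (jl1 L) := PHCJ_mk (PHC_la1 L) (PHC_lx1 L) (PHC_ly1 L)
theorem PHCJ_jl2 : PHCJ (jl2 L) := PHCJ_mk (PHC_la2 L) (PHC_lx2 L) (PHC_ly2 L)

theorem PHCJ_jlz : PHCJ (jlz L) := by
  intro i
  have h1 := PHCJ_jl1 L i
  have h2 := PHCJ_jl2 L i
  show CD (fun q => (1 / 2 : ℝ) • (jl1 L q i + im (jl2 L q i)))
  repeat' (first
    | assumption
    | exact PHC_U _ | exact PHC_W _ | exact PHC_const _
    | refine PHC_smul (fun _ _ _ => rfl) ?_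
    | refine PHC_vexp ?_
    | refine PHC_conv ?_ ?_
    | refine PHC_add ?_ ?_
    | refine PHC_sub ?_ ?_
    | refine PHC_neg ?_
    | refine PHC_clm _ ?_)

theorem PHCJ_jZ : PHCJ (jZ L) := by
  have hyp1 := PHC_Zz L
  refine PHCJ_mk ?_ ?_ ?_ <;>
  (repeat' (first
      | assumption
      | exact PHC_U _ | exact PHC_W _ | exact PHC_const _
      | refine PHC_smul (fun _ _ _ => rfl) ?_
      | refine PHC_vexp ?_
      | refine PHC_conv ?_ ?_
      | refine PHC_add ?_ ?_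
      | refine PHC_sub ?_ ?_
      | refine PHC_neg ?_
      | refine PHC_clm _ ?_))

theorem PHCJ_jT : PHCJ (jT L) := by
  show PHCJ (fun q => jc (jJ (jZ L q)) (jP L q - (ee q ^ 2 / 2) • jc (jg L q)
    (jc (jl1 L q) (jl1 L q) + jc (jl2 L q) (jl2 L q))))
  exact PHCJ_jc (PHCJ_jJ (PHCJ_jZ L)) (PHCJ_sub (PHCJ_jP L) (PHCJ_smul (fun _ _ _ => rfl)
    (PHCJ_jc (PHCJ_jg L) (PHCJ_add (PHCJ_jc (PHCJ_jl1 L) (PHCJ_jl1 L))
      (PHCJ_jc (PHCJ_jl2 L) (PHCJ_jl2 L))))))

theorem PHCJ_jR : PHCJ (jR L) := by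
  show PHCJ (fun q => - (ee q • jc (jc (jg L q) (jc (jlz L q) (jlz L q)))
      (jc (jZ L q) (jJ (jZ L q)) + ee q ^ 2 • jc (jy q) (jJ (jy q))))
    - jc (jy q) (jT L q - jone))
  exact PHCJ_sub (PHCJ_neg (PHCJ_smul (fun _ _ _ => rfl) (PHCJ_jc
    (PHCJ_jc (PHCJ_jg L) (PHCJ_jc (PHCJ_jlz L) (PHCJ_jlz L)))
    (PHCJ_add (PHCJ_jc (PHCJ_jZ L) (PHCJ_jJ (PHCJ_jZ L)))
      (PHCJ_smul (fun _ _ _ => rfl) (PHCJ_jc PHCJ_jy (PHCJ_jJ PHCJ_jy)))))))
    (PHCJ_jc PHCJ_jy (PHCJ_sub (PHCJ_jT L) PHCJ_jone))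

end PHCdefs

theorem CD_Phi (L : Lat) : CD (Phi L) := by
  intro r
  rw [contDiff_pi]
  intro i
  fin_cases i
  · exact PHC_newu L r
  · exact PHCJ_jR L 0 r
  · exact PHCJ_jR L 1 r
  · exact PHCJ_jR L 2 r

end P205T.K
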