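import Vale.Agent.P205K.Exp

/-! Module PHT: translations. -/

open Complex ComplexConjugate
open scoped ContDiff

set_option linter.unusedSimpArgs false

namespace P205T.K

/-- translate unknowns and coefficients -/
noncomputable def TQ (L : Lat) (t : ℂ) (q : Q) : Q :=
  (fun i => T L t (q.1 i), (fun i => T L t (q.2.1 i), q.2.2))

section PHT

variable (L : Lat) (t : ℂ) (q : Q)

theorem PHT_conv (a b : V) : T L t (conv a b) = conv (T L t a) (T L t b) :=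
  (conv_T L t a b).symm

theorem PHT_mult (m : ℤ × ℤ → ℂ) (c : V) : T L t (mult m c) = mult m (T L t c) := by
  by_cases hm : Bdd m
  · exact (mult_T hm L t c).symm
  · have h0 : mult m = 0 := by unfold mult; rw [dif_neg hm]
    rw [h0]
    simp

theorem PHT_J (c : V) : T L t (J c) = J (T L t c) := by
  ext n
  rw [T_apply, J_apply, J_apply, T_apply, map_mul, WApi1a_ch_neg, Complex.conj_conj]

theorem PHT_add (a b : V) : T L t (a + b) = T L t a + T L t b := map_add _ a b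
theorem PHT_sub (a b : V) : T L t (a - b) = T L t a - T L t b := map_sub _ a b
theorem PHT_neg (a : V) : T L t (-a) = -T L t a := map_neg _ a
theorem PHT_smul (c : ℝ) (a : V) : T L t (c • a) = c • T L t a := map_smul _ c a

theorem PHT_one : T L t one = one := T_one L t

theorem PHT_im (c : V) : T L t (im c) = im (T L t c) := PHT_mult L t _ c

theorem PHT_re (c : V) : T L t (re c) = re (T L t c) := by
  unfold re
  rw [map_smul, map_add, PHT_J]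

theorem PHT_vexp (c : V) : T L t (vexp c) = vexp (T L t c) := (vexp_T L t c).symm

@[simp] theorem PHT_1 (i : Fin 4) : (TQ L t q).1 i = T L t (q.1 i) := rfl
@[simp] theorem PHT_21 (i : Fin 7) : (TQ L t q).2.1 i = T L t (q.2.1 i) := rfl
@[simp] theorem PHT_22 : (TQ L t q).2.2 = q.2.2 := rfl
@[simp] theorem PHT_eta : eta (TQ L t q) = eta q := rfl
@[simp] theorem PHT_ee : ee (TQ L t q) = ee q := rfl
@[simp] theorem PHT_kap : kap (TQ L t q) = kap q := rfl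

theorem PHT_V_al : al L (TQ L t q) = T L t (al L q) := by
  unfold al
  simp only [PHT_1, PHT_21, PHT_22, PHT_eta, PHT_ee, PHT_kap, PHT_add, PHT_sub, PHT_neg, PHT_smul,
    PHT_conv, PHT_mult, PHT_J, PHT_one, PHT_im, PHT_re, PHT_vexp]

theorem PHT_V_al1 : al1 L (TQ L t q) = T L t (al1 L q) := by
  unfold al1
  simp only [PHT_1, PHT_21, PHT_22, PHT_eta, PHT_ee, PHT_kap, PHT_add, PHT_sub, PHT_neg, PHT_smul,
    PHT_conv, PHT_mult, PHT_J, PHT_one, PHT_im, PHT_re, PHT_vexp]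

theorem PHT_V_al2 : al2 L (TQ L t q) = T L t (al2 L q) := by
  unfold al2
  simp only [PHT_1, PHT_21, PHT_22, PHT_eta, PHT_ee, PHT_kap, PHT_add, PHT_sub, PHT_neg, PHT_smul,
    PHT_conv, PHT_mult, PHT_J, PHT_one, PHT_im, PHT_re, PHT_vexp]

theorem PHT_V_al11 : al11 L (TQ L t q) = T L t (al11 L q) := by
  unfold al11
  simp only [PHT_1, PHT_21, PHT_22, PHT_eta, PHT_ee, PHT_kap, PHT_add, PHT_sub, PHT_neg, PHT_smul,
    PHT_conv, PHT_mult, PHT_J, PHT_one, PHT_im, PHT_re, PHT_vexp]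

theorem PHT_V_al12 : al12 L (TQ L t q) = T L t (al12 L q) := by
  unfold al12
  simp only [PHT_1, PHT_21, PHT_22, PHT_eta, PHT_ee, PHT_kap, PHT_add, PHT_sub, PHT_neg, PHT_smul,
    PHT_conv, PHT_mult, PHT_J, PHT_one, PHT_im, PHT_re, PHT_vexp]

theorem PHT_V_al22 : al22 L (TQ L t q) = T L t (al22 L q) := by
  unfold al22
  simp only [PHT_1, PHT_21, PHT_22, PHT_eta, PHT_ee, PHT_kap, PHT_add, PHT_sub, PHT_neg, PHT_smul,
    PHT_conv, PHT_mult, PHT_J, PHT_one, PHT_im, PHT_re, PHT_vexp]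

theorem PHT_V_q0 : q0 L (TQ L t q) = T L t (q0 L q) := by
  unfold q0
  simp only [PHT_1, PHT_21, PHT_22, PHT_eta, PHT_ee, PHT_kap, PHT_add, PHT_sub, PHT_neg, PHT_smul,
    PHT_conv, PHT_mult, PHT_J, PHT_one, PHT_im, PHT_re, PHT_vexp]

theorem PHT_V_q1 : q1 L (TQ L t q) = T L t (q1 L q) := by
  unfold q1
  simp only [PHT_1, PHT_21, PHT_22, PHT_eta, PHT_ee, PHT_kap, PHT_add, PHT_sub, PHT_neg, PHT_smul,
    PHT_conv, PHT_mult, PHT_J, PHT_one, PHT_im, PHT_re, PHT_vexp]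

theorem PHT_V_q2 : q2 L (TQ L t q) = T L t (q2 L q) := by
  unfold q2
  simp only [PHT_1, PHT_21, PHT_22, PHT_eta, PHT_ee, PHT_kap, PHT_add, PHT_sub, PHT_neg, PHT_smul,
    PHT_conv, PHT_mult, PHT_J, PHT_one, PHT_im, PHT_re, PHT_vexp]

theorem PHT_V_q11 : q11 L (TQ L t q) = T L t (q11 L q) := by
  unfold q11
  simp only [PHT_1, PHT_21, PHT_22, PHT_eta, PHT_ee, PHT_kap, PHT_add, PHT_sub, PHT_neg, PHT_smul,
    PHT_conv, PHT_mult, PHT_J, PHT_one, PHT_im, PHT_re, PHT_vexp]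

theorem PHT_V_q12 : q12 L (TQ L t q) = T L t (q12 L q) := by
  unfold q12
  simp only [PHT_1, PHT_21, PHT_22, PHT_eta, PHT_ee, PHT_kap, PHT_add, PHT_sub, PHT_neg, PHT_smul,
    PHT_conv, PHT_mult, PHT_J, PHT_one, PHT_im, PHT_re, PHT_vexp]

theorem PHT_V_q22 : q22 L (TQ L t q) = T L t (q22 L q) := by
  unfold q22
  simp only [PHT_1, PHT_21, PHT_22, PHT_eta, PHT_ee, PHT_kap, PHT_add, PHT_sub, PHT_neg, PHT_smul,
    PHT_conv, PHT_mult, PHT_J, PHT_one, PHT_im, PHT_re, PHT_vexp]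

theorem PHT_V_Ep : Ep L (TQ L t q) = T L t (Ep L q) := by
  unfold Ep
  simp only [PHT_1, PHT_21, PHT_22, PHT_eta, PHT_ee, PHT_kap, PHT_add, PHT_sub, PHT_neg, PHT_smul,
    PHT_conv, PHT_mult, PHT_J, PHT_one, PHT_im, PHT_re, PHT_vexp, PHT_V_q0]

theorem PHT_V_Em : Em L (TQ L t q) = T L t (Em L q) := by
  unfold Em
  simp only [PHT_1, PHT_21, PHT_22, PHT_eta, PHT_ee, PHT_kap, PHT_add, PHT_sub, PHT_neg, PHT_smul,
    PHT_conv, PHT_mult, PHT_J, PHT_one, PHT_im, PHT_re, PHT_vexp, PHT_V_q0]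

theorem PHT_V_c2 : c2 L (TQ L t q) = T L t (c2 L q) := by
  unfold c2
  simp only [PHT_1, PHT_21, PHT_22, PHT_eta, PHT_ee, PHT_kap, PHT_add, PHT_sub, PHT_neg, PHT_smul,
    PHT_conv, PHT_mult, PHT_J, PHT_one, PHT_im, PHT_re, PHT_vexp, PHT_V_Ep, PHT_V_Em]

theorem PHT_V_s2 : s2 L (TQ L t q) = T L t (s2 L q) := by
  unfold s2
  simp only [PHT_1, PHT_21, PHT_22, PHT_eta, PHT_ee, PHT_kap, PHT_add, PHT_sub, PHT_neg, PHT_smul,
    PHT_conv, PHT_mult, PHT_J, PHT_one, PHT_im, PHT_re, PHT_vexp, PHT_V_Ep, PHT_V_Em]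

theorem PHT_V_yy : yy L (TQ L t q) = T L t (yy L q) := by
  unfold yy
  simp only [PHT_1, PHT_21, PHT_22, PHT_eta, PHT_ee, PHT_kap, PHT_add, PHT_sub, PHT_neg, PHT_smul,
    PHT_conv, PHT_mult, PHT_J, PHT_one, PHT_im, PHT_re, PHT_vexp, PHT_V_c2]

theorem PHT_V_yy2 : yy2 L (TQ L t q) = T L t (yy2 L q) := by
  unfold yy2
  simp only [PHT_1, PHT_21, PHT_22, PHT_eta, PHT_ee, PHT_kap, PHT_add, PHT_sub, PHT_neg, PHT_smul,
    PHT_conv, PHT_mult, PHT_J, PHT_one, PHT_im, PHT_re, PHT_vexp, PHT_V_yy]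

theorem PHT_V_yy3 : yy3 L (TQ L t q) = T L t (yy3 L q) := by
  unfold yy3
  simp only [PHT_1, PHT_21, PHT_22, PHT_eta, PHT_ee, PHT_kap, PHT_add, PHT_sub, PHT_neg, PHT_smul,
    PHT_conv, PHT_mult, PHT_J, PHT_one, PHT_im, PHT_re, PHT_vexp, PHT_V_yy, PHT_V_yy2]

theorem PHT_V_yy4 : yy4 L (TQ L t q) = T L t (yy4 L q) := by
  unfold yy4
  simp only [PHT_1, PHT_21, PHT_22, PHT_eta, PHT_ee, PHT_kap, PHT_add, PHT_sub, PHT_neg, PHT_smul,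
    PHT_conv, PHT_mult, PHT_J, PHT_one, PHT_im, PHT_re, PHT_vexp, PHT_V_yy, PHT_V_yy3]

theorem PHT_V_vv : vv L (TQ L t q) = T L t (vv L q) := by
  unfold vv
  simp only [PHT_1, PHT_21, PHT_22, PHT_eta, PHT_ee, PHT_kap, PHT_add, PHT_sub, PHT_neg, PHT_smul,
    PHT_conv, PHT_mult, PHT_J, PHT_one, PHT_im, PHT_re, PHT_vexp, PHT_V_yy, PHT_V_yy2, PHT_V_yy3, PHT_V_yy4]

theorem PHT_V_vv' : vv' L (TQ L t q) = T L t (vv' L q) := by
  unfold vv'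
  simp only [PHT_1, PHT_21, PHT_22, PHT_eta, PHT_ee, PHT_kap, PHT_add, PHT_sub, PHT_neg, PHT_smul,
    PHT_conv, PHT_mult, PHT_J, PHT_one, PHT_im, PHT_re, PHT_vexp, PHT_V_yy, PHT_V_yy2, PHT_V_yy3]

theorem PHT_V_vv'' : vv'' L (TQ L t q) = T L t (vv'' L q) := by
  unfold vv''
  simp only [PHT_1, PHT_21, PHT_22, PHT_eta, PHT_ee, PHT_kap, PHT_add, PHT_sub, PHT_neg, PHT_smul,
    PHT_conv, PHT_mult, PHT_J, PHT_one, PHT_im, PHT_re, PHT_vexp, PHT_V_yy, PHT_V_yy2]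

theorem PHT_V_Pv : Pv L (TQ L t q) = T L t (Pv L q) := by
  unfold Pv
  simp only [PHT_1, PHT_21, PHT_22, PHT_eta, PHT_ee, PHT_kap, PHT_add, PHT_sub, PHT_neg, PHT_smul,
    PHT_conv, PHT_mult, PHT_J, PHT_one, PHT_im, PHT_re, PHT_vexp, PHT_V_vv]

theorem PHT_V_p1 : p1 L (TQ L t q) = T L t (p1 L q) := by
  unfold p1
  simp only [PHT_1, PHT_21, PHT_22, PHT_eta, PHT_ee, PHT_kap, PHT_add, PHT_sub, PHT_neg, PHT_smul,
    PHT_conv, PHT_mult, PHT_J, PHT_one, PHT_im, PHT_re, PHT_vexp, PHT_V_s2, PHT_V_vv']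

theorem PHT_V_p2 : p2 L (TQ L t q) = T L t (p2 L q) := by
  unfold p2
  simp only [PHT_1, PHT_21, PHT_22, PHT_eta, PHT_ee, PHT_kap, PHT_add, PHT_sub, PHT_neg, PHT_smul,
    PHT_conv, PHT_mult, PHT_J, PHT_one, PHT_im, PHT_re, PHT_vexp, PHT_V_c2, PHT_V_s2, PHT_V_vv', PHT_V_vv'']

theorem PHT_V_sx : sx L (TQ L t q) = T L t (sx L q) := by
  unfold sx
  simp only [PHT_1, PHT_21, PHT_22, PHT_eta, PHT_ee, PHT_kap, PHT_add, PHT_sub, PHT_neg, PHT_smul,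
    PHT_conv, PHT_mult, PHT_J, PHT_one, PHT_im, PHT_re, PHT_vexp, PHT_V_q1]

theorem PHT_V_sy : sy L (TQ L t q) = T L t (sy L q) := by
  unfold sy
  simp only [PHT_1, PHT_21, PHT_22, PHT_eta, PHT_ee, PHT_kap, PHT_add, PHT_sub, PHT_neg, PHT_smul,
    PHT_conv, PHT_mult, PHT_J, PHT_one, PHT_im, PHT_re, PHT_vexp, PHT_V_q2]

theorem PHT_V_U1 : U1 L (TQ L t q) = T L t (U1 L q) := by
  unfold U1
  simp only [PHT_1, PHT_21, PHT_22, PHT_eta, PHT_ee, PHT_kap, PHT_add, PHT_sub, PHT_neg, PHT_smul,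
    PHT_conv, PHT_mult, PHT_J, PHT_one, PHT_im, PHT_re, PHT_vexp, PHT_V_al1]

theorem PHT_V_U2 : U2 L (TQ L t q) = T L t (U2 L q) := by
  unfold U2
  simp only [PHT_1, PHT_21, PHT_22, PHT_eta, PHT_ee, PHT_kap, PHT_add, PHT_sub, PHT_neg, PHT_smul,
    PHT_conv, PHT_mult, PHT_J, PHT_one, PHT_im, PHT_re, PHT_vexp, PHT_V_al2]

theorem PHT_V_la1 : la1 L (TQ L t q) = T L t (la1 L q) := by
  unfold la1
  simp only [PHT_1, PHT_21, PHT_22, PHT_eta, PHT_ee, PHT_kap, PHT_add, PHT_sub, PHT_neg, PHT_smul,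
    PHT_conv, PHT_mult, PHT_J, PHT_one, PHT_im, PHT_re, PHT_vexp, PHT_V_Pv, PHT_V_p1, PHT_V_sx, PHT_V_U1]

theorem PHT_V_la2 : la2 L (TQ L t q) = T L t (la2 L q) := by
  unfold la2
  simp only [PHT_1, PHT_21, PHT_22, PHT_eta, PHT_ee, PHT_kap, PHT_add, PHT_sub, PHT_neg, PHT_smul,
    PHT_conv, PHT_mult, PHT_J, PHT_one, PHT_im, PHT_re, PHT_vexp, PHT_V_Pv, PHT_V_p1, PHT_V_sy, PHT_V_U2]

theorem PHT_V_lx1 : lx1 L (TQ L t q) = T L t (lx1 L q) := by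
  unfold lx1
  simp only [PHT_1, PHT_21, PHT_22, PHT_eta, PHT_ee, PHT_kap, PHT_add, PHT_sub, PHT_neg, PHT_smul,
    PHT_conv, PHT_mult, PHT_J, PHT_one, PHT_im, PHT_re, PHT_vexp, PHT_V_al11, PHT_V_q11, PHT_V_Pv, PHT_V_p1, PHT_V_p2, PHT_V_sx, PHT_V_U1]

theorem PHT_V_lx2 : lx2 L (TQ L t q) = T L t (lx2 L q) := by
  unfold lx2
  simp only [PHT_1, PHT_21, PHT_22, PHT_eta, PHT_ee, PHT_kap, PHT_add, PHT_sub, PHT_neg, PHT_smul,
    PHT_conv, PHT_mult, PHT_J, PHT_one, PHT_im, PHT_re, PHT_vexp, PHT_V_al12, PHT_V_q12, PHT_V_Pv, PHT_V_p1, PHT_V_p2, PHT_V_sx, PHT_V_sy, PHT_V_U2]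

theorem PHT_V_ly1 : ly1 L (TQ L t q) = T L t (ly1 L q) := by
  unfold ly1
  simp only [PHT_1, PHT_21, PHT_22, PHT_eta, PHT_ee, PHT_kap, PHT_add, PHT_sub, PHT_neg, PHT_smul,
    PHT_conv, PHT_mult, PHT_J, PHT_one, PHT_im, PHT_re, PHT_vexp, PHT_V_al12, PHT_V_q12, PHT_V_Pv, PHT_V_p1, PHT_V_p2, PHT_V_sx, PHT_V_sy, PHT_V_U1]

theorem PHT_V_ly2 : ly2 L (TQ L t q) = T L t (ly2 L q) := by
  unfold ly2
  simp only [PHT_1, PHT_21, PHT_22, PHT_eta, PHT_ee, PHT_kap, PHT_add, PHT_sub, PHT_neg, PHT_smul,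
    PHT_conv, PHT_mult, PHT_J, PHT_one, PHT_im, PHT_re, PHT_vexp, PHT_V_al22, PHT_V_q22, PHT_V_Pv, PHT_V_p1, PHT_V_p2, PHT_V_sy, PHT_V_U2]

theorem PHT_V_gg : gg L (TQ L t q) = T L t (gg L q) := by
  unfold gg
  simp only [PHT_1, PHT_21, PHT_22, PHT_eta, PHT_ee, PHT_kap, PHT_add, PHT_sub, PHT_neg, PHT_smul,
    PHT_conv, PHT_mult, PHT_J, PHT_one, PHT_im, PHT_re, PHT_vexp, PHT_V_al]

theorem PHT_V_LL : LL L (TQ L t q) = T L t (LL L q) := by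
  unfold LL
  simp only [PHT_1, PHT_21, PHT_22, PHT_eta, PHT_ee, PHT_kap, PHT_add, PHT_sub, PHT_neg, PHT_smul,
    PHT_conv, PHT_mult, PHT_J, PHT_one, PHT_im, PHT_re, PHT_vexp, PHT_V_la1, PHT_V_la2]

theorem PHT_V_om : om L (TQ L t q) = T L t (om L q) := by
  unfold om
  simp only [PHT_1, PHT_21, PHT_22, PHT_eta, PHT_ee, PHT_kap, PHT_add, PHT_sub, PHT_neg, PHT_smul,
    PHT_conv, PHT_mult, PHT_J, PHT_one, PHT_im, PHT_re, PHT_vexp, PHT_V_Pv, PHT_V_gg, PHT_V_LL]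

theorem PHT_V_m11 : m11 L (TQ L t q) = T L t (m11 L q) := by
  unfold m11
  simp only [PHT_1, PHT_21, PHT_22, PHT_eta, PHT_ee, PHT_kap, PHT_add, PHT_sub, PHT_neg, PHT_smul,
    PHT_conv, PHT_mult, PHT_J, PHT_one, PHT_im, PHT_re, PHT_vexp, PHT_V_la1, PHT_V_gg, PHT_V_om]

theorem PHT_V_m12 : m12 L (TQ L t q) = T L t (m12 L q) := by
  unfold m12
  simp only [PHT_1, PHT_21, PHT_22, PHT_eta, PHT_ee, PHT_kap, PHT_add, PHT_sub, PHT_neg, PHT_smul,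
    PHT_conv, PHT_mult, PHT_J, PHT_one, PHT_im, PHT_re, PHT_vexp, PHT_V_la1, PHT_V_la2, PHT_V_gg]

theorem PHT_V_m22 : m22 L (TQ L t q) = T L t (m22 L q) := by
  unfold m22
  simp only [PHT_1, PHT_21, PHT_22, PHT_eta, PHT_ee, PHT_kap, PHT_add, PHT_sub, PHT_neg, PHT_smul,
    PHT_conv, PHT_mult, PHT_J, PHT_one, PHT_im, PHT_re, PHT_vexp, PHT_V_la2, PHT_V_gg, PHT_V_om]

theorem PHT_V_h11 : h11 L (TQ L t q) = T L t (h11 L q) := by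
  unfold h11
  simp only [PHT_1, PHT_21, PHT_22, PHT_eta, PHT_ee, PHT_kap, PHT_add, PHT_sub, PHT_neg, PHT_smul,
    PHT_conv, PHT_mult, PHT_J, PHT_one, PHT_im, PHT_re, PHT_vexp, PHT_V_al11, PHT_V_q11, PHT_V_Pv, PHT_V_p1, PHT_V_p2, PHT_V_sx, PHT_V_la1, PHT_V_la2]

theorem PHT_V_H12 : H12 L (TQ L t q) = T L t (H12 L q) := by
  unfold H12
  simp only [PHT_1, PHT_21, PHT_22, PHT_eta, PHT_ee, PHT_kap, PHT_add, PHT_sub, PHT_neg, PHT_smul,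
    PHT_conv, PHT_mult, PHT_J, PHT_one, PHT_im, PHT_re, PHT_vexp, PHT_V_al12, PHT_V_q2, PHT_V_q12, PHT_V_Pv, PHT_V_p1, PHT_V_p2, PHT_V_sx, PHT_V_la1, PHT_V_la2]

theorem PHT_V_H22 : H22 L (TQ L t q) = T L t (H22 L q) := by
  unfold H22
  simp only [PHT_1, PHT_21, PHT_22, PHT_eta, PHT_ee, PHT_kap, PHT_add, PHT_sub, PHT_neg, PHT_smul,
    PHT_conv, PHT_mult, PHT_J, PHT_one, PHT_im, PHT_re, PHT_vexp, PHT_V_al22, PHT_V_q2, PHT_V_q22, PHT_V_Pv, PHT_V_p1, PHT_V_p2, PHT_V_la1, PHT_V_la2]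

theorem PHT_V_U11 : U11 L (TQ L t q) = T L t (U11 L q) := by
  unfold U11
  simp only [PHT_1, PHT_21, PHT_22, PHT_eta, PHT_ee, PHT_kap, PHT_add, PHT_sub, PHT_neg, PHT_smul,
    PHT_conv, PHT_mult, PHT_J, PHT_one, PHT_im, PHT_re, PHT_vexp, PHT_V_al11, PHT_V_U1, PHT_V_U2]

theorem PHT_V_U12 : U12 L (TQ L t q) = T L t (U12 L q) := by
  unfold U12
  simp only [PHT_1, PHT_21, PHT_22, PHT_eta, PHT_ee, PHT_kap, PHT_add, PHT_sub, PHT_neg, PHT_smul,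
    PHT_conv, PHT_mult, PHT_J, PHT_one, PHT_im, PHT_re, PHT_vexp, PHT_V_al12, PHT_V_U1, PHT_V_U2]

theorem PHT_V_U22 : U22 L (TQ L t q) = T L t (U22 L q) := by
  unfold U22
  simp only [PHT_1, PHT_21, PHT_22, PHT_eta, PHT_ee, PHT_kap, PHT_add, PHT_sub, PHT_neg, PHT_smul,
    PHT_conv, PHT_mult, PHT_J, PHT_one, PHT_im, PHT_re, PHT_vexp, PHT_V_al22, PHT_V_U1, PHT_V_U2]

theorem PHT_V_EE : EE L (TQ L t q) = T L t (EE L q) := by
  unfold EE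
  simp only [PHT_1, PHT_21, PHT_22, PHT_eta, PHT_ee, PHT_kap, PHT_add, PHT_sub, PHT_neg, PHT_smul,
    PHT_conv, PHT_mult, PHT_J, PHT_one, PHT_im, PHT_re, PHT_vexp, PHT_V_Pv, PHT_V_U1, PHT_V_U2, PHT_V_la1, PHT_V_la2, PHT_V_gg, PHT_V_om, PHT_V_m11, PHT_V_m12, PHT_V_m22, PHT_V_h11, PHT_V_H12, PHT_V_H22, PHT_V_U11, PHT_V_U12, PHT_V_U22]

theorem PHT_V_r0 : r0 L (TQ L t q) = T L t (r0 L q) := by
  unfold r0
  simp only [PHT_1, PHT_21, PHT_22, PHT_eta, PHT_ee, PHT_kap, PHT_add, PHT_sub, PHT_neg, PHT_smul,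
    PHT_conv, PHT_mult, PHT_J, PHT_one, PHT_im, PHT_re, PHT_vexp]

theorem PHT_V_Zz : Zz L (TQ L t q) = T L t (Zz L q) := by
  unfold Zz
  simp only [PHT_1, PHT_21, PHT_22, PHT_eta, PHT_ee, PHT_kap, PHT_add, PHT_sub, PHT_neg, PHT_smul,
    PHT_conv, PHT_mult, PHT_J, PHT_one, PHT_im, PHT_re, PHT_vexp, PHT_V_r0]

theorem PHT_V_GG : GG L (TQ L t q) = T L t (GG L q) := by
  unfold GG
  simp only [PHT_1, PHT_21, PHT_22, PHT_eta, PHT_ee, PHT_kap, PHT_add, PHT_sub, PHT_neg, PHT_smul,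
    PHT_conv, PHT_mult, PHT_J, PHT_one, PHT_im, PHT_re, PHT_vexp, PHT_V_al, PHT_V_Pv, PHT_V_gg, PHT_V_LL, PHT_V_Zz]

theorem PHT_V_newu : newu L (TQ L t q) = T L t (newu L q) := by
  unfold newu
  simp only [PHT_1, PHT_21, PHT_22, PHT_eta, PHT_ee, PHT_kap, PHT_add, PHT_sub, PHT_neg, PHT_smul,
    PHT_conv, PHT_mult, PHT_J, PHT_one, PHT_im, PHT_re, PHT_vexp, PHT_V_EE, PHT_V_GG]

/-- translation of a jet -/
noncomputable def PHT_TJ (a : Jt) : Jt := fun i => T L t (a i)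

theorem PHT_TJ_add (a b : Jt) : PHT_TJ L t (a + b) = PHT_TJ L t a + PHT_TJ L t b := by
  funext i
  exact map_add (T L t) (a i) (b i)

theorem PHT_TJ_sub (a b : Jt) : PHT_TJ L t (a - b) = PHT_TJ L t a - PHT_TJ L t b := by
  funext i
  exact map_sub (T L t) (a i) (b i)

theorem PHT_TJ_neg (a : Jt) : PHT_TJ L t (-a) = -PHT_TJ L t a := by
  funext i
  exact map_neg (T L t) (a i)

theorem PHT_TJ_smul (c : ℝ) (a : Jt) : PHT_TJ L t (c • a) = c • PHT_TJ L t a := by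
  funext i
  exact map_smul (T L t) c (a i)

theorem PHT_TJ_jJ (a : Jt) : PHT_TJ L t (jJ a) = jJ (PHT_TJ L t a) := by
  funext i
  exact PHT_J L t (a i)

theorem PHT_TJ_jc (a b : Jt) : PHT_TJ L t (jc a b) = jc (PHT_TJ L t a) (PHT_TJ L t b) := by
  funext i
  fin_cases i <;> simp [PHT_TJ, jc, PHT_conv]

theorem PHT_TJ_jone : PHT_TJ L t jone = jone := by
  funext i
  fin_cases i <;> simp [PHT_TJ, jone, PHT_one]

theorem PHT_jy : jy (TQ L t q) = PHT_TJ L t (jy q) := by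
  funext i
  fin_cases i <;> rfl

theorem PHT_jP : jP L (TQ L t q) = PHT_TJ L t (jP L q) := by
  funext i
  fin_cases i <;> simp [PHT_TJ, jP, PHT_conv, PHT_V_Pv, PHT_V_p1, PHT_V_sx, PHT_V_sy]

theorem PHT_jg : jg L (TQ L t q) = PHT_TJ L t (jg L q) := by
  funext i
  fin_cases i <;> simp [PHT_TJ, jg, PHT_conv, PHT_V_gg, PHT_V_al1, PHT_V_al2]

theorem PHT_jl1 : jl1 L (TQ L t q) = PHT_TJ L t (jl1 L q) := by
  funext i
  fin_cases i <;> simp [PHT_TJ, jl1, PHT_V_la1, PHT_V_lx1, PHT_V_ly1]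

theorem PHT_jl2 : jl2 L (TQ L t q) = PHT_TJ L t (jl2 L q) := by
  funext i
  fin_cases i <;> simp [PHT_TJ, jl2, PHT_V_la2, PHT_V_lx2, PHT_V_ly2]

theorem PHT_jlz : jlz L (TQ L t q) = PHT_TJ L t (jlz L q) := by
  funext i
  unfold jlz PHT_TJ
  rw [PHT_jl1, PHT_jl2]
  simp only [PHT_TJ, map_smul, map_add, PHT_im]

theorem PHT_jZ : jZ L (TQ L t q) = PHT_TJ L t (jZ L q) := by
  funext i
  fin_cases i <;> simp [PHT_TJ, jZ, PHT_V_Zz, PHT_mult]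

theorem PHT_jT : jT L (TQ L t q) = PHT_TJ L t (jT L q) := by
  unfold jT
  simp only [PHT_TJ_jc, PHT_TJ_jJ, PHT_TJ_sub, PHT_TJ_add, PHT_TJ_smul, PHT_jP, PHT_jg, PHT_jl1,
    PHT_jl2, PHT_jZ, PHT_ee]

theorem PHT_jR : jR L (TQ L t q) = PHT_TJ L t (jR L q) := by
  unfold jR
  simp only [PHT_TJ_jc, PHT_TJ_jJ, PHT_TJ_sub, PHT_TJ_add, PHT_TJ_smul, PHT_TJ_neg, PHT_TJ_jone,
    PHT_jg, PHT_jlz, PHT_jZ, PHT_jy, PHT_jT, PHT_ee]

end PHT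

theorem Phi_TQ (L : Lat) (t : ℂ) (q : Q) : Phi L (TQ L t q) = fun i => T L t (Phi L q i) := by
  funext i
  unfold Phi
  rw [PHT_jR, PHT_V_newu]
  fin_cases i <;> rfl

end P205T.K
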