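import Vale.Agent.P205K.PolA

/-! # P205K, block P: positivity of the profile polynomials for small `κ` (helper95) -/

open Filter Topology

namespace P205T.K

theorem pol_small {G : ℝ → ℝ × ℝ → ℝ} (hG : Continuous fun z : ℝ × (ℝ × ℝ) => G z.1 z.2)
    {K : Set (ℝ × ℝ)} (hK : IsCompact K) (h0 : ∀ x ∈ K, 0 < G 0 x) :
    ∃ ε > 0, ∀ κ : ℝ, 0 < κ → κ ≤ ε → ∀ x ∈ K, 0 < G κ x := by
  have h1 : ∀ᶠ κ in 𝓝 (0 : ℝ), ∀ x ∈ K, 0 < G κ x := by
    refine hK.eventually_forall_of_forall_eventually fun x hx => ?_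
    have h2 : ∀ᶠ z in 𝓝 ((0 : ℝ), x), 0 < G z.1 z.2 :=
      (hG.tendsto _).eventually (lt_mem_nhds (h0 x hx))
    exact h2
  obtain ⟨ε, hε, h⟩ := Metric.eventually_nhds_iff.1 h1
  refine ⟨ε / 2, by positivity, fun κ hκ hκε x hx => h ?_ x hx⟩
  rw [Real.dist_eq, sub_zero, abs_of_pos hκ]
  linarith

theorem pol_pos_id : ∃ r : ℝ → ℝ → ℝ → ℝ,
    (∀ κ A y, cA κ A * UP κ A y * VP κ A y * (1 - κ * vP κ A y) - vP' κ A y ^ 2
      = κ * (y ^ 2 * (1 - y) * r κ A y)) ∧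
    (∀ κ A, ContDiff ℝ ⊤ (r κ A)) ∧
    ∃ κ₀ > 0, κ₀ ≤ 1 / 2 ∧ ∀ κ : ℝ, 0 < κ → κ ≤ κ₀ → ∀ A ∈ Set.Icc (3/4 : ℝ) (9/2), ∀ y ∈ Set.Icc (0 : ℝ) 1,
      0 < UP κ A y ∧ 0 < VP κ A y ∧ 0 < 1 - κ * vP κ A y ∧ 0 < r κ A y := by
  refine ⟨rpol, rpol_id, fun κ A => ?_, ?_⟩
  · unfold rpol; fun_prop
  · have hK : IsCompact (Set.Icc (3/4 : ℝ) (9/2) ×ˢ Set.Icc (0 : ℝ) 1) := isCompact_Icc.prod isCompact_Icc
    obtain ⟨e1, he1, h1⟩ := pol_small (G := fun κ x => UP κ x.1 x.2) (by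
      unfold UP cD cB mu2 cA; fun_prop) hK (fun x _ => by
      have : UP 0 x.1 x.2 = 1 := by unfold UP cD cB mu2 cA; ring
      rw [this]; norm_num)
    obtain ⟨e2, he2, h2⟩ := pol_small (G := fun κ x => VP κ x.1 x.2) (by
      unfold VP cD cC cB mu2 cA; fun_prop) hK (fun x _ => by
      have : VP 0 x.1 x.2 = 1 := by unfold VP cD cC cB mu2 cA; ring
      rw [this]; norm_num)
    obtain ⟨e3, he3, h3⟩ := pol_small (G := fun κ x => 1 - κ * vP κ x.1 x.2) (by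
      unfold vP cD cC cB mu2 cA; fun_prop) hK (fun x _ => by
      rw [zero_mul, sub_zero]; norm_num)
    obtain ⟨e4, he4, h4⟩ := pol_small (G := fun κ x => rpol κ x.1 x.2) (by
      unfold rpol Sc0 Sc1 Sc2 Sc3 Sc4 Sc5 Sc6 Sc7; fun_prop) hK (fun x hx => by
      have : rpol 0 x.1 x.2 = 16 * x.1 - 8 := by unfold rpol; ring
      rw [this]
      have := hx.1.1
      linarith)
    refine ⟨min (min e1 e2) (min (min e3 e4) (1 / 2)), by positivity,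
      (min_le_right _ _).trans (min_le_right _ _), fun κ hκ hle A hA y hy => ?_⟩
    have g1 : κ ≤ e1 := hle.trans ((min_le_left _ _).trans (min_le_left _ _))
    have g2 : κ ≤ e2 := hle.trans ((min_le_left _ _).trans (min_le_right _ _))
    have g3 : κ ≤ e3 := hle.trans ((min_le_right _ _).trans ((min_le_left _ _).trans (min_le_left _ _)))
    have g4 : κ ≤ e4 := hle.trans ((min_le_right _ _).trans ((min_le_left _ _).trans (min_le_right _ _)))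
    exact ⟨h1 κ hκ g1 (A, y) ⟨hA, hy⟩, h2 κ hκ g2 (A, y) ⟨hA, hy⟩, h3 κ hκ g3 (A, y) ⟨hA, hy⟩,
      h4 κ hκ g4 (A, y) ⟨hA, hy⟩⟩

theorem UP_id (κ A y : ℝ) : (1 - y) * UP κ A y = 1 - vP κ A y := by
  unfold UP vP cD cC cB mu2 cA
  ring

theorem VP_id (κ A y : ℝ) : y * VP κ A y = vP κ A y := by
  unfold VP vP
  ring

end P205T.K
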