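import Mathlib

/-! # P205K, block P: module POLAR (pointwise form of the assembly, one angular function) -/

open Complex ComplexConjugate
open scoped ContDiff

namespace P205T.K

/-- pointwise form of the assembly: one angular function -/
theorem asm_polar {R θ : ℂ → ℝ} {z : ℂ} (hR : DifferentiableAt ℝ R z) (hθ : DifferentiableAt ℝ θ z) (v : ℂ) :
    ‖fderiv ℝ (fun z => (R z : ℂ) * Complex.exp (Complex.I * (θ z : ℂ))) z v‖ ^ 2
      = (fderiv ℝ R z v) ^ 2 + R z ^ 2 * (fderiv ℝ θ z v) ^ 2 := by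
  have h1 : HasFDerivAt (fun z => (R z : ℂ)) (Complex.ofRealCLM.comp (fderiv ℝ R z)) z :=
    Complex.ofRealCLM.hasFDerivAt.comp z hR.hasFDerivAt
  have h2 : HasFDerivAt (fun z => (θ z : ℂ)) (Complex.ofRealCLM.comp (fderiv ℝ θ z)) z :=
    Complex.ofRealCLM.hasFDerivAt.comp z hθ.hasFDerivAt
  have h3 : HasFDerivAt (fun z => Complex.exp (Complex.I * (θ z : ℂ)))
      (Complex.exp (Complex.I * (θ z : ℂ)) • (Complex.I • Complex.ofRealCLM.comp (fderiv ℝ θ z))) z :=
    (h2.const_mul Complex.I).cexp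
  have h4 := (h1.mul h3).fderiv
  have h5 : fderiv ℝ (fun z => (R z : ℂ) * Complex.exp (Complex.I * (θ z : ℂ))) z v =
      Complex.exp (Complex.I * (θ z : ℂ)) *
        (((fderiv ℝ R z v : ℝ) : ℂ) + ((R z * fderiv ℝ θ z v : ℝ) : ℂ) * Complex.I) := by
    have h6 : fderiv ℝ (fun z => (R z : ℂ) * Complex.exp (Complex.I * (θ z : ℂ))) z v =
        (R z : ℂ) * (Complex.exp (Complex.I * (θ z : ℂ)) * (Complex.I * ((fderiv ℝ θ z v : ℝ) : ℂ))) +
        Complex.exp (Complex.I * (θ z : ℂ)) * ((fderiv ℝ R z v : ℝ) : ℂ) := by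
      have h7 := congrArg (fun L => L v) h4
      exact h7
    rw [h6]
    push_cast
    ring
  rw [h5, norm_mul, mul_comm Complex.I, Complex.norm_exp_ofReal_mul_I, one_mul, Complex.sq_norm,
    Complex.normSq_add_mul_I]
  ring

end P205T.K
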