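import Mathlib

/-! # P205K, block P: primitives of odd periodic functions (helper95) -/

open scoped ContDiff Interval
open MeasureTheory

namespace P205T.K

theorem prim_exists {h : ℝ → ℝ} (hh : ContDiff ℝ ∞ h) (hodd : ∀ x, h (-x) = - h x)
    (hper : ∀ x, h (x + 2 * Real.pi) = h x) :
    ∃ F : ℝ → ℝ, ContDiff ℝ ∞ F ∧ (∀ x, HasDerivAt F (h x) x) ∧ (∀ x, F (-x) = F x) ∧
      ∀ x, F (x + 2 * Real.pi) = F x := by
  have hc : Continuous h := hh.continuous
  set F : ℝ → ℝ := fun x => ∫ t in (0 : ℝ)..x, h t with hF
  have hd : ∀ x, HasDerivAt F (h x) x := fun x =>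
    intervalIntegral.integral_hasDerivAt_right (hc.intervalIntegrable _ _)
      (hc.stronglyMeasurableAtFilter _ _) hc.continuousAt
  have hderiv : deriv F = h := funext fun x => (hd x).deriv
  have heven : ∀ x, F (-x) = F x := by
    intro x
    have h1 : ∀ y, HasDerivAt (fun y => F (-y) - F y) 0 y := by
      intro y
      have h2 := ((hd (-y)).comp y (hasDerivAt_neg y)).sub (hd y)
      have h3 : h (-y) * -1 - h y = 0 := by rw [hodd]; ring
      rw [h3] at h2
      exact h2
    have h4 := is_const_of_deriv_eq_zero (fun y => (h1 y).differentiableAt) (fun y => (h1 y).deriv) x 0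
    simp only [neg_zero, sub_self] at h4
    linarith
  refine ⟨F, ?_, hd, heven, ?_⟩
  · rw [contDiff_infty_iff_deriv]
    exact ⟨fun x => (hd x).differentiableAt, by rw [hderiv]; exact hh⟩
  · intro x
    have h1 : ∀ y, HasDerivAt (fun y => F (y + 2 * Real.pi) - F y) 0 y := by
      intro y
      have h2 := ((hd (y + 2 * Real.pi)).comp_add_const y (2 * Real.pi)).sub (hd y)
      rw [hper, sub_self] at h2
      exact h2
    have h4 := is_const_of_deriv_eq_zero (fun y => (h1 y).differentiableAt) (fun y => (h1 y).deriv)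
      x (-Real.pi)
    have h5 : -Real.pi + 2 * Real.pi = Real.pi := by ring
    simp only [h5, heven Real.pi, sub_self] at h4
    linarith

end P205T.K
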