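import Vale.Agent.P205K.Par
import Vale.Agent.P205T.Fourier

/-! Module SOL1: Fourier coefficients of the derivatives of `w`. -/

open Complex ComplexConjugate MeasureTheory
open scoped ContDiff

namespace P205T.K

theorem SOL1_int1 (k : ℤ) : ∫ x in Set.Ioc (0:ℝ) 1, Complex.exp (2 * Real.pi * Complex.I * k * (x : ℂ)) =
    if k = 0 then 1 else 0 := by
  by_cases hk : k = 0
  · rw [if_pos hk, hk]
    simp
  · rw [if_neg hk, ← intervalIntegral.integral_of_le zero_le_one]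
    have hc : (2 * Real.pi * Complex.I * k : ℂ) ≠ 0 := by
      have h1 : (Real.pi : ℂ) ≠ 0 := by exact_mod_cast Real.pi_ne_zero
      have h2 : (k : ℂ) ≠ 0 := by exact_mod_cast hk
      exact mul_ne_zero (mul_ne_zero (mul_ne_zero two_ne_zero h1) Complex.I_ne_zero) h2
    rw [integral_exp_mul_complex hc]
    have h1 : (2 * Real.pi * Complex.I * k : ℂ) * ((1 : ℝ) : ℂ) = k * (2 * Real.pi * Complex.I) := by
      push_cast
      ring
    rw [h1, Complex.exp_int_mul_two_pi_mul_I]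
    simp

theorem SOL1_orth (L : Lat) (n m : ℤ × ℤ) :
    ∫ p in Set.Ioc (0:ℝ) 1 ×ˢ Set.Ioc (0:ℝ) 1, foE n p * ch L m (foPt L p) =
      if m = n then 1 else 0 := by
  have h1 : ∀ p : ℝ × ℝ, foE n p * ch L m (foPt L p) =
      Complex.exp (2 * Real.pi * Complex.I * ((m.1 - n.1 : ℤ) : ℂ) * (p.1 : ℂ)) *
        Complex.exp (2 * Real.pi * Complex.I * ((m.2 - n.2 : ℤ) : ℂ) * (p.2 : ℂ)) := by
    intro p
    have h2 := fo_ch L m p.1 p.2
    have h3 : ((p.1, p.2) : ℝ × ℝ) = p := rfl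
    rw [h3] at h2
    rw [h2]
    unfold foE
    rw [← Complex.exp_add, ← Complex.exp_add]
    congr 1
    push_cast
    ring
  simp_rw [h1]
  rw [MeasureTheory.Measure.volume_eq_prod, MeasureTheory.setIntegral_prod_mul
    (fun x : ℝ => Complex.exp (2 * Real.pi * Complex.I * ((m.1 - n.1 : ℤ) : ℂ) * (x : ℂ)))
    (fun x : ℝ => Complex.exp (2 * Real.pi * Complex.I * ((m.2 - n.2 : ℤ) : ℂ) * (x : ℂ))),
    SOL1_int1, SOL1_int1]
  by_cases hmn : m = n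
  · rw [if_pos hmn, hmn, sub_self, sub_self]
    simp
  · rw [if_neg hmn]
    by_cases h1 : m.1 - n.1 = 0
    · have h2 : m.2 - n.2 ≠ 0 := by
        intro h2
        apply hmn
        ext
        · omega
        · omega
      rw [if_neg h2, mul_zero]
    · rw [if_neg h1, zero_mul]

theorem SOL1_norm_ch (L : Lat) (m : ℤ × ℤ) (z : ℂ) : ‖ch L m z‖ = 1 := by
  unfold ch
  rw [mul_comm, Complex.norm_exp_ofReal_mul_I]

theorem SOL1_cont_ch (L : Lat) (m : ℤ × ℤ) : Continuous (ch L m) := by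
  unfold ch
  fun_prop

theorem SOL1_sum (c : V) : Summable (fun m => ‖c m‖) := by
  have h := lp.memℓp c
  rw [memℓp_gen_iff (by simp)] at h
  simpa using h

/-- uniqueness of the coefficients -/
theorem SOL1_foC_ev (L : Lat) (c : V) (n : ℤ × ℤ) : foC L (fun z => ev L z c) n = c n := by
  unfold foC
  have hvol : MeasureTheory.volume.real (Set.Ioc (0:ℝ) 1 ×ˢ Set.Ioc (0:ℝ) 1) = 1 := by
    rw [MeasureTheory.Measure.volume_eq_prod, MeasureTheory.measureReal_prod_prod]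
    simp
  have h1 : ∀ p : ℝ × ℝ, foE n p * ev L (foPt L p) c =
      ∑' m, c m * (foE n p * ch L m (foPt L p)) := by
    intro p
    rw [ev_apply, ← tsum_mul_left]
    refine tsum_congr fun m => ?_
    ring
  have hcont : ∀ m, Continuous (fun p : ℝ × ℝ => c m * (foE n p * ch L m (foPt L p))) := fun m =>
    continuous_const.mul ((foE_cont n).mul ((SOL1_cont_ch L m).comp (foPt_cont L)))
  have hn : ∀ m (p : ℝ × ℝ), ‖c m * (foE n p * ch L m (foPt L p))‖ = ‖c m‖ := by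
    intro m p
    rw [norm_mul, norm_mul, foE_norm, SOL1_norm_ch, mul_one, mul_one]
  have hint : ∀ m, MeasureTheory.Integrable (fun p : ℝ × ℝ => c m * (foE n p * ch L m (foPt L p)))
      (MeasureTheory.volume.restrict (Set.Ioc (0:ℝ) 1 ×ˢ Set.Ioc (0:ℝ) 1)) := by
    intro m
    have h2 : IsCompact (Set.Icc (0:ℝ) 1 ×ˢ Set.Icc (0:ℝ) 1) := isCompact_Icc.prod isCompact_Icc
    exact ((hcont m).continuousOn.integrableOn_compact h2).mono_set
      (Set.prod_mono Set.Ioc_subset_Icc_self Set.Ioc_subset_Icc_self)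
  have hsum : Summable (fun m => ∫ p in Set.Ioc (0:ℝ) 1 ×ˢ Set.Ioc (0:ℝ) 1,
      ‖c m * (foE n p * ch L m (foPt L p))‖) := by
    have h3 : (fun m => ∫ p in Set.Ioc (0:ℝ) 1 ×ˢ Set.Ioc (0:ℝ) 1,
        ‖c m * (foE n p * ch L m (foPt L p))‖) = fun m => ‖c m‖ := by
      funext m
      simp_rw [hn m]
      rw [MeasureTheory.setIntegral_const, hvol, one_smul]
    rw [h3]
    exact SOL1_sum c
  simp_rw [h1]
  rw [← MeasureTheory.integral_tsum_of_summable_integral_norm hint hsum]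
  have h4 : ∀ m, ∫ p in Set.Ioc (0:ℝ) 1 ×ˢ Set.Ioc (0:ℝ) 1, c m * (foE n p * ch L m (foPt L p)) =
      c m * (if m = n then 1 else 0) := by
    intro m
    rw [MeasureTheory.integral_const_mul, SOL1_orth]
  simp_rw [h4]
  rw [tsum_eq_single n]
  · rw [if_pos rfl, mul_one]
  · intro m hm
    rw [if_neg hm, mul_zero]

theorem SOL1_uniq (L : Lat) (a b : V) (h : ∀ z, ev L z a = ev L z b) : a = b := by
  refine lp.ext (funext fun n => ?_)
  rw [← SOL1_foC_ev L a n, ← SOL1_foC_ev L b n]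
  congr 1
  funext z
  exact h z

theorem SOL1_kx (p h : ℝ) (hp : 0 < p) (hh : 0 < h) (n : ℤ × ℤ) :
    kx (Lr p h hp hh) n = 2 * Real.pi * n.1 / p := by
  unfold kx Lr
  simp only [Complex.conj_ofReal, Complex.mul_im, Complex.ofReal_re, Complex.ofReal_im,
    Complex.mul_re, Complex.I_re, Complex.I_im, Complex.re_ofNat, Complex.im_ofNat]
  field_simp
  ring

theorem SOL1_ky (p h : ℝ) (hp : 0 < p) (hh : 0 < h) (n : ℤ × ℤ) :
    ky (Lr p h hp hh) n = Real.pi * n.2 / h := by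
  unfold ky Lr
  simp only [Complex.conj_ofReal, Complex.mul_im, Complex.ofReal_re, Complex.ofReal_im,
    Complex.mul_re, Complex.I_re, Complex.I_im, Complex.re_ofNat, Complex.im_ofNat]
  field_simp
  ring

theorem SOL1_ch_sig (p h : ℝ) (hp : 0 < p) (hh : 0 < h) (n : ℤ × ℤ) (z : ℂ) :
    ch (Lr p h hp hh) n (sig h z) = sgn n * ch (Lr p h hp hh) (-n.1, n.2) z := by
  unfold ch sgn
  rw [SOL1_kx, SOL1_ky, SOL1_kx, SOL1_ky, ← Complex.exp_pi_mul_I, ← Complex.exp_int_mul,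
    ← Complex.exp_add]
  congr 1
  have h1 : (sig h z).re = - z.re := by
    unfold sig
    simp
  have h2 : (sig h z).im = z.im + h := by
    unfold sig
    simp
  rw [h1, h2]
  have hh' : (h : ℂ) ≠ 0 := by exact_mod_cast hh.ne'
  have hp' : (p : ℂ) ≠ 0 := by exact_mod_cast hp.ne'
  push_cast
  field_simp
  ring

theorem SOL1_ev_Sg (p h : ℝ) (hp : 0 < p) (hh : 0 < h) (c : V) (z : ℂ) :
    ev (Lr p h hp hh) z (Sg c) = ev (Lr p h hp hh) (sig h z) c := by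
  rw [ev_apply, ev_apply]
  let e : (ℤ × ℤ) ≃ (ℤ × ℤ) := (Equiv.neg ℤ).prodCongr (Equiv.refl ℤ)
  rw [← e.tsum_eq]
  refine tsum_congr fun n => ?_
  have he : e n = (-n.1, n.2) := rfl
  rw [he, Sg_apply, SOL1_ch_sig]
  have h1 : sgn (-n.1, n.2) = sgn n := rfl
  rw [h1, neg_neg]
  ring

/-! ### functions -/

theorem SOL1_cd {g : ℂ → ℝ} (hg : ContDiff ℝ ∞ g) (v : ℂ) : ContDiff ℝ ∞ (fun z => fderiv ℝ g z v) :=
  (hg.fderiv_right (m := ∞) (by simp)).clm_apply contDiff_const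

theorem SOL1_per (L : Lat) {g : ℂ → ℝ} (hp : Per L g) (v : ℂ) :
    Per L (fun z => fderiv ℝ g z v) := by
  constructor
  · intro z
    have : (fun w => g (w + L.ω₁)) = g := funext hp.1
    have h2 : fderiv ℝ (fun w => g (w + L.ω₁)) z = fderiv ℝ g (z + L.ω₁) := fderiv_comp_add_right L.ω₁
    simp only
    rw [← h2, this]
  · intro z
    have : (fun w => g (w + L.ω₂)) = g := funext hp.2
    have h2 : fderiv ℝ (fun w => g (w + L.ω₂)) z = fderiv ℝ g (z + L.ω₂) := fderiv_comp_add_right L.ω₂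
    simp only
    rw [← h2, this]

theorem SOL1_sig_d (h : ℝ) (z : ℂ) :
    HasFDerivAt (sig h) (-(Complex.conjCLE : ℂ →L[ℝ] ℂ)) z := by
  unfold sig
  exact ((Complex.conjCLE : ℂ →L[ℝ] ℂ).hasFDerivAt.neg).add_const _

theorem SOL1_sym (h : ℝ) {g : ℂ → ℝ} (hg : ContDiff ℝ ∞ g) (s : ℝ) (hs : ∀ z, g (sig h z) = s * g z)
    (v : ℂ) (z : ℂ) : fderiv ℝ g (sig h z) (-(conj v)) = s * fderiv ℝ g z v := by
  have h1 : HasFDerivAt (fun z => g (sig h z))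
      ((fderiv ℝ g (sig h z)).comp (-(Complex.conjCLE : ℂ →L[ℝ] ℂ))) z :=
    ((hg.differentiable (by simp)) _).hasFDerivAt.comp z (SOL1_sig_d h z)
  have h2 : HasFDerivAt (fun z => s * g z) (s • fderiv ℝ g z) z :=
    ((hg.differentiable (by simp)) _).hasFDerivAt.const_mul s
  have h3 : (fun z => g (sig h z)) = fun z => s * g z := funext hs
  rw [h3] at h1
  have h4 := DFunLike.congr_fun (h1.unique h2) v
  simpa using h4

theorem SOL1_symx (h : ℝ) {g : ℂ → ℝ} (hg : ContDiff ℝ ∞ g) (s : ℝ)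
    (hs : ∀ z, g (sig h z) = s * g z) (z : ℂ) : dx g (sig h z) = (-s) * dx g z := by
  have h1 := SOL1_sym h hg s hs 1 z
  rw [map_one, map_neg] at h1
  unfold dx
  linarith

theorem SOL1_symy (h : ℝ) {g : ℂ → ℝ} (hg : ContDiff ℝ ∞ g) (s : ℝ)
    (hs : ∀ z, g (sig h z) = s * g z) (z : ℂ) : dy g (sig h z) = s * dy g z := by
  have h1 := SOL1_sym h hg s hs Complex.I z
  rw [Complex.conj_I, neg_neg] at h1
  exact h1

theorem SOL1_fd {g : ℂ → ℝ} (hg : ContDiff ℝ ∞ g) (z v : ℂ) :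
    fderiv ℝ (fun z => ((g z : ℝ) : ℂ)) z v = ((fderiv ℝ g z v : ℝ) : ℂ) := by
  have h1 : HasFDerivAt (fun z => ((g z : ℝ) : ℂ)) (Complex.ofRealCLM.comp (fderiv ℝ g z)) z :=
    Complex.ofRealCLM.hasFDerivAt.comp z ((hg.differentiable (by simp)) _).hasFDerivAt
  rw [h1.fderiv]
  rfl

theorem SOL1_foC_d2 (L : Lat) {g : ℂ → ℝ} (hg : ContDiff ℝ ∞ g) (hp : Per L g) (n : ℤ × ℤ) :
    foC L (fun z => ((fderiv ℝ g z L.ω₂ : ℝ) : ℂ)) n =
      (2 * Real.pi * Complex.I * n.2) * foC L (fun z => ((g z : ℝ) : ℂ)) n := by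
  have hg' : ContDiff ℝ ∞ (fun z => (g z : ℂ)) := Complex.ofRealCLM.contDiff.comp hg
  have hp' : Per L (fun z => (g z : ℂ)) :=
    ⟨fun z => by simp only [hp.1 z], fun z => by simp only [hp.2 z]⟩
  rw [← fo_d2 L hg' hp' n]
  congr 1
  funext z
  rw [SOL1_fd hg]

theorem SOL1_foC_d1 (L : Lat) {g : ℂ → ℝ} (hg : ContDiff ℝ ∞ g) (hp : Per L g) (n : ℤ × ℤ) :
    foC L (fun z => ((fderiv ℝ g z L.ω₁ : ℝ) : ℂ)) n =
      (2 * Real.pi * Complex.I * n.1) * foC L (fun z => ((g z : ℝ) : ℂ)) n := by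
  rw [← foC_swap, ← foC_swap L (fun z => ((g z : ℝ) : ℂ))]
  exact SOL1_foC_d2 (foSwap L) hg ⟨hp.2, hp.1⟩ (n.2, n.1)

theorem SOL1_dx (p h : ℝ) (hp : 0 < p) (hh : 0 < h) {g : ℂ → ℝ} (hg : ContDiff ℝ ∞ g)
    (hper : Per (Lr p h hp hh) g) (n : ℤ × ℤ) :
    foC (Lr p h hp hh) (fun z => ((dx g z : ℝ) : ℂ)) n =
      Complex.I * (kx (Lr p h hp hh) n : ℂ) * foC (Lr p h hp hh) (fun z => ((g z : ℝ) : ℂ)) n := by
  have h1 := SOL1_foC_d1 (Lr p h hp hh) hg hper n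
  have h2 : ∀ z, fderiv ℝ g z (Lr p h hp hh).ω₁ = p * dx g z := by
    intro z
    have h3 : (Lr p h hp hh).ω₁ = p • (1 : ℂ) := by
      unfold Lr
      simp
    rw [h3, map_smul]
    rfl
  have h4 : foC (Lr p h hp hh) (fun z => ((fderiv ℝ g z (Lr p h hp hh).ω₁ : ℝ) : ℂ)) n =
      (p : ℂ) * foC (Lr p h hp hh) (fun z => ((dx g z : ℝ) : ℂ)) n := by
    unfold foC
    rw [← MeasureTheory.integral_const_mul]
    congr 1
    funext q
    simp only [h2]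
    push_cast
    ring
  rw [h4] at h1
  have hp' : (p : ℂ) ≠ 0 := by exact_mod_cast hp.ne'
  rw [SOL1_kx]
  apply mul_left_cancel₀ hp'
  rw [h1]
  push_cast
  field_simp

theorem SOL1_dy (p h : ℝ) (hp : 0 < p) (hh : 0 < h) {g : ℂ → ℝ} (hg : ContDiff ℝ ∞ g)
    (hper : Per (Lr p h hp hh) g) (n : ℤ × ℤ) :
    foC (Lr p h hp hh) (fun z => ((dy g z : ℝ) : ℂ)) n =
      Complex.I * (ky (Lr p h hp hh) n : ℂ) * foC (Lr p h hp hh) (fun z => ((g z : ℝ) : ℂ)) n := by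
  have h1 := SOL1_foC_d2 (Lr p h hp hh) hg hper n
  have h2 : ∀ z, fderiv ℝ g z (Lr p h hp hh).ω₂ = (2 * h) * dy g z := by
    intro z
    have h3 : (Lr p h hp hh).ω₂ = (2 * h : ℝ) • Complex.I := by
      unfold Lr
      simp only [Complex.real_smul]
      push_cast
      ring
    rw [h3, map_smul]
    rfl
  have h4 : foC (Lr p h hp hh) (fun z => ((fderiv ℝ g z (Lr p h hp hh).ω₂ : ℝ) : ℂ)) n =
      (2 * h : ℂ) * foC (Lr p h hp hh) (fun z => ((dy g z : ℝ) : ℂ)) n := by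
    unfold foC
    rw [← MeasureTheory.integral_const_mul]
    congr 1
    funext q
    simp only [h2]
    push_cast
    ring
  rw [h4] at h1
  have hh' : (h : ℂ) ≠ 0 := by exact_mod_cast hh.ne'
  have hh2 : (2 * h : ℂ) ≠ 0 := mul_ne_zero two_ne_zero hh'
  rw [SOL1_ky]
  apply mul_left_cancel₀ hh2
  rw [h1]
  push_cast
  field_simp

theorem SOL1_coef (L : Lat) {g : ℂ → ℝ} {c : V} (h : ∀ z, ev L z c = ((g z : ℝ) : ℂ)) (n : ℤ × ℤ) :
    foC L (fun z => ((g z : ℝ) : ℂ)) n = c n := by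
  rw [← SOL1_foC_ev L c n]
  congr 1
  funext z
  exact (h z).symm

theorem SOL1_Sg (p h : ℝ) (hp : 0 < p) (hh : 0 < h) {g : ℂ → ℝ} {c : V}
    (hc : ∀ z, ev (Lr p h hp hh) z c = ((g z : ℝ) : ℂ)) (hs : ∀ z, g (sig h z) = g z) :
    Sg c = c := by
  apply SOL1_uniq (Lr p h hp hh)
  intro z
  rw [SOL1_ev_Sg, hc, hc, hs]

theorem SOL1_Sg_neg (p h : ℝ) (hp : 0 < p) (hh : 0 < h) {g : ℂ → ℝ} {c : V}
    (hc : ∀ z, ev (Lr p h hp hh) z c = ((g z : ℝ) : ℂ)) (hs : ∀ z, g (sig h z) = - g z) :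
    Sg c = - c := by
  apply SOL1_uniq (Lr p h hp hh)
  intro z
  rw [SOL1_ev_Sg, hc, hs, map_neg, hc]
  push_cast
  rfl

theorem SOL1_dyx {g : ℂ → ℝ} (hg : ContDiff ℝ ∞ g) (z : ℂ) : dy (dx g) z = dx (dy g) z := by
  have hsym : IsSymmSndFDerivAt ℝ g z :=
    ContDiffAt.isSymmSndFDerivAt hg.contDiffAt (by
      simp only [minSmoothness_of_isRCLikeNormedField]
      have h2 : ((2 : ℕ∞) : WithTop ℕ∞) ≤ ((⊤ : ℕ∞) : WithTop ℕ∞) :=
        WithTop.coe_le_coe.mpr le_top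
      exact h2)
  have hd : DifferentiableAt ℝ (fderiv ℝ g) z :=
    ((hg.fderiv_right (m := ∞) (by simp)).differentiable (by simp)) z
  have key : ∀ a b : ℂ, fderiv ℝ (fun z => fderiv ℝ g z a) z b = fderiv ℝ (fderiv ℝ g) z b a := by
    intro a b
    have h1 : HasFDerivAt (fun z => fderiv ℝ g z a)
        ((ContinuousLinearMap.apply ℝ ℝ a).comp (fderiv ℝ (fderiv ℝ g) z)) z :=
      (ContinuousLinearMap.apply ℝ ℝ a).hasFDerivAt.comp z hd.hasFDerivAt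
    rw [h1.fderiv]
    rfl
  have h1 : dy (dx g) z = fderiv ℝ (fun z => fderiv ℝ g z 1) z Complex.I := rfl
  have h2 : dx (dy g) z = fderiv ℝ (fun z => fderiv ℝ g z Complex.I) z 1 := rfl
  rw [h1, h2, key, key]
  exact hsym Complex.I 1

theorem SOL1_exists_W (p h : ℝ) (hp : 0 < p) (hh : 0 < h) (w : ℂ → ℝ) (hw : ContDiff ℝ ∞ w)
    (h1 : ∀ z, w (z + p) = w z) (h2 : ∀ z, w (sig h z) = w z) :
    ∃ W : Fin 5 → V, (∀ i, Rapid (Lr p h hp hh) (W i)) ∧ (∀ i, J (W i) = W i) ∧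
      (∀ z, ev (Lr p h hp hh) z (W 0) = ((dx w z : ℝ) : ℂ)) ∧ (∀ z, ev (Lr p h hp hh) z (W 1) = ((dy w z : ℝ) : ℂ)) ∧
      (∀ z, ev (Lr p h hp hh) z (W 2) = ((dx (dx w) z : ℝ) : ℂ)) ∧ (∀ z, ev (Lr p h hp hh) z (W 3) = ((dx (dy w) z : ℝ) : ℂ)) ∧
      (∀ z, ev (Lr p h hp hh) z (W 4) = ((dy (dy w) z : ℝ) : ℂ)) ∧
      Dk (kx (Lr p h hp hh)) (W 0) (W 2) ∧ Dk (ky (Lr p h hp hh)) (W 0) (W 3) ∧
      Dk (kx (Lr p h hp hh)) (W 1) (W 3) ∧ Dk (ky (Lr p h hp hh)) (W 1) (W 4) ∧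
      Sg (W 0) = - W 0 ∧ Sg (W 1) = W 1 ∧ Sg (W 2) = W 2 ∧ Sg (W 3) = - W 3 ∧ Sg (W 4) = W 4 := by
  have hper : Per (Lr p h hp hh) w := by
    refine ⟨h1, fun z => ?_⟩
    have h3 : z + (Lr p h hp hh).ω₂ = sig h (sig h z) := by
      unfold sig Lr
      simp only [map_add, map_neg, map_mul, Complex.conj_conj, Complex.conj_I, Complex.conj_ofReal]
      ring
    rw [h3, h2, h2]
  have s0 : ContDiff ℝ ∞ (dx w) := SOL1_cd hw 1
  have s1 : ContDiff ℝ ∞ (dy w) := SOL1_cd hw Complex.I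
  have s2 : ContDiff ℝ ∞ (dx (dx w)) := SOL1_cd s0 1
  have s3 : ContDiff ℝ ∞ (dx (dy w)) := SOL1_cd s1 1
  have s4 : ContDiff ℝ ∞ (dy (dy w)) := SOL1_cd s1 Complex.I
  have p0 : Per (Lr p h hp hh) (dx w) := SOL1_per _ hper 1
  have p1 : Per (Lr p h hp hh) (dy w) := SOL1_per _ hper Complex.I
  have p2 : Per (Lr p h hp hh) (dx (dx w)) := SOL1_per _ p0 1
  have p3 : Per (Lr p h hp hh) (dx (dy w)) := SOL1_per _ p1 1
  have p4 : Per (Lr p h hp hh) (dy (dy w)) := SOL1_per _ p1 Complex.I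
  obtain ⟨W0, r0, j0, e0⟩ := exists_fourier (Lr p h hp hh) (dx w) s0 p0
  obtain ⟨W1, r1, j1, e1⟩ := exists_fourier (Lr p h hp hh) (dy w) s1 p1
  obtain ⟨W2, r2, j2, e2⟩ := exists_fourier (Lr p h hp hh) (dx (dx w)) s2 p2
  obtain ⟨W3, r3, j3, e3⟩ := exists_fourier (Lr p h hp hh) (dx (dy w)) s3 p3
  obtain ⟨W4, r4, j4, e4⟩ := exists_fourier (Lr p h hp hh) (dy (dy w)) s4 p4
  have y0 : ∀ z, w (sig h z) = 1 * w z := fun z => by rw [h2, one_mul]
  have y1 : ∀ z, dx w (sig h z) = (-1) * dx w z := SOL1_symx h hw 1 y0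
  have y2 : ∀ z, dy w (sig h z) = 1 * dy w z := SOL1_symy h hw 1 y0
  have y3 : ∀ z, dx (dx w) (sig h z) = (-(-1)) * dx (dx w) z := SOL1_symx h s0 (-1) y1
  have y4 : ∀ z, dx (dy w) (sig h z) = (-1) * dx (dy w) z := SOL1_symx h s1 1 y2
  have y5 : ∀ z, dy (dy w) (sig h z) = 1 * dy (dy w) z := SOL1_symy h s1 1 y2
  refine ⟨![W0, W1, W2, W3, W4], ?_, ?_, e0, e1, e2, e3, e4, ?_, ?_, ?_, ?_, ?_, ?_, ?_, ?_, ?_⟩
  · intro i
    fin_cases i
    · exact r0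
    · exact r1
    · exact r2
    · exact r3
    · exact r4
  · intro i
    fin_cases i
    · exact j0
    · exact j1
    · exact j2
    · exact j3
    · exact j4
  · intro n
    change W2 n = Complex.I * (kx (Lr p h hp hh) n : ℂ) * W0 n
    rw [← SOL1_coef _ e2 n, ← SOL1_coef _ e0 n]
    exact SOL1_dx p h hp hh s0 p0 n
  · intro n
    change W3 n = Complex.I * (ky (Lr p h hp hh) n : ℂ) * W0 n
    have e3' : ∀ z, ev (Lr p h hp hh) z W3 = ((dy (dx w) z : ℝ) : ℂ) := by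
      intro z
      rw [SOL1_dyx hw]
      exact e3 z
    rw [← SOL1_coef _ e3' n, ← SOL1_coef _ e0 n]
    exact SOL1_dy p h hp hh s0 p0 n
  · intro n
    change W3 n = Complex.I * (kx (Lr p h hp hh) n : ℂ) * W1 n
    rw [← SOL1_coef _ e3 n, ← SOL1_coef _ e1 n]
    exact SOL1_dx p h hp hh s1 p1 n
  · intro n
    change W4 n = Complex.I * (ky (Lr p h hp hh) n : ℂ) * W1 n
    rw [← SOL1_coef _ e4 n, ← SOL1_coef _ e1 n]
    exact SOL1_dy p h hp hh s1 p1 n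
  · exact SOL1_Sg_neg p h hp hh e0 (fun z => by rw [y1]; ring)
  · exact SOL1_Sg p h hp hh e1 (fun z => by rw [y2]; ring)
  · exact SOL1_Sg p h hp hh e2 (fun z => by rw [y3]; ring)
  · exact SOL1_Sg_neg p h hp hh e3 (fun z => by rw [y4]; ring)
  · exact SOL1_Sg p h hp hh e4 (fun z => by rw [y5]; ring)

end P205T.K
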