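import Vale.Agent.P205K.Fac
import Vale.Agent.P205K.PhiC
import Vale.Agent.P205K.PhiT
import Vale.Agent.P205K.Par
import Vale.Agent.P205K.Fix
import Vale.Agent.P205K.Pos
import Vale.Agent.P205T.Fourier
import Vale.Agent.P205K.SolW

/-! Modules SOL: the fixed points.  `η = √(1/k)`. -/

open Complex ComplexConjugate
open scoped ContDiff

namespace P205T.K

noncomputable def rpar (p : ℝ) (k : ℕ) (κ A : ℝ) : Fin 5 → ℝ :=
  ![√(1 / (k : ℝ)), 2 * Real.pi / p, κ * k, dlt p k κ A ^ 2 * (k : ℝ) ^ 2, A]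

open Classical in
noncomputable def chv (n : ℤ × ℤ) : V := lp.single 1 n (1 : ℂ)

noncomputable def Wk (W : Fin 5 → V) (k : ℕ) : Fin 7 → V :=
  ![W 0, W 1, W 2, W 3, W 4, chv (2 * (k : ℤ), 0), chv (-(2 * (k : ℤ)), 0)]

theorem SOL2_chv_apply (n m : ℤ × ℤ) : chv n m = if m = n then 1 else 0 := by
  unfold chv
  by_cases h : m = n
  · subst h
    rw [lp.single_apply_self, if_pos rfl]
  · rw [lp.single_apply_ne _ _ _ h, if_neg h]

theorem SOL2_norm_chv (n : ℤ × ℤ) : ‖chv n‖ = 1 := by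
  unfold chv
  rw [lp.norm_single one_pos, norm_one]

theorem SOL2_ev (L : Lat) (z : ℂ) (n : ℤ × ℤ) : ev L z (chv n) = ch L n z := by
  rw [ev_apply, tsum_eq_single n]
  · rw [SOL2_chv_apply, if_pos rfl, one_mul]
  · intro m hm
    rw [SOL2_chv_apply, if_neg hm, zero_mul]

theorem SOL2_kx (p h : ℝ) (hp : 0 < p) (hh : 0 < h) (n : ℤ × ℤ) :
    kx (Lr p h hp hh) n = 2 * Real.pi * n.1 / p := by
  unfold kx Lr
  simp only [Complex.conj_ofReal, Complex.mul_im, Complex.ofReal_re, Complex.ofReal_im, Complex.mul_re, Complex.I_re,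
      Complex.I_im, Complex.re_ofNat, Complex.im_ofNat]
  field_simp
  ring

theorem SOL2_ky (p h : ℝ) (hp : 0 < p) (hh : 0 < h) (n : ℤ × ℤ) :
    ky (Lr p h hp hh) n = Real.pi * n.2 / h := by
  unfold ky Lr
  simp only [Complex.conj_ofReal, Complex.mul_im, Complex.ofReal_re, Complex.ofReal_im, Complex.mul_re, Complex.I_re,
      Complex.I_im, Complex.re_ofNat, Complex.im_ofNat]
  field_simp
  ring

theorem SOL3_rapid (L : Lat) (n : ℤ × ℤ) : Rapid L (chv n) := by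
  intro N
  refine summable_of_ne_finset_zero (s := {n}) fun m hm => ?_
  rw [SOL2_chv_apply, if_neg (by simpa using hm), norm_zero, mul_zero]

theorem SOL3_key (L : Lat) (t : ℂ) {m : ℕ} (x : Fin m → V) :
    ‖(fun i => T L t (x i) : Fin m → V)‖ = ‖x‖ := by
  apply le_antisymm
  · refine (pi_norm_le_iff_of_nonneg (norm_nonneg _)).2 fun i => ?_
    rw [norm_T]
    exact norm_le_pi_norm x i
  · refine (pi_norm_le_iff_of_nonneg (norm_nonneg _)).2 fun i => ?_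
    rw [← norm_T L t (x i)]
    exact norm_le_pi_norm (fun i => T L t (x i) : Fin m → V) i

theorem SOL2_Dk {κ : ℤ × ℤ → ℝ} (n : ℤ × ℤ) (c : ℝ) (hc : κ n = c) : Dk κ (chv n) (c • im (chv n)) := by
  intro m
  have h1 : (c • im (chv n) : V) m = c • (im (chv n) m) := rfl
  rw [h1, EXP3_im, SOL2_chv_apply]
  by_cases h : m = n
  · subst h
    rw [if_pos rfl, hc, Complex.real_smul]
    ring
  · rw [if_neg h, mul_zero, smul_zero, mul_zero]

theorem SOL2_small (C : ℝ) : ∃ k₀ : ℕ, ∀ k : ℕ, k₀ ≤ k → 0 < k → ∀ κ : ℝ,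
    0 < κ → κ * k ≤ C → ∀ A ∈ Set.Icc (3/4 : ℝ) (9/2), 1 / 2 ≤ mu2 κ A := by
  obtain ⟨κ₀, h0, h1⟩ := PX_pos
  refine ⟨⌈C / κ₀⌉₊, fun k hk hk0 κ hκ hC A hA => (h1 κ hκ ?_ A hA 0).2.2⟩
  have h2 : C / κ₀ ≤ k := (Nat.le_ceil _).trans (by exact_mod_cast hk)
  have hk' : (0 : ℝ) < k := Nat.cast_pos.2 hk0
  rw [div_le_iff₀ h0] at h2
  have h3 : κ * k ≤ κ₀ * k := by linarith
  exact le_of_mul_le_mul_right h3 hk'

theorem SOL2_dlt (p : ℝ) (hp : 0 < p) (k : ℕ) (hk : 0 < k) (κ A : ℝ) (h : 1 / 2 ≤ mu2 κ A) :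
    dlt p k κ A ^ 2 * (k : ℝ) ^ 2 = p ^ 2 / (4 * Real.pi ^ 2 * mu2 κ A) := by
  have hk' : (0 : ℝ) < k := Nat.cast_pos.2 hk
  have hpi := Real.pi_pos
  have hm : 0 < mu2 κ A := by linarith
  unfold dlt KK
  rw [div_pow, mul_pow, Real.sq_sqrt hm.le]
  field_simp
  ring

/-- module SOL1: Fourier coefficients of the derivatives of `w` -/
theorem exists_W (p h : ℝ) (hp : 0 < p) (hh : 0 < h) (w : ℂ → ℝ) (hw : ContDiff ℝ ∞ w)
    (h1 : ∀ z, w (z + p) = w z) (h2 : ∀ z, w (sig h z) = w z) :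
    ∃ W : Fin 5 → V, (∀ i, Rapid (Lr p h hp hh) (W i)) ∧ (∀ i, J (W i) = W i) ∧
      (∀ z, ev (Lr p h hp hh) z (W 0) = ((dx w z : ℝ) : ℂ)) ∧ (∀ z, ev (Lr p h hp hh) z (W 1) = ((dy w z : ℝ) : ℂ)) ∧
      (∀ z, ev (Lr p h hp hh) z (W 2) = ((dx (dx w) z : ℝ) : ℂ)) ∧ (∀ z, ev (Lr p h hp hh) z (W 3) = ((dx (dy w) z : ℝ) : ℂ)) ∧
      (∀ z, ev (Lr p h hp hh) z (W 4) = ((dy (dy w) z : ℝ) : ℂ)) ∧
      Dk (kx (Lr p h hp hh)) (W 0) (W 2) ∧ Dk (ky (Lr p h hp hh)) (W 0) (W 3) ∧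
      Dk (kx (Lr p h hp hh)) (W 1) (W 3) ∧ Dk (ky (Lr p h hp hh)) (W 1) (W 4) ∧
      Sg (W 0) = - W 0 ∧ Sg (W 1) = W 1 ∧ Sg (W 2) = W 2 ∧ Sg (W 3) = - W 3 ∧ Sg (W 4) = W 4 :=
  SOL1_exists_W p h hp hh w hw h1 h2

/-- module SOL2 -/
theorem par_Wk (p h : ℝ) (hp : 0 < p) (hh : 0 < h) (W : Fin 5 → V) (hJ : ∀ i, J (W i) = W i)
    (d02 : Dk (kx (Lr p h hp hh)) (W 0) (W 2)) (d03 : Dk (ky (Lr p h hp hh)) (W 0) (W 3))
    (d13 : Dk (kx (Lr p h hp hh)) (W 1) (W 3)) (d14 : Dk (ky (Lr p h hp hh)) (W 1) (W 4))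
    (k : ℕ) (hk : 0 < k) (κ A : ℝ) : Par (Lr p h hp hh) k (Wk W k, rpar p k κ A) := by
  have hk' : (0 : ℝ) < k := Nat.cast_pos.2 hk
  have e5x : kx (Lr p h hp hh) (2 * (k : ℤ), 0) = 2 * (2 * Real.pi / p) * k := by
    rw [SOL2_kx]
    push_cast
    ring
  have e6x : kx (Lr p h hp hh) (-(2 * (k : ℤ)), 0) = -(2 * (2 * Real.pi / p) * k) := by
    rw [SOL2_kx]
    push_cast
    ring
  have e5y : ky (Lr p h hp hh) (2 * (k : ℤ), 0) = 0 := by
    rw [SOL2_ky]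
    push_cast
    ring
  have e6y : ky (Lr p h hp hh) (-(2 * (k : ℤ)), 0) = 0 := by
    rw [SOL2_ky]
    push_cast
    ring
  exact
  { hk := hk
    h0 := Real.sqrt_pos.2 (by positivity)
    he := by
      show √(1 / (k : ℝ)) ^ 2 * k = 1
      rw [Real.sq_sqrt (by positivity)]
      field_simp
    d02 := d02
    d03 := d03
    d13 := d13
    d14 := d14
    d5x := SOL2_Dk _ _ e5x
    d5y := by
      have := SOL2_Dk (κ := ky (Lr p h hp hh)) _ _ e5y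
      rwa [zero_smul] at this
    d6x := SOL2_Dk _ _ e6x
    d6y := by
      have := SOL2_Dk (κ := ky (Lr p h hp hh)) _ _ e6y
      rwa [zero_smul] at this
    J0 := hJ 0
    J1 := hJ 1
    J2 := hJ 2
    J3 := hJ 3
    J4 := hJ 4
    J5 := by
      show J (chv (2 * (k : ℤ), 0)) = chv (-(2 * (k : ℤ)), 0)
      refine lp.ext (funext fun n => ?_)
      rw [J_apply, SOL2_chv_apply, SOL2_chv_apply]
      by_cases hn : n = (-(2 * (k : ℤ)), 0)
      · rw [if_pos hn, if_pos (by rw [hn]; simp), map_one]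
      · rw [if_neg hn, if_neg (fun h2 => hn (by rw [← neg_neg n, h2]; simp)), map_zero]
    ev5 := by
      intro z
      show ev _ z (chv (2 * (k : ℤ), 0)) = _
      rw [SOL2_ev]
      unfold ch
      rw [e5x, e5y]
      congr 2
      show (((2 * (2 * Real.pi / p) * k * z.re + 0 * z.im : ℝ)) : ℂ) =
        ((2 * (2 * Real.pi / p) * k * z.re : ℝ) : ℂ)
      rw [zero_mul, add_zero] }

theorem parS_Wk (W : Fin 5 → V) (S0 : Sg (W 0) = - W 0) (S1 : Sg (W 1) = W 1) (S2 : Sg (W 2) = W 2)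
    (S3 : Sg (W 3) = - W 3) (S4 : Sg (W 4) = W 4) (k : ℕ) (r : Fin 5 → ℝ) : ParS (Wk W k, r) := by
  refine ⟨S0, S1, S2, S3, S4, ?_⟩
  show Sg (chv (2 * (k : ℤ), 0)) = chv (-(2 * (k : ℤ)), 0)
  refine lp.ext (funext fun n => ?_)
  rw [Sg_apply, SOL2_chv_apply, SOL2_chv_apply]
  by_cases hn : n = (-(2 * (k : ℤ)), 0)
  · rw [if_pos hn, hn, if_pos (by simp)]
    simp [sgn]
  · rw [if_neg hn, if_neg, mul_zero]
    intro h2
    apply hn
    have h3 := congrArg Prod.fst h2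
    have h4 := congrArg Prod.snd h2
    simp only at h3 h4
    exact Prod.ext (by show n.1 = -(2 * (k : ℤ)); omega) h4

/-- `mu2 ≥ 1/2` by `PX_pos`; `dlt² k² = p²/(4π² mu2)` -/
theorem norm_par (p : ℝ) (hp : 0 < p) (W : Fin 5 → V) (C : ℝ) : ∃ M > 0, ∃ k₀ : ℕ, ∀ k : ℕ, k₀ ≤ k → 0 < k → ∀ κ : ℝ,
    0 < κ → κ * k ≤ C → ∀ A ∈ Set.Icc (3/4 : ℝ) (9/2), ‖((Wk W k, rpar p k κ A) : (Fin 7 → V) × (Fin 5 → ℝ))‖ ≤ M := by
  obtain ⟨k₀, hk₀⟩ := SOL2_small C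
  have hpi := Real.pi_pos
  refine ⟨‖W‖ + 1 + 2 * Real.pi / p + |C| + p ^ 2 / (2 * Real.pi ^ 2) + 9 / 2, by positivity, k₀,
    fun k hk hk0 κ hκ hC A hA => ?_⟩
  have hm := hk₀ k hk hk0 κ hκ hC A hA
  have hk' : (1 : ℝ) ≤ k := by exact_mod_cast hk0
  have n1 : 0 ≤ ‖W‖ := norm_nonneg _
  have n2 : 0 ≤ 2 * Real.pi / p := by positivity
  have n3 : 0 ≤ |C| := abs_nonneg _
  have n4 : 0 ≤ p ^ 2 / (2 * Real.pi ^ 2) := by positivity
  have hWi : ∀ i, ‖W i‖ ≤ ‖W‖ + 1 + 2 * Real.pi / p + |C| + p ^ 2 / (2 * Real.pi ^ 2) + 9 / 2 := by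
    intro i
    have := norm_le_pi_norm W i
    linarith
  have hch : ∀ n, ‖chv n‖ ≤ ‖W‖ + 1 + 2 * Real.pi / p + |C| + p ^ 2 / (2 * Real.pi ^ 2) + 9 / 2 := by
    intro n
    rw [SOL2_norm_chv]
    linarith
  rw [Prod.norm_def]
  refine max_le ?_ ?_
  · refine (pi_norm_le_iff_of_nonneg (by positivity)).2 fun i => ?_
    fin_cases i
    · exact hWi 0
    · exact hWi 1
    · exact hWi 2
    · exact hWi 3
    · exact hWi 4
    · exact hch _
    · exact hch _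
  · refine (pi_norm_le_iff_of_nonneg (by positivity)).2 fun i => ?_
    fin_cases i
    · show ‖√(1 / (k : ℝ))‖ ≤ _
      rw [Real.norm_of_nonneg (Real.sqrt_nonneg _)]
      have : √(1 / (k : ℝ)) ≤ 1 := by
        rw [Real.sqrt_le_one]
        rw [div_le_one (by linarith)]
        exact hk'
      linarith
    · show ‖2 * Real.pi / p‖ ≤ _
      rw [Real.norm_of_nonneg n2]
      linarith
    · show ‖κ * k‖ ≤ _
      rw [Real.norm_of_nonneg (by positivity)]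
      have := le_abs_self C
      linarith
    · show ‖dlt p k κ A ^ 2 * (k : ℝ) ^ 2‖ ≤ _
      rw [Real.norm_of_nonneg (by positivity), SOL2_dlt p hp k hk0 κ A hm]
      have : p ^ 2 / (4 * Real.pi ^ 2 * mu2 κ A) ≤ p ^ 2 / (2 * Real.pi ^ 2) := by
        apply div_le_div_of_nonneg_left (by positivity) (by positivity)
        have := mul_le_mul_of_nonneg_left hm (by positivity : 0 ≤ 4 * Real.pi ^ 2)
        linarith
      linarith
    · show ‖A‖ ≤ _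
      rw [Real.norm_of_nonneg (by linarith [hA.1])]
      linarith [hA.2]

theorem rpar_cont (p : ℝ) (hp : 0 < p) (C : ℝ) : ∃ k₀ : ℕ, ∀ k : ℕ, k₀ ≤ k → 0 < k → ∀ κ : ℝ,
    0 < κ → κ * k ≤ C → ContinuousOn (fun A => rpar p k κ A) (Set.Icc (3/4) (9/2)) := by
  obtain ⟨k₀, hk₀⟩ := SOL2_small C
  refine ⟨k₀, fun k hk hk0 κ hκ hC => continuousOn_pi.2 fun i => ?_⟩
  have hm := hk₀ k hk hk0 κ hκ hC
  have hcm : Continuous fun A => mu2 κ A := by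
    unfold mu2 cA
    fun_prop
  fin_cases i
  · exact continuousOn_const
  · exact continuousOn_const
  · exact continuousOn_const
  · show ContinuousOn (fun A => dlt p k κ A ^ 2 * (k : ℝ) ^ 2) _
    have e : Set.EqOn (fun A => dlt p k κ A ^ 2 * (k : ℝ) ^ 2)
        (fun A => p ^ 2 / (4 * Real.pi ^ 2 * mu2 κ A)) (Set.Icc (3/4) (9/2)) := fun A hA =>
      SOL2_dlt p hp k hk0 κ A (hm A hA)
    refine ContinuousOn.congr ?_ e
    refine continuousOn_const.div (continuous_const.mul hcm).continuousOn fun A hA => ?_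
    have := hm A hA
    have hpi := Real.pi_pos
    have h2 : 0 < mu2 κ A := by linarith
    positivity
  · exact continuousOn_id

/-- module SOL3: translates of the parameters are smooth in `t` -/
theorem W_smooth (L : Lat) (W : Fin 5 → V) (hW : ∀ i, Rapid L (W i)) (k : ℕ) :
    ContDiff ℝ ∞ (fun t : ℂ => (fun i => T L t (Wk W k i) : Fin 7 → V)) := by
  refine contDiff_pi.2 fun i => contDiff_T L _ ?_
  fin_cases i
  · exact hW 0
  · exact hW 1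
  · exact hW 2
  · exact hW 3
  · exact hW 4
  · exact SOL3_rapid L _
  · exact SOL3_rapid L _

theorem norm_TW (L : Lat) (t : ℂ) (U : Fin 4 → V) (x : Fin 7 → V) (r : Fin 5 → ℝ) :
    ‖(fun i => T L t (U i) : Fin 4 → V)‖ = ‖U‖ ∧
    ‖(((fun i => T L t (x i)), r) : (Fin 7 → V) × (Fin 5 → ℝ))‖ = ‖((x, r) : (Fin 7 → V) × (Fin 5 → ℝ))‖ := by
  refine ⟨SOL3_key L t U, ?_⟩
  rw [Prod.norm_def, Prod.norm_def, SOL3_key]


/-- the solution package -/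
structure Sol (p h : ℝ) (hp : 0 < p) (hh : 0 < h) (k : ℕ) (κ A : ℝ) (w : ℂ → ℝ) (C₁ : ℝ) (q : Q) : Prop where
  hk : 0 < k
  par : Par (Lr p h hp hh) k q.2
  parS : ParS q.2
  r : q.2.2 = rpar p k κ A
  e0 : ∀ z, ev (Lr p h hp hh) z (q.2.1 0) = ((dx w z : ℝ) : ℂ)
  e1 : ∀ z, ev (Lr p h hp hh) z (q.2.1 1) = ((dy w z : ℝ) : ℂ)
  e2 : ∀ z, ev (Lr p h hp hh) z (q.2.1 2) = ((dx (dx w) z : ℝ) : ℂ)
  e3 : ∀ z, ev (Lr p h hp hh) z (q.2.1 3) = ((dx (dy w) z : ℝ) : ℂ)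
  e4 : ∀ z, ev (Lr p h hp hh) z (q.2.1 4) = ((dy (dy w) z : ℝ) : ℂ)
  fix : Phi (Lr p h hp hh) q = q.1
  rU : J (q.1 0) = q.1 0
  cmp : Jok (Lr p h hp hh) (ee q) (jy q)
  su : SU q.1
  norm : ‖q.1‖ ≤ C₁ * eta q
  norm1 : ‖q.1‖ ≤ 1 / 2
  norm2 : ‖q.2‖ ≤ C₁
  smooth : ∀ i, ContDiff ℝ ∞ (fun t : ℂ => T (Lr p h hp hh) t (q.1 i))

open scoped Topology

theorem SOL4_jy (L : Lat) (U : Fin 4 → V) (x : (Fin 7 → V) × (Fin 5 → ℝ)) (y : (Fin 7 → V) × (Fin 5 → ℝ)) :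
    jy ((Phi L (U, x), y) : Q) = jR L (U, x) := by
  funext i
  fin_cases i <;> rfl

theorem SOL4_closed (L : Lat) (e : ℝ) (x : (Fin 7 → V) × (Fin 5 → ℝ)) :
    IsClosed {U : Fin 4 → V | J (U 0) = U 0 ∧ Jok L e (jy ((U, x) : Q)) ∧ SU U} := by
  have hev : ∀ (i : Fin 4) (n : ℤ × ℤ), Continuous fun U : Fin 4 → V => U i n := by
    intro i n
    exact (lp.evalCLM ℝ (fun _ : ℤ × ℤ => ℂ) 1 n).continuous.comp (continuous_apply i)
  have hap : ∀ i : Fin 4, Continuous fun U : Fin 4 → V => U i := fun i => continuous_apply i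
  have h0 : IsClosed {U : Fin 4 → V | J (U 0) = U 0} :=
    isClosed_eq (J.continuous.comp (hap 0)) (hap 0)
  have h1 : IsClosed {U : Fin 4 → V | Jok L e (jy ((U, x) : Q))} := by
    have e1 : {U : Fin 4 → V | Jok L e (jy ((U, x) : Q))} =
        (⋂ n, {U : Fin 4 → V | U 2 n = (e : ℂ) * (Complex.I * (kx L n : ℂ)) * U 1 n}) ∩
        (⋂ n, {U : Fin 4 → V | U 3 n = (e : ℂ) * (Complex.I * (ky L n : ℂ)) * U 1 n}) := by
      ext U
      simp only [Set.mem_ofPred_eq, Set.mem_inter_iff, Set.mem_iInter]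
      exact Iff.rfl
    rw [e1]
    exact (isClosed_iInter fun n => isClosed_eq (hev 2 n) (continuous_const.mul (hev 1 n))).inter
      (isClosed_iInter fun n => isClosed_eq (hev 3 n) (continuous_const.mul (hev 1 n)))
  have h2 : IsClosed {U : Fin 4 → V | SU U} := by
    have e2 : {U : Fin 4 → V | SU U} = (({U : Fin 4 → V | Sg (U 0) = U 0} ∩
        {U | Sg (U 1) = J (U 1)}) ∩ {U | Sg (U 2) = - J (U 2)}) ∩ {U | Sg (U 3) = J (U 3)} := by
      ext U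
      simp only [Set.mem_ofPred_eq, Set.mem_inter_iff]
      exact ⟨fun h => ⟨⟨⟨h.s0, h.s1⟩, h.s2⟩, h.s3⟩, fun h => ⟨h.1.1.1, h.1.1.2, h.1.2, h.2⟩⟩
    rw [e2]
    exact (((isClosed_eq (Sg.continuous.comp (hap 0)) (hap 0)).inter
      (isClosed_eq (Sg.continuous.comp (hap 1)) (J.continuous.comp (hap 1)))).inter
      (isClosed_eq (Sg.continuous.comp (hap 2)) (J.continuous.comp (hap 2)).neg)).inter
      (isClosed_eq (Sg.continuous.comp (hap 3)) (J.continuous.comp (hap 3)))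
  exact h0.inter (h1.inter h2)

theorem SOL4_zero (L : Lat) (e : ℝ) (x : (Fin 7 → V) × (Fin 5 → ℝ)) :
    (0 : Fin 4 → V) ∈ {U : Fin 4 → V | J (U 0) = U 0 ∧ Jok L e (jy ((U, x) : Q)) ∧ SU U} := by
  refine ⟨by simp, ⟨fun n => ?_, fun n => ?_⟩, ⟨by simp, by simp, by simp, by simp⟩⟩
  · show ((0 : V) : ℤ × ℤ → ℂ) n = _ * ((0 : V) : ℤ × ℤ → ℂ) n
    simp
  · show ((0 : V) : ℤ × ℤ → ℂ) n = _ * ((0 : V) : ℤ × ℤ → ℂ) n
    simp

/-- module SOL4: assemble (`Phi_factor`, `ctr_of_BL`, `ctr_fixed` with `S = {J u = u, jet, SU}`, `ctr_dep`, `ctr_smooth`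
with `H t = T_t (W, r)`, `Phi_TQ`, `CD_Phi`) -/
theorem sol_exists (p h : ℝ) (hp : 0 < p) (hh : 0 < h) (w : ℂ → ℝ) (hw : ContDiff ℝ ∞ w)
    (h1 : ∀ z, w (z + p) = w z) (h2 : ∀ z, w (sig h z) = w z) (C : ℝ) (hC : 0 < C) :
    ∃ C₁ > 0, ∃ k₀ : ℕ, ∀ k : ℕ, k₀ ≤ k → ∀ κ : ℝ, 0 < κ → κ * k ≤ C → ∃ q : ℝ → Q,
      (∀ A ∈ Set.Icc (3/4 : ℝ) (9/2), Sol p h hp hh k κ A w C₁ (q A)) ∧
      ContinuousOn (fun A => (q A).1) (Set.Icc (3/4) (9/2)) := by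
  obtain ⟨W, hRap, hJ, e0, e1, e2, e3, e4, d02, d03, d13, d14, S0, S1, S2, S3, S4⟩ :=
    exists_W p h hp hh w hw h1 h2
  obtain ⟨M, hM, k₁, hk₁⟩ := norm_par p hp W C
  obtain ⟨k₂, hk₂⟩ := rpar_cont p hp C
  obtain ⟨Ψ, hΨ, hfac⟩ := Phi_factor (Lr p h hp hh)
  obtain ⟨η₀, hη₀, hctr⟩ := ctr_of_BL (E := Fin 4 → V) (P := (Fin 7 → V) × (Fin 5 → ℝ)) Ψ hΨ M
  obtain ⟨C₂, hC₂, hdep⟩ := ctr_dep (E := Fin 4 → V) (P := (Fin 7 → V) × (Fin 5 → ℝ)) Ψ hΨ M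
  obtain ⟨k₃, hk₃⟩ : ∃ k₃ : ℕ, 1 / (min η₀ 1) ^ 2 ≤ k₃ := exists_nat_ge _
  have hmin : 0 < min η₀ 1 := lt_min hη₀ one_pos
  refine ⟨max C₂ M, lt_max_of_lt_left hC₂, max (max k₁ k₂) (max k₃ 1), ?_⟩
  intro k hk κ hκ hκC
  have hkk₁ : k₁ ≤ k := (le_max_left _ _).trans ((le_max_left _ _).trans hk)
  have hkk₂ : k₂ ≤ k := (le_max_right _ _).trans ((le_max_left _ _).trans hk)
  have hkk₃ : k₃ ≤ k := (le_max_left _ _).trans ((le_max_right _ _).trans hk)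
  have hk0 : 0 < k := (le_max_right _ _).trans ((le_max_right _ _).trans hk)
  have hkr : (0 : ℝ) < k := by exact_mod_cast hk0
  set η : ℝ := √(1 / (k : ℝ)) with hη
  have hη0 : 0 < η := Real.sqrt_pos.2 (by positivity)
  have hηle : η ≤ min η₀ 1 := by
    rw [hη, Real.sqrt_le_left hmin.le, div_le_iff₀ hkr]
    have h3 : 1 / (min η₀ 1) ^ 2 ≤ (k : ℝ) := hk₃.trans (by exact_mod_cast hkk₃)
    rw [div_le_iff₀ (by positivity)] at h3
    linarith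
  have hη1 : η ≤ 1 := hηle.trans (min_le_right _ _)
  have hηη₀ : η ≤ η₀ := hηle.trans (min_le_left _ _)
  -- the map and the parameters
  set L := Lr p h hp hh with hL
  have hΦ : ∀ (x : Fin 7 → V) (A : ℝ) (U : Fin 4 → V),
      Phi L (U, (x, rpar p k κ A)) = η • Ψ (U, (x, rpar p k κ A)) := by
    intro x A U
    exact hfac (U, (x, rpar p k κ A)) (show η ≠ 0 from hη0.ne')
  have hctr' : ∀ (x : Fin 7 → V) (A : ℝ), ‖((x, rpar p k κ A) : (Fin 7 → V) × (Fin 5 → ℝ))‖ ≤ M →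
      Ctr (E := Fin 4 → V) (P := (Fin 7 → V) × (Fin 5 → ℝ)) (Phi L) (x, rpar p k κ A) := by
    intro x A hx
    exact hctr (Phi L) (x, rpar p k κ A) hx η hη0 hηη₀ (fun U => hΦ x A U)
  have hnorm : ∀ A ∈ Set.Icc (3/4 : ℝ) (9/2),
      ‖((Wk W k, rpar p k κ A) : (Fin 7 → V) × (Fin 5 → ℝ))‖ ≤ M :=
    fun A hA => hk₁ k hkk₁ hk0 κ hκ hκC A hA
  have hex : ∀ A : ℝ, ∃ U : Fin 4 → V, A ∈ Set.Icc (3/4 : ℝ) (9/2) →
      ‖U‖ ≤ 1 / 2 ∧ Phi L (U, (Wk W k, rpar p k κ A)) = U ∧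
      ∀ S : Set (Fin 4 → V), IsClosed S → (0 : Fin 4 → V) ∈ S →
        (∀ U ∈ S, ‖U‖ ≤ 1 → Phi L (U, (Wk W k, rpar p k κ A)) ∈ S) → U ∈ S := by
    intro A
    by_cases hA : A ∈ Set.Icc (3/4 : ℝ) (9/2)
    · obtain ⟨U, a1, a2, -, a4⟩ := ctr_fixed _ _ (hctr' (Wk W k) A (hnorm A hA))
      exact ⟨U, fun _ => ⟨a1, a2, a4⟩⟩
    · exact ⟨0, fun h => absurd h hA⟩
  choose U hU using hex
  refine ⟨fun A => (U A, (Wk W k, rpar p k κ A)), fun A hA => ?_, ?_⟩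
  · obtain ⟨a1, a2, a3⟩ := hU A hA
    have hpar : Par L k (Wk W k, rpar p k κ A) := par_Wk p h hp hh W hJ d02 d03 d13 d14 k hk0 κ A
    have hparS : ParS (Wk W k, rpar p k κ A) := parS_Wk W S0 S1 S2 S3 S4 k _
    have hS := a3 _ (SOL4_closed L (ee ((U A, (Wk W k, rpar p k κ A)) : Q)) (Wk W k, rpar p k κ A))
      (SOL4_zero L _ _) (by
        intro U' hU' _
        obtain ⟨b1, b2, b3⟩ := hU'
        refine ⟨?_, ?_, ?_⟩
        · exact rea_newu L k (U', (Wk W k, rpar p k κ A)) hpar b1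
        · rw [SOL4_jy]
          exact cmp_jR L k (U', (Wk W k, rpar p k κ A)) hpar b2
        · exact sig_Phi p h hp hh k (U', (Wk W k, rpar p k κ A)) hpar hparS b1 b3)
    obtain ⟨c1, c2, c3⟩ := hS
    have hn1 : ‖U A‖ ≤ 1 := a1.trans (by norm_num)
    have hd := hdep (Phi L) η hη0 hη1 _ _ (hnorm A hA) (hnorm A hA) (fun V' => hΦ _ A V')
      (fun V' => hΦ _ A V') (hctr' _ A (hnorm A hA)) (hctr' _ A (hnorm A hA)) (U A) (U A)
      hn1 hn1 a2 a2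
    refine ⟨hk0, hpar, hparS, rfl, e0, e1, e2, e3, e4, a2, c1, c2, c3, ?_, a1, ?_, ?_⟩
    · show ‖U A‖ ≤ max C₂ M * η
      have := mul_le_mul_of_nonneg_left (le_max_left C₂ M) hη0.le
      linarith [hd.1]
    · exact (hnorm A hA).trans (le_max_right _ _)
    · have hs : ContDiff ℝ ∞ (fun t : ℂ => (fun i => T L t (U A i) : Fin 4 → V)) := by
        refine ctr_smooth (E := Fin 4 → V) (P := (Fin 7 → V) × (Fin 5 → ℝ)) (Phi L)
          (fun t => ((fun i => T L t (Wk W k i)), rpar p k κ A)) ?_ ?_ _ ?_ ?_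
        · have g1 := CD_Phi L (rpar p k κ A)
          have g2 : ContDiff ℝ ∞ (fun x : (Fin 4 → V) × ℂ =>
              ((x.1, (fun i => T L x.2 (Wk W k i))) : (Fin 4 → V) × (Fin 7 → V))) :=
            contDiff_fst.prodMk ((W_smooth L W hRap k).comp contDiff_snd)
          exact g1.comp g2
        · intro t
          refine hctr' _ A ?_
          rw [(norm_TW L t (U A) (Wk W k) (rpar p k κ A)).2]
          exact hnorm A hA
        · intro t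
          rw [(norm_TW L t (U A) (Wk W k) (rpar p k κ A)).1]
          exact a1
        · intro t
          have g3 := Phi_TQ L t (U A, (Wk W k, rpar p k κ A))
          rw [a2] at g3
          exact g3
      intro i
      exact contDiff_pi.1 hs i
  · intro A hA
    have hr : ContinuousWithinAt (fun A => rpar p k κ A) (Set.Icc (3/4) (9/2)) A :=
      hk₂ k hkk₂ hk0 κ hκ hκC A hA
    have hr2 : ContinuousWithinAt (fun A => ((Wk W k, rpar p k κ A) : (Fin 7 → V) × (Fin 5 → ℝ)))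
        (Set.Icc (3/4) (9/2)) A := continuousWithinAt_const.prodMk hr
    have hr3 : Filter.Tendsto (fun A' => C₂ * ‖((Wk W k, rpar p k κ A') : (Fin 7 → V) × (Fin 5 → ℝ)) -
        (Wk W k, rpar p k κ A)‖) (𝓝[Set.Icc (3/4) (9/2)] A) (𝓝 0) := by
      have := (tendsto_iff_norm_sub_tendsto_zero.1 hr2).const_mul C₂
      rwa [mul_zero] at this
    show Filter.Tendsto _ _ _
    rw [tendsto_iff_norm_sub_tendsto_zero]
    refine squeeze_zero' (Filter.Eventually.of_forall fun _ => norm_nonneg _) ?_ hr3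
    filter_upwards [self_mem_nhdsWithin] with A' hA'
    obtain ⟨a1, a2, -⟩ := hU A hA
    obtain ⟨a1', a2', -⟩ := hU A' hA'
    exact (hdep (Phi L) η hη0 hη1 _ _ (hnorm A' hA') (hnorm A hA) (fun V' => hΦ _ A' V')
      (fun V' => hΦ _ A V') (hctr' _ A' (hnorm A' hA')) (hctr' _ A (hnorm A hA)) (U A') (U A)
      (a1'.trans (by norm_num)) (a1.trans (by norm_num)) a2' a2).2

end P205T.K
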