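import Vale.Agent.P205K.Base
import Vale.Agent.P205T.WDefs

/-!
# V-level definitions for the Klein bottle fixed point (helper2)

`V = ℓ¹(ℤ²)`, `conv` = multiplication.  Point `q = (U, W, r)`:
* unknowns `U 0 = u` (`α = η (M0 u + Z0 u)`), `U 1 = y0`, `U 2 = y1`, `U 3 = y2` (`∂̄Z = Y = e y0`, `∂ₓY = y1`, `∂_yY = y2`);
* `W 0..4` = `w_x, w_y, w_xx, w_xy, w_yy`, `W 5, W 6 = exp(± 2iKx)`;
* scalars `r 0 = η` (`e = η² = 1/k`), `r 1 = b₁ = K/k = 2π/p`, `r 2 = b₂ = κ k`, `r 3 = b₃ = δ² k²`, `r 4 = A`.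
A jet is `a : Fin 3 → V`, `a 0 = f`, `a 1 = e ∂ₓ f`, `a 2 = e ∂_y f`.
-/

open Complex ComplexConjugate

namespace P205T.K

abbrev Q := (Fin 4 → V) × (Fin 7 → V) × (Fin 5 → ℝ)
abbrev Jt := Fin 3 → V

/-- symbol of `∂̄⁻¹` and its derivatives -/
noncomputable def N0 (L : Lat) (n : ℤ × ℤ) : ℂ :=
  if n = 0 then 0 else 2 / (Complex.I * ((kx L n : ℂ) + Complex.I * (ky L n : ℂ)))
noncomputable def N1 (L : Lat) (n : ℤ × ℤ) : ℂ := Complex.I * (kx L n : ℂ) * N0 L n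
noncomputable def N2 (L : Lat) (n : ℤ × ℤ) : ℂ := Complex.I * (ky L n : ℂ) * N0 L n
/-- `∂ ∂̄⁻¹` -/
noncomputable def Sm (L : Lat) (n : ℤ × ℤ) : ℂ := (N1 L n - Complex.I * N2 L n) / 2

/-- multiplication by `i` -/
noncomputable def im : V →L[ℝ] V := mult (fun _ => Complex.I)

/-- exponential in `V` -/
noncomputable def vexp (c : V) : V := (NormedSpace.exp (conv c) : V →L[ℝ] V) one

/-- real part `(c + J c)/2` -/
noncomputable def re (c : V) : V := (1 / 2 : ℝ) • (c + J c)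

/-- product of jets -/
noncomputable def jc (a b : Jt) : Jt :=
  ![conv (a 0) (b 0), conv (a 1) (b 0) + conv (a 0) (b 1), conv (a 2) (b 0) + conv (a 0) (b 2)]
noncomputable def jJ (a : Jt) : Jt := fun i => J (a i)
noncomputable def jone : Jt := ![one, 0, 0]

section
variable (L : Lat) (q : Q)

noncomputable def eta : ℝ := q.2.2 0
noncomputable def ee : ℝ := q.2.2 0 ^ 2
noncomputable def kap : ℝ := q.2.2 0 ^ 2 * q.2.2 2

noncomputable def al : V := eta q • (mult (M0 L) (q.1 0) + mult Z0 (q.1 0))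
noncomputable def al1 : V := eta q • mult (M1 L) (q.1 0)
noncomputable def al2 : V := eta q • mult (M2 L) (q.1 0)
noncomputable def al11 : V := eta q • mult (M11 L) (q.1 0)
noncomputable def al12 : V := eta q • mult (M12 L) (q.1 0)
noncomputable def al22 : V := eta q • mult (M22 L) (q.1 0)

/-- `s̃ = e q0`, first derivatives `e q1, e q2`, second derivatives `q11, q12, q22` -/
noncomputable def q0 : V := re (mult (N0 L) (q.1 1))
noncomputable def q1 : V := re (mult (N1 L) (q.1 1))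
noncomputable def q2 : V := re (mult (N2 L) (q.1 1))
noncomputable def q11 : V := re (mult (N1 L) (q.1 2))
noncomputable def q12 : V := re (mult (N1 L) (q.1 3))
noncomputable def q22 : V := re (mult (N2 L) (q.1 3))

/-- `exp(± 2iKs)`, `cos 2Ks`, `sin 2Ks`, `y = sin² Ks` -/
noncomputable def Ep : V := conv (q.2.1 5) (vexp ((2 * q.2.2 1) • im (q0 L q)))
noncomputable def Em : V := conv (q.2.1 6) (vexp ((-(2 * q.2.2 1)) • im (q0 L q)))
noncomputable def c2 : V := (1 / 2 : ℝ) • (Ep L q + Em L q)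
noncomputable def s2 : V := (-(1 / 2) : ℝ) • im (Ep L q - Em L q)
noncomputable def yy : V := (1 / 2 : ℝ) • (one - c2 L q)
noncomputable def yy2 : V := conv (yy L q) (yy L q)
noncomputable def yy3 : V := conv (yy2 L q) (yy L q)
noncomputable def yy4 : V := conv (yy3 L q) (yy L q)
noncomputable def vv : V := cA (kap q) (q.2.2 4) • yy L q + cB (kap q) (q.2.2 4) • yy2 L q
  + cC (kap q) (q.2.2 4) • yy3 L q + cD (kap q) (q.2.2 4) • yy4 L q
noncomputable def vv' : V := cA (kap q) (q.2.2 4) • one + (2 * cB (kap q) (q.2.2 4)) • yy L q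
  + (3 * cC (kap q) (q.2.2 4)) • yy2 L q + (4 * cD (kap q) (q.2.2 4)) • yy3 L q
noncomputable def vv'' : V := (2 * cB (kap q) (q.2.2 4)) • one + (6 * cC (kap q) (q.2.2 4)) • yy L q
  + (12 * cD (kap q) (q.2.2 4)) • yy2 L q
/-- `P`, `p1 = K P_X`, `k p2 = K² P_XX` -/
noncomputable def Pv : V := one - kap q • vv L q
noncomputable def p1 : V := (-(q.2.2 1 * q.2.2 2)) • conv (vv' L q) (s2 L q)
noncomputable def p2 : V :=
  (-(q.2.2 1 ^ 2 * q.2.2 2)) • (conv (vv'' L q) (conv (s2 L q) (s2 L q)) + (2 : ℝ) • conv (vv' L q) (c2 L q))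
/-- `s_x`, `s_y` -/
noncomputable def sx : V := one + ee q • q1 L q
noncomputable def sy : V := ee q • q2 L q

noncomputable def U1 : V := q.2.1 0 + al1 L q
noncomputable def U2 : V := q.2.1 1 + al2 L q
/-- `λ̂_i = P λ_i` -/
noncomputable def la1 : V := conv (Pv L q) (U1 L q) + (1 / 2 : ℝ) • conv (p1 L q) (sx L q)
noncomputable def la2 : V := conv (Pv L q) (U2 L q) + (1 / 2 : ℝ) • conv (p1 L q) (sy L q)
/-- `e ∂ₓ λ̂_j`, `e ∂_y λ̂_j` -/
noncomputable def lx1 : V := ee q • (conv (conv (p1 L q) (sx L q)) (U1 L q)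
  + conv (Pv L q) (q.2.1 2 + al11 L q) + (1 / 2 : ℝ) • conv (p1 L q) (q11 L q))
  + (1 / 2 : ℝ) • conv (conv (p2 L q) (sx L q)) (sx L q)
noncomputable def lx2 : V := ee q • (conv (conv (p1 L q) (sx L q)) (U2 L q)
  + conv (Pv L q) (q.2.1 3 + al12 L q) + (1 / 2 : ℝ) • conv (p1 L q) (q12 L q))
  + (1 / 2 : ℝ) • conv (conv (p2 L q) (sx L q)) (sy L q)
noncomputable def ly1 : V := ee q • (conv (conv (p1 L q) (sy L q)) (U1 L q)
  + conv (Pv L q) (q.2.1 3 + al12 L q) + (1 / 2 : ℝ) • conv (p1 L q) (q12 L q))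
  + (1 / 2 : ℝ) • conv (conv (p2 L q) (sy L q)) (sx L q)
noncomputable def ly2 : V := ee q • (conv (conv (p1 L q) (sy L q)) (U2 L q)
  + conv (Pv L q) (q.2.1 4 + al22 L q) + (1 / 2 : ℝ) • conv (p1 L q) (q22 L q))
  + (1 / 2 : ℝ) • conv (conv (p2 L q) (sy L q)) (sy L q)

/-- `g = b₃ exp 2α` (`δ² exp 2α = e² g`) -/
noncomputable def gg : V := q.2.2 3 • vexp ((2 : ℝ) • al L q)
noncomputable def LL : V := conv (la1 L q) (la1 L q) + conv (la2 L q) (la2 L q)
noncomputable def om : V := Pv L q - ee q ^ 2 • conv (gg L q) (LL L q)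
noncomputable def m11 : V := om L q + ee q ^ 2 • conv (gg L q) (conv (la1 L q) (la1 L q))
noncomputable def m12 : V := ee q ^ 2 • conv (gg L q) (conv (la1 L q) (la2 L q))
noncomputable def m22 : V := om L q + ee q ^ 2 • conv (gg L q) (conv (la2 L q) (la2 L q))

/-- `h11 = e P² Λ₁₁`, `H12 = P² Λ₁₂`, `H22 = P² Λ₂₂` -/
noncomputable def h11 : V :=
  ee q • (conv (conv (Pv L q) (Pv L q)) (q.2.1 2 + al11 L q)
    + (1 / 2 : ℝ) • (conv (conv (Pv L q) (p1 L q)) (q11 L q) - conv (conv (p1 L q) (p1 L q)) (conv (sx L q) (sx L q)))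
    - conv (Pv L q) (conv (q.2.1 0) (la1 L q) - conv (q.2.1 1) (la2 L q)) + conv (la1 L q) (la1 L q))
  + (1 / 2 : ℝ) • conv (conv (Pv L q) (p2 L q)) (conv (sx L q) (sx L q))
noncomputable def H12 : V :=
  conv (conv (Pv L q) (Pv L q)) (q.2.1 3 + al12 L q)
    + (1 / 2 : ℝ) • (conv (conv (Pv L q) (p2 L q)) (conv (sx L q) (q2 L q))
      - ee q • conv (conv (p1 L q) (p1 L q)) (conv (sx L q) (q2 L q)) + conv (conv (Pv L q) (p1 L q)) (q12 L q))
    - conv (Pv L q) (conv (q.2.1 0) (la2 L q) + conv (q.2.1 1) (la1 L q)) + conv (la1 L q) (la2 L q)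
noncomputable def H22 : V :=
  conv (conv (Pv L q) (Pv L q)) (q.2.1 4 + al22 L q)
    + (1 / 2 : ℝ) • (ee q • conv (conv (Pv L q) (p2 L q)) (conv (q2 L q) (q2 L q))
      - ee q ^ 2 • conv (conv (p1 L q) (p1 L q)) (conv (q2 L q) (q2 L q)) + conv (conv (Pv L q) (p1 L q)) (q22 L q))
    - conv (Pv L q) (conv (q.2.1 1) (la2 L q) - conv (q.2.1 0) (la1 L q)) + conv (la2 L q) (la2 L q)

noncomputable def U11 : V := q.2.1 2 + al11 L q - conv (q.2.1 0) (U1 L q) + conv (q.2.1 1) (U2 L q)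
noncomputable def U12 : V := q.2.1 3 + al12 L q - conv (q.2.1 0) (U2 L q) - conv (q.2.1 1) (U1 L q)
noncomputable def U22 : V := q.2.1 4 + al22 L q + conv (q.2.1 0) (U1 L q) - conv (q.2.1 1) (U2 L q)

/-- `P³ E1` -/
noncomputable def EE : V :=
  conv (conv (Pv L q) (om L q)) (conv (m11 L q) (U11 L q) + (2 : ℝ) • conv (m12 L q) (U12 L q)
      + conv (m22 L q) (U22 L q))
    - conv (conv (conv (Pv L q) (Pv L q)) (om L q)) (q.2.1 2 + q.2.1 4)
    + conv (conv (gg L q) (ee q • conv (m11 L q) (h11 L q) + (2 * ee q ^ 2) • conv (m12 L q) (H12 L q)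
      + ee q ^ 2 • conv (m22 L q) (H22 L q))) (conv (la1 L q) (U1 L q) + conv (la2 L q) (U2 L q))
    - conv (gg L q) (ee q • conv (h11 L q) (H22 L q) - ee q ^ 2 • conv (H12 L q) (H12 L q))

/-- `Z_z = 1 + e r0` -/
noncomputable def r0 : V := mult (Sm L) (q.1 1) - re (mult Z0 (q.1 1))
noncomputable def Zz : V := one + ee q • r0 L q

/-- normalization: `P (e^{2α}(|Z_z|² + |Z_z̄|²) - 1) + ½ δ² e^{2α} |λ̂|²` -/
noncomputable def GG : V :=
  conv (Pv L q) (conv (vexp ((2 : ℝ) • al L q))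
    (conv (Zz L q) (J (Zz L q)) + ee q ^ 2 • conv (q.1 1) (J (q.1 1)))) - Pv L q
    + (ee q ^ 2 / 2) • conv (gg L q) (LL L q)

/-- new `u` -/
noncomputable def newu : V :=
  q.1 0 - (eta q)⁻¹ • (EE L q - mult Z0 (EE L q) + (1 / 2 : ℝ) • mult Z0 (GG L q))

/-! jets -/
noncomputable def jy : Jt := ![q.1 1, q.1 2, q.1 3]
noncomputable def jP : Jt := ![Pv L q, ee q • conv (p1 L q) (sx L q), ee q • conv (p1 L q) (sy L q)]
noncomputable def jg : Jt :=
  ![gg L q, (2 * ee q) • conv (al1 L q) (gg L q), (2 * ee q) • conv (al2 L q) (gg L q)]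
noncomputable def jl1 : Jt := ![la1 L q, lx1 L q, ly1 L q]
noncomputable def jl2 : Jt := ![la2 L q, lx2 L q, ly2 L q]
/-- `P λ_z̄ = (λ̂₁ + i λ̂₂)/2` -/
noncomputable def jlz : Jt := fun i => (1 / 2 : ℝ) • (jl1 L q i + im (jl2 L q i))
noncomputable def jZ : Jt := ![Zz L q, ee q • mult (Sm L) (q.1 2), ee q • mult (Sm L) (q.1 3)]
/-- `conj(Z_z) (P - ½ δ² e^{2α} |λ̂|²)` -/
noncomputable def jT : Jt :=
  jc (jJ (jZ L q)) (jP L q - (ee q ^ 2 / 2) • jc (jg L q) (jc (jl1 L q) (jl1 L q) + jc (jl2 L q) (jl2 L q)))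
/-- new jet of `y0` -/
noncomputable def jR : Jt :=
  - (ee q • jc (jc (jg L q) (jc (jlz L q) (jlz L q)))
      (jc (jZ L q) (jJ (jZ L q)) + ee q ^ 2 • jc (jy q) (jJ (jy q))))
    - jc (jy q) (jT L q - jone)

/-- the fixed point map -/
noncomputable def Phi : Fin 4 → V := ![newu L q, jR L q 0, jR L q 1, jR L q 2]

end

end P205T.K
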